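import Crest.Agent.R309.PTa

/-!
# Row 309: the estimator runs in polynomial time

`init`: the state is `X0` or some `initProp` of a block of length `≤ (M+1) K` (bound `size (initProp ω)` through
`PB.size` and monotonicity of the polynomial, or directly).  `sample`: `size_run_fst`.  `learn`: every stage
appends a table whose entries are products of the previous entries with counts `≤ n^116`, so by induction all entries
of all tables have absolute value `≤ (|Zbar| + 1) * (n^116 + 1) ^ i` after `i` stages (the default `(1,1)` included).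
-/

set_option autoImplicit false

namespace Crest.Agent.R309.Pre

open Crest.Agent.Lib.PolyTime

theorem ptb_size_foldT {σ : Type} [Enc σ] {step : ℕ → σ → List Bool → σ} {ℓ B : ℕ}
    (h : ∀ i y ω, ω.length ≤ ℓ → size (step i y ω) ≤ max (size y) B) (x : σ) (τ : List Bool)
    (T : ℕ) : size (foldT step ℓ T x τ) ≤ max (size x) B := by
  induction T with
  | zero => exact le_max_left _ _
  | succ T ih =>
    rw [foldT_succ]
    exact (h _ _ _ (List.length_take_le _ _)).trans (max_le ih (le_max_right _ _))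

section

variable {α : Type} [Enc α] {p : α → Pre} {s w b i : α → ℕ} {x : α → ℤ} {X : α → List ℤ}
  {τ : α → List Bool} {h : α → Hist}

@[fun_prop] theorem ptb_initProp (hp : PT p) (hτ : PT τ) : PT fun a => (p a).initProp (τ a) := by
  unfold initProp; fun_prop

@[fun_prop] theorem ptb_initStep (hp : PT p) (hX : PT X) (hτ : PT τ) :
    PT fun a => (p a).initStep (X a) (τ a) := by
  unfold initStep; fun_prop

@[fun_prop] theorem ptb_init (hp : PT p) (hτ : PT τ) : PT fun a => (p a).init (τ a) := by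
  obtain ⟨q, hq⟩ := PB.size (ptb_initProp (p := fun z : Pre × List Bool => z.1)
    (τ := fun z => z.2) (by fun_prop) (by fun_prop))
  refine pt_foldT (step := fun a _ => (p a).initStep) (by fun_prop) (by fun_prop) (by fun_prop)
    (by fun_prop) hτ
    (B := fun a => size (p a).X0 + q.eval (2 * size (p a) + 1 + 3 * (((p a).I.M + 1) * (p a).K)))
    (PB.add (PB.size (by fun_prop)) (PBy.eval q (PB.of_PT (by fun_prop)))) fun a k _ => ?_
  refine (ptb_size_foldT (B := q.eval (2 * size (p a) + 1 + 3 * (((p a).I.M + 1) * (p a).K)))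
    (fun _ y ω hω => ?_) _ _ _).trans (max_le (Nat.le_add_right _ _) (Nat.le_add_left _ _))
  unfold initStep
  split_ifs
  · refine le_max_of_le_right ((hq (p a, ω)).trans (poly_eval_mono q ?_))
    rw [size_prod, size_list_bool]
    omega
  · exact le_max_left _ _

@[fun_prop] theorem ptb_rowOf (hh : PT h) (hs : PT s) (hw : PT w) :
    PT fun a => rowOf (h a) (s a) (w a) := by
  unfold rowOf; fun_prop

@[fun_prop] theorem ptb_cell (hp : PT p) (hs : PT s) : PT fun a => (p a).cell (s a) := by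
  unfold cell; fun_prop

@[fun_prop] theorem ptb_transit (hp : PT p) (hh : PT h) (hi : PT i) (hX : PT X) (hτ : PT τ) :
    PT fun a => (p a).transit (h a) (i a) (X a) (τ a) := by
  unfold transit; fun_prop

@[fun_prop] theorem ptb_sample (hp : PT p) (hh : PT h) (hs : PT s) (hτ : PT τ) :
    PT fun a => (p a).sample (h a) (s a) (τ a) := by
  refine pt_foldT (step := fun a => (p a).transit (h a)) (by fun_prop) (by fun_prop) hs
    (by fun_prop) (by fun_prop)
    (B := fun a => size ((p a).init ((τ a).take (p a).l1)) + (p a).boxSize)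
    (PB.add (PB.size (by fun_prop)) (pb_boxSize hp)) fun a k _ => ?_
  exact (ptb_size_foldT (B := (p a).boxSize) (fun _ y ω _ => size_run_fst _ _ _ _ _ _ _)
    _ _ _).trans (max_le (Nat.le_add_right _ _) (Nat.le_add_left _ _))

@[fun_prop] theorem ptb_probeState (hp : PT p) (hh : PT h) (hs : PT s) (hw : PT w) (hτ : PT τ) :
    PT fun a => (p a).probeState (h a) (s a) (w a) (τ a) := by
  unfold probeState; fun_prop

@[fun_prop] theorem ptb_coin (hp : PT p) (hs : PT s) (hx : PT x) (hτ : PT τ) :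
    PT fun a => (p a).coin (s a) (x a) (τ a) := by
  unfold coin; fun_prop

@[fun_prop] theorem ptb_probeA (hp : PT p) (hh : PT h) (hs : PT s) (hw : PT w) (hb : PT b)
    (hτ : PT τ) : PT fun a => (p a).probeA (h a) (s a) (w a) (b a) (τ a) := by
  unfold probeA; fun_prop

@[fun_prop] theorem ptb_probeB (hp : PT p) (hh : PT h) (hs : PT s) (hw : PT w) (hb : PT b)
    (hτ : PT τ) : PT fun a => (p a).probeB (h a) (s a) (w a) (b a) (τ a) := by
  unfold probeB; fun_prop

@[fun_prop] theorem ptb_l2 (hp : PT p) : PT fun a => (p a).l2 := by unfold l2; fun_prop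
@[fun_prop] theorem ptb_l3 (hp : PT p) : PT fun a => (p a).l3 := by unfold l3; fun_prop
@[fun_prop] theorem ptb_l4 (hp : PT p) : PT fun a => (p a).l4 := by unfold l4; fun_prop
@[fun_prop] theorem ptb_Zbar (hp : PT p) : PT fun a => (p a).Zbar := by unfold Zbar; fun_prop
@[fun_prop] theorem ptb_hist0 (hp : PT p) : PT fun a => (p a).hist0 := by unfold hist0; fun_prop
@[fun_prop] theorem ptb_S (hp : PT p) : PT fun a => (p a).S := by unfold S; fun_prop

@[fun_prop] theorem ptb_stage (hp : PT p) (hs : PT s) (hh : PT h) (hτ : PT τ) :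
    PT fun a => (p a).stage (s a) (h a) (τ a) := by
  unfold stage
  refine PT.append hh (PT.cons (pt_tab (by fun_prop) (pt_tab (by fun_prop) ?_)) (PT.const _))
  exact PT.pair
    (PT.int_mul (by fun_prop)
      (PT.natCast (pt_hits (by fun_prop) (by fun_prop) (by fun_prop) (by fun_prop))))
    (PT.int_mul (by fun_prop)
      (PT.natCast (pt_hits (by fun_prop) (by fun_prop) (by fun_prop) (by fun_prop))))

end

/-- All tables have at most `k` rows of length at most `k`, with entries bounded by `c`. -/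
def HistBd (h : Hist) (k : ℕ) (c : ℤ) : Prop :=
  ∀ T ∈ h, T.length ≤ k ∧ ∀ r ∈ T, r.length ≤ k ∧ ∀ z ∈ r, |z.1| ≤ c ∧ |z.2| ≤ c

theorem ptb_getD_cases {β : Type} (l : List β) (i : ℕ) (d : β) :
    l.getD i d = d ∨ l.getD i d ∈ l := by
  by_cases h : i < l.length
  · right; rw [List.getD_eq_getElem _ _ h]; exact List.getElem_mem h
  · left; exact List.getD_eq_default _ _ (not_lt.1 h)

theorem HistBd.entry {h : Hist} {k : ℕ} {c : ℤ} (hb : HistBd h k c) (hc : 1 ≤ c) (s w a : ℕ) :
    |((rowOf h s w).getD a (1, 1)).1| ≤ c ∧ |((rowOf h s w).getD a (1, 1)).2| ≤ c := by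
  rcases ptb_getD_cases (rowOf h s w) a (1, 1) with h1 | h1
  · rw [h1]; simpa using hc
  · unfold rowOf at h1 ⊢
    rcases ptb_getD_cases (h.getD s []) w [] with h2 | h2
    · rw [h2] at h1; simp at h1
    · rcases ptb_getD_cases h s [] with h3 | h3
      · rw [h3] at h2; simp at h2
      · exact (((hb _ h3).2 _ h2).2 _ h1)

theorem HistBd.size_le {h : Hist} {k : ℕ} {c : ℤ} (hb : HistBd h k c) :
    size h ≤ h.length * (2 * (k * (2 * (k * (2 * (3 * size c + 1) + 1)) + 1)) + 1) := by
  have hz : ∀ z : ℤ, |z| ≤ c → size z ≤ size c := fun z hz =>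
    size_int_le_of_natAbs_le (by
      have := le_abs_self c
      zify
      exact hz.trans this)
  refine size_list_le fun T hT => ?_
  refine (size_list_le (m := k * (2 * (3 * size c + 1) + 1)) fun r hr => ?_).trans
    (Nat.mul_le_mul_right _ (hb T hT).1)
  refine (size_list_le (m := 3 * size c + 1) fun z hz' => ?_).trans
    (Nat.mul_le_mul_right _ ((hb T hT).2 r hr).1)
  have h1 := hz _ (((hb T hT).2 r hr).2 z hz').1
  have h2 := hz _ (((hb T hT).2 r hr).2 z hz').2
  rw [size_prod']
  omega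

theorem HistBd.mono {h : Hist} {k : ℕ} {c c' : ℤ} (hb : HistBd h k c) (hc : c ≤ c') :
    HistBd h k c' := fun T hT =>
  ⟨(hb T hT).1, fun r hr => ⟨((hb T hT).2 r hr).1, fun z hz =>
    ⟨(((hb T hT).2 r hr).2 z hz).1.trans hc, (((hb T hT).2 r hr).2 z hz).2.trans hc⟩⟩⟩

theorem ptb_mem_tab {β : Type} {n : ℕ} {g : ℕ → β} {z : β} (h : z ∈ tab n g) : ∃ i, g i = z := by
  obtain ⟨i, -, hi⟩ := List.mem_map.1 h
  exact ⟨i, hi⟩

theorem ptb_hits_le (F : List Bool → Bool) (ℓ k : ℕ) (τ : List Bool) : hits F ℓ k τ ≤ k :=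
  (List.length_filter_le _ _).trans List.length_range.le

theorem ptb_learn_bd (p : Pre) (τ : List Bool) (i : ℕ) :
    (foldT p.stage p.l3 i p.hist0 τ).length = i + 1 ∧
      HistBd (foldT p.stage p.l3 i p.hist0 τ) (p.I.nv + 1)
        ((|p.Zbar| + 1) * (p.nZ ^ 116 + 1) ^ i) := by
  induction i with
  | zero =>
    refine ⟨rfl, fun T hT => ?_⟩
    rw [foldT_zero, hist0, List.mem_singleton] at hT
    subst hT
    refine ⟨(length_tab _ _).le, fun r hr => ?_⟩
    obtain ⟨_, rfl⟩ := ptb_mem_tab hr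
    refine ⟨(length_tab _ _).le, fun z hz => ?_⟩
    obtain ⟨_, rfl⟩ := ptb_mem_tab hz
    have := abs_nonneg p.Zbar
    simp only [pow_zero, mul_one, abs_one]
    constructor <;> linarith
  | succ i ih =>
    obtain ⟨h1, h2⟩ := ih
    rw [foldT_succ]
    set h := foldT p.stage p.l3 i p.hist0 τ
    set c := (|p.Zbar| + 1) * (p.nZ ^ 116 + 1) ^ i with hc
    have hn : 0 ≤ p.nZ ^ 116 := by unfold nZ; positivity
    have hc1 : 1 ≤ c :=
      one_le_mul_of_one_le_of_one_le (by linarith [abs_nonneg p.Zbar])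
        (one_le_pow₀ (by linarith))
    have e : (|p.Zbar| + 1) * (p.nZ ^ 116 + 1) ^ (i + 1) = c * (p.nZ ^ 116 + 1) := by
      rw [hc]; ring
    rw [e]
    have key : ∀ (z : ℤ) (F : List Bool → Bool) (ω : List Bool), |z| ≤ c →
        |z * (hits F p.l2 (p.n ^ 116) ω : ℤ)| ≤ c * (p.nZ ^ 116 + 1) := by
      intro z F ω hz
      have h3 : (hits F p.l2 (p.n ^ 116) ω : ℤ) ≤ p.nZ ^ 116 := by
        unfold nZ; exact_mod_cast ptb_hits_le _ _ _ _
      rw [abs_mul, Nat.abs_cast]
      exact mul_le_mul hz (by linarith) (Nat.cast_nonneg _) (by linarith)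
    refine ⟨by simp [stage, h1], fun T hT => ?_⟩
    rcases List.mem_append.1 hT with hT | hT
    · exact h2.mono (le_mul_of_one_le_right (by linarith) (by linarith)) T hT
    · rw [List.mem_singleton] at hT
      subst hT
      refine ⟨(length_tab _ _).le, fun r hr => ?_⟩
      obtain ⟨w, rfl⟩ := ptb_mem_tab hr
      refine ⟨(length_tab _ _).le, fun z hz => ?_⟩
      obtain ⟨a, rfl⟩ := ptb_mem_tab hz
      exact ⟨key _ _ _ (h2.entry hc1 i w a).1, key _ _ _ (h2.entry hc1 i w a).2⟩

@[fun_prop] theorem ptb_learn {α : Type} [Enc α] {p : α → Pre} {τ : α → List Bool} (hp : PT p)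
    (hτ : PT τ) : PT fun a => (p a).learn (τ a) := by
  refine pt_foldT (step := fun a => (p a).stage) (by fun_prop) (by fun_prop) (by fun_prop)
    (by fun_prop) hτ
    (B := fun a => ((p a).S + 1) * (2 * (((p a).I.nv + 1) * (2 * (((p a).I.nv + 1) *
      (2 * (3 * size ((|(p a).Zbar| + 1) * ((p a).nZ ^ 116 + 1) ^ (p a).S) + 1) + 1)) + 1)) + 1))
    (PB.of_PT (by fun_prop)) fun a k hk => ?_
  obtain ⟨h1, h2⟩ := ptb_learn_bd (p a) (τ a) k
  have hn : 0 ≤ (p a).nZ ^ 116 := by unfold nZ; positivity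
  refine (h2.mono (c' := (|(p a).Zbar| + 1) * ((p a).nZ ^ 116 + 1) ^ (p a).S)
    (mul_le_mul_of_nonneg_left (pow_le_pow_right₀ (by linarith) hk) (by positivity))).size_le.trans ?_
  rw [h1]
  exact Nat.mul_le_mul_right _ (Nat.succ_le_succ hk)

@[fun_prop] theorem ptb_raw {α : Type} [Enc α] {p : α → Pre} {τ : α → List Bool} (hp : PT p)
    (hτ : PT τ) : PT fun a => (p a).raw (τ a) := by
  unfold raw; fun_prop

theorem pt_med {α : Type} [Enc α] {p : α → Pre} {τ : α → List Bool} (hp : PT p) (hτ : PT τ) :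
    PT fun a => (p a).med (τ a) := by
  unfold med; fun_prop

end Crest.Agent.R309.Pre
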