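import Crest.Agent.R309.WtA

/-!
# Row 309: the implemented step is close to the ideal lazy Metropolis step

`Ex (4K)` splits into four independent blocks (`Ex_append`, `chunk`); in block `0` the first two bits are fair
and independent, blocks `1`, `2` give the uniform seed (`Ex_num`), block `3` the acceptance coin
(`abs_Ex_coin_sub_le`).  `propT (code x) = code (prop x σ)`, `inOm` decides membership in `Om`, and
`Wn / Wd = (prodN / prodD) * om`, so the acceptance ratio has relative error `≤ 8 n 2^-K` (`approx_prod`) and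
`|min 1 r' - min 1 r| ≤` that relative error.
-/

set_option autoImplicit false

namespace Crest.Agent.R309.Pre

open Finset

variable {p : Pre}

lemma Ex_four {K : ℕ} (hK : 2 ≤ K) (Φ : Bool → Bool → ℤ → ℤ → List Bool → ℝ) :
    Ex (4 * K) (fun τ => Φ (τ.getD 0 false) (τ.getD 1 false) (num (chunk K 1 τ))
        (num (chunk K 2 τ)) (chunk K 3 τ)) =
      (∑ σ : Mdl.Seed K, (Ex K (Φ false σ.1 (σ.2.1 : ℕ) (σ.2.2 : ℕ)) +
        Ex K (Φ true σ.1 (σ.2.1 : ℕ) (σ.2.2 : ℕ)))) / (2 * Fintype.card (Mdl.Seed K)) := by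
  have h1 : Ex (4 * K) (fun τ => Φ (τ.getD 0 false) (τ.getD 1 false) (num (chunk K 1 τ))
      (num (chunk K 2 τ)) (chunk K 3 τ)) = Ex K fun a => Ex K fun b => Ex K fun c =>
        Ex K (Φ (a.getD 0 false) (a.getD 1 false) (num b) (num c)) := by
    rw [show 4 * K = K + (K + (K + K)) by ring, Ex_append]
    refine Ex_congr fun a ha => ?_
    rw [Ex_append]
    refine Ex_congr fun b hb => ?_
    rw [Ex_append]
    refine Ex_congr fun c hc => Ex_congr fun d hd => ?_
    rw [List.getD_append _ _ _ _ (by omega), List.getD_append _ _ _ _ (by omega)]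
    simp only [chunk, one_mul, show 3 * K = K + (K + K) by ring, two_mul, ← List.drop_drop,
      List.drop_left' ha, List.drop_left' hb, List.drop_left' hc, List.take_left' hb,
      List.take_left' hc, List.take_of_length_le hd.le]
  have h2 : ∀ F : Bool → Bool → ℝ, Ex K (fun a => F (a.getD 0 false) (a.getD 1 false)) =
      (∑ b, (F false b + F true b)) / 4 := fun F => by
    obtain ⟨k, rfl⟩ := Nat.exists_eq_add_of_le' hK
    simp only [Ex_succ_cons, List.getD_cons_zero, List.getD_cons_succ, Ex_const, Fintype.sum_bool]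
    ring
  rw [h1, h2 fun x y => Ex K fun b => Ex K fun c => Ex K (Φ x y (num b) (num c))]
  simp only [fun x y b => Ex_num K fun c => Ex K (Φ x y b c),
    fun x y => Ex_num K fun b => (∑ j ∈ range (2 ^ K), Ex K (Φ x y b j)) / 2 ^ K]
  simp only [sum_range, Fintype.sum_prod_type, sum_add_distrib, ← sum_div, Fintype.card_prod,
    Fintype.card_bool, Fintype.card_fin]
  push_cast
  ring

lemma min_close {u v u' v' δ : ℝ} (hu : 0 < u) (hv : 0 < v) (h1 : |u' - u| ≤ δ * u)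
    (h2 : |v' - v| ≤ δ * v) (hδ : δ ≤ 1 / 2) : |min 1 (v' / u') - min 1 (v / u)| ≤ 4 * δ := by
  obtain ⟨a1, a2⟩ := abs_le.1 h1
  obtain ⟨b1, b2⟩ := abs_le.1 h2
  have h0 : 0 ≤ δ := by nlinarith
  have hu' : 0 < u' := by nlinarith
  have hr := div_pos hv hu
  have k1 : v' / u' ≤ v / u * (1 + 4 * δ) := by
    rw [div_mul_eq_mul_div, div_le_div_iff₀ hu' hu]
    nlinarith [mul_le_mul_of_nonneg_right b2 hu.le, mul_nonneg (mul_pos hu hv).le
      (mul_nonneg h0 (sub_nonneg.2 hδ)), mul_le_mul_of_nonneg_left a1 (by positivity : 0 ≤ v * (1 + 4 * δ))]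
  have k2 : v / u * (1 - 2 * δ) ≤ v' / u' := by
    rw [div_mul_eq_mul_div, div_le_div_iff₀ hu hu']
    nlinarith [mul_le_mul_of_nonneg_right b1 hu.le, mul_nonneg (mul_pos hu hv).le (sq_nonneg δ),
      mul_le_mul_of_nonneg_left a2 (mul_nonneg hv.le (by linarith : 0 ≤ 1 - 2 * δ))]
  generalize v / u = r at *
  generalize v' / u' = r' at *
  rw [abs_le]
  rcases le_total 1 r with h | h <;> rcases le_total 1 r' with h' | h' <;>
    simp only [min_eq_left, min_eq_right, h, h'] <;> constructor <;> nlinarith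

lemma OK.mvN_eq (h : p.OK) {i : ℕ} (hi : i < 3 * p.I.M + p.I.nv + 1) (J : ℕ) (a : p.I.V) :
    p.mvN i J a = (List.ofFn (p.mdl.mv p.sF i J a).1, ((p.mdl.mv p.sF i J a).2.1 : ℕ),
      ((p.mdl.mv p.sF i J a).2.2 : ℕ)) := by
  unfold mvN Mdl.mv
  split_ifs with h1 h2 h3
  · simp only [tab_eq_ofFn, mdl, Inst.u, Inst.v, Inst.vtx_val (h.wf.uN_le i h1),
      Inst.vtx_val (h.wf.vN_le i h1)]
    congr 2
    ext t
    simp [ec, Pi.single_apply, Fin.ext_iff]
  · simp only [tab_eq_ofFn]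
    congr 2
    ext t
    simp [cyc_eq p h, h.sF_cast]
  · simp only [tab_eq_ofFn]
    congr 2
    ext t
    simp [cyc_eq p h, h.sF_cast]
  · have h4 : ((Fin.ofNat (p.I.nv + 1) (i - 3 * p.I.M) : p.I.V) : ℕ) = i - 3 * p.I.M :=
      Inst.vtx_val (by omega)
    have h5 := h.krus.root_le (Fin.ofNat (p.I.nv + 1) (i - 3 * p.I.M))
    simp only [tab_eq_ofFn, mdl, h4, rootN] at h5 ⊢
    rw [Inst.vtx_val h5]

theorem OK.inOm_code (h : p.OK) (w : p.I.V) (x : (Fin p.I.M → ℤ) × p.I.V) :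
    p.inOm w (p.code x) = true ↔ x ∈ p.mdl.Om w := by
  simp only [inOm, code, Mdl.Om, Bool.and_eq_true, List.all_eq_true, List.mem_range,
    decide_eq_true_eq, mem_filter, mem_product, mem_univ, and_true, mem_box, funext_iff]
  refine and_congr ⟨fun H e => getD_ofFn x.1 0 e ▸ H e e.2,
    fun H e he => (getD_ofFn x.1 0 ⟨e, he⟩).symm ▸ H ⟨e, he⟩⟩ ?_
  refine (Fin.forall_iff (p := fun b => p.I.delN (List.ofFn x.1) b = p.I.tN b +
    (if (b : ℕ) = x.2 then 1 else 0) - if (b : ℕ) = w then 1 else 0)).symm.trans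
    (forall_congr' fun b => ?_)
  rw [h.wf.delN_eq, Inst.vec_ofFn]
  simp [mdl, ev, Pi.single_apply, Fin.ext_iff, Inst.t]

theorem OK.propN_code (h : p.OK) (x : (Fin p.I.M → ℤ) × p.I.V) (σ : Mdl.Seed p.K) :
    p.propN (p.code x) σ.1
        (p.mvN ((((σ.2.1 : ℕ) : ℤ) % ((3 * p.I.M + p.I.nv + 1 : ℕ) : ℤ)).toNat) ((σ.2.2 : ℕ) : ℤ) x.2) =
      p.code (p.mdl.prop p.sF p.K x σ) := by
  rw [← Int.natCast_mod, Int.toNat_natCast, h.mvN_eq (Nat.mod_lt _ (Nat.succ_pos _))]
  simp only [propN, Mdl.prop, code, tab_eq_ofFn, getD_ofFn, Fin.val_inj]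
  split_ifs <;> rfl

theorem OK.step_close (h : p.OK) (s : ℕ) (w : p.I.V) (row : List (ℤ × ℤ))
    (hrow : ∀ a : p.I.V, 0 < (row.getD a (1, 1)).1 ∧ 0 < (row.getD a (1, 1)).2) {li : ℤ}
    (hli : 0 < li) (G : List ℤ × ℕ → ℝ) (hG : ∀ y, |G y| ≤ 1) (x : (Fin p.I.M → ℤ) × p.I.V)
    (hx : x ∈ p.mdl.Om w) :
    |opS (p.step s w row li) (4 * p.K) G (p.code x) -
        Pop (p.mdl.Om w) (Mdl.W (p.f s) (p.om w row li)) (p.mdl.prop p.sF p.K)
          (fun y => G (p.code y)) x| ≤ 10 * p.n * (1 / 2) ^ p.K := by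
  have hn : (64 : ℝ) ≤ p.n := by exact_mod_cast h.n_ge
  have hK : p.n + 2 ≤ p.K := by have := h.n_ge; unfold K; nlinarith [Nat.pow_le_pow_left this 2]
  have hδ : 2 * p.n * (1 / 2 : ℝ) ^ p.K ≤ 1 / 2 := by
    have h1 : (p.n : ℝ) ≤ 2 ^ p.n := by exact_mod_cast Nat.lt_two_pow_self.le
    have h2 : (2 : ℝ) ^ (p.n + 2) ≤ 2 ^ p.K := pow_le_pow_right₀ one_le_two hK
    rw [one_div, inv_pow, ← div_eq_mul_inv, div_le_iff₀ (by positivity)]
    rw [pow_add] at h2
    linarith
  have hW : ∀ y ∈ p.mdl.Om w, 0 < p.Wn s row (p.code y) ∧ 0 < p.Wd s w row li (p.code y) ∧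
      0 < Mdl.W (p.f s) (p.om w row li) y ∧
      |(p.Wn s row (p.code y) : ℝ) / p.Wd s w row li (p.code y) - Mdl.W (p.f s) (p.om w row li) y| ≤
        2 * p.n * (1 / 2) ^ p.K * Mdl.W (p.f s) (p.om w row li) y := fun y hy => by
    obtain ⟨a1, a2, a3⟩ := h.approx_prod s (mem_product.1 (mem_filter.1 hy).1).1
    obtain ⟨b1, b2⟩ := hrow y.2
    have c1 : 0 < (if (y.2 : ℕ) = w then 1 else li) := by split_ifs <;> positivity
    have c2 : 0 < p.om w row li y.2 := by unfold om; split_ifs <;> positivity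
    have c3 : (0 : ℝ) < p.prodN s (List.ofFn y.1) / p.prodD s (List.ofFn y.1) := by positivity
    have c4 : (p.Wn s row (p.code y) : ℝ) / p.Wd s w row li (p.code y) =
        p.prodN s (List.ofFn y.1) / p.prodD s (List.ofFn y.1) * p.om w row li y.2 := by
      simp only [Wn, Wd, code, om, Fin.val_inj]
      push_cast
      ring
    refine ⟨mul_pos a1 b2, mul_pos (mul_pos a2 b1) c1, mul_pos ?_ c2, ?_⟩
    · by_contra hc
      linarith [(abs_le.1 a3).2, mul_nonpos_of_nonneg_of_nonpos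
        (by positivity : (0 : ℝ) ≤ 2 * p.n * (1 / 2) ^ p.K) (not_lt.1 hc)]
    · rw [c4, Mdl.W, ← sub_mul, abs_mul, abs_of_pos c2, ← mul_assoc]
      exact mul_le_mul_of_nonneg_right a3 c2.le
  let y : Bool → ℤ → ℤ → List ℤ × ℕ := fun b i j => p.propN (p.code x) b
    (p.mvN (i % ((3 * p.I.M + p.I.nv + 1 : ℕ) : ℤ)).toNat j x.2)
  have hc : (0 : ℝ) < Fintype.card (Mdl.Seed p.K) := Nat.cast_pos.2 Fintype.card_pos
  have key := Ex_four (K := p.K) (by omega) fun b₀ b i j t => G (if b₀ = true ∧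
    p.inOm w (y b i j) = true ∧ num t * (p.Wn s row (p.code x) * p.Wd s w row li (y b i j)) <
      2 ^ p.K * (p.Wn s row (y b i j) * p.Wd s w row li (p.code x)) then y b i j else p.code x)
  refine le_of_eq_of_le (congrArg (|· - _|) key) ?_
  simp only [y, h.propN_code, h.inOm_code, Bool.false_eq_true, false_and, if_false, true_and,
    Ex_const, Pop, Kop]
  rw [add_div' _ _ _ hc.ne', div_div, mul_comm _ 2, ← sub_div, abs_div, abs_of_pos (by positivity : (0 : ℝ) < 2 * _),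
    div_le_iff₀ (by positivity), sum_add_distrib, sum_const, card_univ, nsmul_eq_mul,
    mul_comm (G _), add_sub_add_left_eq_sub, ← sum_sub_distrib]
  refine (abs_sum_le_sum_abs _ _).trans ((sum_le_card_nsmul _ _ (20 * p.n * (1 / 2) ^ p.K : ℝ)
    fun σ _ => ?_).trans_eq ?_)
  swap
  · rw [card_univ, nsmul_eq_mul]; ring
  by_cases hy : p.mdl.prop p.sF p.K x σ ∈ p.mdl.Om w
  swap
  · simp only [hy, false_and, if_false, Ex_const, sub_self, abs_zero]; positivity
  generalize p.mdl.prop p.sF p.K x σ = z at *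
  obtain ⟨a1, a2, a3, a4⟩ := hW x hx
  obtain ⟨b1, b2, b3, b4⟩ := hW z hy
  have e1 := abs_Ex_coin_sub_le p.K (mul_pos b1 a2).le (mul_pos a1 b2)
  have e2 := min_close a3 b3 a4 b4 hδ
  rw [div_div_div_eq, ← Int.cast_mul, ← Int.cast_mul, mul_comm (p.Wd s w row li (p.code z))] at e2
  have e3 : ∀ q : Prop, ∀ _ : Decidable q, G (if q then p.code z else p.code x) =
      G (p.code x) + ind q * (G (p.code z) - G (p.code x)) := fun q _ => by
    by_cases hq : q <;> simp [hq, ind]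
  simp only [hy, true_and, if_true, e3, Ex_add, Ex_const, Ex_mul_right]
  rw [add_sub_add_left_eq_sub, ← sub_mul, abs_mul]
  refine (mul_le_mul ((abs_sub_le _ _ _).trans (add_le_add e1 e2))
    ((abs_sub _ _).trans (add_le_add (hG _) (hG _))) (abs_nonneg _) (by positivity)).trans ?_
  nlinarith [pow_pos (by norm_num : (0 : ℝ) < 1 / 2) p.K]

end Crest.Agent.R309.Pre
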