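import Crest.Agent.R309.LorB

/-!
# Row 309: the transport inequalities with exact conservation

Let `q → 0⁺` in `class_q`, `marg_q`, `tilt_q`: all quantities are continuous in `q` (polynomials,
`min`, quotients with nonzero denominator at `q = 0`), `gq 0 β = if β = 0 then 1 else 0`, so
`SB 0 β G = ∑ X ∈ cls β, wt f X * G X`, and the jump part of `DB 0` vanishes (for `a ≠ b` at most one
of `γ + ev a - del X`, `γ + ev b - del X` is zero).  Use `le_of_tendsto_of_tendsto` along `𝓝[>] 0`.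
If some `lo e > hi e` the box is empty and everything is zero.
-/

set_option autoImplicit false

namespace Crest.Agent.R309

open Finset

variable {V : Type} [Fintype V] [DecidableEq V] {M : ℕ}

open Classical in
/-- Dirichlet form of the unit moves on thin cells between the classes `γ + ev a`. -/
noncomputable def Dth (u v : Fin M → V) (lo hi : Fin M → ℤ) (f : Fin M → ℤ → ℝ)
    (thin : Fin M → Prop) (θ : V → ℝ) (γ : V → ℤ) (g : (Fin M → ℤ) → V → ℝ) : ℝ :=
  ∑ e ∈ univ.filter thin,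
    ∑ X ∈ (cls u v lo hi (γ + ev (v e))).filter (fun X => X + ec e ∈ box lo hi),
      min (wt f X / θ (v e)) (wt f (X + ec e) / θ (u e)) * (g X (v e) - g (X + ec e) (u e)) ^ 2

variable {u v : Fin M → V} {lo hi : Fin M → ℤ} {f : Fin M → ℤ → ℝ} {thin : Fin M → Prop} {κ : ℝ}

namespace LL

theorem le_zero_of {F G : ℝ → ℝ} (hF : ContinuousAt F 0) (hG : ContinuousAt G 0)
    (h : ∀ q, 0 < q → q ≤ 1 / 2 → F q ≤ G q) : F 0 ≤ G 0 := by
  refine le_of_tendsto_of_tendsto (b := nhdsWithin 0 (Set.Ioi 0))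
    (hF.tendsto.mono_left nhdsWithin_le_nhds) (hG.tendsto.mono_left nhdsWithin_le_nhds) ?_
  filter_upwards [Ioc_mem_nhdsGT (show (0 : ℝ) < 1 / 2 by norm_num)] with q hq
  exact h q hq.1 hq.2

theorem gq_zero (β : V → ℤ) : gq 0 β = if β = 0 then 1 else 0 := by
  unfold gq
  split_ifs with h
  · simp [h]
  · obtain ⟨a, ha⟩ := Function.ne_iff.1 h
    refine prod_eq_zero (mem_univ a) (zero_pow ?_)
    simpa using ha

omit [DecidableEq V] in
@[fun_prop] theorem continuous_gq (β : V → ℤ) : Continuous fun q : ℝ => gq q β := by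
  unfold gq; fun_prop

@[fun_prop] theorem continuous_SB (β : V → ℤ) (G : (Fin M → ℤ) → ℝ) :
    Continuous fun q : ℝ => SB u v lo hi f q β G := by
  unfold SB; fun_prop

@[fun_prop] theorem continuous_ZB (β : V → ℤ) :
    Continuous fun q : ℝ => ZB u v lo hi f q β := continuous_SB β _

@[fun_prop] theorem continuous_DB (θ : V → ℝ) (γ : V → ℤ) (g : (Fin M → ℤ) → V → ℝ) :
    Continuous fun q : ℝ => DB u v lo hi f thin q θ γ g := by
  unfold DB; fun_prop

theorem SB_zero (β : V → ℤ) (G : (Fin M → ℤ) → ℝ) :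
    SB u v lo hi f 0 β G = ∑ X ∈ cls u v lo hi β, wt f X * G X := by
  unfold SB cls
  rw [sum_filter]
  refine sum_congr rfl fun X _ => ?_
  rw [gq_zero]
  by_cases h : del u v X = β
  · simp [h]
  · rw [if_neg h, if_neg (fun h' => h (sub_eq_zero.1 h').symm)]; simp

theorem ZB_zero (β : V → ℤ) : ZB u v lo hi f 0 β = Zw u v lo hi f β := by
  unfold ZB Zw
  rw [SB_zero]
  simp

omit [Fintype V] in
theorem ev_inj {a b : V} (h : ev a = ev b) : a = b := by
  by_contra hab
  have := congrFun h a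
  simp [ev, hab] at this

theorem DB_zero (θ : V → ℝ) (hθ : ∀ a, 0 < θ a) (γ : V → ℤ) (g : (Fin M → ℤ) → V → ℝ) :
    DB u v lo hi f thin 0 θ γ g = Dth u v lo hi f thin θ γ g := by
  classical
  unfold DB Dth
  have e2 : ∑ X ∈ box lo hi, ∑ a, ∑ b, wt f X *
      min (gq 0 (γ + ev a - del u v X) / θ a) (gq 0 (γ + ev b - del u v X) / θ b) *
        (g X a - g X b) ^ 2 = 0 := by
    refine sum_eq_zero fun X _ => sum_eq_zero fun a _ => sum_eq_zero fun b _ => ?_
    by_cases hab : a = b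
    · simp [hab]
    have ha := hθ a
    have hb := hθ b
    rw [gq_zero, gq_zero]
    split_ifs with h1 h2 h2
    · exact absurd (ev_inj (add_left_cancel (a := γ)
        ((sub_eq_zero.1 h1).trans (sub_eq_zero.1 h2).symm))) hab
    · rw [zero_div, min_eq_right (by positivity)]; simp
    · rw [zero_div, min_eq_left (by positivity)]; simp
    · simp
  rw [e2, add_zero]
  refine sum_congr rfl fun e _ => ?_
  unfold cls
  rw [filter_comm, sum_filter (fun X => del u v X = γ + ev (v e))]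
  refine sum_congr rfl fun X _ => ?_
  rw [gq_zero]
  by_cases h : del u v X = γ + ev (v e)
  · simp [h]
  · rw [if_neg h, if_neg (fun h' => h (sub_eq_zero.1 h').symm)]; simp

theorem le_of_Zw_pos {β : V → ℤ} (h : 0 < Zw u v lo hi f β) (e : Fin M) : lo e ≤ hi e := by
  obtain ⟨X, hX⟩ := nonempty_of_sum_ne_zero h.ne'
  have := (mem_cls.1 hX).1 e
  exact this.1.trans this.2

theorem cont_sum (θ : V → ℝ) (γ : V → ℤ) (hZ : ∀ c, 0 < Zw u v lo hi f (γ + ev c)) :
    ContinuousAt (fun q : ℝ => ∑ c, θ c / ZB u v lo hi f q (γ + ev c)) 0 := by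
  refine tendsto_finsetSum _ fun c _ => ?_
  exact ContinuousAt.div continuousAt_const (continuous_ZB _).continuousAt
    (by rw [ZB_zero]; exact (hZ c).ne')

end LL

theorem class_le (huv : ∀ e, u e ≠ v e) (hf : LC lo hi f thin κ)
    (hκ0 : 0 < κ) (hκ1 : κ ≤ 1 / 2) (θ : V → ℝ) (hθ : ∀ a, 0 < θ a) (γ : V → ℤ)
    (hZ : ∀ c, 0 < Zw u v lo hi f (γ + ev c))
    (g : (Fin M → ℤ) → V → ℝ) (hg : Inv u v lo hi thin g) (a b : V) :
    ((∑ X ∈ cls u v lo hi (γ + ev a), wt f X * g X a) / Zw u v lo hi f (γ + ev a) -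
        (∑ X ∈ cls u v lo hi (γ + ev b), wt f X * g X b) / Zw u v lo hi f (γ + ev b)) ^ 2 ≤
      4 * (∑ c, θ c / Zw u v lo hi f (γ + ev c)) * (Dth u v lo hi f thin θ γ g / κ) := by
  have hb := LL.le_of_Zw_pos (hZ a)
  have hne : ∀ c, ZB u v lo hi f 0 (γ + ev c) ≠ 0 := fun c => by
    rw [LL.ZB_zero]; exact (hZ c).ne'
  have h := LL.le_zero_of
    (F := fun q => (SB u v lo hi f q (γ + ev a) (fun X => g X a) / ZB u v lo hi f q (γ + ev a) -
        SB u v lo hi f q (γ + ev b) (fun X => g X b) / ZB u v lo hi f q (γ + ev b)) ^ 2)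
    (G := fun q => 4 * (∑ c, θ c / ZB u v lo hi f q (γ + ev c)) *
      (DB u v lo hi f thin q θ γ g / κ))
    (((ContinuousAt.div (LL.continuous_SB _ _).continuousAt (LL.continuous_ZB _).continuousAt
      (hne a)).sub (ContinuousAt.div (LL.continuous_SB _ _).continuousAt
      (LL.continuous_ZB _).continuousAt (hne b))).pow 2)
    ((continuousAt_const.mul (LL.cont_sum θ γ hZ)).mul
      ((LL.continuous_DB θ γ g).continuousAt.div_const κ))
    fun q hq0 hq1 => class_q huv hb hf hκ0 hκ1 hq0 hq1 θ hθ γ g hg a b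
  simpa only [LL.SB_zero, LL.ZB_zero, LL.DB_zero θ hθ] using h

/-- One-coordinate marginals are log-concave without internal zeros. -/
theorem marg_le (huv : ∀ e, u e ≠ v e) (hf : LC lo hi f thin κ) (β : V → ℤ) (e₀ : Fin M)
    {a b : ℤ} (hab : a ≤ b) :
    (∑ X ∈ (cls u v lo hi β).filter (fun X => X e₀ = a - 1), wt f X) *
        (∑ X ∈ (cls u v lo hi β).filter (fun X => X e₀ = b + 1), wt f X) ≤
      (∑ X ∈ (cls u v lo hi β).filter (fun X => X e₀ = a), wt f X) *
        (∑ X ∈ (cls u v lo hi β).filter (fun X => X e₀ = b), wt f X) := by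
  by_cases hb : ∀ e, lo e ≤ hi e
  swap
  · have : cls u v lo hi β = ∅ := by
      refine eq_empty_of_forall_notMem fun X hX => hb fun e => ?_
      have := (mem_cls.1 hX).1 e
      exact this.1.trans this.2
    simp [this]
  have h := LL.le_zero_of
    (F := fun q => SB u v lo hi f q β (fun X => if X e₀ = a - 1 then 1 else 0) *
        SB u v lo hi f q β (fun X => if X e₀ = b + 1 then 1 else 0))
    (G := fun q => SB u v lo hi f q β (fun X => if X e₀ = a then 1 else 0) *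
        SB u v lo hi f q β (fun X => if X e₀ = b then 1 else 0))
    ((LL.continuous_SB _ _).mul (LL.continuous_SB _ _)).continuousAt
    ((LL.continuous_SB _ _).mul (LL.continuous_SB _ _)).continuousAt
    fun q hq0 hq1 => marg_q huv hb hf hq0 hq1 β e₀ hab
  simpa only [LL.SB_zero, sum_filter, mul_ite, mul_one, mul_zero] using h

theorem tilt_le (huv : ∀ e, u e ≠ v e) (hf : LC lo hi f thin κ)
    (hκ0 : 0 < κ) (hκ1 : κ ≤ 1 / 2) (θ : V → ℝ) (hθ : ∀ a, 0 < θ a) (γ : V → ℤ)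
    (hZ : ∀ c, 0 < Zw u v lo hi f (γ + ev c))
    (g : (Fin M → ℤ) → V → ℝ) (hg : Inv u v lo hi thin g) (e₀ : Fin M)
    (h : ℤ → ℝ) {H Λ : ℝ} (hΛ0 : 0 ≤ Λ)
    (hH : ∀ x x', lo e₀ ≤ x → x ≤ hi e₀ → lo e₀ ≤ x' → x' ≤ hi e₀ → |h x - h x'| ≤ H)
    (hΛ : ∀ x, lo e₀ ≤ x → x < hi e₀ → ((hi e₀ - lo e₀ + 1 : ℤ) : ℝ) * |h (x + 1) - h x| ≤ Λ) :
    ((∑ X ∈ cls u v lo hi (γ + ev (v e₀)), wt f X * (h (X e₀) * g X (v e₀))) -
        (∑ X ∈ cls u v lo hi (γ + ev (v e₀)), wt f X * h (X e₀)) *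
          (∑ X ∈ cls u v lo hi (γ + ev (v e₀)), wt f X * g X (v e₀)) /
          Zw u v lo hi f (γ + ev (v e₀))) ^ 2 ≤
      2 * H * Λ * Zw u v lo hi f (γ + ev (v e₀)) ^ 2 *
        (∑ c, θ c / Zw u v lo hi f (γ + ev c)) * (Dth u v lo hi f thin θ γ g / κ) := by
  have hb := LL.le_of_Zw_pos (hZ (v e₀))
  have hne : ∀ c, ZB u v lo hi f 0 (γ + ev c) ≠ 0 := fun c => by
    rw [LL.ZB_zero]; exact (hZ c).ne'
  have h' := LL.le_zero_of
    (F := fun q => (SB u v lo hi f q (γ + ev (v e₀)) (fun X => h (X e₀) * g X (v e₀)) -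
        SB u v lo hi f q (γ + ev (v e₀)) (fun X => h (X e₀)) *
          SB u v lo hi f q (γ + ev (v e₀)) (fun X => g X (v e₀)) /
          ZB u v lo hi f q (γ + ev (v e₀))) ^ 2)
    (G := fun q => 2 * H * Λ * ZB u v lo hi f q (γ + ev (v e₀)) ^ 2 *
        (∑ c, θ c / ZB u v lo hi f q (γ + ev c)) * (DB u v lo hi f thin q θ γ g / κ))
    (((LL.continuous_SB _ _).continuousAt.sub (ContinuousAt.div
      ((LL.continuous_SB _ _).mul (LL.continuous_SB _ _)).continuousAt
      (LL.continuous_ZB _).continuousAt (hne _))).pow 2)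
    (((continuousAt_const.mul ((LL.continuous_ZB _).continuousAt.pow 2)).mul
      (LL.cont_sum θ γ hZ)).mul ((LL.continuous_DB θ γ g).continuousAt.div_const κ))
    fun q hq0 hq1 => tilt_q huv hb hf hκ0 hκ1 hq0 hq1 θ hθ γ g hg e₀ h hΛ0 hH hΛ
  simpa only [LL.SB_zero, LL.ZB_zero, LL.DB_zero θ hθ] using h'

end Crest.Agent.R309
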