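import Crest.Agent.R309.Prob

/-!
# Row 309: lazy Metropolis chains and mixing from a restricted Poincaré inequality

`⟨g, h⟩ = ∑ x ∈ Ω, W x * g x * h x / Wtot`.  The involution `flip` makes `Kop` self-adjoint
(reindex the sum over `(x, σ)` with `prop x σ ∈ Ω`, `prop x σ ≠ x` by `(x,σ) ↦ (prop x σ, flip σ)`;
`W x * min 1 (W y / W x) = min (W x) (W y)`), `Kop 1 = 1`, `‖Kop g‖ ≤ ‖g‖` (Jensen + self-adjointness), and
`⟨g,g⟩ - ⟨g, Kop g⟩ = Dir g / Wtot`.
Mixing: `h = μ / π - 1`, `b n = ‖P^n h‖²` is decreasing, `b 0 ≤ D`, `b n = ⟨h, P^(2n) h⟩` so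
`b n ^ 2 ≤ C * Dir (P^(2n) h) / Wtot ≤ 2 C (b (2n) - b (2n+1))` because
`‖u‖² - ‖P u‖² ≥ (‖u‖² - ⟨u, K u⟩) / 2`.  Summing over `n < T`: `T * b T ^ 2 ≤ 2 C D`, and the error is
`⟨P^T h, g⟩ ≤ sqrt (b T)`.
-/

set_option autoImplicit false

namespace Crest.Agent.R309

open Finset

variable {α S : Type} [DecidableEq α] [Fintype S]

/-- Metropolis operator with uniformly chosen seed. -/
noncomputable def Kop (Ω : Finset α) (W : α → ℝ) (prop : α → S → α) (g : α → ℝ) (x : α) : ℝ :=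
  (∑ σ, if prop x σ ∈ Ω then g x + min 1 (W (prop x σ) / W x) * (g (prop x σ) - g x) else g x) /
    Fintype.card S

/-- Lazy Metropolis operator. -/
noncomputable def Pop (Ω : Finset α) (W : α → ℝ) (prop : α → S → α) (g : α → ℝ) (x : α) : ℝ :=
  (g x + Kop Ω W prop g x) / 2

/-- Contribution of one edge to a Dirichlet form. -/
noncomputable def edge (Ω : Finset α) (W : α → ℝ) (g : α → ℝ) (x y : α) : ℝ :=
  if x ∈ Ω ∧ y ∈ Ω then min (W x) (W y) * (g x - g y) ^ 2 else 0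

/-- Unnormalised Dirichlet form of `Kop`. -/
noncomputable def Dir (Ω : Finset α) (W : α → ℝ) (prop : α → S → α) (g : α → ℝ) : ℝ :=
  (∑ x ∈ Ω, ∑ σ, edge Ω W g x (prop x σ)) / (2 * Fintype.card S)

theorem edge_nonneg {Ω : Finset α} {W : α → ℝ} (hW : ∀ x ∈ Ω, 0 < W x) (g : α → ℝ) (x y : α) :
    0 ≤ edge Ω W g x y := by
  unfold edge
  split_ifs with h
  · exact mul_nonneg (le_min (hW _ h.1).le (hW _ h.2).le) (sq_nonneg _)
  · exact le_rfl

omit [DecidableEq α] in
theorem acc_nonneg {Ω : Finset α} {W : α → ℝ} (hW : ∀ x ∈ Ω, 0 < W x) {x y : α} (hx : x ∈ Ω)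
    (hy : y ∈ Ω) : 0 ≤ min 1 (W y / W x) :=
  le_min zero_le_one (div_pos (hW y hy) (hW x hx)).le

/-- `Pop` is a contraction for the sup norm on `Ω`. -/
theorem abs_Pop_sub_le [Nonempty S] {Ω : Finset α} {W : α → ℝ} (hW : ∀ x ∈ Ω, 0 < W x)
    (prop : α → S → α) {g g' : α → ℝ} {c : ℝ} (h : ∀ y ∈ Ω, |g y - g' y| ≤ c) {x : α}
    (hx : x ∈ Ω) : |Pop Ω W prop g x - Pop Ω W prop g' x| ≤ c := by
  have hc : (0 : ℝ) < Fintype.card S := by exact_mod_cast Fintype.card_pos
  have hK : |Kop Ω W prop g x - Kop Ω W prop g' x| ≤ c := by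
    unfold Kop
    rw [← sub_div, ← sum_sub_distrib, abs_div, abs_of_pos hc, div_le_iff₀ hc]
    refine (abs_sum_le_sum_abs _ _).trans ?_
    have : ∀ σ ∈ (univ : Finset S),
        |(if prop x σ ∈ Ω then g x + min 1 (W (prop x σ) / W x) * (g (prop x σ) - g x) else g x) -
          (if prop x σ ∈ Ω then g' x + min 1 (W (prop x σ) / W x) * (g' (prop x σ) - g' x)
            else g' x)| ≤ c := by
      intro σ _
      split_ifs with hy
      · have h0 := acc_nonneg hW hx hy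
        have h1 : min 1 (W (prop x σ) / W x) ≤ 1 := min_le_left _ _
        have ha := abs_le.1 (h x hx)
        have hb := abs_le.1 (h _ hy)
        rw [abs_le]
        constructor <;> nlinarith [ha.1, ha.2, hb.1, hb.2]
      · exact h x hx
    refine (sum_le_sum this).trans ?_
    simp [mul_comm]
  have h1 := abs_le.1 (h x hx)
  have h2 := abs_le.1 hK
  unfold Pop
  rw [abs_le]
  constructor <;> linarith [h1.1, h1.2, h2.1, h2.2]

/-- An implementation that is `η`-close in one step is `T η`-close in `T` steps. -/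
theorem abs_iter_sub_le [Nonempty S] {β : Type} {Ω : Finset α} {W : α → ℝ}
    (hW : ∀ x ∈ Ω, 0 < W x) (prop : α → S → α) (code : α → β) (step : β → List Bool → β) (ℓ : ℕ)
    {η : ℝ}
    (h : ∀ G : β → ℝ, (∀ y, |G y| ≤ 1) → ∀ x ∈ Ω,
      |opS step ℓ G (code x) - Pop Ω W prop (fun y => G (code y)) x| ≤ η)
    (T : ℕ) (G : β → ℝ) (hG : ∀ y, |G y| ≤ 1) {x : α} (hx : x ∈ Ω) :
    |(opS step ℓ)^[T] G (code x) - (Pop Ω W prop)^[T] (fun y => G (code y)) x| ≤ T * η := by
  induction T generalizing x with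
  | zero => simp
  | succ T ih =>
    have hb : ∀ n y, |(opS step ℓ)^[n] G y| ≤ 1 := by
      intro n
      induction n with
      | zero => simpa using hG
      | succ n ihn =>
        intro y
        rw [Function.iterate_succ_apply']
        exact abs_Ex_le fun τ _ => ihn _
    rw [Function.iterate_succ_apply', Function.iterate_succ_apply']
    have h1 := h _ (hb T) x hx
    have h2 := abs_Pop_sub_le hW prop (g := fun y => (opS step ℓ)^[T] G (code y))
      (g' := (Pop Ω W prop)^[T] fun y => G (code y)) (fun y hy => ih hy) hx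
    have h3 := abs_sub_le (opS step ℓ ((opS step ℓ)^[T] G) (code x))
      (Pop Ω W prop (fun y => (opS step ℓ)^[T] G (code y)) x)
      (Pop Ω W prop ((Pop Ω W prop)^[T] fun y => G (code y)) x)
    push_cast
    linarith

/-- Unnormalised weighted inner product. -/
noncomputable def ipW (Ω : Finset α) (W : α → ℝ) (g h : α → ℝ) : ℝ := ∑ x ∈ Ω, W x * g x * h x

omit [DecidableEq α] in
theorem ipW_comm (Ω : Finset α) (W g h : α → ℝ) : ipW Ω W g h = ipW Ω W h g :=
  sum_congr rfl fun _ _ => by ring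

omit [DecidableEq α] in
theorem ipW_self_nonneg {Ω : Finset α} {W : α → ℝ} (hW : ∀ x ∈ Ω, 0 < W x) (g : α → ℝ) :
    0 ≤ ipW Ω W g g :=
  sum_nonneg fun x hx => by
    rw [mul_assoc]; exact mul_nonneg (hW x hx).le (mul_self_nonneg _)

omit [DecidableEq α] in
theorem ipW_sq_le {Ω : Finset α} {W : α → ℝ} (hW : ∀ x ∈ Ω, 0 < W x) (g h : α → ℝ) :
    ipW Ω W g h ^ 2 ≤ ipW Ω W g g * ipW Ω W h h := by
  unfold ipW
  refine sum_sq_le_sum_mul_sum_of_sq_le_mul Ω (fun x hx => ?_) (fun x hx => ?_) fun x _ => ?_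
  · rw [mul_assoc]; exact mul_nonneg (hW x hx).le (mul_self_nonneg _)
  · rw [mul_assoc]; exact mul_nonneg (hW x hx).le (mul_self_nonneg _)
  · exact le_of_eq (by ring)

theorem Dir_nonneg {Ω : Finset α} {W : α → ℝ} (hW : ∀ x ∈ Ω, 0 < W x) (prop : α → S → α)
    (g : α → ℝ) : 0 ≤ Dir Ω W prop g :=
  div_nonneg (sum_nonneg fun _ _ => sum_nonneg fun _ _ => edge_nonneg hW _ _ _) (by positivity)

/-- Reversal of the moves. -/
theorem sum_flip {Ω : Finset α} (prop : α → S → α) (flip : S → S)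
    (hflip : Function.Involutive flip)
    (hrev : ∀ x ∈ Ω, ∀ σ, prop x σ ∈ Ω → prop x σ ≠ x → prop (prop x σ) (flip σ) = x)
    (F : α → α → ℝ) :
    ∑ x ∈ Ω, ∑ σ, (if prop x σ ∈ Ω then F x (prop x σ) else 0) =
      ∑ x ∈ Ω, ∑ σ, if prop x σ ∈ Ω then F (prop x σ) x else 0 := by
  rw [← sum_product', ← sum_product', ← sum_filter, ← sum_filter]
  have key : ∀ p ∈ (Ω ×ˢ (univ : Finset S)).filter fun p => prop p.1 p.2 ∈ Ω,
      (if prop p.1 p.2 = p.1 then p else (prop p.1 p.2, flip p.2)) ∈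
        ((Ω ×ˢ (univ : Finset S)).filter fun p => prop p.1 p.2 ∈ Ω) := by
    rintro ⟨x, σ⟩ hp
    simp only [mem_filter, mem_product, mem_univ, and_true] at hp ⊢
    split_ifs with h
    · exact hp
    · exact ⟨hp.2, by rw [hrev x hp.1 σ hp.2 h]; exact hp.1⟩
  have inv : ∀ p ∈ (Ω ×ˢ (univ : Finset S)).filter fun p => prop p.1 p.2 ∈ Ω,
      (fun p : α × S => if prop p.1 p.2 = p.1 then p else (prop p.1 p.2, flip p.2))
        (if prop p.1 p.2 = p.1 then p else (prop p.1 p.2, flip p.2)) = p := by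
    rintro ⟨x, σ⟩ hp
    simp only [mem_filter, mem_product, mem_univ, and_true] at hp ⊢
    by_cases h : prop x σ = x
    · simp [h]
    · have h2 := hrev x hp.1 σ hp.2 h
      simp only [h, if_false, h2, hflip σ]
      rw [if_neg (Ne.symm h)]
  refine sum_nbij' (fun p : α × S => if prop p.1 p.2 = p.1 then p else (prop p.1 p.2, flip p.2))
    (fun p : α × S => if prop p.1 p.2 = p.1 then p else (prop p.1 p.2, flip p.2)) key key inv inv ?_
  rintro ⟨x, σ⟩ hp
  simp only [mem_filter, mem_product, mem_univ, and_true] at hp ⊢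
  by_cases h : prop x σ = x
  · simp [h]
  · simp only [h, if_false, hrev x hp.1 σ hp.2 h]

theorem ipW_Kop_eq [Nonempty S] {Ω : Finset α} {W : α → ℝ} (hW : ∀ x ∈ Ω, 0 < W x)
    (prop : α → S → α) (g h : α → ℝ) :
    ipW Ω W g (Kop Ω W prop h) = ipW Ω W g h +
      (∑ x ∈ Ω, ∑ σ, if prop x σ ∈ Ω then
        min (W x) (W (prop x σ)) * (g x * (h (prop x σ) - h x)) else 0) / Fintype.card S := by
  have hc : (0 : ℝ) < Fintype.card S := by exact_mod_cast Fintype.card_pos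
  unfold ipW
  rw [sum_div, ← sum_add_distrib]
  refine sum_congr rfl fun x hx => ?_
  unfold Kop
  rw [← mul_div_assoc, mul_sum, eq_comm, add_div' _ _ _ hc.ne']
  congr 1
  have : W x * g x * h x * Fintype.card S = ∑ _σ : S, W x * g x * h x := by simp [mul_comm]
  rw [this, ← sum_add_distrib]
  refine sum_congr rfl fun σ _ => ?_
  split_ifs with hy
  · have h1 : min (W x) (W (prop x σ)) = W x * min 1 (W (prop x σ) / W x) := by
      rw [mul_min_of_nonneg _ _ (hW x hx).le, mul_one, mul_div_cancel₀ _ (hW x hx).ne']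
    rw [h1]; ring
  · ring

theorem ipW_Kop_symm [Nonempty S] {Ω : Finset α} {W : α → ℝ} (hW : ∀ x ∈ Ω, 0 < W x)
    (prop : α → S → α) (flip : S → S) (hflip : Function.Involutive flip)
    (hrev : ∀ x ∈ Ω, ∀ σ, prop x σ ∈ Ω → prop x σ ≠ x → prop (prop x σ) (flip σ) = x)
    (g h : α → ℝ) :
    ipW Ω W g (Kop Ω W prop h) = ipW Ω W g h -
      (∑ x ∈ Ω, ∑ σ, if prop x σ ∈ Ω then
        min (W x) (W (prop x σ)) * ((g x - g (prop x σ)) * (h x - h (prop x σ))) else 0) /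
          (2 * Fintype.card S) := by
  have hc : (0 : ℝ) < Fintype.card S := by exact_mod_cast Fintype.card_pos
  rw [ipW_Kop_eq hW]
  have h1 := sum_flip prop flip hflip hrev
    (fun x y => min (W x) (W y) * (g x * (h y - h x)))
  have h2 : (∑ x ∈ Ω, ∑ σ, if prop x σ ∈ Ω then
        min (W x) (W (prop x σ)) * ((g x - g (prop x σ)) * (h x - h (prop x σ))) else 0) =
      -((∑ x ∈ Ω, ∑ σ, if prop x σ ∈ Ω then
          min (W x) (W (prop x σ)) * (g x * (h (prop x σ) - h x)) else 0) +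
        ∑ x ∈ Ω, ∑ σ, if prop x σ ∈ Ω then
          min (W (prop x σ)) (W x) * (g (prop x σ) * (h x - h (prop x σ))) else 0) := by
    rw [← sum_add_distrib, ← sum_neg_distrib]
    refine sum_congr rfl fun x _ => ?_
    rw [← sum_add_distrib, ← sum_neg_distrib]
    refine sum_congr rfl fun σ _ => ?_
    split_ifs
    · rw [min_comm (W (prop x σ))]; ring
    · simp
  rw [h2, ← h1]
  field_simp
  ring

theorem ipW_Kop_adj [Nonempty S] {Ω : Finset α} {W : α → ℝ} (hW : ∀ x ∈ Ω, 0 < W x)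
    (prop : α → S → α) (flip : S → S) (hflip : Function.Involutive flip)
    (hrev : ∀ x ∈ Ω, ∀ σ, prop x σ ∈ Ω → prop x σ ≠ x → prop (prop x σ) (flip σ) = x)
    (g h : α → ℝ) : ipW Ω W g (Kop Ω W prop h) = ipW Ω W (Kop Ω W prop g) h := by
  rw [ipW_comm Ω W (Kop Ω W prop g), ipW_Kop_symm hW prop flip hflip hrev,
    ipW_Kop_symm hW prop flip hflip hrev, ipW_comm Ω W g h]
  simp only [mul_comm (g _ - g _)]

theorem ipW_Kop_self [Nonempty S] {Ω : Finset α} {W : α → ℝ} (hW : ∀ x ∈ Ω, 0 < W x)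
    (prop : α → S → α) (flip : S → S) (hflip : Function.Involutive flip)
    (hrev : ∀ x ∈ Ω, ∀ σ, prop x σ ∈ Ω → prop x σ ≠ x → prop (prop x σ) (flip σ) = x)
    (g : α → ℝ) : ipW Ω W g (Kop Ω W prop g) = ipW Ω W g g - Dir Ω W prop g := by
  rw [ipW_Kop_symm hW prop flip hflip hrev]
  unfold Dir edge
  congr 2
  refine sum_congr rfl fun x hx => sum_congr rfl fun σ _ => ?_
  simp only [hx, true_and, sq]

theorem Kop_one [Nonempty S] (Ω : Finset α) (W : α → ℝ) (prop : α → S → α) :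
    Kop Ω W prop (fun _ => 1) = fun _ => 1 := by
  have hc : (0 : ℝ) < Fintype.card S := by exact_mod_cast Fintype.card_pos
  funext x
  simp [Kop, hc.ne']

theorem Pop_one [Nonempty S] (Ω : Finset α) (W : α → ℝ) (prop : α → S → α) :
    Pop Ω W prop (fun _ => 1) = fun _ => 1 := by
  funext x
  simp [Pop, Kop_one]

theorem Kop_sq_le [Nonempty S] {Ω : Finset α} {W : α → ℝ} (hW : ∀ x ∈ Ω, 0 < W x)
    (prop : α → S → α) (g : α → ℝ) {x : α} (hx : x ∈ Ω) :
    Kop Ω W prop g x ^ 2 ≤ Kop Ω W prop (fun y => g y ^ 2) x := by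
  have hc : (0 : ℝ) < Fintype.card S := by exact_mod_cast Fintype.card_pos
  unfold Kop
  rw [div_pow, div_le_div_iff₀ (by positivity) hc]
  have h1 := sq_sum_le_card_mul_sum_sq (s := (univ : Finset S)) (f := fun σ =>
    if prop x σ ∈ Ω then g x + min 1 (W (prop x σ) / W x) * (g (prop x σ) - g x) else g x)
  have h2 : ∑ σ, (if prop x σ ∈ Ω then g x + min 1 (W (prop x σ) / W x) * (g (prop x σ) - g x)
      else g x) ^ 2 ≤ ∑ σ, if prop x σ ∈ Ω then
        g x ^ 2 + min 1 (W (prop x σ) / W x) * (g (prop x σ) ^ 2 - g x ^ 2) else g x ^ 2 := by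
    refine sum_le_sum fun σ _ => ?_
    split_ifs with hy
    · have h0 := acc_nonneg hW hx hy
      have h1 : min 1 (W (prop x σ) / W x) ≤ 1 := min_le_left _ _
      generalize min 1 (W (prop x σ) / W x) = a at h0 h1
      nlinarith [mul_nonneg (mul_nonneg h0 (sub_nonneg.2 h1)) (sq_nonneg (g (prop x σ) - g x))]
    · exact le_rfl
  rw [card_univ] at h1
  have h3 := mul_le_mul_of_nonneg_left h2 hc.le
  have h4 := mul_le_mul_of_nonneg_right (h1.trans h3) hc.le
  refine h4.trans (le_of_eq ?_)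
  ring

theorem ipW_Kop_le [Nonempty S] {Ω : Finset α} {W : α → ℝ} (hW : ∀ x ∈ Ω, 0 < W x)
    (prop : α → S → α) (flip : S → S) (hflip : Function.Involutive flip)
    (hrev : ∀ x ∈ Ω, ∀ σ, prop x σ ∈ Ω → prop x σ ≠ x → prop (prop x σ) (flip σ) = x)
    (g : α → ℝ) : ipW Ω W (Kop Ω W prop g) (Kop Ω W prop g) ≤ ipW Ω W g g := by
  have h1 := ipW_Kop_adj hW prop flip hflip hrev (fun _ => 1) fun y => g y ^ 2
  rw [Kop_one] at h1
  calc ipW Ω W (Kop Ω W prop g) (Kop Ω W prop g)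
      ≤ ipW Ω W (fun _ => 1) (Kop Ω W prop fun y => g y ^ 2) := by
        refine sum_le_sum fun x hx => ?_
        rw [mul_assoc, mul_one, ← sq]
        exact mul_le_mul_of_nonneg_left (Kop_sq_le hW prop g hx) (hW x hx).le
    _ = ipW Ω W g g := by
        rw [h1]
        exact sum_congr rfl fun x _ => by ring

theorem ipW_Pop_right (Ω : Finset α) (W : α → ℝ) (prop : α → S → α) (g h : α → ℝ) :
    ipW Ω W g (Pop Ω W prop h) = (ipW Ω W g h + ipW Ω W g (Kop Ω W prop h)) / 2 := by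
  unfold ipW Pop
  rw [← sum_add_distrib, sum_div]
  exact sum_congr rfl fun x _ => by ring

theorem ipW_Pop_adj [Nonempty S] {Ω : Finset α} {W : α → ℝ} (hW : ∀ x ∈ Ω, 0 < W x)
    (prop : α → S → α) (flip : S → S) (hflip : Function.Involutive flip)
    (hrev : ∀ x ∈ Ω, ∀ σ, prop x σ ∈ Ω → prop x σ ≠ x → prop (prop x σ) (flip σ) = x)
    (g h : α → ℝ) : ipW Ω W g (Pop Ω W prop h) = ipW Ω W (Pop Ω W prop g) h := by
  rw [ipW_comm Ω W (Pop Ω W prop g), ipW_Pop_right, ipW_Pop_right,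
    ipW_Kop_adj hW prop flip hflip hrev, ipW_comm Ω W g h, ipW_comm Ω W _ h]

theorem ipW_iter [Nonempty S] {Ω : Finset α} {W : α → ℝ} (hW : ∀ x ∈ Ω, 0 < W x)
    (prop : α → S → α) (flip : S → S) (hflip : Function.Involutive flip)
    (hrev : ∀ x ∈ Ω, ∀ σ, prop x σ ∈ Ω → prop x σ ≠ x → prop (prop x σ) (flip σ) = x)
    (n : ℕ) (g h : α → ℝ) :
    ipW Ω W g ((Pop Ω W prop)^[n] h) = ipW Ω W ((Pop Ω W prop)^[n] g) h := by
  induction n generalizing g with
  | zero => rfl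
  | succ n ih =>
    rw [Function.iterate_succ_apply', ipW_Pop_adj hW prop flip hflip hrev, ih,
      Function.iterate_succ_apply]

theorem ipW_Pop_le [Nonempty S] {Ω : Finset α} {W : α → ℝ} (hW : ∀ x ∈ Ω, 0 < W x)
    (prop : α → S → α) (flip : S → S) (hflip : Function.Involutive flip)
    (hrev : ∀ x ∈ Ω, ∀ σ, prop x σ ∈ Ω → prop x σ ≠ x → prop (prop x σ) (flip σ) = x)
    (g : α → ℝ) :
    ipW Ω W (Pop Ω W prop g) (Pop Ω W prop g) ≤ ipW Ω W g g - Dir Ω W prop g / 2 := by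
  have h1 := ipW_Kop_le hW prop flip hflip hrev g
  have h2 := ipW_Kop_self hW prop flip hflip hrev g
  rw [ipW_Pop_right, ipW_comm Ω W _ g, ipW_Pop_right, ipW_comm Ω W (Pop Ω W prop g), ipW_Pop_right,
    ipW_comm Ω W (Kop Ω W prop g) g]
  linarith

/-- **Mixing from a restricted Poincaré inequality.** -/
theorem mix [Nonempty S] {Ω : Finset α} {W : α → ℝ} (hW : ∀ x ∈ Ω, 0 < W x)
    (prop : α → S → α) (flip : S → S) (hflip : Function.Involutive flip)
    (hrev : ∀ x ∈ Ω, ∀ σ, prop x σ ∈ Ω → prop x σ ≠ x → prop (prop x σ) (flip σ) = x)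
    (μ : α → ℝ) {C D : ℝ} (hC : 0 ≤ C) (hμ0 : ∀ x ∈ Ω, 0 ≤ μ x) (hμ1 : ∑ x ∈ Ω, μ x = 1)
    (hμD : ∀ x ∈ Ω, μ x ≤ D * (W x / ∑ y ∈ Ω, W y))
    (hRP : ∀ g : α → ℝ, (∑ x ∈ Ω, μ x * g x - (∑ x ∈ Ω, W x * g x) / ∑ y ∈ Ω, W y) ^ 2 ≤
      C * (Dir Ω W prop g / ∑ y ∈ Ω, W y))
    {T : ℕ} (hT : 0 < T) (g : α → ℝ) (hg : ∀ x ∈ Ω, |g x| ≤ 1) :
    (∑ x ∈ Ω, μ x * (Pop Ω W prop)^[T] g x - (∑ x ∈ Ω, W x * g x) / ∑ y ∈ Ω, W y) ^ 4 ≤
      2 * C * D / T := by
  have hΩ : Ω.Nonempty := by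
    rcases Ω.eq_empty_or_nonempty with h0 | h0
    · rw [h0] at hμ1; simp at hμ1
    · exact h0
  set Z := ∑ y ∈ Ω, W y with hZ
  have hZ0 : 0 < Z := sum_pos hW hΩ
  set P := Pop Ω W prop with hP
  set h : α → ℝ := fun x => μ x * Z / W x - 1 with hh
  have hΔ : ∀ u : α → ℝ, ∑ x ∈ Ω, μ x * u x - (∑ x ∈ Ω, W x * u x) / Z = ipW Ω W h u / Z := by
    intro u
    unfold ipW
    rw [sum_div, sum_div, ← sum_sub_distrib]
    refine sum_congr rfl fun x hx => ?_
    have := (hW x hx).ne'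
    simp only [hh]
    field_simp
  set b : ℕ → ℝ := fun n => ipW Ω W (P^[n] h) (P^[n] h) / Z with hb
  have hb0 : ∀ n, 0 ≤ b n := fun n => div_nonneg (ipW_self_nonneg hW _) hZ0.le
  have hstep : ∀ n, Dir Ω W prop (P^[n] h) / Z ≤ 2 * (b n - b (n + 1)) := by
    intro n
    simp only [hb]
    rw [Function.iterate_succ_apply', ← sub_div, ← mul_div_assoc]
    refine div_le_div_of_nonneg_right ?_ hZ0.le
    have := ipW_Pop_le hW prop flip hflip hrev (P^[n] h)
    linarith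
  have hanti : Antitone b := by
    refine antitone_nat_of_succ_le fun n => ?_
    have h1 := hstep n
    have h2 : 0 ≤ Dir Ω W prop (P^[n] h) / Z := div_nonneg (Dir_nonneg hW _ _) hZ0.le
    linarith
  have hsq : ∀ n, b n ^ 2 ≤ 2 * C * (b (2 * n) - b (2 * n + 1)) := by
    intro n
    have h1 := hRP (P^[2 * n] h)
    rw [hΔ] at h1
    have h2 : ipW Ω W h (P^[2 * n] h) = ipW Ω W (P^[n] h) (P^[n] h) := by
      rw [two_mul, Function.iterate_add_apply, ipW_iter hW prop flip hflip hrev]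
    rw [h2] at h1
    have h3 := mul_le_mul_of_nonneg_left (hstep (2 * n)) hC
    calc b n ^ 2 ≤ _ := h1
      _ ≤ _ := h3
      _ = _ := by ring
  have htel : ∀ n, ∑ i ∈ range n, (b (2 * i) - b (2 * i + 1)) ≤ b 0 - b (2 * n) := by
    intro n
    induction n with
    | zero => simp
    | succ n ih =>
      rw [sum_range_succ]
      have := hanti (show 2 * n + 1 ≤ 2 * (n + 1) by omega)
      linarith
  have hbD : b 0 ≤ D := by
    simp only [hb, Function.iterate_zero, id]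
    rw [← hΔ]
    have h1 : ∑ x ∈ Ω, W x * h x = 0 := by
      have : ∀ x ∈ Ω, W x * h x = μ x * Z - W x := by
        intro x hx
        have := (hW x hx).ne'
        simp only [hh]
        field_simp
      rw [sum_congr rfl this, sum_sub_distrib, ← sum_mul, hμ1, one_mul, sub_self]
    rw [h1, zero_div, sub_zero]
    calc ∑ x ∈ Ω, μ x * h x ≤ ∑ x ∈ Ω, μ x * D := by
          refine sum_le_sum fun x hx => mul_le_mul_of_nonneg_left ?_ (hμ0 x hx)
          have h2 := hμD x hx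
          have h3 := hW x hx
          have h4 : μ x * Z / W x ≤ D := by
            rw [div_le_iff₀ h3]
            rw [← mul_div_assoc, le_div_iff₀ hZ0] at h2
            exact h2
          simp only [hh]
          linarith
      _ = D := by rw [← sum_mul, hμ1, one_mul]
  have hT' : (0 : ℝ) < T := by exact_mod_cast hT
  have hbT : b T ^ 2 ≤ 2 * C * D / T := by
    rw [le_div_iff₀ hT']
    calc b T ^ 2 * T = ∑ _i ∈ range T, b T ^ 2 := by simp [mul_comm]
      _ ≤ ∑ i ∈ range T, 2 * C * (b (2 * i) - b (2 * i + 1)) := by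
          refine sum_le_sum fun i hi => le_trans ?_ (hsq i)
          exact pow_le_pow_left₀ (hb0 T) (hanti (mem_range.1 hi).le) 2
      _ ≤ 2 * C * D := by
          rw [← mul_sum]
          refine mul_le_mul_of_nonneg_left ((htel T).trans ?_) (by positivity)
          linarith [hb0 (2 * T)]
  have hπ : ∑ x ∈ Ω, W x * P^[T] g x = ∑ x ∈ Ω, W x * g x := by
    have h1 := ipW_iter hW prop flip hflip hrev T (fun _ => 1) g
    have h2 : (Pop Ω W prop)^[T] (fun _ => (1 : ℝ)) = fun _ => 1 :=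
      Function.iterate_fixed (Pop_one Ω W prop) T
    rw [h2] at h1
    simpa [ipW] using h1
  rw [← hπ, hΔ, ipW_iter hW prop flip hflip hrev]
  have hcs : (ipW Ω W (P^[T] h) g / Z) ^ 2 ≤ b T := by
    have h1 := ipW_sq_le hW (P^[T] h) g
    have h2 : ipW Ω W g g ≤ Z := by
      refine sum_le_sum fun x hx => ?_
      have h3 := hW x hx
      have h4 : g x * g x ≤ 1 := by
        have := abs_le.1 (hg x hx)
        nlinarith [this.1, this.2]
      nlinarith
    have h3 := mul_le_mul_of_nonneg_left h2 (ipW_self_nonneg hW (P^[T] h))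
    simp only [hb]
    rw [div_pow, div_le_div_iff₀ (by positivity) hZ0]
    nlinarith
  calc (ipW Ω W (P^[T] h) g / Z) ^ 4 = ((ipW Ω W (P^[T] h) g / Z) ^ 2) ^ 2 := by ring
    _ ≤ b T ^ 2 := pow_le_pow_left₀ (sq_nonneg _) hcs 2
    _ ≤ _ := hbT

end Crest.Agent.R309
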