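import Crest.Agent.R309.Boch
import Crest.Agent.R309.Met

/-!
# Row 309: Poincaré inequality on a long box with long steps

Write `z = lo + s * n + o` with `n ∈ box 0 (N - 1)`, `N e * s e = hi e - lo e + 1`, `o ∈ box 0 (s - 1)`, and
`ν n = μ (lo + s * n)`.  `μ z ≤ 2 ν n`.  With `gb n` the average of `g` over the offsets,
`∑ n o, ν n (g - c)² = ∑ n, ν n ∑ o, (g - gb n)² + #O ∑ n, ν n (gb n - c)²`.  The second term is bounded by
`bochner_poincare` for `ν`, Jensen and `ν n ≤ 4 * min (μ z) (μ (z + s e • ec e))`; the first by the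
Efron–Stein inequality `efron_stein` for the uniform law on a box (induction on `M`), and
`ν n ≤ 2 * min …`.
-/

set_option autoImplicit false

namespace Crest.Agent.R309

open Finset

variable {M : ℕ}

theorem zp_sum_box_succ (lo hi : Fin (M + 1) → ℤ) (F : (Fin (M + 1) → ℤ) → ℝ) :
    ∑ o ∈ box lo hi, F o =
      ∑ a ∈ Icc (lo 0) (hi 0), ∑ o ∈ box (fun e : Fin M => lo e.succ) (fun e => hi e.succ),
        F (Fin.cons a o) := by
  rw [← Finset.sum_product']
  refine Finset.sum_nbij' (fun o => (o 0, fun e => o e.succ)) (fun p => Fin.cons p.1 p.2)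
    ?_ ?_ ?_ ?_ ?_
  · intro o ho
    simp only [mem_box, Finset.mem_product, Finset.mem_Icc] at ho ⊢
    exact ⟨ho 0, fun e => ho e.succ⟩
  · intro p hp
    simp only [mem_box, Finset.mem_product, Finset.mem_Icc] at hp ⊢
    intro e
    refine Fin.cases ?_ (fun e => ?_) e
    · simpa using hp.1
    · simpa using hp.2 e
  · intro o _
    funext e
    refine Fin.cases ?_ (fun e => ?_) e <;> simp
  · intro p _
    ext <;> simp
  · intro o _
    congr 1
    funext e
    refine Fin.cases ?_ (fun e => ?_) e <;> simp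

theorem zp_mem_cons (lo hi : Fin (M + 1) → ℤ) (a : ℤ) (o : Fin M → ℤ) :
    (Fin.cons a o : Fin (M + 1) → ℤ) ∈ box lo hi ↔
      a ∈ Icc (lo 0) (hi 0) ∧ o ∈ box (fun e : Fin M => lo e.succ) (fun e => hi e.succ) := by
  simp only [mem_box, Finset.mem_Icc, Fin.forall_fin_succ, Fin.cons_zero, Fin.cons_succ]

theorem zp_cons_add_zero (a j : ℤ) (o : Fin M → ℤ) :
    (Fin.cons a o : Fin (M + 1) → ℤ) + j • ec 0 = Fin.cons (a + j) o := by
  funext e
  refine Fin.cases ?_ (fun e => ?_) e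
  · simp [ec]
  · simp [ec]

theorem zp_cons_add_succ (a j : ℤ) (o : Fin M → ℤ) (e : Fin M) :
    (Fin.cons a o : Fin (M + 1) → ℤ) + j • ec e.succ = Fin.cons a (o + j • ec e) := by
  funext e'
  refine Fin.cases ?_ (fun e' => ?_) e'
  · simp [ec]
  · simp [ec, Pi.single_apply]

theorem zp_var_decomp {α : Type*} (S : Finset α) (h : α → ℝ) {m : ℝ} (c : ℝ)
    (hm : ∑ x ∈ S, h x = S.card * m) :
    ∑ x ∈ S, (h x - c) ^ 2 = ∑ x ∈ S, (h x - m) ^ 2 + S.card * (m - c) ^ 2 := by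
  have h1 : ∀ x, (h x - c) ^ 2 = (h x - m) ^ 2 + (2 * (m - c)) * h x + (c ^ 2 - m ^ 2) := by
    intro x; ring
  simp only [h1, Finset.sum_add_distrib, ← Finset.mul_sum, hm, Finset.sum_const, nsmul_eq_mul]
  ring

theorem zp_jensen {α : Type*} (S : Finset α) (h : α → ℝ) {P : ℝ} (hP : 0 < P)
    (hc : (S.card : ℝ) = P) : P * ((∑ x ∈ S, h x) / P) ^ 2 ≤ ∑ x ∈ S, h x ^ 2 := by
  have h1 := sq_sum_le_card_mul_sum_sq (s := S) (f := h)
  rw [hc] at h1
  have h2 : P * ((∑ x ∈ S, h x) / P) ^ 2 = (∑ x ∈ S, h x) ^ 2 / P := by field_simp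
  rw [h2, div_le_iff₀ hP]
  linarith

theorem zp_card_box (s : Fin M → ℕ) :
    ((box (fun _ => 0) (fun e => (s e : ℤ) - 1)).card : ℝ) = ∏ e, (s e : ℝ) := by
  unfold box
  rw [Fintype.card_piFinset]
  push_cast
  refine Finset.prod_congr rfl fun e _ => ?_
  simp

/-- The one-dimensional variance identity (as an inequality). -/
theorem zp_one_dim (s : ℕ) (hs : 0 < s) (h : ℤ → ℝ) :
    ∑ a ∈ Icc (0 : ℤ) ((s : ℤ) - 1), (h a - (∑ b ∈ Icc (0 : ℤ) ((s : ℤ) - 1), h b) / s) ^ 2 ≤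
      1 / (s : ℝ) * ∑ j ∈ range s, ∑ a ∈ Icc (0 : ℤ) ((s : ℤ) - 1),
        if a + (j : ℤ) ∈ Icc (0 : ℤ) ((s : ℤ) - 1) then (h (a + j) - h a) ^ 2 else 0 := by
  set I := Icc (0 : ℤ) ((s : ℤ) - 1) with hI
  have hsR : (0 : ℝ) < s := by exact_mod_cast hs
  have hcard : (I.card : ℝ) = s := by simp [hI]
  set m := (∑ b ∈ I, h b) / s with hm
  have hsum : ∑ b ∈ I, h b = I.card * m := by rw [hcard, hm]; field_simp
  have h1 : ∑ a ∈ I, ∑ b ∈ I, (h b - h a) ^ 2 = 2 * s * ∑ a ∈ I, (h a - m) ^ 2 := by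
    have : ∀ a, ∑ b ∈ I, (h b - h a) ^ 2 = ∑ b ∈ I, (h b - m) ^ 2 + s * (h a - m) ^ 2 := by
      intro a
      rw [zp_var_decomp I h (h a) hsum, hcard]; ring
    simp only [this, Finset.sum_add_distrib, Finset.sum_const, nsmul_eq_mul, hcard,
      ← Finset.mul_sum]
    ring
  have h2 : ∑ a ∈ I, ∑ b ∈ I, (h b - h a) ^ 2 ≤
      2 * ∑ a ∈ I, ∑ b ∈ I, if a ≤ b then (h b - h a) ^ 2 else 0 := by
    have h3 : ∑ a ∈ I, ∑ b ∈ I, (if a ≤ b then (h b - h a) ^ 2 else 0) =
        ∑ a ∈ I, ∑ b ∈ I, (if b ≤ a then (h b - h a) ^ 2 else 0) := by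
      rw [Finset.sum_comm]
      refine Finset.sum_congr rfl fun a _ => Finset.sum_congr rfl fun b _ => ?_
      split_ifs
      · ring
      · rfl
    rw [two_mul]
    nth_rewrite 2 [h3]
    rw [← Finset.sum_add_distrib]
    refine Finset.sum_le_sum fun a _ => ?_
    rw [← Finset.sum_add_distrib]
    refine Finset.sum_le_sum fun b _ => ?_
    have := sq_nonneg (h b - h a)
    split_ifs with h4 h5 h5
    · linarith
    · linarith
    · linarith
    · omega
  have h4 : ∑ a ∈ I, ∑ b ∈ I, (if a ≤ b then (h b - h a) ^ 2 else 0) =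
      ∑ j ∈ range s, ∑ a ∈ I, if a + (j : ℤ) ∈ I then (h (a + j) - h a) ^ 2 else 0 := by
    rw [Finset.sum_comm (s := range s)]
    refine Finset.sum_congr rfl fun a ha => ?_
    rw [← Finset.sum_filter, ← Finset.sum_filter]
    have ha' : 0 ≤ a ∧ a ≤ (s : ℤ) - 1 := by simpa [hI] using ha
    symm
    refine Finset.sum_nbij' (fun j => a + (j : ℤ)) (fun b => (b - a).toNat) ?_ ?_ ?_ ?_ ?_
    · intro j hj
      simp only [Finset.mem_filter, Finset.mem_range] at hj ⊢
      exact ⟨hj.2, by omega⟩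
    · intro b hb
      simp only [Finset.mem_filter, Finset.mem_range, hI, Finset.mem_Icc] at hb ⊢
      omega
    · intro j _
      simp
    · intro b hb
      simp only [Finset.mem_filter] at hb
      omega
    · intro j _
      rfl
  rw [← h4, one_div, ← div_eq_inv_mul, le_div_iff₀ hsR]
  linarith

theorem zp_efron (M : ℕ) : ∀ (s : Fin M → ℕ) (_ : ∀ e, 0 < s e) (g : (Fin M → ℤ) → ℝ),
    ∑ o ∈ box (fun _ => 0) (fun e => (s e : ℤ) - 1),
        (g o - (∑ o' ∈ box (fun _ => 0) (fun e => (s e : ℤ) - 1), g o') / ∏ e, (s e : ℝ)) ^ 2 ≤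
      ∑ e, 1 / (s e : ℝ) * ∑ j ∈ range (s e),
        ∑ o ∈ box (fun _ => 0) (fun e => (s e : ℤ) - 1),
          if o + (j : ℤ) • ec e ∈ box (fun _ => 0) (fun e => (s e : ℤ) - 1) then
            (g (o + (j : ℤ) • ec e) - g o) ^ 2 else 0 := by
  induction M with
  | zero =>
    intro s _ g
    have : (box (fun _ => 0) (fun e => (s e : ℤ) - 1) : Finset (Fin 0 → ℤ)) = {0} := by
      ext x
      simp only [mem_box, Finset.mem_singleton]
      exact ⟨fun _ => Subsingleton.elim _ _, fun _ e => e.elim0⟩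
    rw [this]
    simp
  | succ M ih =>
    intro s hs g
    set O := box (fun _ : Fin M => (0 : ℤ)) (fun e => (s e.succ : ℤ) - 1) with hO
    set I := Icc (0 : ℤ) ((s 0 : ℤ) - 1) with hI
    set P : ℝ := ∏ e : Fin M, (s e.succ : ℝ) with hP
    have hP0 : 0 < P := Finset.prod_pos fun e _ => by exact_mod_cast hs e.succ
    have hs0 : (0 : ℝ) < s 0 := by exact_mod_cast hs 0
    have hcO : (O.card : ℝ) = P := zp_card_box fun e : Fin M => s e.succ
    rw [Fin.sum_univ_succ, Fin.prod_univ_succ]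
    simp only [zp_sum_box_succ, zp_cons_add_zero, zp_cons_add_succ, zp_mem_cons]
    rw [← hO, ← hI, ← hP]
    set G : ℤ → (Fin M → ℤ) → ℝ := fun a o => g (Fin.cons a o) with hG
    set c : ℝ := (∑ a ∈ I, ∑ o ∈ O, g (Fin.cons a o)) / ((s 0 : ℝ) * P) with hc
    have hdec : ∀ a, ∑ o ∈ O, (g (Fin.cons a o) - c) ^ 2 =
        ∑ o ∈ O, (G a o - (∑ o' ∈ O, G a o') / P) ^ 2 + P * ((∑ o' ∈ O, G a o') / P - c) ^ 2 := by
      intro a
      rw [← hcO]
      refine zp_var_decomp O (G a) c ?_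
      rw [hcO]; field_simp
    simp only [hdec]
    rw [Finset.sum_add_distrib, add_comm]
    refine add_le_add ?_ ?_
    · -- the first coordinate
      have h1 : ∀ a, P * ((∑ o' ∈ O, G a o') / P - c) ^ 2 ≤
          ∑ o ∈ O, (G a o - (∑ b ∈ I, G b o) / s 0) ^ 2 := by
        intro a
        refine le_trans (le_of_eq ?_) (zp_jensen O (fun o => G a o - (∑ b ∈ I, G b o) / s 0) hP0 hcO)
        congr 2
        rw [Finset.sum_sub_distrib, ← Finset.sum_div, Finset.sum_comm, hc]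
        field_simp
        rfl
      refine le_trans (Finset.sum_le_sum fun a _ => h1 a) ?_
      rw [Finset.sum_comm]
      refine le_trans (Finset.sum_le_sum fun o _ => zp_one_dim (s 0) (hs 0) (fun a => G a o)) ?_
      rw [← Finset.mul_sum, ← hI]
      refine mul_le_mul_of_nonneg_left (le_of_eq ?_) (by positivity)
      rw [Finset.sum_comm]
      refine Finset.sum_congr rfl fun j _ => ?_
      rw [Finset.sum_comm]
      refine Finset.sum_congr rfl fun a _ => Finset.sum_congr rfl fun o ho => ?_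
      simp only [ho, and_true, hG]
    · refine le_trans (Finset.sum_le_sum fun a _ =>
        ih (fun e => s e.succ) (fun e => hs e.succ) (G a)) (le_of_eq ?_)
      rw [Finset.sum_comm]
      refine Finset.sum_congr rfl fun e _ => ?_
      rw [← Finset.mul_sum, Finset.sum_comm]
      congr 1
      refine Finset.sum_congr rfl fun j _ => Finset.sum_congr rfl fun a ha =>
        Finset.sum_congr rfl fun o _ => ?_
      simp only [ha, true_and, hG, hO]

/-- Efron–Stein for the uniform law on `∏ [0, s e)`. -/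
theorem efron_stein (s : Fin M → ℕ) (hs : ∀ e, 0 < s e) (g : (Fin M → ℤ) → ℝ) :
    ∑ o ∈ box (fun _ => 0) (fun e => (s e : ℤ) - 1),
        (g o - (∑ o' ∈ box (fun _ => 0) (fun e => (s e : ℤ) - 1), g o') / ∏ e, (s e : ℝ)) ^ 2 ≤
      ∑ e, 1 / (s e : ℝ) * ∑ j ∈ range (s e),
        ∑ o ∈ (box (fun _ => 0) (fun e => (s e : ℤ) - 1)).filter
            (fun o => o + (j : ℤ) • ec e ∈ box (fun _ => 0) (fun e => (s e : ℤ) - 1)),
          (g (o + (j : ℤ) • ec e) - g o) ^ 2 := by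
  simp only [Finset.sum_filter]
  exact zp_efron M s hs g

theorem zp_mem_iff (lo hi N : Fin M → ℤ) (s : Fin M → ℕ)
    (hN : ∀ e, hi e - lo e + 1 = s e * N e) (n o : Fin M → ℤ)
    (ho : o ∈ box (fun _ => 0) (fun e => (s e : ℤ) - 1)) :
    (fun e => lo e + s e * n e) + o ∈ box lo hi ↔ n ∈ box (fun _ => 0) (fun e => N e - 1) := by
  simp only [mem_box, Pi.add_apply] at ho ⊢
  refine forall_congr' fun e => ?_
  obtain ⟨h0, h1⟩ := ho e
  have h2 := hN e
  have h3 : (0 : ℤ) < s e := by omega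
  constructor
  · rintro ⟨h4, h5⟩
    constructor
    · by_contra h6
      have : n e ≤ -1 := by omega
      nlinarith
    · by_contra h6
      have : N e ≤ n e := by omega
      nlinarith
  · rintro ⟨h4, h5⟩
    constructor
    · nlinarith
    · nlinarith

theorem zp_sum_split (lo hi N : Fin M → ℤ) (s : Fin M → ℕ) (hs : ∀ e, 0 < s e)
    (hN : ∀ e, hi e - lo e + 1 = s e * N e) (F : (Fin M → ℤ) → ℝ) :
    ∑ y ∈ box lo hi, F y = ∑ n ∈ box (fun _ => 0) (fun e => N e - 1),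
      ∑ o ∈ box (fun _ => 0) (fun e => (s e : ℤ) - 1), F ((fun e => lo e + s e * n e) + o) := by
  rw [← Finset.sum_product']
  have hs' : ∀ e, (0 : ℤ) < s e := fun e => by exact_mod_cast hs e
  have key : ∀ y : Fin M → ℤ, ((fun e => lo e + s e * ((y e - lo e) / s e)) +
      fun e => (y e - lo e) % s e) = y := by
    intro y
    funext e
    have := Int.mul_ediv_add_emod (y e - lo e) (s e)
    simp only [Pi.add_apply]
    omega
  have hmod : ∀ y : Fin M → ℤ,
      (fun e => (y e - lo e) % s e) ∈ box (fun _ => 0) (fun e => (s e : ℤ) - 1) := by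
    intro y
    rw [mem_box]
    intro e
    have h1 := Int.emod_nonneg (y e - lo e) (hs' e).ne'
    have h2 := Int.emod_lt_of_pos (y e - lo e) (hs' e)
    omega
  refine Finset.sum_nbij' (fun y => (fun e => (y e - lo e) / s e, fun e => (y e - lo e) % s e))
    (fun p => (fun e => lo e + s e * p.1 e) + p.2) ?_ ?_ ?_ ?_ ?_
  · intro y hy
    rw [Finset.mem_product]
    refine ⟨?_, hmod y⟩
    rw [← zp_mem_iff lo hi N s hN _ _ (hmod y), key]
    exact hy
  · intro p hp
    rw [Finset.mem_product] at hp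
    exact (zp_mem_iff lo hi N s hN _ _ hp.2).2 hp.1
  · intro y _
    exact key y
  · intro p hp
    rw [Finset.mem_product] at hp
    have h2 := mem_box.1 hp.2
    ext e
    · obtain ⟨h3, h4⟩ := h2 e
      have : lo e + s e * p.1 e + p.2 e - lo e = p.2 e + s e * p.1 e := by ring
      simp only [Pi.add_apply, this]
      rw [Int.add_mul_ediv_left _ _ (hs' e).ne', Int.ediv_eq_zero_of_lt h3 (by omega), zero_add]
    · obtain ⟨h3, h4⟩ := h2 e
      have : lo e + s e * p.1 e + p.2 e - lo e = p.2 e + s e * p.1 e := by ring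
      simp only [Pi.add_apply, this]
      rw [Int.add_mul_emod_self_left, Int.emod_eq_of_lt h3 (by omega)]
  · intro y _
    rw [key]

theorem long_poincare (lo hi : Fin M → ℤ) (s : Fin M → ℕ) (hs : ∀ e, 0 < s e)
    (hdvd : ∀ e, (s e : ℤ) ∣ hi e - lo e + 1)
    (μ : (Fin M → ℤ) → ℝ) (hμ : ∀ y ∈ box lo hi, 0 < μ y)
    (hsm : ∀ y ∈ box lo hi, ∀ y' ∈ box lo hi, (∀ e, |y e - y' e| ≤ s e) → μ y' ≤ 2 * μ y)
    {κ η : ℝ} (hκ : 0 < κ) (hη : η ≤ 1 / 2) (hκη : 4 * M * η ^ 2 ≤ κ)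
    (hA : ∀ y ∈ box lo hi, ∃ A : Fin M → Fin M → ℝ,
      (∀ e e', y + (s e : ℤ) • ec e + (s e' : ℤ) • ec e' ∈ box lo hi →
        μ (y + (s e : ℤ) • ec e) * μ (y + (s e' : ℤ) • ec e') =
          (1 + A e e') * (μ y * μ (y + (s e : ℤ) • ec e + (s e' : ℤ) • ec e'))) ∧
      (∀ e e', |A e e'| ≤ η) ∧
      ∀ z : Fin M → ℝ, (∀ e, y + (s e : ℤ) • ec e ∉ box lo hi → z e = 0) →
        κ * ∑ e, z e ^ 2 ≤ ∑ e, ∑ e', A e e' * z e * z e')
    (g : (Fin M → ℤ) → ℝ) :
    ∃ c : ℝ, ∑ y ∈ box lo hi, μ y * (g y - c) ^ 2 ≤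
      (16 / κ + 4) *
        ((∑ e, ∑ y ∈ box lo hi, edge (box lo hi) μ g y (y + (s e : ℤ) • ec e)) +
          ∑ e, 1 / (s e : ℝ) * ∑ j ∈ range (s e), ∑ y ∈ box lo hi,
            edge (box lo hi) μ g y (y + (j : ℤ) • ec e)) := by
  choose N hN using hdvd
  set φ : (Fin M → ℤ) → Fin M → ℤ := fun n e => lo e + s e * n e with hφ
  set O := box (fun _ : Fin M => (0 : ℤ)) (fun e => (s e : ℤ) - 1) with hO
  set Q := box (fun _ : Fin M => (0 : ℤ)) (fun e => N e - 1) with hQ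
  set P : ℝ := ∏ e, (s e : ℝ) with hP
  have hP0 : 0 < P := Finset.prod_pos fun e _ => by exact_mod_cast hs e
  have hcO : (O.card : ℝ) = P := zp_card_box s
  have h0O : (0 : Fin M → ℤ) ∈ O := by
    rw [hO, mem_box]
    intro e
    have := hs e
    simp only [Pi.zero_apply]
    omega
  have hmem : ∀ n, ∀ o ∈ O, φ n + o ∈ box lo hi ↔ n ∈ Q := fun n o ho =>
    zp_mem_iff lo hi N s hN n o ho
  have hmem0 : ∀ n, φ n ∈ box lo hi ↔ n ∈ Q := fun n => by
    simpa using hmem n 0 h0O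
  have hstep : ∀ n e, φ (n + ec e) = φ n + (s e : ℤ) • ec e := by
    intro n e
    funext e'
    by_cases h : e' = e
    · subst h; simp [hφ, ec]; ring
    · simp [hφ, ec, h]
  have hsplit : ∀ F : (Fin M → ℤ) → ℝ, ∑ y ∈ box lo hi, F y = ∑ n ∈ Q, ∑ o ∈ O, F (φ n + o) :=
    zp_sum_split lo hi N s hs hN
  have hclose : ∀ n, ∀ o ∈ O, ∀ e, |(φ n + o) e - φ n e| ≤ s e := by
    intro n o ho e
    obtain ⟨h1, h2⟩ := mem_box.1 ho e
    simp only [Pi.add_apply, add_sub_cancel_left]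
    rw [abs_le]
    constructor <;> omega
  have hup : ∀ n ∈ Q, ∀ o ∈ O, μ (φ n + o) ≤ 2 * μ (φ n) := fun n hn o ho =>
    hsm _ ((hmem0 n).2 hn) _ ((hmem n o ho).2 hn) fun e => by
      rw [abs_sub_comm]; exact hclose n o ho e
  have hdown : ∀ n ∈ Q, ∀ o ∈ O, μ (φ n) ≤ 2 * μ (φ n + o) := fun n hn o ho =>
    hsm _ ((hmem n o ho).2 hn) _ ((hmem0 n).2 hn) (hclose n o ho)
  set gb : (Fin M → ℤ) → ℝ := fun n => (∑ o ∈ O, g (φ n + o)) / P with hgb
  obtain ⟨c, hc⟩ := bochner_poincare (fun _ : Fin M => (0 : ℤ)) (fun e => N e - 1)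
    (fun n => μ (φ n)) (fun n hn => hμ _ ((hmem0 n).2 hn)) hκ hη hκη
    (fun n hn => by
      obtain ⟨A, h1, h2, h3⟩ := hA _ ((hmem0 n).2 hn)
      refine ⟨A, fun e e' h => ?_, h2, fun z hz => h3 z fun e he => hz e fun h => he ?_⟩
      · simp only [hstep]
        refine h1 e e' ?_
        rw [← hstep, ← hstep]
        exact (hmem0 _).2 h
      · rw [← hstep]
        exact (hmem0 _).2 h) gb
  rw [← hQ] at hc
  refine ⟨c, ?_⟩
  set E1 := ∑ e, ∑ y ∈ box lo hi, edge (box lo hi) μ g y (y + (s e : ℤ) • ec e) with hE1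
  set E2 := ∑ e, 1 / (s e : ℝ) * ∑ j ∈ range (s e), ∑ y ∈ box lo hi,
    edge (box lo hi) μ g y (y + (j : ℤ) • ec e) with hE2
  have hE1n : 0 ≤ E1 :=
    Finset.sum_nonneg fun e _ => Finset.sum_nonneg fun y _ => edge_nonneg hμ g _ _
  have hE2n : 0 ≤ E2 :=
    Finset.sum_nonneg fun e _ => mul_nonneg (by positivity)
      (Finset.sum_nonneg fun j _ => Finset.sum_nonneg fun y _ => edge_nonneg hμ g _ _)
  -- decomposition
  have h1 : ∑ y ∈ box lo hi, μ y * (g y - c) ^ 2 ≤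
      2 * (∑ n ∈ Q, μ (φ n) * ∑ o ∈ O, (g (φ n + o) - gb n) ^ 2) +
        2 * (P * ∑ n ∈ Q, μ (φ n) * (gb n - c) ^ 2) := by
    rw [hsplit, Finset.mul_sum Q, Finset.mul_sum Q, Finset.mul_sum Q, ← Finset.sum_add_distrib]
    refine Finset.sum_le_sum fun n hn => ?_
    have h2 := zp_var_decomp O (fun o => g (φ n + o)) (m := gb n) c (by
      rw [hcO, hgb]; field_simp)
    rw [hcO] at h2
    calc ∑ o ∈ O, μ (φ n + o) * (g (φ n + o) - c) ^ 2
        ≤ ∑ o ∈ O, 2 * μ (φ n) * (g (φ n + o) - c) ^ 2 :=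
          Finset.sum_le_sum fun o ho => mul_le_mul_of_nonneg_right (hup n hn o ho) (sq_nonneg _)
      _ = _ := by rw [← Finset.mul_sum, h2]; ring
  -- the offsets
  have h2 : ∑ n ∈ Q, μ (φ n) * ∑ o ∈ O, (g (φ n + o) - gb n) ^ 2 ≤ 2 * E2 := by
    have h3 : ∀ n ∈ Q, μ (φ n) * ∑ o ∈ O, (g (φ n + o) - gb n) ^ 2 ≤
        ∑ e, 2 * (1 / (s e : ℝ) * ∑ j ∈ range (s e), ∑ o ∈ O,
          edge (box lo hi) μ g (φ n + o) (φ n + o + (j : ℤ) • ec e)) := by
      intro n hn
      have hμn := hμ _ ((hmem0 n).2 hn)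
      have h4 := efron_stein s hs (fun o => g (φ n + o))
      rw [← hO, ← hP] at h4
      refine le_trans (mul_le_mul_of_nonneg_left h4 hμn.le) ?_
      rw [Finset.mul_sum]
      refine Finset.sum_le_sum fun e _ => ?_
      rw [mul_left_comm, mul_left_comm 2]
      refine mul_le_mul_of_nonneg_left ?_ (by positivity)
      rw [Finset.mul_sum, Finset.mul_sum]
      refine Finset.sum_le_sum fun j _ => ?_
      rw [Finset.sum_filter, Finset.mul_sum, Finset.mul_sum]
      refine Finset.sum_le_sum fun o ho => ?_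
      split_ifs with h5
      · have h6 := hdown n hn o ho
        have h7 := hdown n hn _ h5
        rw [← add_assoc] at h7
        have h8 := (hmem n _ h5).2 hn
        rw [← add_assoc] at h8
        unfold edge
        rw [if_pos ⟨(hmem n o ho).2 hn, h8⟩, ← add_assoc, ← mul_assoc]
        have h9 : μ (φ n) ≤ 2 * min (μ (φ n + o)) (μ (φ n + o + (j : ℤ) • ec e)) := by
          rcases le_total (μ (φ n + o)) (μ (φ n + o + (j : ℤ) • ec e)) with h | h
          · rw [min_eq_left h]; exact h6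
          · rw [min_eq_right h]; exact h7
        rw [← neg_sub, neg_sq]
        exact mul_le_mul_of_nonneg_right h9 (sq_nonneg _)
      · rw [mul_zero]
        exact mul_nonneg zero_le_two (edge_nonneg hμ g _ _)
    refine le_trans (Finset.sum_le_sum h3) (le_of_eq ?_)
    rw [Finset.sum_comm, hE2, Finset.mul_sum]
    refine Finset.sum_congr rfl fun e _ => ?_
    rw [← Finset.mul_sum, ← Finset.mul_sum, Finset.sum_comm]
    simp only [hsplit]
  -- the coarse part
  have h3 : P * ∑ e, ∑ n ∈ Q.filter (fun n => n + ec e ∈ Q), μ (φ n) * (gb (n + ec e) - gb n) ^ 2 ≤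
      4 * E1 := by
    rw [hE1, Finset.mul_sum, Finset.mul_sum]
    refine Finset.sum_le_sum fun e _ => ?_
    rw [hsplit, Finset.sum_filter, Finset.mul_sum, Finset.mul_sum]
    refine Finset.sum_le_sum fun n hn => ?_
    split_ifs with h4
    · have hμn := hμ _ ((hmem0 n).2 hn)
      have h5 := zp_jensen O (fun o => g (φ (n + ec e) + o) - g (φ n + o)) hP0 hcO
      rw [Finset.sum_sub_distrib, sub_div] at h5
      rw [mul_left_comm]
      refine le_trans (mul_le_mul_of_nonneg_left h5 hμn.le) ?_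
      rw [Finset.mul_sum, Finset.mul_sum]
      refine Finset.sum_le_sum fun o ho => ?_
      have h6 : φ (n + ec e) + o = φ n + o + (s e : ℤ) • ec e := by rw [hstep]; abel
      have h7 := (hmem n o ho).2 hn
      have h8 := (hmem _ o ho).2 h4
      rw [h6] at h8 ⊢
      have h9 := hdown n hn o ho
      have h10 : μ (φ n + o) ≤ 2 * μ (φ n + o + (s e : ℤ) • ec e) := by
        refine hsm _ h8 _ h7 fun e' => ?_
        by_cases h : e' = e
        · subst h; simp [ec]
        · simp [ec, h]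
      have h11 := hμ _ h7
      unfold edge
      rw [if_pos ⟨h7, h8⟩, ← mul_assoc]
      have h12 : μ (φ n) ≤ 4 * min (μ (φ n + o)) (μ (φ n + o + (s e : ℤ) • ec e)) := by
        rcases le_total (μ (φ n + o)) (μ (φ n + o + (s e : ℤ) • ec e)) with h | h
        · rw [min_eq_left h]; linarith
        · rw [min_eq_right h]; linarith
      rw [← neg_sub, neg_sq]
      exact mul_le_mul_of_nonneg_right h12 (sq_nonneg _)
    · rw [mul_zero]
      exact mul_nonneg (by norm_num) (Finset.sum_nonneg fun o _ => edge_nonneg hμ g _ _)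
  have h4 : P * ∑ n ∈ Q, μ (φ n) * (gb n - c) ^ 2 ≤ 2 / κ * (4 * E1) := by
    refine le_trans (mul_le_mul_of_nonneg_left hc hP0.le) ?_
    rw [mul_left_comm]
    exact mul_le_mul_of_nonneg_left h3 (by positivity)
  have h5 : 0 ≤ 16 / κ * E2 := by positivity
  have h6 : 2 / κ * (4 * E1) * 2 = 16 / κ * E1 := by ring
  nlinarith

end Crest.Agent.R309
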