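import Crest.Agent.R309.Param
import Crest.Agent.R309.ZP
import Crest.Agent.R309.LorLim

/-!
# Row 309: Poincaré inequality on the thick fibres

A fibre is given by the values `x` of the cells that are not thick and a root `r`.  `Bal y a w` only
depends on `x` and `root a` (thick cells have `root u = root v`).  For a balanced fibre apply
`long_poincare` in the box where the free cells (`thick`, not `tree`) keep their range and every other
coordinate is frozen (interval `[x e, x e]` or `[0,0]`, step `1`), to `μ z = wt f (Phi z r w) * ω r` and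
`z ↦ g (Phi z r w, r)`; note `Phi (z + j • ec e) r w = Phi z r w + j • cyc e` for free `e`.  This gives a
constant `c x r`; put `gt X a = c (X restricted to the non-thick cells) (root a)`.  Then use
`sum_Om`, `Forest.sum_cl_root`, `(g - c)² ≤ 2 (g (X + path a, a) - g (X, r))² + 2 (g (X, r) - c)²` and
`W (X + path a, a) ≤ 2 cω * min (W (X + path a, a)) (W (X, r))`.
-/

set_option autoImplicit false

namespace Crest.Agent.R309

open Finset

namespace Mdl

variable {V : Type} [Fintype V] [DecidableEq V] {M : ℕ} (m : Mdl V M)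

/-- Weight of a state. -/
noncomputable def W (f : Fin M → ℤ → ℝ) (ω : V → ℝ) (x : (Fin M → ℤ) × V) : ℝ := wt f x.1 * ω x.2

noncomputable def Dunit (f : Fin M → ℤ → ℝ) (ω : V → ℝ) (w : V) (g : (Fin M → ℤ) × V → ℝ) : ℝ :=
  ∑ e, ∑ X ∈ box m.lo m.hi, edge (m.Om w) (W f ω) g (X, m.v e) (X + ec e, m.u e)

noncomputable def Dcoarse (s : Fin M → ℕ) (f : Fin M → ℤ → ℝ) (ω : V → ℝ) (w : V)
    (g : (Fin M → ℤ) × V → ℝ) : ℝ :=
  ∑ e, ∑ x ∈ m.Om w, edge (m.Om w) (W f ω) g x (x.1 + (s e : ℤ) • m.cyc e, x.2)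

noncomputable def Doff (s : Fin M → ℕ) (f : Fin M → ℤ → ℝ) (ω : V → ℝ) (w : V)
    (g : (Fin M → ℤ) × V → ℝ) : ℝ :=
  ∑ e, 1 / (s e : ℝ) * ∑ j ∈ range (s e), ∑ x ∈ m.Om w,
    edge (m.Om w) (W f ω) g x (x.1 + (j : ℤ) • m.cyc e, x.2)

noncomputable def Dpath (f : Fin M → ℤ → ℝ) (ω : V → ℝ) (w : V) (g : (Fin M → ℤ) × V → ℝ) : ℝ :=
  ∑ b, ∑ X ∈ box m.lo m.hi, edge (m.Om w) (W f ω) g (X, m.root b) (X + m.path b, b)

/-- All edges used in the analysis. -/
noncomputable def Dall (s : Fin M → ℕ) (f : Fin M → ℤ → ℝ) (ω : V → ℝ) (w : V)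
    (g : (Fin M → ℤ) × V → ℝ) : ℝ :=
  m.Dunit f ω w g + m.Dcoarse s f ω w g + m.Doff s f ω w g + m.Dpath f ω w g

/-- Combinatorial hypotheses on thick cells and steps. -/
structure Thick (thick : Fin M → Bool) (s : Fin M → ℕ) : Prop where
  forest : m.Forest
  ne : ∀ e, m.u e ≠ m.v e
  tree_thick : ∀ e, m.tree e = true → thick e = true
  root_eq : ∀ e, thick e = true → m.root (m.u e) = m.root (m.v e)
  root_root : ∀ a, m.root (m.root a) = m.root a
  path_root : ∀ a, m.path (m.root a) = 0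
  s_pos : ∀ e, 0 < s e
  dvd : ∀ e, thick e = true → m.tree e = false → (s e : ℤ) ∣ m.hi e - m.lo e + 1

/-- Smoothness of the weights along the thick directions. -/
structure Smooth (thick : Fin M → Bool) (s : Fin M → ℕ) (f : Fin M → ℤ → ℝ) (κB η : ℝ) : Prop where
  pos : ∀ X ∈ box m.lo m.hi, 0 < wt f X
  sm : ∀ X ∈ box m.lo m.hi, ∀ c : Fin M → ℤ, (∀ e, |c e| ≤ s e) →
    (∀ e, ¬ (thick e = true ∧ m.tree e = false) → c e = 0) →
    X + ∑ e, c e • m.cyc e ∈ box m.lo m.hi → wt f (X + ∑ e, c e • m.cyc e) ≤ 2 * wt f X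
  smp : ∀ X ∈ box m.lo m.hi, ∀ a, X + m.path a ∈ box m.lo m.hi →
    wt f (X + m.path a) ≤ 2 * wt f X ∧ wt f X ≤ 2 * wt f (X + m.path a)
  bo : ∀ X ∈ box m.lo m.hi, ∃ A : Fin M → Fin M → ℝ,
    (∀ e e', thick e = true → m.tree e = false → thick e' = true → m.tree e' = false →
      wt f (X + (s e : ℤ) • m.cyc e) * wt f (X + (s e' : ℤ) • m.cyc e') =
        (1 + A e e') * (wt f X * wt f (X + (s e : ℤ) • m.cyc e + (s e' : ℤ) • m.cyc e'))) ∧
    (∀ e e', |A e e'| ≤ η) ∧
    ∀ z : Fin M → ℝ, (∀ e, ¬ (thick e = true ∧ m.tree e = false) → z e = 0) →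
      κB * ∑ e, z e ^ 2 ≤ ∑ e, ∑ e', A e e' * z e * z e'
  κB_pos : 0 < κB
  η_le : η ≤ 1 / 2
  small : 4 * M * η ^ 2 ≤ κB

variable {m}

lemma Forest.Phi_add (h : m.Forest) (y c : Fin M → ℤ) (a w : V) :
    m.Phi (y + c) a w = m.Phi y a w + ∑ e, c e • m.cyc e := by
  have : ∑ e, c e • m.cyc e = ∑ e ∈ univ.filter (fun e => m.tree e = false), c e • m.cyc e :=
    (sum_filter_of_ne fun e _ he => by
      by_contra h'; exact he (by rw [h.cyc_tree e (by simpa using h'), smul_zero])).symm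
  simp only [Phi, this, Pi.add_apply, add_sub_right_comm, add_smul, sum_add_distrib]
  abel

lemma Forest.Phi_ec (h : m.Forest) (y : Fin M → ℤ) (j : ℤ) (e : Fin M) (a w : V) :
    m.Phi (y + j • ec e) a w = m.Phi y a w + j • m.cyc e := by
  rw [h.Phi_add, sum_eq_single e (fun b _ hb => by simp [ec, hb]) (by simp)]
  simp [ec]

lemma cl_box {a w : V} {X : Fin M → ℤ} (h : X ∈ m.cl a w) : X ∈ box m.lo m.hi :=
  filter_subset _ _ h

/-- the values of the cells that are not thick -/
def key (thick : Fin M → Bool) (X : Fin M → ℤ) (e : Fin M) : ℤ := if thick e then 0 else X e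

/-- Poincaré inequality on one fibre -/
lemma one_fiber {thick : Fin M → Bool} {s : Fin M → ℕ} {f : Fin M → ℤ → ℝ} {κB η : ℝ}
    (hT : m.Thick thick s) (hS : m.Smooth thick s f κB η) (ω : V → ℝ) (hω : ∀ a, 0 < ω a) (w : V)
    (g : (Fin M → ℤ) × V → ℝ) (k : Fin M → ℤ) (r : V) :
    ∃ c : ℝ, ∑ X ∈ m.cl r w with key thick X = k, W f ω (X, r) * (g (X, r) - c) ^ 2 ≤
      (16 / κB + 4) * ∑ X ∈ m.cl r w with key thick X = k,
        ((∑ e, edge (m.Om w) (W f ω) g (X, r) (X + (s e : ℤ) • m.cyc e, r)) +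
          ∑ e, 1 / (s e : ℝ) * ∑ j ∈ range (s e),
            edge (m.Om w) (W f ω) g (X, r) (X + (j : ℤ) • m.cyc e, r)) := by
  have hF := hT.forest
  have hκ := hS.κB_pos
  rcases ((m.cl r w).filter fun X => key thick X = k).eq_empty_or_nonempty with h0 | ⟨X₁, hX₀⟩
  · exact ⟨0, by simp [h0]⟩
  obtain ⟨hX₁, rfl⟩ := mem_filter.1 hX₀
  have hb := mem_box.1 (cl_box hX₁)
  have hW : ∀ x ∈ m.Om w, 0 < W f ω x := fun x hx =>
    mul_pos (hS.pos _ (cl_box (mem_Om.1 hx))) (hω _)
  let fr : (Fin M → ℤ) → Fin M → ℤ := fun b e =>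
    if m.tree e then 0 else if thick e then b e else X₁ e
  let s' : Fin M → ℕ := fun e => if thick e = true ∧ m.tree e = false then s e else 1
  let B := box (fr m.lo) (fr m.hi)
  have hfr : ∀ y ∈ B, ∀ y' ∈ B, ∀ e, ¬ (thick e = true ∧ m.tree e = false) → y e = y' e :=
    fun y hy y' hy' e he => by
      have k1 := mem_box.1 hy e; have k2 := mem_box.1 hy' e
      cases h1 : m.tree e <;> cases h2 : thick e <;> simp [fr, h1, h2] at he k1 k2 <;> omega
  have hBf : ∀ y ∈ B, y ∈ m.fbox := fun y hy => mem_box.2 fun e => by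
    have k1 := mem_box.1 hy e; have := hb e
    cases h1 : m.tree e <;> cases h2 : thick e <;> simp [fr, h1, h2] at k1 ⊢ <;> omega
  have hy₁ : (fun e => if m.tree e then 0 else X₁ e) ∈ B := mem_box.2 fun e => by
    have := hb e
    cases h1 : m.tree e <;> cases h2 : thick e <;> simp [fr, h1, h2, this]
  have hbal : ∀ y ∈ B, m.Bal y r w := fun y hy => by
    have := (hF.Phi_mem_cl (hBf _ hy₁) r w).1 (hF.eq_Phi hX₁ ▸ hX₁)
    refine Eq.trans (sum_congr rfl fun e he => ?_) this
    by_cases h : thick e = true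
    · simp [hT.root_eq e h]
    · rw [hfr y hy _ hy₁ e fun h' => h h'.1]
  have hcl : ∀ y ∈ B, (m.Phi y r w, r) ∈ m.Om w := fun y hy =>
    mem_Om.2 ((hF.Phi_mem_cl (hBf y hy) r w).2 (hbal y hy))
  have hnt : ∀ e, ¬ thick e = true → m.tree e = false := fun e h => by
    by_contra h'; exact h (hT.tree_thick e (by simpa using h'))
  have hsum : ∀ G : (Fin M → ℤ) → ℝ, ∑ X ∈ m.cl r w with key thick X = key thick X₁, G X =
      ∑ y ∈ B, G (m.Phi y r w) := fun G => by
    rw [sum_filter, hF.sum_cl, ← sum_filter]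
    refine sum_congr (ext fun y => ?_) fun _ _ => rfl
    simp only [mem_filter]
    refine ⟨fun ⟨⟨h1, _⟩, h2⟩ => mem_box.2 fun e => ?_, fun hy => ⟨⟨hBf y hy, hbal y hy⟩, ?_⟩⟩
    · have h3 := mem_box.1 h1 e
      have h4 := congrFun h2 e
      cases h5 : m.tree e
      · simp only [key, hF.Phi_apply y r w h5] at h4
        cases h6 : thick e <;> simp [fr, h5, h6] at h3 h4 ⊢ <;> omega
      · simpa [fr, h5] using h3
    · ext e
      by_cases h : thick e = true
      · simp [key, h]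
      · simp [key, h, hF.Phi_apply y r w (hnt e h), hfr y hy _ hy₁ e fun h' => h h'.1, hnt e h]
  have hs' : ∀ e, 0 < s' e := fun e => by
    simp only [s']; split_ifs; exacts [hT.s_pos e, one_pos]
  have hfree : ∀ y ∈ B, ∀ e (c : Fin M → ℤ), 0 ≤ c e → y + (s' e : ℤ) • ec e + c ∈ B →
      thick e = true ∧ m.tree e = false := fun y hy e c hc h => by
    by_contra h'
    have k := hfr y hy _ h e h'
    have := hs' e
    simp only [ec, Pi.add_apply, Pi.smul_apply, Pi.single_eq_same, smul_eq_mul] at k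
    omega
  have hec : ∀ e e', (0 : ℤ) ≤ ((s' e : ℤ) • ec e) e' := fun e e' => by
    simp only [ec, Pi.smul_apply, Pi.single_apply, smul_eq_mul]; positivity
  obtain ⟨c, hc⟩ := long_poincare (fr m.lo) (fr m.hi) s' hs'
    (fun e => by
      by_cases h : thick e = true ∧ m.tree e = false
      · simpa [s', fr, h] using hT.dvd e h.1 h.2
      · simp [s', h])
    (fun y => W f ω (m.Phi y r w, r)) (fun y hy => hW _ (hcl y hy))
    (fun y hy y' hy' h => by
      have e1 : m.Phi y' r w = m.Phi y r w + ∑ e, (y' - y) e • m.cyc e := by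
        rw [← hF.Phi_add, add_sub_cancel]
      have := hS.sm _ (hF.Phi_mem_box (hBf y hy) r w) (y' - y) (fun e => by
        by_cases h' : thick e = true ∧ m.tree e = false
        · simpa [s', h', abs_sub_comm] using h e
        · simp [hfr y hy y' hy' e h']) (fun e he => by simp [hfr y hy y' hy' e he])
        (e1 ▸ hF.Phi_mem_box (hBf y' hy') r w)
      simp only [W, e1, ← mul_assoc]
      exact mul_le_mul_of_nonneg_right this (hω r).le)
    hκ hS.η_le hS.small
    (fun y hy => by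
      obtain ⟨A, h1, h2, h3⟩ := hS.bo _ (hF.Phi_mem_box (hBf y hy) r w)
      refine ⟨A, fun e e' h => ?_, h2, fun z hz => h3 z fun e he => hz e fun h =>
        he (hfree y hy e 0 le_rfl (by rwa [add_zero]))⟩
      have k1 := hfree y hy e _ (hec e' e) h
      have k2 := hfree y hy e' _ (hec e e') (by rwa [add_right_comm])
      have := h1 e e' k1.1 k1.2 k2.1 k2.2
      simp only [W, hF.Phi_ec, s', k1, k2, and_self, if_true]
      linear_combination ω r ^ 2 * this)
    fun y => g (m.Phi y r w, r)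
  have hedge : ∀ y ∈ B, ∀ (j : ℤ) e, edge B (fun y => W f ω (m.Phi y r w, r))
      (fun y => g (m.Phi y r w, r)) y (y + j • ec e) ≤
        edge (m.Om w) (W f ω) g (m.Phi y r w, r) (m.Phi y r w + j • m.cyc e, r) := fun y hy j e => by
    by_cases h : y + j • ec e ∈ B
    · simp only [edge, ← hF.Phi_ec, hy, h, hcl, and_self, if_true, le_refl]
    · rw [edge, if_neg fun h' => h h'.2]; exact edge_nonneg hW _ _ _
  refine ⟨c, (hsum _).trans_le (hc.trans ?_)⟩
  rw [hsum, sum_add_distrib, sum_comm (s := B), sum_comm (s := B)]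
  refine mul_le_mul_of_nonneg_left (add_le_add (sum_le_sum fun e _ => sum_le_sum fun y hy => ?_)
    (sum_le_sum fun e _ => ?_)) (by positivity)
  · by_cases h : thick e = true ∧ m.tree e = false
    · simpa only [s', if_pos h] using hedge y hy (s e) e
    · rw [edge, if_neg fun h' => h (hfree y hy e 0 le_rfl (by simpa using h'.2))]
      exact edge_nonneg hW _ _ _
  · rw [← mul_sum]
    by_cases h : thick e = true ∧ m.tree e = false
    · simp only [s', if_pos h]
      rw [sum_comm]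
      exact mul_le_mul_of_nonneg_left (sum_le_sum fun y hy => sum_le_sum fun j _ => hedge y hy j e)
        (by positivity)
    · refine le_trans (by simp [s', h, edge]) (mul_nonneg (by positivity)
        (sum_nonneg fun _ _ => sum_nonneg fun _ _ => edge_nonneg hW _ _ _))

theorem fiber_poincare {thick : Fin M → Bool} {s : Fin M → ℕ} {f : Fin M → ℤ → ℝ} {κB η : ℝ}
    (hT : m.Thick thick s) (hS : m.Smooth thick s f κB η) (ω : V → ℝ) (hω : ∀ a, 0 < ω a)
    {cω : ℝ} (hc1 : 1 ≤ cω) (hc : ∀ a, ω a ≤ cω * ω (m.root a)) (w : V)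
    (g : (Fin M → ℤ) × V → ℝ) :
    ∃ gt : (Fin M → ℤ) → V → ℝ, Inv m.u m.v m.lo m.hi (fun e => thick e = false) gt ∧
      ∑ x ∈ m.Om w, W f ω x * (g x - gt x.1 x.2) ^ 2 ≤
        4 * cω * (1 + Fintype.card V * (16 / κB + 4)) *
          (m.Dcoarse s f ω w g + m.Doff s f ω w g + m.Dpath f ω w g) := by
  have hF := hT.forest
  have hκ := hS.κB_pos
  have hW : ∀ x ∈ m.Om w, 0 < W f ω x := fun x hx =>
    mul_pos (hS.pos _ (cl_box (mem_Om.1 hx))) (hω _)
  have hE := fun x y => edge_nonneg hW g x y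
  choose c hc' using one_fiber hT hS ω hω w g
  refine ⟨fun X a => c (key thick X) (m.root a), fun e he X _ _ => ?_, ?_⟩
  · have he' : thick e = true := by simpa using he
    simp only [hT.root_eq e he']
    congr 1
    ext i
    by_cases h : i = e <;> simp [key, ec, h, he']
  let D : V → ℝ := fun r => ∑ X ∈ m.cl r w,
    ((∑ e, edge (m.Om w) (W f ω) g (X, r) (X + (s e : ℤ) • m.cyc e, r)) +
      ∑ e, 1 / (s e : ℝ) * ∑ j ∈ range (s e),
        edge (m.Om w) (W f ω) g (X, r) (X + (j : ℤ) • m.cyc e, r))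
  have hD0 : ∀ r, 0 ≤ D r := fun r => sum_nonneg fun X _ => add_nonneg (sum_nonneg fun _ _ => hE _ _)
    (sum_nonneg fun _ _ => mul_nonneg (by positivity) (sum_nonneg fun _ _ => hE _ _))
  have hD : ∑ r, D r = m.Dcoarse s f ω w g + m.Doff s f ω w g := by
    simp only [Dcoarse, Doff, D, sum_comm (t := m.Om w), mul_sum (s := m.Om w)]
    rw [← sum_add_distrib, sum_Om]
  have h1 : ∀ r, ∑ X ∈ m.cl r w, W f ω (X, r) * (g (X, r) - c (key thick X) r) ^ 2 ≤
      (16 / κB + 4) * (m.Dcoarse s f ω w g + m.Doff s f ω w g) := fun r => by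
    refine le_trans ?_ (mul_le_mul_of_nonneg_left (hD ▸ single_le_sum (fun r _ => hD0 r) (mem_univ r))
      (by positivity))
    simp only [D]
    rw [← sum_fiberwise_of_maps_to fun X hX => mem_image_of_mem (key thick) hX,
      ← sum_fiberwise_of_maps_to (s := m.cl r w) fun X hX => mem_image_of_mem (key thick) hX, mul_sum]
    refine sum_le_sum fun k _ => le_of_eq_of_le (sum_congr rfl fun X hX => ?_) (hc' k r)
    rw [(mem_filter.1 hX).2]
  have h2 : ∀ a, ∑ X ∈ m.cl a w, W f ω (X, a) * (g (X, a) - c (key thick X) (m.root a)) ^ 2 ≤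
      4 * cω * ((∑ X ∈ box m.lo m.hi, edge (m.Om w) (W f ω) g (X, m.root a) (X + m.path a, a)) +
        (16 / κB + 4) * (m.Dcoarse s f ω w g + m.Doff s f ω w g)) := fun a => by
    refine le_trans ?_ (mul_le_mul_of_nonneg_left (add_le_add (sum_le_sum_of_subset_of_nonneg
      (s := m.cl (m.root a) w) (filter_subset _ _) fun _ _ _ => hE _ _) (h1 (m.root a)))
      (by positivity))
    rw [hF.sum_cl_root hT.root_root hT.path_root, ← sum_add_distrib, mul_sum]
    refine sum_le_sum fun X hX => ?_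
    have hX' := hF.add_path_mem hT.root_root hT.path_root hX
    have k1 : (X, m.root a) ∈ m.Om w := mem_Om.2 hX
    have k2 : (X + m.path a, a) ∈ m.Om w := mem_Om.2 hX'
    have k3 : key thick (X + m.path a) = key thick X := by
      ext e
      cases h : m.tree e
      · simp [key, hF.path_supp a e h]
      · simp [key, hT.tree_thick e h]
    have k4 : W f ω (X + m.path a, a) ≤ 2 * cω * W f ω (X, m.root a) := by
      have hb := cl_box hX
      have := mul_le_mul (hS.smp X hb a (cl_box hX')).1 (hc a) (hω a).le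
        (mul_pos two_pos (hS.pos X hb)).le
      simp only [W]
      linarith
    have k5 := hW _ k2
    have k6 : W f ω (X + m.path a, a) ≤
        2 * cω * min (W f ω (X, m.root a)) (W f ω (X + m.path a, a)) := by
      rw [mul_min_of_nonneg _ _ (by positivity)]
      exact le_min k4 (by nlinarith)
    rw [k3, edge, if_pos ⟨k1, k2⟩]
    generalize c (key thick X) (m.root a) = d
    nlinarith [mul_le_mul_of_nonneg_right k4 (sq_nonneg (g (X, m.root a) - d)),
      mul_le_mul_of_nonneg_right k6 (sq_nonneg (g (X, m.root a) - g (X + m.path a, a))),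
      mul_nonneg k5.le (sq_nonneg (2 * g (X, m.root a) - g (X + m.path a, a) - d))]
  rw [sum_Om]
  refine (sum_le_sum fun a _ => h2 a).trans ?_
  rw [← mul_sum, sum_add_distrib, sum_const, card_univ, nsmul_eq_mul, mul_assoc (4 * cω)]
  refine mul_le_mul_of_nonneg_left ?_ (by positivity)
  have k1 : 0 ≤ m.Dcoarse s f ω w g + m.Doff s f ω w g := hD ▸ sum_nonneg fun r _ => hD0 r
  have k2 : 0 ≤ m.Dpath f ω w g := sum_nonneg fun _ _ => sum_nonneg fun _ _ => hE _ _
  have k3 : 0 ≤ Fintype.card V * (16 / κB + 4) := by positivity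
  change m.Dpath f ω w g + _ ≤ _
  nlinarith [mul_nonneg k3 k2]

end Mdl

end Crest.Agent.R309
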