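import Crest.Agent.R309.RP

/-!
# Row 309: the proposal of the chain, and the resulting mixing bound

A seed is `(sign, I, J)`.  `I % (3M + N)` selects the move.  `flip` changes the sign.  For `Dall_le` keep
only the seeds with sign `true`, group them by `i = I % nm` (and by `j = J % s e` for offset moves), use
`half_le_card_mod` and `edge_nonneg`; a seed whose token does not match proposes `x` itself and
contributes `0`.  `chain_mix` combines `restricted_poincare`, `Dall_le` and `mix` with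
`μ (X, a) = if a = w then wt f X * ψ (X e₀) / ∑ … else 0`; `1/2 ≤ ∑ W ≤ 2 N`.
-/

set_option autoImplicit false

namespace Crest.Agent.R309

open Finset

namespace Mdl

variable {nv M : ℕ} (m : Mdl (Fin (nv + 1)) M)

/-- Move number `i`: a vector, the start and the end of the token (currently at `a`). -/
def mv (s : Fin M → ℕ) (i J : ℕ) (a : Fin (nv + 1)) :
    (Fin M → ℤ) × Fin (nv + 1) × Fin (nv + 1) :=
  if h : i < M then (ec ⟨i, h⟩, m.v ⟨i, h⟩, m.u ⟨i, h⟩)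
  else if h : i - M < M then ((s ⟨i - M, h⟩ : ℤ) • m.cyc ⟨i - M, h⟩, a, a)
  else if h : i - 2 * M < M then (((J % s ⟨i - 2 * M, h⟩ : ℕ) : ℤ) • m.cyc ⟨i - 2 * M, h⟩, a, a)
  else (m.path (Fin.ofNat (nv + 1) (i - 3 * M)), m.root (Fin.ofNat (nv + 1) (i - 3 * M)),
    Fin.ofNat (nv + 1) (i - 3 * M))

/-- Seeds. -/
abbrev Seed (K : ℕ) : Type := Bool × Fin (2 ^ K) × Fin (2 ^ K)

/-- The proposal. -/
def prop (s : Fin M → ℕ) (K : ℕ) (x : (Fin M → ℤ) × Fin (nv + 1)) (σ : Seed K) :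
    (Fin M → ℤ) × Fin (nv + 1) :=
  let r := m.mv s (σ.2.1 % (3 * M + nv + 1)) σ.2.2 x.2
  if σ.1 then (if x.2 = r.2.1 then (x.1 + r.1, r.2.2) else x)
  else (if x.2 = r.2.2 then (x.1 - r.1, r.2.1) else x)

variable {m}

theorem mv_fst (s : Fin M → ℕ) (i J : ℕ) (a : Fin (nv + 1)) :
    m.mv s i J (m.mv s i J a).2.1 = m.mv s i J a := by
  unfold mv
  split_ifs <;> rfl

theorem mv_snd (s : Fin M → ℕ) (i J : ℕ) (a : Fin (nv + 1)) :
    m.mv s i J (m.mv s i J a).2.2 = m.mv s i J a := by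
  unfold mv
  split_ifs <;> rfl

theorem prop_flip (s : Fin M → ℕ) (K : ℕ) (x : (Fin M → ℤ) × Fin (nv + 1)) (σ : Seed K)
    (h : m.prop s K x σ ≠ x) : m.prop s K (m.prop s K x σ) (!σ.1, σ.2) = x := by
  obtain ⟨X, a⟩ := x
  obtain ⟨b, I, J⟩ := σ
  cases b with
  | true =>
    simp only [prop, if_true] at h ⊢
    split_ifs at h with h1
    · simp only [if_pos h1, Bool.not_true, Bool.false_eq_true, if_false, mv_snd, if_true,
        add_sub_cancel_right]
      rw [← h1]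
    · exact absurd rfl h
  | false =>
    simp only [prop, Bool.false_eq_true, if_false] at h ⊢
    split_ifs at h with h1
    · simp only [if_pos h1, Bool.not_false, if_true, mv_fst, sub_add_cancel]
      rw [← h1]
    · exact absurd rfl h

theorem sum_mod_ge {n s : ℕ} (hs : 0 < s) (hn : s ≤ n) (F : ℕ → ℝ) (hF : ∀ i, 0 ≤ F i) :
    (n : ℝ) / (2 * s) * ∑ i ∈ range s, F i ≤ ∑ I : Fin n, F (I % s) := by
  rw [← sum_range (f := fun I => F (I % s)),
    ← sum_fiberwise_of_maps_to (s := range n) (t := range s) (g := fun I => I % s)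
      (fun I _ => mem_range.2 (Nat.mod_lt _ hs)), mul_sum]
  refine sum_le_sum fun i hi => ?_
  have h1 := half_le_card_mod n (s := s) (by exact_mod_cast hs) (by exact_mod_cast hn)
    (r := i) (by positivity) (by exact_mod_cast mem_range.1 hi)
  have h2 : ((range n).filter fun j : ℕ => (j : ℤ) % (s : ℤ) = (i : ℤ)) =
      (range n).filter fun j : ℕ => j % s = i := by
    refine filter_congr fun j _ => ?_
    norm_cast
  rw [h2, Int.cast_natCast] at h1
  rw [sum_congr rfl (g := fun _ => F i) fun j hj => by rw [(mem_filter.1 hj).2], sum_const,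
    nsmul_eq_mul]
  exact mul_le_mul_of_nonneg_right h1 (hF i)

theorem sum_tok (w : Fin (nv + 1)) (Wt g : (Fin M → ℤ) × Fin (nv + 1) → ℝ) (d : Fin M → ℤ)
    (p q : Fin (nv + 1)) :
    ∑ x ∈ m.Om w, edge (m.Om w) Wt g x (if x.2 = p then (x.1 + d, q) else x) =
      ∑ X ∈ box m.lo m.hi, edge (m.Om w) Wt g (X, p) (X + d, q) := by
  have h1 : ∑ x ∈ m.Om w, edge (m.Om w) Wt g x (if x.2 = p then (x.1 + d, q) else x) =
      ∑ x ∈ box m.lo m.hi ×ˢ univ, edge (m.Om w) Wt g x (if x.2 = p then (x.1 + d, q) else x) := by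
    refine sum_subset (filter_subset _ _) fun x _ hx => ?_
    simp [edge, hx]
  rw [h1, sum_product]
  refine sum_congr rfl fun X _ => ?_
  rw [sum_eq_single p]
  · simp
  · intro a _ ha; simp [ha, edge]
  · simp

theorem Dall_le {s : Fin M → ℕ} (hs : ∀ e, 0 < s e) {K : ℕ} (hK : 3 * M + nv + 1 ≤ 2 ^ K)
    (hsK : ∀ e, s e ≤ 2 ^ K) {f : Fin M → ℤ → ℝ} {ω : Fin (nv + 1) → ℝ} (w : Fin (nv + 1))
    (hW : ∀ x ∈ m.Om w, 0 < W f ω x) (g : (Fin M → ℤ) × Fin (nv + 1) → ℝ) :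
    m.Dall s f ω w g ≤ 16 * (3 * M + nv + 1) * Dir (m.Om w) (W f ω) (m.prop s K) g := by
  set Ω := m.Om w with hΩ
  set nm := 3 * M + nv + 1 with hnm
  have hn : (0 : ℝ) < (2 ^ K : ℕ) := by positivity
  set E : ℕ → ℕ → ℝ := fun i J => ∑ x ∈ Ω, edge Ω (W f ω) g x
    (if x.2 = (m.mv s i J x.2).2.1 then (x.1 + (m.mv s i J x.2).1, (m.mv s i J x.2).2.2) else x)
    with hE
  have hE0 : ∀ i J, 0 ≤ E i J := fun i J => sum_nonneg fun x _ => edge_nonneg hW _ _ _
  have h1 : ∑ I : Fin (2 ^ K), ∑ J : Fin (2 ^ K), E (I % nm) J ≤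
      ∑ x ∈ Ω, ∑ σ : Seed K, edge Ω (W f ω) g x (m.prop s K x σ) := by
    simp only [hE]
    rw [← sum_product', sum_comm]
    refine sum_le_sum fun x _ => ?_
    rw [Fintype.sum_prod_type (γ := ℝ), Fintype.sum_bool, univ_product_univ]
    refine le_add_of_le_of_nonneg (le_of_eq ?_) (sum_nonneg fun _ _ => edge_nonneg hW _ _ _)
    refine sum_congr rfl fun p _ => ?_
    simp only [prop, if_true, hnm]
  have h2 := sum_mod_ge (n := 2 ^ K) (s := nm) (by omega) hK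
    (fun i => ∑ J : Fin (2 ^ K), E i J) fun i => sum_nonneg fun J _ => hE0 i J
  have hu : ∀ e : Fin M, ∑ J : Fin (2 ^ K), E e J = (2 ^ K : ℕ) *
      ∑ X ∈ box m.lo m.hi, edge Ω (W f ω) g (X, m.v e) (X + ec e, m.u e) := by
    intro e
    have : ∀ J : ℕ, E e J = ∑ X ∈ box m.lo m.hi, edge Ω (W f ω) g (X, m.v e) (X + ec e, m.u e) := by
      intro J
      simp only [hE, mv, e.2, dif_pos, Fin.eta]
      exact sum_tok _ _ _ _ _ _
    simp [this]
  have hc : ∀ e : Fin M, ∑ J : Fin (2 ^ K), E (M + e) J = (2 ^ K : ℕ) *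
      ∑ x ∈ Ω, edge Ω (W f ω) g x (x.1 + (s e : ℤ) • m.cyc e, x.2) := by
    intro e
    have : ∀ J : ℕ, E (M + e) J =
        ∑ x ∈ Ω, edge Ω (W f ω) g x (x.1 + (s e : ℤ) • m.cyc e, x.2) := by
      intro J
      have a1 : ¬ M + e < M := by omega
      simp only [hE, mv, a1, dif_neg, not_false_eq_true, Nat.add_sub_cancel_left, e.2, dif_pos,
        Fin.eta, if_true]
    simp [this]
  have ho : ∀ e : Fin M, (2 ^ K : ℕ) / 2 * (1 / (s e : ℝ) * ∑ j ∈ range (s e),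
      ∑ x ∈ Ω, edge Ω (W f ω) g x (x.1 + (j : ℤ) • m.cyc e, x.2)) ≤
      ∑ J : Fin (2 ^ K), E (M + M + e) J := by
    intro e
    have : ∀ J : ℕ, E (M + M + e) J =
        ∑ x ∈ Ω, edge Ω (W f ω) g x (x.1 + ((J % s e : ℕ) : ℤ) • m.cyc e, x.2) := by
      intro J
      have a1 : ¬ M + M + e < M := by omega
      have a2 : ¬ M + M + e - M < M := by omega
      have a3 : M + M + e - 2 * M = e := by omega
      simp only [hE, mv, a1, a2, a3, dif_neg, not_false_eq_true, e.2, dif_pos,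
        Fin.eta, if_true]
    simp only [this]
    have h3 := sum_mod_ge (n := 2 ^ K) (hs e) (hsK e)
      (fun j => ∑ x ∈ Ω, edge Ω (W f ω) g x (x.1 + (j : ℤ) • m.cyc e, x.2))
      fun j => sum_nonneg fun x _ => edge_nonneg hW _ _ _
    refine le_trans (le_of_eq ?_) h3
    ring
  have hp : ∀ b : Fin (nv + 1), ∑ J : Fin (2 ^ K), E (M + M + M + b) J = (2 ^ K : ℕ) *
      ∑ X ∈ box m.lo m.hi, edge Ω (W f ω) g (X, m.root b) (X + m.path b, b) := by
    intro b
    have : ∀ J : ℕ, E (M + M + M + b) J =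
        ∑ X ∈ box m.lo m.hi, edge Ω (W f ω) g (X, m.root b) (X + m.path b, b) := by
      intro J
      have a1 : ¬ M + M + M + b < M := by omega
      have a2 : ¬ M + M + M + b - M < M := by omega
      have a3 : ¬ M + M + M + b - 2 * M < M := by omega
      have a4 : M + M + M + b - 3 * M = b := by omega
      simp only [hE, mv, a1, a2, a3, a4, dif_neg, not_false_eq_true, Fin.ofNat_val_eq_self]
      exact sum_tok _ _ _ _ _ _
    simp [this]
  have h3 : (2 ^ K : ℕ) / 2 * m.Dall s f ω w g ≤ ∑ i ∈ range nm, ∑ J : Fin (2 ^ K), E i J := by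
    rw [show nm = M + M + M + (nv + 1) by omega, sum_range_add, sum_range_add, sum_range_add,
      sum_range (n := M), sum_range (n := M), sum_range (n := M), sum_range (n := nv + 1)]
    simp only [hu, hc, hp, ← mul_sum]
    have h4 := sum_le_sum fun e (_ : e ∈ univ) => ho e
    rw [← mul_sum] at h4
    unfold Dall Dunit Dcoarse Doff Dpath
    rw [← hΩ]
    have p1 : 0 ≤ ∑ e, ∑ X ∈ box m.lo m.hi, edge Ω (W f ω) g (X, m.v e) (X + ec e, m.u e) :=
      sum_nonneg fun _ _ => sum_nonneg fun _ _ => edge_nonneg hW _ _ _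
    have p2 : 0 ≤ ∑ e, ∑ x ∈ Ω, edge Ω (W f ω) g x (x.1 + (s e : ℤ) • m.cyc e, x.2) :=
      sum_nonneg fun _ _ => sum_nonneg fun _ _ => edge_nonneg hW _ _ _
    have p3 : 0 ≤ ∑ b, ∑ X ∈ box m.lo m.hi, edge Ω (W f ω) g (X, m.root b) (X + m.path b, b) :=
      sum_nonneg fun _ _ => sum_nonneg fun _ _ => edge_nonneg hW _ _ _
    nlinarith [mul_nonneg hn.le p1, mul_nonneg hn.le p2, mul_nonneg hn.le p3]
  have hnm0 : (0 : ℝ) < nm := by
    have : 0 < nm := by omega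
    exact_mod_cast this
  have h4 := (mul_le_mul_of_nonneg_left h3 (by positivity : (0 : ℝ) ≤ (2 ^ K : ℕ) / (2 * nm))).trans
    (h2.trans h1)
  have h5 : (3 * M + nv + 1 : ℝ) = nm := by simp [hnm]
  unfold Dir
  rw [h5, ← mul_div_assoc, le_div_iff₀ (by positivity)]
  simp only [Fintype.card_prod, Fintype.card_bool, Fintype.card_fin]
  have h6 := mul_le_mul_of_nonneg_left h4 (by positivity : (0 : ℝ) ≤ 16 * nm)
  refine le_trans (le_of_eq ?_) h6
  push_cast
  field_simp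
  ring

/-- Mixing of the lazy chain from a start that is a one-cell tilt of the exact class.
`CR` is any upper bound for the constant of `restricted_poincare`. -/
theorem chain_mix {thick : Fin M → Bool} {s : Fin M → ℕ} {f : Fin M → ℤ → ℝ}
    {κ κB η : ℝ} (hT : m.Thick thick s) (hS : m.Smooth thick s f κB η)
    (hf : LC m.lo m.hi f (fun e => thick e = false) κ) (hκ0 : 0 < κ) (hκ1 : κ ≤ 1 / 2)
    (w : Fin (nv + 1)) (ω : Fin (nv + 1) → ℝ) (hω : ∀ a, 0 < ω a) {lam : ℝ} (hl0 : 0 < lam)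
    (hl1 : lam ≤ 1) (hlow : ∀ a, lam ≤ ω a * m.Z f a w) (hup : ∀ a, ω a * m.Z f a w ≤ 2)
    (hw : 1 / 2 ≤ ω w * m.Z f w w)
    (e₀ : Fin M) (ψ : ℤ → ℝ) {Λ : ℝ} (hΛ0 : 0 ≤ Λ)
    (hψ : ∀ x, m.lo e₀ ≤ x → x ≤ m.hi e₀ → 1 ≤ ψ x ∧ ψ x ≤ 9)
    (hΛ : ∀ x, m.lo e₀ ≤ x → x < m.hi e₀ →
      ((m.hi e₀ - m.lo e₀ + 1 : ℤ) : ℝ) * |ψ (x + 1) - ψ x| ≤ Λ)
    (hv : m.v e₀ = w ∨ ∀ x, ψ x = 1) {K : ℕ} (hK : 3 * M + nv + 1 ≤ 2 ^ K)
    (hsK : ∀ e, s e ≤ 2 ^ K) {CR : ℝ}
    (hCR : 4 * (20 * (16 / lam * (1 + (nv + 1) * (16 / κB + 4))) +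
          (16 * Λ + 4) * ((nv + 1) / (lam * κ)) *
            (3 + 6 * M * (16 / lam * (1 + (nv + 1) * (16 / κB + 4))))) ≤ CR)
    {T : ℕ} (hT0 : 0 < T) (g : (Fin M → ℤ) × Fin (nv + 1) → ℝ) (hg : ∀ x, |g x| ≤ 1) :
    ((∑ X ∈ m.cl w w, wt f X * ψ (X e₀) *
          (Pop (m.Om w) (W f ω) (m.prop s K))^[T] g (X, w)) / (∑ X ∈ m.cl w w, wt f X * ψ (X e₀)) -
        (∑ x ∈ m.Om w, W f ω x * g x) / ∑ x ∈ m.Om w, W f ω x) ^ 4 ≤
      2 * (CR * (16 * (3 * M + nv + 1)) * (2 * (nv + 1))) * (36 * (nv + 1)) / T := by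
  have hW : ∀ x ∈ m.Om w, 0 < W f ω x := fun x hx =>
    mul_pos (hS.pos _ (mem_product.1 (mem_filter.1 hx).1).1) (hω _)
  have hwt : ∀ {a} X, X ∈ m.cl a w → 0 < wt f X := fun X hX => hS.pos _ (mem_filter.1 hX).1
  have hψ' : ∀ X ∈ m.cl w w, 1 ≤ ψ (X e₀) ∧ ψ (X e₀) ≤ 9 := fun X hX =>
    hψ _ ((mem_cls.1 hX).1 e₀).1 ((mem_cls.1 hX).1 e₀).2
  set Zψ := ∑ X ∈ m.cl w w, wt f X * ψ (X e₀) with hZψ
  set ZW := ∑ x ∈ m.Om w, W f ω x with hZW
  have hZw : 0 < m.Z f w w := by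
    by_contra h0
    have := mul_nonpos_of_nonneg_of_nonpos (hω w).le (not_lt.1 h0)
    linarith
  have hZle : m.Z f w w ≤ Zψ := sum_le_sum fun X hX =>
    le_mul_of_one_le_right (hwt X hX).le (hψ' X hX).1
  have hZψ0 : 0 < Zψ := hZw.trans_le hZle
  have hZWeq : ZW = ∑ a, ω a * m.Z f a w := by
    rw [hZW, sum_Om]
    refine sum_congr rfl fun a _ => ?_
    simp only [W, Z]
    rw [← sum_mul, mul_comm]
  have hZW0 : 0 < ZW := by
    rw [hZWeq]
    exact sum_pos (fun a _ => hl0.trans_le (hlow a)) univ_nonempty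
  have hZWle : ZW ≤ 2 * (nv + 1) := by
    rw [hZWeq]
    refine (sum_le_sum fun a _ => hup a).trans (le_of_eq ?_)
    simp [mul_comm]
  set μ : (Fin M → ℤ) × Fin (nv + 1) → ℝ :=
    fun x => if x.2 = w then wt f x.1 * ψ (x.1 e₀) / Zψ else 0 with hμ
  have hsum : ∀ u : (Fin M → ℤ) × Fin (nv + 1) → ℝ, ∑ x ∈ m.Om w, μ x * u x =
      (∑ X ∈ m.cl w w, wt f X * ψ (X e₀) * u (X, w)) / Zψ := by
    intro u
    rw [sum_Om, sum_eq_single w, sum_div]
    · refine sum_congr rfl fun X _ => ?_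
      simp only [hμ, if_true]
      ring
    · intro a _ ha; simp [hμ, ha]
    · simp
  have hκB := hS.κB_pos
  have hCR0 : 0 ≤ CR := le_trans (by positivity) hCR
  rw [← hsum]
  refine mix hW (m.prop s K) (fun σ => (!σ.1, σ.2)) (fun σ => by simp)
    (fun x _ σ _ h => prop_flip s K x σ h) μ (by positivity) ?_ ?_ ?_ ?_ hT0 g fun x _ => hg x
  · intro x hx
    simp only [hμ]
    split_ifs with h
    · have hx' : x.1 ∈ m.cl w w := by rw [← h]; nth_rewrite 2 [h]; exact mem_Om.1 hx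
      exact div_nonneg (mul_nonneg (hwt _ hx').le (zero_le_one.trans (hψ' _ hx').1)) hZψ0.le
    · exact le_rfl
  · have := hsum fun _ => 1
    simp only [mul_one] at this
    rw [this, div_self hZψ0.ne']
  · intro x hx
    simp only [hμ]
    split_ifs with h
    · have hx' : x.1 ∈ m.cl w w := by rw [← h]; nth_rewrite 2 [h]; exact mem_Om.1 hx
      have p0 := hwt _ hx'
      have p1 := (hψ' _ hx').2
      have p2 := hω w
      rw [← mul_div_assoc, div_le_div_iff₀ hZψ0 hZW0]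
      simp only [W, h]
      have p3 : 1 / 2 ≤ ω w * Zψ := hw.trans (mul_le_mul_of_nonneg_left hZle p2.le)
      calc wt f x.1 * ψ (x.1 e₀) * ZW ≤ wt f x.1 * 9 * (2 * (nv + 1)) := by gcongr
        _ = 36 * (nv + 1) * wt f x.1 * (1 / 2) := by ring
        _ ≤ 36 * (nv + 1) * wt f x.1 * (ω w * Zψ) := by gcongr
        _ = _ := by ring
    · exact mul_nonneg (by positivity) (div_nonneg (hW x hx).le hZW0.le)
  · intro u
    rw [hsum]
    have h1 := restricted_poincare hT hS hf hκ0 hκ1 w ω hω hl0 hl1 hlow hup hw e₀ ψ hΛ0 hψ hΛ hv u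
    have h2 := Dall_le hT.s_pos hK hsK w hW u
    have h3 := Dir_nonneg hW (m.prop s K) u
    have h4 : 0 ≤ m.Dall s f ω w u := by
      unfold Dall Dunit Dcoarse Doff Dpath
      refine add_nonneg (add_nonneg (add_nonneg ?_ ?_) ?_) ?_
      · exact sum_nonneg fun _ _ => sum_nonneg fun _ _ => edge_nonneg hW _ _ _
      · exact sum_nonneg fun _ _ => sum_nonneg fun _ _ => edge_nonneg hW _ _ _
      · exact sum_nonneg fun _ _ => mul_nonneg (by positivity)
          (sum_nonneg fun _ _ => sum_nonneg fun _ _ => edge_nonneg hW _ _ _)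
      · exact sum_nonneg fun _ _ => sum_nonneg fun _ _ => edge_nonneg hW _ _ _
    simp only [Fintype.card_fin, Nat.cast_add, Nat.cast_one] at h1
    have h5 : Dir (m.Om w) (W f ω) (m.prop s K) u ≤
        2 * (nv + 1) * (Dir (m.Om w) (W f ω) (m.prop s K) u / ZW) := by
      rw [← mul_div_assoc, le_div_iff₀ hZW0, mul_comm]
      exact mul_le_mul_of_nonneg_right hZWle h3
    calc _ ≤ _ := h1
      _ ≤ CR * m.Dall s f ω w u := mul_le_mul_of_nonneg_right hCR h4
      _ ≤ CR * (16 * (3 * M + nv + 1) *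
          (2 * (nv + 1) * (Dir (m.Om w) (W f ω) (m.prop s K) u / ZW))) := by
        refine mul_le_mul_of_nonneg_left (h2.trans ?_) hCR0
        exact mul_le_mul_of_nonneg_left h5 (by positivity)
      _ = _ := by ring

end Mdl

end Crest.Agent.R309
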