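import Crest.Agent.R309.Basic

/-!
# Row 309: a maximum spanning forest of the thick cells, with root paths

State `(roots, paths, trees)`, start `root a = a`, `path a = 0`, no tree cell.  Repeat `M` times: let `cands` be
the thick cells whose ends have different roots; if there is one, take `e ∈ cands` of maximal range (filter
by `cands.all`), mark it, and for every `a` with `root a = root (u e)` set
`path a := path a - path (u e) + ec e + path (v e)`, `root a := root (v e)`.
Invariants: `del (path a) = ev a - ev (root a)`; `path a` is supported on tree cells `t` with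
`root (u t) = root (v t) = root a`; `path a - path a'` has entries in `{-1,0,1}` when `root a = root a'`;
`root (root a) = root a`, `path (root a) = 0`; `path (u t) - path (v t) = ec t` for tree cells (differences inside
a component never change again); every tree cell has range at least that of every candidate; `maxspan` for thick
cells whose ends have the same root; a vertex touched by no thick cell stays alone.  The number of candidates
drops at each merge.
-/

set_option autoImplicit false

namespace Crest.Agent.R309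

open Finset Crest.Agent.Lib.PolyTime

/-- `(roots, paths, trees)` is a maximum spanning forest of the cells of range at least `Γ`. -/
structure Krus (I : Inst) (Γ : ℤ) (roots : List ℕ) (paths : List (List ℤ)) (trees : List Bool) :
    Prop where
  root_le : ∀ a : I.V, roots.getD a 0 ≤ I.nv
  del_path : ∀ a : I.V,
    del I.u I.v (I.vec (paths.getD a [])) = ev a - ev (I.vtx (roots.getD a 0))
  path_supp : ∀ (a : I.V) (e : Fin I.M), trees.getD e false = false → I.vec (paths.getD a []) e = 0
  path_tree : ∀ e : Fin I.M, trees.getD e false = true →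
    I.vec (paths.getD (I.uN e) []) - I.vec (paths.getD (I.vN e) []) = ec e
  path_abs : ∀ (a : I.V) (e : Fin I.M), |I.vec (paths.getD a []) e| ≤ 1
  tree_thick : ∀ e : Fin I.M, trees.getD e false = true → Γ ≤ I.hi e - I.lo e
  root_eq : ∀ e : Fin I.M, Γ ≤ I.hi e - I.lo e → roots.getD (I.uN e) 0 = roots.getD (I.vN e) 0
  root_root : ∀ a : I.V, roots.getD (roots.getD a 0) 0 = roots.getD a 0
  path_root : ∀ a : I.V, I.vec (paths.getD (roots.getD a 0) []) = 0
  maxspan : ∀ e t : Fin I.M, Γ ≤ I.hi e - I.lo e →
    I.vec (paths.getD (I.uN e) []) t ≠ I.vec (paths.getD (I.vN e) []) t →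
    I.hi e - I.lo e ≤ I.hi t - I.lo t
  iso : ∀ b : I.V, (∀ e : Fin I.M, Γ ≤ I.hi e - I.lo e → I.u e ≠ b ∧ I.v e ≠ b) →
    roots.getD b 0 = b ∧ ∀ a : I.V, roots.getD a 0 = b → a = b

section Abstract

variable {V : Type} [DecidableEq V] {M : ℕ} (u v : Fin M → V) (w : Fin M → ℤ) (Γ : ℤ)

/-- Thick cells joining two different components. -/
def kcand (root : V → V) : Finset (Fin M) :=
  univ.filter fun e => Γ ≤ w e ∧ root (u e) ≠ root (v e)

/-- Invariants of the greedy algorithm. -/
structure KInv (root : V → V) (path : V → Fin M → ℤ) (tree : Fin M → Bool) : Prop where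
  del_path : ∀ a, del u v (path a) = ev a - ev (root a)
  supp : ∀ a t, path a t ≠ 0 → tree t = true ∧ root (u t) = root a
  tree_root : ∀ t, tree t = true → root (u t) = root (v t)
  diff : ∀ a a' t, root a = root a' → |path a t - path a' t| ≤ 1
  root_root : ∀ a, root (root a) = root a
  path_root : ∀ a, path (root a) = 0
  path_tree : ∀ t, tree t = true → path (u t) - path (v t) = ec t
  tree_thick : ∀ t, tree t = true → Γ ≤ w t
  tree_ge : ∀ t e, tree t = true → e ∈ kcand u v w Γ root → w e ≤ w t
  maxspan : ∀ e t, Γ ≤ w e → root (u e) = root (v e) → path (u e) t ≠ path (v e) t → w e ≤ w t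
  iso : ∀ b, (∀ e, Γ ≤ w e → u e ≠ b ∧ v e ≠ b) → root b = b ∧ ∀ a, root a = b → a = b

variable {u v w Γ}

theorem mem_kcand {root : V → V} {e : Fin M} :
    e ∈ kcand u v w Γ root ↔ Γ ≤ w e ∧ root (u e) ≠ root (v e) := by
  simp [kcand]

theorem KInv.abs_le {root : V → V} {path : V → Fin M → ℤ} {tree : Fin M → Bool}
    (h : KInv u v w Γ root path tree) (a : V) (t : Fin M) : |path a t| ≤ 1 := by
  simpa [h.path_root] using h.diff a (root a) t (h.root_root a).symm

theorem KInv.init : KInv u v w Γ (fun a => a) (fun _ => 0) (fun _ => false) where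
  del_path a := by simp [del]
  supp a t h := absurd rfl h
  tree_root t h := by simp at h
  diff a a' t _ := by simp
  root_root a := rfl
  path_root a := rfl
  path_tree t h := by simp at h
  tree_thick t h := by simp at h
  tree_ge t e h := by simp at h
  maxspan e t _ _ h := absurd rfl h
  iso b _ := ⟨rfl, fun _ h => h⟩

theorem kcand_merge_ssubset {root root' : V → V} {e : Fin M} (he : e ∈ kcand u v w Γ root)
    (hr : ∀ a, root' a = if root a = root (u e) then root (v e) else root a) :
    kcand u v w Γ root' ⊂ kcand u v w Γ root := by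
  have hne := (mem_kcand.1 he).2
  refine ⟨fun e' he' => ?_, fun hs => ?_⟩
  · rw [mem_kcand] at he' ⊢
    exact ⟨he'.1, fun h => he'.2 (by rw [hr, hr, h])⟩
  · refine (mem_kcand.1 (hs he)).2 ?_
    rw [hr, hr, if_pos rfl, if_neg hne.symm]

theorem KInv.merge {root root' : V → V} {path path' : V → Fin M → ℤ} {tree tree' : Fin M → Bool}
    (h : KInv u v w Γ root path tree) {e : Fin M} (he : e ∈ kcand u v w Γ root)
    (hmax : ∀ e' ∈ kcand u v w Γ root, w e' ≤ w e)
    (hr : ∀ a, root' a = if root a = root (u e) then root (v e) else root a)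
    (hp : ∀ a, path' a =
      if root a = root (u e) then path a - path (u e) + ec e + path (v e) else path a)
    (ht : ∀ t, tree' t = if t = e then true else tree t) :
    KInv u v w Γ root' path' tree' := by
  obtain ⟨hΓ, hne⟩ := mem_kcand.1 he
  have hte : tree e ≠ true := fun h1 => hne (h.tree_root e h1)
  have ht1 : ∀ t, tree t = true → tree' t = true := fun t h1 => by rw [ht, h1, ite_self]
  have ht2 : ∀ t, tree' t = true → t = e ∨ tree t = true := fun t h1 => by
    rw [ht] at h1
    by_cases h2 : t = e
    · exact Or.inl h2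
    · rw [if_neg h2] at h1; exact Or.inr h1
  have hsame : ∀ a a', root a = root a' → path' a - path' a' = path a - path a' := by
    intro a a' h1
    rw [hp, hp, h1]
    split_ifs
    · abel
    · rfl
  have hsupp : ∀ a t, path' a t ≠ 0 → tree' t = true ∧ root' (u t) = root' a := by
    intro a t h1
    rw [hp] at h1
    rw [hr, hr]
    split_ifs at h1 with h2
    · rw [if_pos h2]
      by_cases a1 : path a t = 0
      · by_cases a2 : path (u e) t = 0
        · by_cases a3 : path (v e) t = 0
          · have a4 : t = e := by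
              by_contra a4
              simp [a1, a2, a3, ec, a4] at h1
            rw [a4, ht, if_pos rfl, if_pos rfl]
            exact ⟨rfl, rfl⟩
          · obtain ⟨b1, b2⟩ := h.supp _ _ a3
            rw [b2, ite_self]
            exact ⟨ht1 t b1, rfl⟩
        · obtain ⟨b1, b2⟩ := h.supp _ _ a2
          rw [if_pos b2]
          exact ⟨ht1 t b1, rfl⟩
      · obtain ⟨b1, b2⟩ := h.supp _ _ a1
        rw [if_pos (b2.trans h2)]
        exact ⟨ht1 t b1, rfl⟩
    · obtain ⟨b1, b2⟩ := h.supp _ _ h1
      rw [b2]
      exact ⟨ht1 t b1, rfl⟩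
  have hge : ∀ t e', tree' t = true → e' ∈ kcand u v w Γ root → w e' ≤ w t := by
    intro t e' h1 h2
    rcases ht2 t h1 with h3 | h3
    · rw [h3]; exact hmax e' h2
    · exact h.tree_ge t e' h3 h2
  have hcross : ∀ a a' t, root a = root (u e) → root a' = root (v e) →
      |path' a t - path' a' t| ≤ 1 := by
    intro a a' t h1 h2
    rw [hp, hp, if_pos h1, if_neg (by rw [h2]; exact hne.symm)]
    simp only [Pi.add_apply, Pi.sub_apply]
    have d1 := h.diff a (u e) t h1
    have d2 := h.diff (v e) a' t h2.symm
    by_cases a4 : t = e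
    · have z : ∀ b, path b t = 0 := fun b => by
        by_contra z
        exact hte (a4 ▸ (h.supp b t z).1)
      simp only [z]
      simp [ec, a4]
    · have z : ec e t = 0 := by simp [ec, a4]
      rw [z]
      by_cases a5 : root (u t) = root (u e)
      · have z1 : path (v e) t = 0 := by
          by_contra z1
          exact hne (a5.symm.trans (h.supp _ _ z1).2)
        have z2 : path a' t = 0 := by
          by_contra z2
          exact hne (a5.symm.trans ((h.supp _ _ z2).2.trans h2))
        simpa [z1, z2] using d1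
      · have z1 : path (u e) t = 0 := by
          by_contra z1
          exact a5 (h.supp _ _ z1).2
        have z2 : path a t = 0 := by
          by_contra z2
          exact a5 ((h.supp _ _ z2).2.trans h1)
        simpa [z1, z2] using d2
  refine ⟨fun a => ?_, hsupp, fun t h1 => ?_, fun a a' t h1 => ?_, fun a => ?_, fun a => ?_,
    fun t h1 => ?_, fun t h1 => ?_, fun t e' h1 h2 => ?_, fun e' t h1 h2 h3 => ?_, fun b hb => ?_⟩
  · rw [hp, hr]
    split_ifs with h1
    · rw [del_add, del_add, del_sub, del_ec, h.del_path, h.del_path, h.del_path, h1]; abel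
    · exact h.del_path a
  · rcases ht2 t h1 with h2 | h2
    · rw [h2, hr, hr, if_pos rfl, ite_self]
    · rw [hr, hr, h.tree_root t h2]
  · by_cases h2 : root a = root a'
    · have := congrFun (hsame a a' h2) t
      simp only [Pi.sub_apply] at this
      rw [this]; exact h.diff a a' t h2
    · rw [hr, hr] at h1
      split_ifs at h1 with h3 h4 h4
      · exact absurd (h3.trans h4.symm) h2
      · exact hcross a a' t h3 h1.symm
      · rw [abs_sub_comm]; exact hcross a' a t h4 h1
      · exact absurd h1 h2
  · rw [hr a]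
    split_ifs with h1
    · rw [hr, h.root_root, ite_self]
    · rw [hr, h.root_root, if_neg h1]
  · rw [hr a]
    split_ifs with h1
    · rw [hp, h.root_root, if_neg hne.symm, h.path_root]
    · rw [hp, h.root_root, if_neg h1, h.path_root]
  · rcases ht2 t h1 with h2 | h2
    · rw [h2, hp, hp, if_pos rfl, if_neg hne.symm]; abel
    · rw [hsame _ _ (h.tree_root t h2), h.path_tree t h2]
  · rcases ht2 t h1 with h2 | h2
    · rw [h2]; exact hΓ
    · exact h.tree_thick t h2
  · exact hge t e' h1 ((kcand_merge_ssubset he hr).1 h2)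
  · by_cases h4 : root (u e') = root (v e')
    · refine h.maxspan e' t h1 h4 fun h5 => h3 ?_
      have := congrFun (hsame _ _ h4) t
      simp only [Pi.sub_apply] at this
      rw [← sub_eq_zero, this, h5, sub_self]
    · refine hge t e' ?_ (mem_kcand.2 ⟨h1, h4⟩)
      by_cases h5 : path' (u e') t = 0
      · exact (hsupp (v e') t fun h6 => h3 (h5.trans h6.symm)).1
      · exact (hsupp _ t h5).1
  · obtain ⟨h1, h2⟩ := h.iso b hb
    have a1 : root (u e) ≠ b := fun h3 => (hb e hΓ).1 (h2 _ h3)
    have a2 : root (v e) ≠ b := fun h3 => (hb e hΓ).2 (h2 _ h3)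
    refine ⟨by rw [hr, h1, if_neg a1.symm], fun a h3 => ?_⟩
    rw [hr] at h3
    split_ifs at h3
    · exact absurd h3 a2
    · exact h2 a h3

end Abstract

/-- State of the program. -/
abbrev KSt : Type := List ℕ × List (List ℤ) × List Bool

def kcands (I : Inst) (Γ : ℤ) (r : List ℕ) : List ℕ :=
  (List.range I.M).filter fun e =>
    decide (Γ ≤ I.hiN e - I.loN e) && decide (r.getD (I.uN e) 0 ≠ r.getD (I.vN e) 0)

def kbest (I : Inst) (Γ : ℤ) (r : List ℕ) : List ℕ :=
  (kcands I Γ r).filter fun e =>
    (kcands I Γ r).all fun e' => decide (I.hiN e' - I.loN e' ≤ I.hiN e - I.loN e)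

def kclamp (z : ℤ) : ℤ := if z < 0 then -1 else if 0 < z then 1 else 0

def kmerge (I : Inst) (e : ℕ) (s : KSt) : KSt :=
  (tab (I.nv + 1) fun a =>
      min I.nv (if s.1.getD a 0 = s.1.getD (I.uN e) 0 then s.1.getD (I.vN e) 0 else s.1.getD a 0),
    tab (I.nv + 1) fun a => tab I.M fun t => kclamp
      (if s.1.getD a 0 = s.1.getD (I.uN e) 0 then
        (s.2.1.getD a []).getD t 0 - (s.2.1.getD (I.uN e) []).getD t 0 + (if t = e then 1 else 0) +
          (s.2.1.getD (I.vN e) []).getD t 0
      else (s.2.1.getD a []).getD t 0),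
    tab I.M fun t => if t = e then true else s.2.2.getD t false)

def kstep (I : Inst) (Γ : ℤ) (s : KSt) : KSt :=
  if (kbest I Γ s.1).isEmpty = true then s else kmerge I ((kbest I Γ s.1).headD 0) s

def kinit (I : Inst) : KSt := (List.range (I.nv + 1), [], [])

section PT

variable {α : Type} [Enc α] {I : α → Inst} {Γ : α → ℤ}

@[fun_prop] theorem pt_kcands {r : α → List ℕ} (hI : PT I) (hΓ : PT Γ) (hr : PT r) :
    PT fun a => kcands (I a) (Γ a) (r a) := by
  unfold kcands; fun_prop

@[fun_prop] theorem pt_kbest {r : α → List ℕ} (hI : PT I) (hΓ : PT Γ) (hr : PT r) :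
    PT fun a => kbest (I a) (Γ a) (r a) := by
  unfold kbest; fun_prop

@[fun_prop] theorem pt_kclamp {z : α → ℤ} (hz : PT z) : PT fun a => kclamp (z a) := by
  unfold kclamp; fun_prop

@[fun_prop] theorem pt_kmerge {e : α → ℕ} {s : α → KSt} (hI : PT I) (he : PT e) (hs : PT s) :
    PT fun a => kmerge (I a) (e a) (s a) := by
  unfold kmerge; fun_prop

@[fun_prop] theorem pt_kstep {s : α → KSt} (hI : PT I) (hΓ : PT Γ) (hs : PT s) :
    PT fun a => kstep (I a) (Γ a) (s a) := by
  unfold kstep; fun_prop

end PT

theorem size_kclamp (z : ℤ) : size (kclamp z) ≤ 2 := by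
  unfold kclamp
  split_ifs <;> simp [size_int]

theorem kclamp_eq {z : ℤ} (h : |z| ≤ 1) : kclamp z = z := by
  have := abs_le.1 h
  unfold kclamp
  split_ifs <;> omega

theorem size_tab_le {α : Type} [Enc α] {n m : ℕ} {g : ℕ → α} (h : ∀ i < n, size (g i) ≤ m) :
    size (tab n g) ≤ n * (2 * m + 1) := by
  have := size_list_le (l := tab n g) (m := m) fun a ha => by
    obtain ⟨i, hi, rfl⟩ := List.mem_map.1 ha
    exact h i (List.mem_range.1 hi)
  simpa using this

theorem size_kiter (I : Inst) (Γ : ℤ) (i : ℕ) :
    size ((kstep I Γ)^[i] (kinit I)) ≤ 2 * ((I.nv + 1) * (2 * I.nv + 1)) + 1 +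
      (2 * ((I.nv + 1) * (2 * (I.M * 5) + 1)) + 1 + 3 * I.M) := by
  induction i with
  | zero =>
    have := size_list_le (l := List.range (I.nv + 1)) (m := I.nv) fun a ha => by
      have := List.mem_range.1 ha
      simp only [size_nat]; omega
    simp only [List.length_range] at this
    simp only [Function.iterate_zero, id, kinit, size_prod, size_nil]
    omega
  | succ i ih =>
    rw [Function.iterate_succ_apply']
    generalize (kstep I Γ)^[i] (kinit I) = s at ih
    unfold kstep
    split_ifs
    · exact ih
    · unfold kmerge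
      rw [size_prod, size_prod, size_list_bool, length_tab]
      gcongr
      · exact size_tab_le fun a _ => by rw [size_nat]; exact min_le_left _ _
      · exact size_tab_le fun a _ => size_tab_le (m := 2) fun t _ => size_kclamp _

def rootF (I : Inst) (s : KSt) (a : I.V) : I.V := I.vtx (s.1.getD a 0)
def pathF (I : Inst) (s : KSt) (a : I.V) : Fin I.M → ℤ := I.vec (s.2.1.getD a [])
def treeF (I : Inst) (s : KSt) (e : Fin I.M) : Bool := s.2.2.getD e false

theorem kiter_inv {I : Inst} {n : ℕ} (h : I.WF n) (Γ : ℤ) (i : ℕ) :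
    (∀ a : I.V, ((kstep I Γ)^[i] (kinit I)).1.getD a 0 ≤ I.nv) ∧
      KInv I.u I.v (fun e => I.hi e - I.lo e) Γ (rootF I ((kstep I Γ)^[i] (kinit I)))
        (pathF I ((kstep I Γ)^[i] (kinit I))) (treeF I ((kstep I Γ)^[i] (kinit I))) ∧
      (kcand I.u I.v (fun e => I.hi e - I.lo e) Γ (rootF I ((kstep I Γ)^[i] (kinit I)))).card ≤
        I.M - i := by
  have hu : ∀ e : Fin I.M, (I.u e : ℕ) = I.uN e := fun e => Inst.vtx_val (h.uN_le e e.2)
  have hv : ∀ e : Fin I.M, (I.v e : ℕ) = I.vN e := fun e => Inst.vtx_val (h.vN_le e e.2)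
  induction i with
  | zero =>
    have h0 : ∀ a : I.V, (List.range (I.nv + 1)).getD a 0 = a := fun a => by
      rw [List.getD_eq_getElem?_getD, List.getElem?_range a.2]; rfl
    have h1 : rootF I (kinit I) = fun a => a := by
      funext a
      simp only [rootF, kinit, h0, Inst.vtx_coe]
    have h2 : pathF I (kinit I) = fun _ => 0 := by
      funext a e
      simp [pathF, kinit, Inst.vec]
    have h3 : treeF I (kinit I) = fun _ => false := by
      funext e
      simp [treeF, kinit]
    simp only [Function.iterate_zero, id, h1, h2, h3]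
    refine ⟨fun a => ?_, KInv.init, (card_le_univ _).trans (by simp)⟩
    simp only [kinit, h0]
    exact Nat.le_of_lt_succ a.2
  | succ i ih =>
    rw [Function.iterate_succ_apply']
    generalize (kstep I Γ)^[i] (kinit I) = s at ih
    obtain ⟨hle, hI, hc⟩ := ih
    have hr : ∀ a : I.V, (rootF I s a : ℕ) = s.1.getD a 0 := fun a => Inst.vtx_val (hle a)
    have hcand : ∀ e : Fin I.M, (e : ℕ) ∈ kcands I Γ s.1 ↔
        e ∈ kcand I.u I.v (fun e => I.hi e - I.lo e) Γ (rootF I s) := by
      intro e
      rw [mem_kcand, Ne, Fin.ext_iff, hr, hr, hu, hv]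
      simp [kcands, Inst.hi, Inst.lo]
    have hlt : ∀ e ∈ kcands I Γ s.1, e < I.M := fun e he =>
      List.mem_range.1 (List.mem_filter.1 he).1
    unfold kstep
    split_ifs with hb
    · refine ⟨hle, hI, ?_⟩
      rcases (kcand I.u I.v (fun e => I.hi e - I.lo e) Γ (rootF I s)).eq_empty_or_nonempty with
        h0 | h0
      · rw [h0]; simp
      · exfalso
        obtain ⟨e, he, hm⟩ := exists_max_image _ (fun e => I.hi e - I.lo e) h0
        have : (e : ℕ) ∈ kbest I Γ s.1 := by
          refine List.mem_filter.2 ⟨(hcand e).2 he, List.all_eq_true.2 fun e' he' => ?_⟩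
          exact decide_eq_true (hm ⟨e', hlt e' he'⟩ ((hcand ⟨e', hlt e' he'⟩).1 he'))
        rw [List.isEmpty_iff.1 hb] at this
        simp at this
    · have hmem : (kbest I Γ s.1).headD 0 ∈ kbest I Γ s.1 := by
        cases hk : kbest I Γ s.1 with
        | nil => rw [hk] at hb; simp at hb
        | cons x l => simp
      generalize (kbest I Γ s.1).headD 0 = e0 at hmem
      obtain ⟨h1, h2⟩ := List.mem_filter.1 hmem
      obtain ⟨e, rfl⟩ : ∃ e : Fin I.M, (e : ℕ) = e0 := ⟨⟨e0, hlt e0 h1⟩, rfl⟩
      have he := (hcand e).1 h1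
      have hmax : ∀ e' ∈ kcand I.u I.v (fun e => I.hi e - I.lo e) Γ (rootF I s),
          I.hi e' - I.lo e' ≤ I.hi e - I.lo e := fun e' he' =>
        of_decide_eq_true (List.all_eq_true.1 h2 e' ((hcand e').2 he'))
      have hiff : ∀ a : I.V, s.1.getD a 0 = s.1.getD (I.uN e) 0 ↔
          rootF I s a = rootF I s (I.u e) := fun a => by
        rw [Fin.ext_iff, hr, hr, hu]
      have hR : ∀ a, rootF I (kmerge I e s) a =
          if rootF I s a = rootF I s (I.u e) then rootF I s (I.v e) else rootF I s a := by
        intro a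
        simp only [rootF, kmerge, getD_tab _ _ a.2]
        by_cases h3 : s.1.getD a 0 = s.1.getD (I.uN e) 0
        · have h4 := (hiff a).1 h3
          simp only [rootF] at h4
          rw [if_pos h3, if_pos h4, ← hv, min_eq_right (hle _)]
        · have h4 := fun h5 => h3 ((hiff a).2 h5)
          simp only [rootF] at h4
          rw [if_neg h3, if_neg h4, min_eq_right (hle _)]
      have hT : ∀ t, treeF I (kmerge I e s) t = if t = e then true else treeF I s t := by
        intro t
        simp only [treeF, kmerge, getD_tab _ _ t.2, Fin.ext_iff]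
      have hI' := hI.merge he hmax hR (fun _ => rfl) hT
      have hP : pathF I (kmerge I e s) = fun a =>
          if rootF I s a = rootF I s (I.u e) then
            pathF I s a - pathF I s (I.u e) + ec e + pathF I s (I.v e) else pathF I s a := by
        funext a t
        rw [← kclamp_eq (hI'.abs_le a t)]
        simp only [pathF, kmerge, getD_tab _ _ a.2, Inst.vec, getD_tab _ _ t.2]
        congr 1
        by_cases h3 : s.1.getD a 0 = s.1.getD (I.uN e) 0
        · rw [if_pos h3, if_pos ((hiff a).1 h3)]
          simp only [Pi.add_apply, Pi.sub_apply, Inst.vec, hu, hv, ec, Pi.single_apply, Fin.ext_iff]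
        · rw [if_neg h3, if_neg fun h5 => h3 ((hiff a).2 h5)]
          rfl
      refine ⟨fun a => ?_, by rw [hP]; exact hI', ?_⟩
      · simp only [kmerge, getD_tab _ _ a.2]
        exact min_le_left _ _
      · have := card_lt_card (kcand_merge_ssubset he hR)
        omega

theorem exists_krus : ∃ krus : Inst × ℤ → List ℕ × List (List ℤ) × List Bool, PT krus ∧
    ∀ (I : Inst) (n : ℕ) (Γ : ℤ), I.WF n → Krus I Γ (krus (I, Γ)).1 (krus (I, Γ)).2.1 (krus (I, Γ)).2.2 := by
  refine ⟨fun p => (kstep p.1 p.2)^[p.1.M] (kinit p.1), ?_, fun I n Γ h => ?_⟩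
  · refine PT.iterate (step := fun p : Inst × ℤ => kstep p.1 p.2) (by fun_prop) (by fun_prop)
      (by unfold kinit; fun_prop)
      (B := fun p => 2 * ((p.1.nv + 1) * (2 * p.1.nv + 1)) + 1 +
        (2 * ((p.1.nv + 1) * (2 * (p.1.M * 5) + 1)) + 1 + 3 * p.1.M)) ?_ fun p i _ => ?_
    · have h1 : PB fun p : Inst × ℤ => p.1.nv := PB.of_PT (by fun_prop)
      have h2 : PB fun p : Inst × ℤ => p.1.M := PB.of_PT (by fun_prop)
      fun_prop
    · exact size_kiter p.1 p.2 i
  · obtain ⟨hle, hI, hc⟩ := kiter_inv h Γ I.M
    set s := (kstep I Γ)^[I.M] (kinit I)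
    have hu : ∀ e : Fin I.M, (I.u e : ℕ) = I.uN e := fun e => Inst.vtx_val (h.uN_le e e.2)
    have hv : ∀ e : Fin I.M, (I.v e : ℕ) = I.vN e := fun e => Inst.vtx_val (h.vN_le e e.2)
    have hr : ∀ a : I.V, (rootF I s a : ℕ) = s.1.getD a 0 := fun a => Inst.vtx_val (hle a)
    have hno : ∀ e, Γ ≤ I.hi e - I.lo e → rootF I s (I.u e) = rootF I s (I.v e) := by
      intro e he
      by_contra hne
      have : e ∈ kcand I.u I.v (fun e => I.hi e - I.lo e) Γ (rootF I s) := by
        simp only [kcand, mem_filter, mem_univ, true_and]; exact ⟨he, hne⟩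
      have := card_pos.2 ⟨e, this⟩
      omega
    refine ⟨hle, hI.del_path, fun a e he => ?_, fun e he => ?_, fun a e => hI.abs_le a e,
      hI.tree_thick, fun e he => ?_, fun a => ?_, fun a => ?_, fun e t he hne => ?_, fun b hb => ?_⟩
    · by_contra hne
      have := (hI.supp a e hne).1
      simp only [treeF] at this
      rw [he] at this
      exact absurd this (by simp)
    · have := hI.path_tree e he
      simpa only [pathF, hu, hv] using this
    · rw [← hu, ← hv, ← hr, ← hr, hno e he]
    · rw [← hr, ← hr, hI.root_root]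
    · rw [← hr]
      exact hI.path_root a
    · refine hI.maxspan e t he (hno e he) ?_
      simpa only [pathF, hu, hv] using hne
    · obtain ⟨h1, h2⟩ := hI.iso b hb
      refine ⟨by rw [← hr, h1], fun a ha => h2 a (Fin.ext ?_)⟩
      rw [hr, ha]

end Crest.Agent.R309
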