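import Crest.Agent.R309.Basic

/-!
# Row 309: exact ranges of the cells, and adding a hub

`exists_tight`: the largest feasible value of `X e` is found bit by bit: start at `cur = lo e`, for
`j = n + 1, …, 0` replace `cur` by `cur + 2 ^ j` if the instance with `lo e := cur + 2 ^ j` is feasible (call
`feas` with parameter `n + 3`, `WF` is monotone).  The smallest value symmetrically.
`ext` adds a new hub `nv + 1` and a cell with capacity `[0,0]` from the hub to every old vertex.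
-/

set_option autoImplicit false

namespace Crest.Agent.R309

open Finset Crest.Agent.Lib.PolyTime

theorem Inst.WF.mono {I : Inst} {n n' : ℕ} (h : I.WF n) (hn : n ≤ n') : I.WF n' := by
  have hp : (2 : ℤ) ^ n ≤ 2 ^ n' := pow_le_pow_right₀ (by norm_num) hn
  exact ⟨h.size.trans hn, h.lvs, h.llos, h.lhis, h.ltgt, h.uN_le, h.vN_le, h.ne,
    fun e => (h.lo_le e).trans hp, fun e => (h.hi_le e).trans hp, fun e => (h.t_le e).trans hp⟩

structure TightSpec (tight : Inst × ℕ → List ℤ × List ℤ) : Prop where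
  pt : PT tight
  len : ∀ (I : Inst) (n : ℕ), (tight (I, n)).1.length = I.M ∧ (tight (I, n)).2.length = I.M
  lo : ∀ (I : Inst) (n : ℕ), I.WF n → I.sol.Nonempty → ∀ e : Fin I.M,
    (∃ X ∈ I.sol, X e = I.vec (tight (I, n)).1 e) ∧ ∀ X ∈ I.sol, I.vec (tight (I, n)).1 e ≤ X e
  hi : ∀ (I : Inst) (n : ℕ), I.WF n → I.sol.Nonempty → ∀ e : Fin I.M,
    (∃ X ∈ I.sol, X e = I.vec (tight (I, n)).2 e) ∧ ∀ X ∈ I.sol, X e ≤ I.vec (tight (I, n)).2 e

/-- One step of the binary search. -/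
def bsStep (P : ℤ → Bool) (k : ℕ) (cur : ℤ) (i : ℕ) : ℤ :=
  if P (cur + 2 ^ (k - 1 - i)) = true then cur + 2 ^ (k - 1 - i) else cur

/-- Binary search for the last integer with `P` in `[s, s + 2 ^ k)`. -/
def bs (P : ℤ → Bool) (k : ℕ) (s : ℤ) : ℤ := (List.range k).foldl (bsStep P k) s

theorem bs_eq {P : ℤ → Bool} {k : ℕ} {s m : ℤ} (h1 : s ≤ m) (h2 : m < s + 2 ^ k)
    (hP : ∀ c, s ≤ c → c ≤ m + 2 ^ k → (P c = true ↔ c ≤ m)) : bs P k s = m := by
  have key : ∀ i ≤ k, s ≤ (List.range i).foldl (bsStep P k) s ∧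
      (List.range i).foldl (bsStep P k) s ≤ m ∧
      m < (List.range i).foldl (bsStep P k) s + 2 ^ (k - i) := by
    intro i
    induction i with
    | zero => intro _; simpa using ⟨h1, h2⟩
    | succ i ih =>
      intro hi
      obtain ⟨g1, g2, g3⟩ := ih (by omega)
      rw [List.range_succ, List.foldl_append, List.foldl_cons, List.foldl_nil]
      set cur := (List.range i).foldl (bsStep P k) s
      have e1 : k - 1 - i = k - (i + 1) := by omega
      have e2 : (2 : ℤ) ^ (k - i) = 2 * 2 ^ (k - (i + 1)) := by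
        rw [← pow_succ']; congr 1; omega
      have e3 : (0 : ℤ) < 2 ^ (k - (i + 1)) := by positivity
      have e4 : (2 : ℤ) ^ (k - (i + 1)) ≤ 2 ^ k := pow_le_pow_right₀ (by norm_num) (by omega)
      have h := hP (cur + 2 ^ (k - (i + 1))) (by omega) (by omega)
      unfold bsStep
      rw [e1]
      split_ifs with hc
      · have := h.1 hc; omega
      · have := mt h.2 hc; omega
  obtain ⟨-, g2, g3⟩ := key k le_rfl
  rw [Nat.sub_self, pow_zero] at g3
  unfold bs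
  omega

theorem pt_bs {α : Type} [Enc α] {P : α → ℤ → Bool} {k : α → ℕ} {s : α → ℤ}
    (hP : PT fun p : α × ℤ => P p.1 p.2) (hk : PT k) (hs : PT s) :
    PT fun a => bs (P a) (k a) (s a) := by
  have h2 : PT fun p : α × ℤ × ℕ => p.2.1 + (2 : ℤ) ^ (k p.1 - 1 - p.2.2) := by fun_prop
  refine PT.foldl_growth (f := fun a => bsStep (P a) (k a)) ?_ (PT.range hk) hs
    (G := fun p : α × ℕ => size ((2 : ℤ) ^ (k p.1 - 1 - p.2))) (PB.size (by fun_prop)) ?_
  · unfold bsStep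
    exact PT.ite (PT.decide_eq_true (hP.comp (g := fun p : α × ℤ × ℕ =>
      (p.1, p.2.1 + (2 : ℤ) ^ (k p.1 - 1 - p.2.2))) (by fun_prop))) h2 (by fun_prop)
  · intro a c b
    unfold bsStep
    split_ifs
    · exact size_int_add_le _ _
    · exact Nat.le_add_right _ _

/-- Replace the lower capacity of one cell. -/
def setLo (I : Inst) (e : ℕ) (c : ℤ) : Inst :=
  I.withBox (tab I.M fun e' => if e' = e then c else I.loN e') I.his

/-- Replace the upper capacity of one cell. -/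
def setHi (I : Inst) (e : ℕ) (c : ℤ) : Inst :=
  I.withBox I.los (tab I.M fun e' => if e' = e then c else I.hiN e')

theorem abs_getD_tab_le {n : ℕ} {g : ℕ → ℤ} {b : ℤ} (hb : 0 ≤ b) (hg : ∀ i, |g i| ≤ b) (i : ℕ) :
    |(tab n g).getD i 0| ≤ b := by
  by_cases h : i < n
  · rw [getD_tab g 0 h]; exact hg i
  · rw [List.getD_eq_default _ _ (by simpa using h)]; simpa using hb

theorem setLo_wf {I : Inst} {n : ℕ} (h : I.WF n) (e : ℕ) {c : ℤ} (hc : |c| ≤ 2 ^ n) :
    (setLo I e c).WF n :=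
  ⟨h.size, h.lvs, length_tab _ _, h.lhis, h.ltgt, h.uN_le, h.vN_le, h.ne,
    abs_getD_tab_le (by positivity) fun i => by split_ifs; exacts [hc, h.lo_le i], h.hi_le, h.t_le⟩

theorem setHi_wf {I : Inst} {n : ℕ} (h : I.WF n) (e : ℕ) {c : ℤ} (hc : |c| ≤ 2 ^ n) :
    (setHi I e c).WF n :=
  ⟨h.size, h.lvs, h.llos, length_tab _ _, h.ltgt, h.uN_le, h.vN_le, h.ne, h.lo_le,
    abs_getD_tab_le (by positivity) fun i => by split_ifs; exacts [hc, h.hi_le i], h.t_le⟩

theorem Inst.mem_sol {I : Inst} {X : Fin I.M → ℤ} :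
    X ∈ I.sol ↔ (∀ e : Fin I.M, I.loN e ≤ X e ∧ X e ≤ I.hiN e) ∧ del I.u I.v X = I.t := mem_cls

theorem Inst.mem_sol_withBox {I : Inst} {l h : List ℤ} {X : Fin I.M → ℤ} :
    X ∈ (I.withBox l h).sol ↔
      (∀ e : Fin I.M, l.getD e 0 ≤ X e ∧ X e ≤ h.getD e 0) ∧ del I.u I.v X = I.t :=
  mem_cls (u := I.u) (v := I.v) (lo := fun e => l.getD e 0) (hi := fun e => h.getD e 0)

theorem setLo_nonempty {I : Inst} (e : Fin I.M) {c : ℤ} (hc : I.loN e ≤ c) :
    (setLo I e c).sol.Nonempty ↔ ∃ X ∈ I.sol, c ≤ X e := by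
  constructor
  · rintro ⟨X, hX⟩
    obtain ⟨h1, h2⟩ := (Inst.mem_sol_withBox (I := I) (X := X)).1 hX
    have he := (h1 e).1
    rw [getD_tab _ _ e.2, if_pos rfl] at he
    refine ⟨X, Inst.mem_sol.2 ⟨fun e' => ⟨?_, (h1 e').2⟩, h2⟩, he⟩
    have := (h1 e').1
    rw [getD_tab _ _ e'.2] at this
    split_ifs at this with h
    · rw [h]; exact hc.trans this
    · exact this
  · rintro ⟨X, hX, he⟩
    obtain ⟨h1, h2⟩ := Inst.mem_sol.1 hX
    refine ⟨X, (Inst.mem_sol_withBox (I := I) (X := X)).2 ⟨fun e' => ⟨?_, (h1 e').2⟩, h2⟩⟩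
    rw [getD_tab _ _ e'.2]
    split_ifs with h
    · rw [Fin.ext h]; exact he
    · exact (h1 e').1

theorem setHi_nonempty {I : Inst} (e : Fin I.M) {c : ℤ} (hc : c ≤ I.hiN e) :
    (setHi I e c).sol.Nonempty ↔ ∃ X ∈ I.sol, X e ≤ c := by
  constructor
  · rintro ⟨X, hX⟩
    obtain ⟨h1, h2⟩ := (Inst.mem_sol_withBox (I := I) (X := X)).1 hX
    have he := (h1 e).2
    rw [getD_tab _ _ e.2, if_pos rfl] at he
    refine ⟨X, Inst.mem_sol.2 ⟨fun e' => ⟨(h1 e').1, ?_⟩, h2⟩, he⟩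
    have := (h1 e').2
    rw [getD_tab _ _ e'.2] at this
    split_ifs at this with h
    · rw [h]; exact this.trans hc
    · exact this
  · rintro ⟨X, hX, he⟩
    obtain ⟨h1, h2⟩ := Inst.mem_sol.1 hX
    refine ⟨X, (Inst.mem_sol_withBox (I := I) (X := X)).2 ⟨fun e' => ⟨(h1 e').1, ?_⟩, h2⟩⟩
    rw [getD_tab _ _ e'.2]
    split_ifs with h
    · rw [Fin.ext h]; exact he
    · exact (h1 e').2

theorem FeasSpec.iff {feas : Inst × ℕ → Bool × List ℤ} (hf : FeasSpec feas) {I : Inst} {n : ℕ}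
    (h : I.WF n) : (feas (I, n)).1 = true ↔ I.sol.Nonempty :=
  ⟨fun hc => ⟨_, hf.sound I n h hc⟩, hf.complete I n h⟩

/-- The largest feasible value of a cell. -/
def tightHi (feas : Inst × ℕ → Bool × List ℤ) (I : Inst) (n e : ℕ) : ℤ :=
  bs (fun c => (feas (setLo I e c, n + 3)).1) (n + 2) (I.loN e)

/-- The smallest feasible value of a cell. -/
def tightLo (feas : Inst × ℕ → Bool × List ℤ) (I : Inst) (n e : ℕ) : ℤ :=
  -bs (fun c => (feas (setHi I e (-c), n + 3)).1) (n + 2) (-I.hiN e)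

theorem tightHi_eq {feas : Inst × ℕ → Bool × List ℤ} (hf : FeasSpec feas) {I : Inst} {n : ℕ}
    (h : I.WF n) (e : Fin I.M) {X : Fin I.M → ℤ} (hX : X ∈ I.sol) (hm : ∀ Y ∈ I.sol, Y e ≤ X e) :
    tightHi feas I n e = X e := by
  obtain ⟨h1, h2⟩ := (Inst.mem_sol.1 hX).1 e
  have h3 := abs_le.1 (h.lo_le e)
  have h4 := abs_le.1 (h.hi_le e)
  have p0 : (0 : ℤ) < 2 ^ n := by positivity
  have p2 : (2 : ℤ) ^ (n + 2) = 4 * 2 ^ n := by ring
  have p3 : (2 : ℤ) ^ (n + 3) = 8 * 2 ^ n := by ring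
  refine bs_eq h1 (by omega) fun c c1 c2 => ?_
  rw [hf.iff (setLo_wf (h.mono (by omega)) e (abs_le.2 ⟨by omega, by omega⟩)),
    setLo_nonempty e c1]
  exact ⟨fun ⟨Y, hY, hc⟩ => hc.trans (hm Y hY), fun hc => ⟨X, hX, hc⟩⟩

theorem tightLo_eq {feas : Inst × ℕ → Bool × List ℤ} (hf : FeasSpec feas) {I : Inst} {n : ℕ}
    (h : I.WF n) (e : Fin I.M) {X : Fin I.M → ℤ} (hX : X ∈ I.sol) (hm : ∀ Y ∈ I.sol, X e ≤ Y e) :
    tightLo feas I n e = X e := by
  obtain ⟨h1, h2⟩ := (Inst.mem_sol.1 hX).1 e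
  have h3 := abs_le.1 (h.lo_le e)
  have h4 := abs_le.1 (h.hi_le e)
  have p0 : (0 : ℤ) < 2 ^ n := by positivity
  have p2 : (2 : ℤ) ^ (n + 2) = 4 * 2 ^ n := by ring
  have p3 : (2 : ℤ) ^ (n + 3) = 8 * 2 ^ n := by ring
  unfold tightLo
  rw [neg_eq_iff_eq_neg]
  refine bs_eq (by omega) (by omega) fun c c1 c2 => ?_
  rw [hf.iff (setHi_wf (h.mono (by omega)) e (abs_le.2 ⟨by omega, by omega⟩)),
    setHi_nonempty e (by omega)]
  exact ⟨fun ⟨Y, hY, hc⟩ => by have := hm Y hY; omega, fun hc => ⟨X, hX, by omega⟩⟩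

theorem exists_tight {feas : Inst × ℕ → Bool × List ℤ} (hf : FeasSpec feas) :
    ∃ tight, TightSpec tight := by
  refine ⟨fun p => (tab p.1.M (tightLo feas p.1 p.2), tab p.1.M (tightHi feas p.1 p.2)), ?_,
    fun I n => ⟨length_tab _ _, length_tab _ _⟩, fun I n h hne e => ?_, fun I n h hne e => ?_⟩
  · refine PT.pair (pt_tab (by fun_prop) ?_) (pt_tab (by fun_prop) ?_)
    · refine PT.int_neg (pt_bs (P := fun (p : (Inst × ℕ) × ℕ) c =>
        (feas (setHi p.1.1 p.2 (-c), p.1.2 + 3)).1) (PT.fst (hf.pt.comp ?_)) (by fun_prop)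
        (by fun_prop))
      unfold setHi
      fun_prop
    · refine pt_bs (P := fun (p : (Inst × ℕ) × ℕ) c =>
        (feas (setLo p.1.1 p.2 c, p.1.2 + 3)).1) (PT.fst (hf.pt.comp ?_)) (by fun_prop)
        (by fun_prop)
      unfold setLo
      fun_prop
  · obtain ⟨X, hX, hm⟩ := I.sol.exists_min_image (fun X => X e) hne
    have : I.vec (tab I.M (tightLo feas I n)) e = X e :=
      (getD_tab _ _ e.2).trans (tightLo_eq hf h e hX hm)
    exact ⟨⟨X, hX, this.symm⟩, fun Y hY => this.trans_le (hm Y hY)⟩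
  · obtain ⟨X, hX, hm⟩ := I.sol.exists_max_image (fun X => X e) hne
    have : I.vec (tab I.M (tightHi feas I n)) e = X e :=
      (getD_tab _ _ e.2).trans (tightHi_eq hf h e hX hm)
    exact ⟨⟨X, hX, this.symm⟩, fun Y hY => (hm Y hY).trans_eq this.symm⟩

/-- Add a hub and the star cells. -/
def ext (I : Inst) : Inst :=
  (I.nv + 1, I.us ++ List.range (I.nv + 1), I.vs ++ List.replicate (I.nv + 1) (I.nv + 1),
    I.los ++ List.replicate (I.nv + 1) 0, I.his ++ List.replicate (I.nv + 1) 0, I.tgt ++ [0])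

@[fun_prop] theorem pt_ext {α : Type} [Enc α] {I : α → Inst} (hI : PT I) :
    PT fun a => ext (I a) := by
  unfold ext; fun_prop

/-- The last `nv` cells join the hub `nv` to the vertices, with capacity `[0,0]`. -/
structure Star (I : Inst) (M₀ : ℕ) : Prop where
  M_eq : I.M = M₀ + I.nv
  old : ∀ e < M₀, I.uN e < I.nv ∧ I.vN e < I.nv
  star : ∀ a < I.nv, I.uN (M₀ + a) = a ∧ I.vN (M₀ + a) = I.nv ∧ I.loN (M₀ + a) = 0 ∧
    I.hiN (M₀ + a) = 0

theorem getD_append_replicate_zero (l : List ℤ) (k i : ℕ) :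
    (l ++ List.replicate k 0).getD i 0 = l.getD i 0 := by
  by_cases h : i < l.length
  · exact List.getD_append _ _ _ _ h
  · rw [List.getD_append_right _ _ _ _ (not_lt.1 h), List.getD_eq_default l _ (not_lt.1 h),
      List.getD_eq_getElem?_getD, List.getElem?_replicate]
    split_ifs <;> rfl

theorem ext_nv (I : Inst) : (ext I).nv = I.nv + 1 := rfl

theorem ext_M (I : Inst) : (ext I).M = I.M + (I.nv + 1) := by
  simp [ext, Inst.M, Inst.us]

theorem ext_loN (I : Inst) (e : ℕ) : (ext I).loN e = I.loN e := getD_append_replicate_zero _ _ _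

theorem ext_hiN (I : Inst) (e : ℕ) : (ext I).hiN e = I.hiN e := getD_append_replicate_zero _ _ _

theorem ext_tN (I : Inst) (a : ℕ) : (ext I).tN a = I.tN a := getD_append_replicate_zero _ 1 _

theorem ext_uN_old (I : Inst) {e : ℕ} (he : e < I.M) : (ext I).uN e = I.uN e :=
  List.getD_append _ _ _ _ he

theorem ext_vN_old {I : Inst} {n : ℕ} (h : I.WF n) {e : ℕ} (he : e < I.M) :
    (ext I).vN e = I.vN e :=
  List.getD_append _ _ _ _ (by rw [h.lvs]; exact he)

theorem ext_uN_new (I : Inst) {a : ℕ} (ha : a < I.nv + 1) : (ext I).uN (I.M + a) = a := by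
  show (I.us ++ List.range (I.nv + 1)).getD (I.us.length + a) 0 = a
  rw [List.getD_append_right _ _ _ _ (Nat.le_add_right _ _), Nat.add_sub_cancel_left]
  simp [List.getD_eq_getElem?_getD, List.getElem?_range ha]

theorem ext_vN_new {I : Inst} {n : ℕ} (h : I.WF n) {a : ℕ} (ha : a < I.nv + 1) :
    (ext I).vN (I.M + a) = I.nv + 1 := by
  show (I.vs ++ List.replicate (I.nv + 1) (I.nv + 1)).getD (I.M + a) 0 = I.nv + 1
  rw [← h.lvs, List.getD_append_right _ _ _ _ (Nat.le_add_right _ _), Nat.add_sub_cancel_left,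
    List.getD_eq_getElem?_getD, List.getElem?_replicate, if_pos ha]
  rfl

theorem Inst.WF.loN_big {I : Inst} {n : ℕ} (h : I.WF n) {e : ℕ} (he : I.M ≤ e) : I.loN e = 0 :=
  List.getD_eq_default _ _ (by rw [h.llos]; exact he)

theorem Inst.WF.hiN_big {I : Inst} {n : ℕ} (h : I.WF n) {e : ℕ} (he : I.M ≤ e) : I.hiN e = 0 :=
  List.getD_eq_default _ _ (by rw [h.lhis]; exact he)

theorem Inst.WF.tN_big {I : Inst} {n : ℕ} (h : I.WF n) {a : ℕ} (ha : I.nv ≤ a) : I.tN a = 0 :=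
  List.getD_eq_default _ _ (by rw [h.ltgt]; exact ha)

theorem ext_wf {I : Inst} {n : ℕ} (h : I.WF n) : (ext I).WF (2 * n + 64) := by
  have hp : (2 : ℤ) ^ n ≤ 2 ^ (2 * n + 64) := pow_le_pow_right₀ (by norm_num) (by omega)
  have hs := h.size
  have key : ∀ e < (ext I).M, (ext I).uN e ≤ (ext I).nv ∧ (ext I).vN e ≤ (ext I).nv ∧
      (ext I).uN e ≠ (ext I).vN e := by
    intro e he
    rw [ext_M] at he
    rw [ext_nv]
    by_cases h1 : e < I.M
    · rw [ext_uN_old I h1, ext_vN_old h h1]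
      exact ⟨(h.uN_le e h1).trans (Nat.le_succ _), (h.vN_le e h1).trans (Nat.le_succ _), h.ne e h1⟩
    · obtain ⟨a, rfl⟩ : ∃ a, e = I.M + a := ⟨e - I.M, by omega⟩
      rw [ext_uN_new I (by omega), ext_vN_new h (by omega)]
      omega
  refine ⟨by rw [ext_M, ext_nv]; omega, ?_, ?_, ?_, ?_, fun e he => (key e he).1,
    fun e he => (key e he).2.1, fun e he => (key e he).2.2,
    fun e => by rw [ext_loN]; exact (h.lo_le e).trans hp,
    fun e => by rw [ext_hiN]; exact (h.hi_le e).trans hp,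
    fun e => by rw [ext_tN]; exact (h.t_le e).trans hp⟩
  · rw [ext_M, ← h.lvs]; simp [ext, Inst.vs]
  · rw [ext_M, ← h.llos]; simp [ext, Inst.los]
  · rw [ext_M, ← h.lhis]; simp [ext, Inst.his]
  · rw [ext_nv, ← h.ltgt]; simp [ext, Inst.tgt]

theorem ext_star {I : Inst} {n : ℕ} (h : I.WF n) : Star (ext I) I.M := by
  refine ⟨ext_M I, fun e he => ?_, fun a ha => ?_⟩
  · rw [ext_uN_old I he, ext_vN_old h he, ext_nv]
    exact ⟨Nat.lt_succ_of_le (h.uN_le e he), Nat.lt_succ_of_le (h.vN_le e he)⟩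
  · exact ⟨ext_uN_new I ha, ext_vN_new h ha, by rw [ext_loN, h.loN_big (Nat.le_add_right _ _)],
      by rw [ext_hiN, h.hiN_big (Nat.le_add_right _ _)]⟩

theorem Inst.delN_eq_sum (I : Inst) (X : List ℤ) (a : ℕ) :
    I.delN X a = ∑ e ∈ range I.M,
      X.getD e 0 * ((if I.uN e = a then 1 else 0) - (if I.vN e = a then 1 else 0)) := by
  rfl

theorem Inst.WF.vec_mem_sol {I : Inst} {n : ℕ} (h : I.WF n) (X : List ℤ) :
    I.vec X ∈ I.sol ↔ (∀ e < I.M, I.loN e ≤ X.getD e 0 ∧ X.getD e 0 ≤ I.hiN e) ∧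
      ∀ a ≤ I.nv, I.delN X a = I.tN a := by
  rw [Inst.mem_sol]
  refine and_congr ⟨fun h1 e he => h1 ⟨e, he⟩, fun h1 e => h1 e e.2⟩ ⟨fun h1 a ha => ?_, fun h1 => ?_⟩
  · have := h.delN_eq X ⟨a, Nat.lt_succ_of_le ha⟩
    rw [h1] at this
    exact this
  · funext a
    rw [← h.delN_eq X a]
    exact h1 a (Nat.le_of_lt_succ a.2)

theorem ext_vec_mem_sol {I : Inst} {n : ℕ} (h : I.WF n) (X : List ℤ) :
    (ext I).vec X ∈ (ext I).sol ↔
      I.vec X ∈ I.sol ∧ ∀ a < I.nv + 1, X.getD (I.M + a) 0 = 0 := by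
  have hdel : (∀ a < I.nv + 1, X.getD (I.M + a) 0 = 0) → ∀ b, (ext I).delN X b = I.delN X b := by
    intro h0 b
    rw [Inst.delN_eq_sum, Inst.delN_eq_sum, ext_M, sum_range_add,
      sum_eq_zero (s := range (I.nv + 1)) fun a ha => by rw [h0 a (mem_range.1 ha), zero_mul],
      add_zero]
    refine sum_congr rfl fun e he => ?_
    rw [ext_uN_old I (mem_range.1 he), ext_vN_old h (mem_range.1 he)]
  rw [(ext_wf h).vec_mem_sol, h.vec_mem_sol, ext_M, ext_nv]
  simp only [ext_loN, ext_hiN, ext_tN]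
  constructor
  · rintro ⟨h1, h2⟩
    have h0 : ∀ a < I.nv + 1, X.getD (I.M + a) 0 = 0 := by
      intro a ha
      have := h1 (I.M + a) (by omega)
      rw [h.loN_big (Nat.le_add_right _ _), h.hiN_big (Nat.le_add_right _ _)] at this
      omega
    exact ⟨⟨fun e he => h1 e (by omega), fun a ha => by rw [← hdel h0, h2 a (by omega)]⟩, h0⟩
  · rintro ⟨⟨h1, h2⟩, h0⟩
    refine ⟨fun e he => ?_, fun a ha => ?_⟩
    · by_cases h3 : e < I.M
      · exact h1 e h3
      · obtain ⟨a, rfl⟩ : ∃ a, e = I.M + a := ⟨e - I.M, by omega⟩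
        rw [h0 a (by omega), h.loN_big (Nat.le_add_right _ _), h.hiN_big (Nat.le_add_right _ _)]
        exact ⟨le_rfl, le_rfl⟩
    · rw [hdel h0]
      by_cases h3 : a ≤ I.nv
      · exact h2 a h3
      · rw [h.tN_big (by omega), Inst.delN_eq_sum]
        refine sum_eq_zero fun e he => ?_
        have g1 := h.uN_le e (mem_range.1 he)
        have g2 := h.vN_le e (mem_range.1 he)
        rw [if_neg (by omega), if_neg (by omega), sub_self, mul_zero]

theorem ext_cnt {I : Inst} {n : ℕ} (h : I.WF n) : (ext I).cnt = I.cnt := by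
  have hbig : ∀ (Y : Fin I.M → ℤ) (a : ℕ), (List.ofFn Y).getD (I.M + a) 0 = 0 := fun Y a =>
    List.getD_eq_default _ _ (by simp)
  refine card_nbij' (fun X => I.vec (List.ofFn X)) (fun Y => (ext I).vec (List.ofFn Y)) ?_ ?_ ?_ ?_
  · intro X hX
    have hX' : (ext I).vec (List.ofFn X) ∈ (ext I).sol := by rw [Inst.vec_ofFn]; exact hX
    exact ((ext_vec_mem_sol h _).1 hX').1
  · intro Y hY
    exact (ext_vec_mem_sol h _).2 ⟨by rw [Inst.vec_ofFn]; exact hY, fun a _ => hbig Y a⟩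
  · intro X hX
    have hX' : (ext I).vec (List.ofFn X) ∈ (ext I).sol := by rw [Inst.vec_ofFn]; exact hX
    have h0 := ((ext_vec_mem_sol h _).1 hX').2
    funext e
    show (List.ofFn (I.vec (List.ofFn X))).getD e 0 = X e
    by_cases h1 : (e : ℕ) < I.M
    · exact (getD_ofFn (I.vec (List.ofFn X)) 0 ⟨e, h1⟩).trans (getD_ofFn X 0 e)
    · have he : (e : ℕ) < I.M + (I.nv + 1) := e.2.trans_eq (ext_M I)
      have e1 : (e : ℕ) = I.M + (e - I.M) := by omega
      rw [← getD_ofFn X 0 e, e1, hbig, h0 _ (by omega)]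
  · intro Y _
    funext e
    show (List.ofFn ((ext I).vec (List.ofFn Y))).getD e 0 = Y e
    exact (getD_ofFn ((ext I).vec (List.ofFn Y)) 0
      ⟨e, by rw [ext_M]; exact Nat.lt_add_right _ e.2⟩).trans (getD_ofFn Y 0 e)

end Crest.Agent.R309
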