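import Crest.Agent.R309.Moves
import Crest.Agent.R309.Tight
import Crest.Agent.R309.Krus

/-!
# Row 309: the estimator (definitions only, complete)

`p : Pre` is a preprocessed instance: exact ranges, a feasible flow `X0`, a maximum spanning forest of the
thick cells (range `≥ n ^ 26`), star cells `M0 + a` from the hub to the vertex `a`.
Kinds of cells: `star` (star cell of a root: range `[-n^28, n^28]`, annealed to `0`), `tree` (soft logistic walls
of width `sig`, annealed from far away to the true range), `free` (thick, not tree: long steps `st`), others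
(unit steps).  Stage `s` uses the counter `jj s e ∈ [0, n^33]` for the cell `e`; the step `s → s + 1` increases
the counter of the cell `s / n^33`.
-/

set_option autoImplicit false

namespace Crest.Agent.R309

open Finset Crest.Agent.Lib.PolyTime

/-- `(I, X0, roots, paths, trees, M0, n)`. -/
abbrev Pre : Type := Inst × List ℤ × List ℕ × List (List ℤ) × List Bool × ℕ × ℕ

/-- `k!` as a product. -/
def factZ (i k : ℕ) : ℤ := (tab k fun j => ((i + 1 + j : ℕ) : ℤ)).prod

/-- `tayN k a b / tayD k b = ∑ i < k, (a / b) ^ i / i!`. -/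
def tayD (k : ℕ) (b : ℤ) : ℤ := b ^ k * factZ 0 k

def tayN (k : ℕ) (a b : ℤ) : ℤ := (tab k fun i => a ^ i * b ^ (k - i) * factZ i (k - i)).sum

/-- A value that has at least half of the list on either side. -/
def median (l : List ℤ) : ℤ :=
  (l.filter fun z => decide (l.length ≤ 2 * (l.filter fun y => decide (y ≤ z)).length) &&
    decide (l.length ≤ 2 * (l.filter fun y => decide (z ≤ y)).length)).headD 0

namespace Pre

def I (p : Pre) : Inst := p.1
def X0 (p : Pre) : List ℤ := p.2.1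
def roots (p : Pre) : List ℕ := p.2.2.1
def paths (p : Pre) : List (List ℤ) := p.2.2.2.1
def trees (p : Pre) : List Bool := p.2.2.2.2.1
def M0 (p : Pre) : ℕ := p.2.2.2.2.2.1
def n (p : Pre) : ℕ := p.2.2.2.2.2.2

variable (p : Pre)

/-! ### Cells -/

def nZ : ℤ := p.n
def rho (e : ℕ) : ℤ := p.I.hiN e - p.I.loN e
def thick (e : ℕ) : Bool := decide (p.nZ ^ 26 ≤ p.rho e)
def tree (e : ℕ) : Bool := p.trees.getD e false
def rootN (a : ℕ) : ℕ := p.roots.getD a 0
def pathN (a e : ℕ) : ℤ := (p.paths.getD a []).getD e 0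
def star (e : ℕ) : Bool := decide (p.M0 ≤ e) && decide (p.rootN (e - p.M0) = e - p.M0)
def free (e : ℕ) : Bool := p.thick e && !p.tree e
def ann (e : ℕ) : Bool := p.star e || p.tree e
def st (e : ℕ) : ℤ := if p.free e = true then p.rho e / p.nZ ^ 26 else 1
def sig (e : ℕ) : ℤ := p.rho e / p.nZ ^ 10 + 1
def lo' (e : ℕ) : ℤ :=
  if p.star e = true then -p.nZ ^ 28
  else if p.tree e = true then p.I.loN e - p.nZ ^ 33 * p.sig e else p.I.loN e
def hi' (e : ℕ) : ℤ :=
  if p.star e = true then p.nZ ^ 28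
  else if p.tree e = true then p.I.hiN e + p.nZ ^ 33 * p.sig e
  else if p.free e = true then p.I.loN e + (p.rho e / p.st e + 1) * p.st e - 1 else p.I.hiN e
def len (e : ℕ) : ℤ := p.hi' e - p.lo' e + 1
def cycN (e t : ℕ) : ℤ :=
  (if t = e then 1 else 0) - p.pathN (p.I.uN e) t + p.pathN (p.I.vN e) t
/-- paths to the hub -/
def pathS (a t : ℕ) : ℤ :=
  if a = p.I.nv then 0 else p.pathN a t + (if t = p.M0 + p.rootN a then 1 else 0)
def cycS (e t : ℕ) : ℤ :=
  (if t = e then 1 else 0) - p.pathS (p.I.uN e) t + p.pathS (p.I.vN e) t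

/-! ### Weights -/

def jj (s e : ℕ) : ℕ := min (p.n ^ 33) (s - e * p.n ^ 33)
def qd (e : ℕ) : ℤ := p.nZ ^ 3 * p.len e ^ 2
def qn (e : ℕ) (x : ℤ) : ℤ := if p.tree e = true then p.qd e else p.qd e - (x - p.lo' e) ^ 2
def den (e : ℕ) : ℤ := if p.star e = true then p.nZ ^ 28 else p.sig e
def cc (e : ℕ) : ℤ := if p.star e = true then 0 else 1
def y1 (j e : ℕ) (x : ℤ) : ℤ :=
  if p.star e = true then j * (if 0 ≤ x then x else 0)
  else x - p.I.hiN e - (p.nZ ^ 3 + p.nZ ^ 33 - j) * p.sig e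
def y2 (j e : ℕ) (x : ℤ) : ℤ :=
  if p.star e = true then j * (if 0 ≤ x then 0 else -x)
  else p.I.loN e - x - (p.nZ ^ 3 + p.nZ ^ 33 - j) * p.sig e
/-- numerator of the rational approximation of `fR` -/
def fn (_j e : ℕ) (x : ℤ) : ℤ :=
  if p.ann e = true then p.qn e x * tayD (p.n ^ 35) (p.den e) ^ 2 else p.qn e x
/-- denominator of the rational approximation of `fR` -/
def fd (j e : ℕ) (x : ℤ) : ℤ :=
  if p.ann e = true then p.qd e *
    ((p.cc e * tayD (p.n ^ 35) (p.den e) + tayN (p.n ^ 35) (p.y1 j e x) (p.den e)) *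
      (p.cc e * tayD (p.n ^ 35) (p.den e) + tayN (p.n ^ 35) (p.y2 j e x) (p.den e)))
  else p.qd e
/-- the ideal weight of the cell `e` with counter `j` -/
noncomputable def fR (j e : ℕ) (x : ℤ) : ℝ :=
  (p.qn e x : ℝ) / p.qd e *
    if p.ann e = true then
      1 / ((p.cc e + Real.exp (p.y1 j e x / p.den e)) * (p.cc e + Real.exp (p.y2 j e x / p.den e)))
    else 1
def prodN (s : ℕ) (X : List ℤ) : ℤ := (tab p.I.M fun e => p.fn (p.jj s e) e (X.getD e 0)).prod
def prodD (s : ℕ) (X : List ℤ) : ℤ := (tab p.I.M fun e => p.fd (p.jj s e) e (X.getD e 0)).prod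

/-! ### The chain -/

/-- number of bits of a random number -/
def K : ℕ := p.n ^ 3
def Wn (s : ℕ) (row : List (ℤ × ℤ)) (x : List ℤ × ℕ) : ℤ := p.prodN s x.1 * (row.getD x.2 (1, 1)).2
def Wd (s w : ℕ) (row : List (ℤ × ℤ)) (li : ℤ) (x : List ℤ × ℕ) : ℤ :=
  p.prodD s x.1 * (row.getD x.2 (1, 1)).1 * (if x.2 = w then 1 else li)
def inOm (w : ℕ) (x : List ℤ × ℕ) : Bool :=
  ((List.range p.I.M).all fun e => decide (p.lo' e ≤ x.1.getD e 0) && decide (x.1.getD e 0 ≤ p.hi' e)) &&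
  ((List.range (p.I.nv + 1)).all fun b => decide (p.I.delN x.1 b =
    p.I.tN b + (if b = x.2 then 1 else 0) - (if b = w then 1 else 0)))
def mvN (i : ℕ) (J : ℤ) (a : ℕ) : List ℤ × ℕ × ℕ :=
  if i < p.I.M then (tab p.I.M fun t => if t = i then 1 else 0, p.I.vN i, p.I.uN i)
  else if i - p.I.M < p.I.M then
    (tab p.I.M fun t => p.st (i - p.I.M) * p.cycN (i - p.I.M) t, a, a)
  else if i - 2 * p.I.M < p.I.M then
    (tab p.I.M fun t => J % p.st (i - 2 * p.I.M) * p.cycN (i - 2 * p.I.M) t, a, a)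
  else (tab p.I.M fun t => p.pathN (i - 3 * p.I.M) t, p.rootN (i - 3 * p.I.M), i - 3 * p.I.M)
def propN (x : List ℤ × ℕ) (sg : Bool) (r : List ℤ × ℕ × ℕ) : List ℤ × ℕ :=
  if sg = true then
    (if x.2 = r.2.1 then (tab p.I.M fun t => x.1.getD t 0 + r.1.getD t 0, r.2.2) else x)
  else (if x.2 = r.2.2 then (tab p.I.M fun t => x.1.getD t 0 - r.1.getD t 0, r.2.1) else x)
/-- the proposal read off the tape -/
def propT (x : List ℤ × ℕ) (τ : List Bool) : List ℤ × ℕ :=
  p.propN x (τ.getD 1 false)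
    (p.mvN (num (chunk p.K 1 τ) % ((3 * p.I.M + p.I.nv + 1 : ℕ) : ℤ)).toNat (num (chunk p.K 2 τ)) x.2)
/-- one step, reading `4 K` bits -/
def step (s w : ℕ) (row : List (ℤ × ℤ)) (li : ℤ) (x : List ℤ × ℕ) (τ : List Bool) : List ℤ × ℕ :=
  if τ.getD 0 false = true ∧ p.inOm w (p.propT x τ) = true ∧
      num (chunk p.K 3 τ) * (p.Wn s row x * p.Wd s w row li (p.propT x τ)) <
        2 ^ p.K * (p.Wn s row (p.propT x τ) * p.Wd s w row li x)
  then p.propT x τ else x
def run (s w : ℕ) (row : List (ℤ × ℤ)) (li : ℤ) (X : List ℤ) (τ : List Bool) : List ℤ × ℕ :=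
  foldT (fun _ => p.step s w row li) (4 * p.K) (p.n ^ 700) (X, w) τ
/-- length of the tape of `run` -/
def l1 : ℕ := p.n ^ 700 * (4 * p.K)

/-! ### Initial sample, annealing, learning -/

def initProp (τ : List Bool) : List ℤ :=
  tab p.I.M fun t => p.X0.getD t 0 + (tab p.I.M fun e =>
    if p.ann e = true then 0
    else (p.lo' e + num (chunk p.K e τ) % p.len e - p.X0.getD e 0) * p.cycS e t).sum
def initStep (X : List ℤ) (τ : List Bool) : List ℤ :=
  if num (chunk p.K p.I.M τ) * p.prodD 0 (p.initProp τ) < 2 ^ p.K * p.prodN 0 (p.initProp τ)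
  then p.initProp τ else X
def init (τ : List Bool) : List ℤ :=
  foldT (fun _ => p.initStep) ((p.I.M + 1) * p.K) (p.n ^ 2) p.X0 τ

/-- `hist[s][w][a]` is the estimate (numerator, denominator) of `Z s a w`. -/
abbrev Hist : Type := List (List (List (ℤ × ℤ)))

def rowOf (h : Hist) (s w : ℕ) : List (ℤ × ℤ) := (h.getD s []).getD w []
/-- the cell changed by the step `s → s + 1` -/
def cell (s : ℕ) : ℕ := s / p.n ^ 33
def transit (h : Hist) (i : ℕ) (X : List ℤ) (ω : List Bool) : List ℤ :=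
  (p.run (i + 1) (p.I.vN (p.cell i)) (rowOf h (i + 1) (p.I.vN (p.cell i))) (p.nZ ^ 78) X ω).1
def sample (h : Hist) (s : ℕ) (τ : List Bool) : List ℤ :=
  foldT (p.transit h) p.l1 s (p.init (τ.take p.l1)) (τ.drop p.l1)
def probeState (h : Hist) (s w : ℕ) (τ : List Bool) : List ℤ × ℕ :=
  p.run s w (rowOf h s w) 1 (p.sample h s (τ.take ((p.n ^ 34 + 1) * p.l1)))
    (chunk p.l1 (p.n ^ 34 + 1) τ)
def coin (s : ℕ) (x : ℤ) (ω : List Bool) : Bool :=
  decide (num (ω.take p.K) *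
      (p.fn (p.jj s (p.cell s)) (p.cell s) x * p.fd (p.jj s (p.cell s) + 1) (p.cell s) x) <
    2 ^ p.K * (p.fn (p.jj s (p.cell s) + 1) (p.cell s) x * p.fd (p.jj s (p.cell s)) (p.cell s) x))
def probeA (h : Hist) (s w a : ℕ) (τ : List Bool) : Bool := decide ((p.probeState h s w τ).2 = a)
def probeB (h : Hist) (s w a : ℕ) (τ : List Bool) : Bool :=
  p.probeA h s w a τ &&
    p.coin s ((p.probeState h s w τ).1.getD (p.cell s) 0) (chunk p.l1 (p.n ^ 34 + 2) τ)
def l2 : ℕ := (p.n ^ 34 + 3) * p.l1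
def stage (s : ℕ) (h : Hist) (τ : List Bool) : Hist :=
  h ++ [tab (p.I.nv + 1) fun w => tab (p.I.nv + 1) fun a =>
    (((rowOf h s w).getD a (1, 1)).1 * (hits (p.probeB h s w a) p.l2 (p.n ^ 116) τ : ℤ),
      ((rowOf h s w).getD a (1, 1)).2 * (hits (p.probeA h s w a) p.l2 (p.n ^ 116) τ : ℤ))]
def l3 : ℕ := p.n ^ 116 * p.l2
def Zbar : ℤ := (tab p.I.M fun e => if p.ann e = true then 1 else p.len e).prod
def hist0 : Hist := [tab (p.I.nv + 1) fun _ => tab (p.I.nv + 1) fun _ => (p.Zbar, 1)]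
/-- number of stages -/
def S : ℕ := p.I.M * p.n ^ 33
def learn (τ : List Bool) : Hist := foldT p.stage p.l3 p.S p.hist0 τ
def raw (τ : List Bool) : ℤ :=
  (2 * ((rowOf (p.learn τ) p.S 0).getD 0 (1, 1)).1 + ((rowOf (p.learn τ) p.S 0).getD 0 (1, 1)).2) /
    (2 * ((rowOf (p.learn τ) p.S 0).getD 0 (1, 1)).2)
def l4 : ℕ := p.n ^ 34 * p.l3
def med (τ : List Bool) : ℤ := median (tab p.n fun i => p.raw (chunk p.l4 i τ))

/-! ### The mathematical model -/

/-- Hypotheses on a preprocessed instance. -/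
structure OK : Prop where
  wf : p.I.WF p.n
  n_ge : 64 ≤ p.n
  star : Star p.I p.M0
  X0_len : p.X0.length = p.I.M
  X0_mem : p.I.vec p.X0 ∈ p.I.sol
  tight : ∀ e, (∃ X ∈ p.I.sol, X e = p.I.lo e) ∧ ∃ X ∈ p.I.sol, X e = p.I.hi e
  krus : Krus p.I (p.nZ ^ 26) p.roots p.paths p.trees

/-- The network of the chain, with the thick forest. -/
def mdl : Mdl (Fin (p.I.nv + 1)) p.I.M where
  u := p.I.u
  v := p.I.v
  lo e := p.lo' e
  hi e := p.hi' e
  t := p.I.t
  tree e := p.tree e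
  root a := p.I.vtx (p.rootN a)
  path a e := p.pathN a e
  X0 := p.I.vec p.X0

/-- The same network with the spanning tree rooted at the hub. -/
def mdlS : Mdl (Fin (p.I.nv + 1)) p.I.M where
  u := p.I.u
  v := p.I.v
  lo e := p.lo' e
  hi e := p.hi' e
  t := p.I.t
  tree e := p.ann e
  root _ := Fin.last _
  path a e := p.pathS a e
  X0 := p.I.vec p.X0

def thickF (e : Fin p.I.M) : Bool := p.thick e
def sF (e : Fin p.I.M) : ℕ := (p.st e).toNat
/-- weights of stage `s` -/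
noncomputable def f (s : ℕ) (e : Fin p.I.M) (x : ℤ) : ℝ := p.fR (p.jj s e) e x
/-- partition function of the class with token `a`, anti-token `w` -/
noncomputable def Z (s : ℕ) (a w : p.I.V) : ℝ := p.mdl.Z (p.f s) a w
/-- the exact flows of the model -/
noncomputable def solM : Finset (Fin p.I.M → ℤ) := cls p.I.u p.I.v p.mdl.lo p.mdl.hi p.I.t
/-- expectation under the law of stage `s` on exact flows -/
noncomputable def mu (s : ℕ) (G : List ℤ → ℝ) : ℝ :=
  (∑ X ∈ p.solM, wt (p.f s) X * G (List.ofFn X)) / ∑ X ∈ p.solM, wt (p.f s) X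
/-- list form of a state -/
def code (x : (Fin p.I.M → ℤ) × p.I.V) : List ℤ × ℕ := (List.ofFn x.1, x.2)
/-- class weights given by a row of estimates -/
noncomputable def om (w : p.I.V) (row : List (ℤ × ℤ)) (li : ℤ) (a : p.I.V) : ℝ :=
  ((row.getD a (1, 1)).2 : ℝ) / (row.getD a (1, 1)).1 / (if a = w then 1 else li)
/-- expectation under the stationary law of the chain -/
noncomputable def piE (s : ℕ) (w : p.I.V) (row : List (ℤ × ℤ)) (li : ℤ) (G : List ℤ × ℕ → ℝ) : ℝ :=
  (∑ x ∈ p.mdl.Om w, Mdl.W (p.f s) (p.om w row li) x * G (p.code x)) /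
    ∑ x ∈ p.mdl.Om w, Mdl.W (p.f s) (p.om w row li) x
/-- the row estimates the partition functions of stage `s` with relative error `ε` -/
def RowOK (s : ℕ) (w : p.I.V) (row : List (ℤ × ℤ)) (ε : ℝ) : Prop :=
  ∀ a : p.I.V, 0 < (row.getD a (1, 1)).1 ∧ 0 < (row.getD a (1, 1)).2 ∧
    |((row.getD a (1, 1)).1 : ℝ) / (row.getD a (1, 1)).2 - p.Z s a w| ≤ ε * p.Z s a w
def Good (s : ℕ) (h : Hist) : Prop :=
  h.length = s + 1 ∧ ∀ i ≤ s, ∀ w : p.I.V,
    p.RowOK i w (rowOf h i w) (4 / (p.n : ℝ) ^ 2 + i / (p.n : ℝ) ^ 36)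

theorem cl_self (w : p.I.V) : p.mdl.cl w w = p.solM := by
  simp [Mdl.cl, solM, mdl]

end Pre

end Crest.Agent.R309
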