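import Crest.Agent.R309.Samp

/-!
# Row 309: learning the partition functions

`stage_good`: `π a = om a Z a / ∑ ≥ 1/(4N)` (`om_Z`), `Z (s+1) ≥ Z s / 9` (`wt_succ`, `tilt_bounds`).  `chebyshev` with
`ζ = 1/n^39`, `k = n^116` fails with probability `≤ 1/n^38` for each of the `2 N²` counts.  Otherwise both counts are
positive, `B / A` has relative error `≤ 100 / n^38`, and `(1 + x)(1 + δ) ≤ 1 + x + 2 δ` for `x ≤ 1`.  Old rows are kept by
`h ++ [_]`.  `learn_good`: `stages`, `good_zero`, `S ≤ n^34`.  `raw_good`: `Z_final`; the estimate is within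
`11/n² * cnt ≤ cnt / (2n)`, and rounding to the nearest integer keeps it within `cnt / n` (exact if `cnt < n`).
`med_good`: `majority`; if fewer than half of the values are bad, a median exists and lies between two good values.
-/

set_option autoImplicit false

namespace Crest.Agent.R309

open Finset

theorem median_mem {l : List ℤ} {lo hi : ℤ}
    (h : 2 * (l.filter fun z => !(decide (lo ≤ z) && decide (z ≤ hi))).length < l.length) :
    lo ≤ median l ∧ median l ≤ hi := by
  simp only [median, ← List.countP_eq_length_filter] at h ⊢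
  obtain ⟨z, hz, hz'⟩ := Int.exists_least_of_bdd
    (P := fun z => l.length ≤ 2 * l.countP fun y => decide (y ≤ z))
    (by
      obtain ⟨b, hb⟩ := l.finite_toSet.bddBelow
      refine ⟨b, fun z hz => ?_⟩
      obtain ⟨y, hy, hy'⟩ := List.countP_pos_iff.1 (show 0 < l.countP fun y => decide (y ≤ z) by omega)
      exact (hb hy).trans (by simpa using hy'))
    (by
      obtain ⟨b, hb⟩ := l.finite_toSet.bddAbove
      refine ⟨b, ?_⟩
      rw [List.countP_eq_length.2 fun y hy => by simpa using hb hy]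
      omega)
  have h1 : ¬ l.length ≤ 2 * l.countP fun y => decide (y ≤ z - 1) := fun h => by
    have := hz' _ h; omega
  have h2 : z ∈ l := by
    by_contra hc
    rw [List.countP_congr (q := fun y => decide (y ≤ z - 1)) fun y hy => by
      have : y ≠ z := fun h => hc (h ▸ hy)
      simp; omega] at hz
    exact h1 hz
  have h3 : l.length ≤ 2 * l.countP fun y => decide (z ≤ y) := by
    have := List.length_eq_countP_add_countP (l := l) fun y => decide (z ≤ y)
    rw [List.countP_congr (p := fun a => decide ¬ _) (q := fun y => decide (y ≤ z - 1)) fun y _ => by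
      simp] at this
    omega
  generalize hm : List.filter _ l = m
  have h4 : z ∈ m := by rw [← hm]; simp [h2, hz, h3]
  obtain _ | ⟨y, m⟩ := m
  · simp at h4
  have h5 : y ∈ y :: m := by simp
  rw [← hm] at h5
  simp only [List.mem_filter, Bool.and_eq_true, decide_eq_true_eq] at h5
  refine ⟨not_lt.1 fun hc => ?_, not_lt.1 fun hc => ?_⟩
  · have := List.countP_mono_left (l := l) (p := fun t => decide (t ≤ y))
      (q := fun z => !(decide (lo ≤ z) && decide (z ≤ hi))) fun t _ => by simp at hc ⊢; omega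
    omega
  · have := List.countP_mono_left (l := l) (p := fun t => decide (y ≤ t))
      (q := fun z => !(decide (lo ≤ z) && decide (z ≤ hi))) fun t _ => by simp at hc ⊢; omega
    omega

lemma ratio_close {R Z Z' c a b x δ : ℝ} (hZ : 0 < Z) (hZ' : 0 < Z') (hc : 0 < c)
    (h1 : |a - c * Z| ≤ δ * (c * Z)) (h2 : |b - c * Z'| ≤ δ * (c * Z')) (h3 : |R - Z| ≤ x * Z)
    (hδ : δ ≤ 1 / 2) (hx : x ≤ 1) : 0 < a ∧ 0 < b ∧ |R * (b / a) - Z'| ≤ (x + 8 * δ) * Z' := by
  obtain ⟨α, rfl⟩ : ∃ α, a = α * (c * Z) := ⟨a / (c * Z), by field_simp⟩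
  obtain ⟨β, rfl⟩ : ∃ β, b = β * (c * Z') := ⟨b / (c * Z'), by field_simp⟩
  obtain ⟨r, rfl⟩ : ∃ r, R = r * Z := ⟨R / Z, by field_simp⟩
  have key : ∀ {u v y : ℝ}, 0 < y → |u * y - y| ≤ v * y → 1 - v ≤ u ∧ u ≤ 1 + v := fun hy h => by
    rw [← sub_one_mul, abs_mul, abs_of_pos hy, mul_le_mul_iff_left₀ hy, abs_le] at h
    constructor <;> linarith
  obtain ⟨a1, a2⟩ := key (by positivity) h1
  obtain ⟨b1, b2⟩ := key (by positivity) h2
  obtain ⟨c1, c2⟩ := key hZ h3
  have hα : 0 < α := by linarith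
  have hβ : 0 < β := by linarith
  have d0 : 0 ≤ δ := by linarith
  have x0 : 0 ≤ x := by linarith
  refine ⟨by positivity, by positivity, ?_⟩
  rw [show r * Z * (β * (c * Z') / (α * (c * Z))) - Z' = (r * β - α) / α * Z' by field_simp,
    abs_mul, abs_of_pos hZ', abs_div, abs_of_pos hα]
  refine mul_le_mul_of_nonneg_right ((div_le_iff₀ hα).2 (abs_le.2 ⟨?_, ?_⟩)) hZ'.le
  · have e1 := mul_le_mul c1 b1 (by linarith) (by linarith)
    rcases le_total (1 - x - 8 * δ) 0 with h | h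
    · nlinarith [mul_nonneg (sub_nonneg.2 hx) (by linarith : 0 ≤ 1 - δ)]
    · nlinarith [mul_le_mul_of_nonneg_right a2 h]
  · nlinarith [mul_le_mul c2 b2 hβ.le (by linarith), mul_nonneg d0 (sub_nonneg.2 hx),
      mul_le_mul_of_nonneg_left a1 (by linarith : 0 ≤ 1 + x + 8 * δ), mul_nonneg d0 (sub_nonneg.2 hδ)]

namespace Pre

variable {p : Pre}

theorem OK.Z_succ (h : p.OK) {s : ℕ} (hs : s < p.S) (a w : p.I.V) :
    p.Z s a w ≤ 9 * p.Z (s + 1) a w ∧ p.Z (s + 1) a w ≤ p.Z s a w := by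
  simp only [Z, Mdl.Z, mul_sum]
  constructor <;> refine sum_le_sum fun X hX => ?_ <;>
  · have hb : X ∈ box p.mdl.lo p.mdl.hi := filter_subset _ _ hX
    have h1 := mem_box.1 hb ⟨_, h.cell_lt hs⟩
    have h2 := h.tilt_bounds (p.jj s (p.cell s)) ⟨_, h.cell_lt hs⟩ h1.1 h1.2
    have h3 := (h.lc (s + 1)).wt_pos hb
    rw [← h.wt_succ hs hb]
    nlinarith [h2.1, h2.2]

theorem OK.stage_good (h : p.OK) {s : ℕ} (hs : s < p.S) {H : Hist} (hH : p.Good s H) :
    Ex p.l3 (fun τ => ind (¬ p.Good (s + 1) (p.stage s H τ))) ≤ 2 / (p.n : ℝ) ^ 36 := by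
  have hn : (64 : ℝ) ≤ p.n := by exact_mod_cast h.n_ge
  have hn0 : (0 : ℝ) < p.n := by linarith
  have hN : ((p.I.nv + 1 : ℕ) : ℝ) ≤ p.n := by exact_mod_cast le_trans (by omega) h.M_le
  let bad : (List Bool → Bool) → List Bool → Prop := fun F τ =>
    1 / (p.n : ℝ) ^ 39 * (p.n ^ 116 : ℕ) ≤ |(hits F p.l2 (p.n ^ 116) τ : ℝ) -
      (p.n ^ 116 : ℕ) * Ex p.l2 fun ω => ind (F ω = true)|
  have hbad : ∀ F, Ex p.l3 (fun τ => ind (bad F τ)) ≤ 1 / (p.n : ℝ) ^ 38 := fun F =>
    (chebyshev F le_rfl (by exact_mod_cast pow_pos hn0 116) (by positivity)).trans_eq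
      (by push_cast; field_simp)
  have hclose : ∀ F τ (π : ℝ), ¬ bad F τ →
      |Ex p.l2 (fun ω => ind (F ω = true)) - π| ≤ 1 / (p.n : ℝ) ^ 40 → 1 / (36 * (p.n : ℝ)) ≤ π →
      |(hits F p.l2 (p.n ^ 116) τ : ℝ) / p.n ^ 116 - π| ≤ 72 / (p.n : ℝ) ^ 38 * π :=
    fun F τ π h1 h2 h3 => by
      have h4 : |(hits F p.l2 (p.n ^ 116) τ : ℝ) / p.n ^ 116 - Ex p.l2 fun ω => ind (F ω = true)| ≤
          1 / (p.n : ℝ) ^ 39 := by
        rw [div_sub' (by positivity), abs_div, abs_of_pos (pow_pos hn0 _), div_le_iff₀ (by positivity)]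
        simpa [bad] using (not_le.1 h1).le
      have h5 : 1 / (p.n : ℝ) ^ 40 ≤ 1 / (p.n : ℝ) ^ 39 :=
        one_div_le_one_div_of_le (by positivity) (pow_le_pow_right₀ (by linarith) (by norm_num))
      refine (abs_sub_le _ _ _).trans ((add_le_add h4 (h2.trans h5)).trans
        (le_of_eq_of_le ?_ (mul_le_mul_of_nonneg_left h3 (by positivity))))
      field_simp
      norm_num
  calc _ ≤ Ex p.l3 fun τ => ∑ w : p.I.V, ∑ a : p.I.V,
        (ind (bad (p.probeA H s w a) τ) + ind (bad (p.probeB H s w a) τ)) := by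
        refine Ex_mono fun τ _ => le_trans (ind_mono fun hc => ?_) ((ind_exists_le univ fun w : p.I.V =>
          ∃ a ∈ (univ : Finset p.I.V), bad (p.probeA H s w a) τ ∨ bad (p.probeB H s w a) τ).trans
          (sum_le_sum fun w _ => (ind_exists_le _ _).trans (sum_le_sum fun a _ => ind_or_le _ _)))
        by_contra hg
        simp only [mem_univ, true_and, not_exists, not_or] at hg
        refine hc ⟨by simp [stage, hH.1], fun i hi w => ?_⟩
        rcases hi.lt_or_eq with hi | rfl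
        · have := hH.2 i (Nat.le_of_lt_succ hi) w
          rwa [rowOf, stage, List.getD_append _ _ _ _ (hH.1 ▸ hi)]
        intro a
        have hr := Good.row_half h hs.le hH le_rfl w
        obtain ⟨a1, a2, a3⟩ := hH.2 s le_rfl w a
        obtain ⟨p1, p2⟩ := h.probe_close hs hH w a
        have hom := fun b => h.om_Z hr le_rfl b
        simp only [Int.cast_one, ite_self, mul_one, div_one] at hom
        have hZ := h.Z_pos s a w
        have hT : ∑ b, p.om w (rowOf H s w) 1 b * p.Z s b w ≤ 2 * p.n :=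
          (sum_le_card_nsmul _ _ _ fun b _ => (hom b).2.2).trans (by
            rw [card_univ, Fintype.card_fin, nsmul_eq_mul]; linarith)
        have hT0 : 0 < ∑ b, p.om w (rowOf H s w) 1 b * p.Z s b w :=
          sum_pos (fun b _ => mul_pos (hom b).1 (h.Z_pos s b w)) univ_nonempty
        obtain ⟨o1, o2, -⟩ := hom a
        have z1 := mul_le_mul_of_nonneg_left (h.Z_succ hs a w).1 o1.le
        have q1 := hclose _ τ _ (hg w a).1 p1 (by
          rw [div_le_div_iff₀ (by positivity) hT0]; nlinarith)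
        have q2 := hclose _ τ _ (hg w a).2 p2 (by
          rw [div_le_div_iff₀ (by positivity) hT0]; nlinarith)
        rw [mul_div_right_comm] at q1 q2
        have hs' : (s : ℝ) ≤ p.n ^ 34 := by exact_mod_cast hs.le.trans h.S_le
        have n2 : (4096 : ℝ) ≤ p.n ^ 2 := by nlinarith
        have n3 : 8 * (72 / (p.n : ℝ) ^ 38) ≤ 1 / p.n ^ 36 := by
          field_simp; linarith
        have n4 : 1 / (p.n : ℝ) ^ 36 ≤ 1 := (div_le_one (by positivity)).2 (one_le_pow₀ (by linarith))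
        obtain ⟨r1, r2, r3⟩ := ratio_close hZ (h.Z_pos (s + 1) a w) (div_pos o1 hT0) q1 q2 a3
          (by linarith) (by
            have : (s : ℝ) / p.n ^ 36 ≤ 1 / p.n ^ 2 := by
              field_simp; linarith
            have : 1 / (p.n : ℝ) ^ 2 ≤ 1 / 4096 := one_div_le_one_div_of_le (by norm_num) n2
            rw [div_eq_mul_one_div 4]; linarith)
        rw [div_div_div_cancel_right₀ (by positivity)] at r3
        rw [div_pos_iff_of_pos_right (by positivity), Nat.cast_pos] at r1 r2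
        rw [rowOf, stage, List.getD_append_right _ _ _ _ hH.1.le, hH.1, Nat.sub_self, List.getD_cons_zero,
          getD_tab _ _ w.2, getD_tab _ _ a.2]
        refine ⟨by positivity, by positivity, ?_⟩
        push_cast
        rw [mul_div_mul_comm]
        refine r3.trans (mul_le_mul_of_nonneg_right ?_ (h.Z_pos _ _ _).le)
        rw [add_div]
        linarith
    _ ≤ ∑ w : p.I.V, ∑ a : p.I.V, (1 / (p.n : ℝ) ^ 38 + 1 / (p.n : ℝ) ^ 38) := by
        simp only [Ex_sum, Ex_add]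
        exact sum_le_sum fun w _ => sum_le_sum fun a _ => add_le_add (hbad _) (hbad _)
    _ ≤ _ := by
        simp only [sum_const, card_univ, Fintype.card_fin, nsmul_eq_mul]
        refine le_of_le_of_eq (mul_le_mul hN (mul_le_mul_of_nonneg_right hN (by positivity))
          (by positivity) hn0.le) ?_
        field_simp
        norm_num

theorem OK.learn_good (h : p.OK) {L : ℕ} (hL : p.l4 ≤ L) :
    Ex L (fun τ => ind (¬ p.Good p.S (p.learn τ))) ≤ 1 / 16 := by
  have hn : (64 : ℝ) ≤ p.n := by exact_mod_cast h.n_ge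
  refine (stages p.stage ((Nat.mul_le_mul_right _ h.S_le).trans hL) _ p.Good h.good_zero
    fun i hi H hH => h.stage_good hi hH).trans ?_
  have hs : (p.S : ℝ) ≤ p.n ^ 34 := by exact_mod_cast h.S_le
  refine (mul_le_mul_of_nonneg_right hs (by positivity)).trans ?_
  field_simp
  nlinarith

theorem OK.raw_good (h : p.OK) {τ : List Bool} (hτ : p.Good p.S (p.learn τ)) :
    p.n * |p.raw τ - p.I.cnt| ≤ (p.I.cnt : ℤ) := by
  have hn : (64 : ℝ) ≤ p.n := by exact_mod_cast h.n_ge
  obtain ⟨a1, a2, a3⟩ := hτ.2 p.S le_rfl 0 0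
  have h1 := h.Z_final 0
  simp only [Fin.val_zero] at a1 a2 a3
  unfold raw
  generalize ((rowOf (p.learn τ) p.S 0).getD 0 (1, 1)).1 = u at *
  generalize ((rowOf (p.learn τ) p.S 0).getD 0 (1, 1)).2 = v at *
  have hv : (0 : ℝ) < v := by exact_mod_cast a2
  have b1 : (((2 * u + v) / (2 * v) : ℤ) : ℝ) * (2 * v) ≤ 2 * u + v := by
    exact_mod_cast Int.ediv_mul_le _ (by omega)
  have b2 : (2 * u + v : ℝ) ≤ (((2 * u + v) / (2 * v) : ℤ) + 1) * (2 * v) := by
    exact_mod_cast (Int.lt_ediv_add_one_mul_self _ (by omega)).le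
  generalize (2 * u + v) / (2 * v) = r at *
  have b3 : |(r : ℝ) - u / v| ≤ 1 / 2 := by
    rw [sub_div' hv.ne', abs_div, abs_of_pos hv, div_le_iff₀ hv, abs_le]
    constructor <;> linarith
  have hs : (p.S : ℝ) / p.n ^ 36 ≤ 1 / p.n ^ 2 := by
    have : (p.S : ℝ) ≤ p.n ^ 34 := by exact_mod_cast h.S_le
    field_simp; linarith
  have hx : 1 / (p.n : ℝ) ^ 2 ≤ 1 / 64 * (1 / p.n) := by field_simp; linarith
  have hy : 1 / (p.n : ℝ) ≤ 1 / 64 := one_div_le_one_div_of_le (by norm_num) hn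
  have hc : (0 : ℝ) ≤ p.I.cnt := Nat.cast_nonneg _
  have hZ := h.Z_pos p.S 0 0
  rw [div_eq_mul_one_div 4] at a3
  rw [div_eq_mul_one_div 5] at h1
  have c1 : p.Z p.S 0 0 ≤ 2 * p.I.cnt := by nlinarith [(abs_le.1 h1).2]
  have c2 : |(r : ℝ) - p.I.cnt| ≤ 1 / 2 + 1 / 2 * (1 / p.n) * p.I.cnt := by
    have := (abs_sub_le _ _ _).trans (add_le_add ((abs_sub_le _ _ _).trans (add_le_add b3 a3)) h1)
    have : (0 : ℝ) ≤ 1 / p.n := by positivity
    nlinarith [mul_le_mul (by linarith : 4 * (1 / (p.n : ℝ) ^ 2) + p.S / p.n ^ 36 ≤ 5 / 64 * (1 / p.n))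
      c1 hZ.le (by positivity), mul_le_mul_of_nonneg_right hx hc]
  have c3 : 2 * (p.n * |r - p.I.cnt|) ≤ p.n + (p.I.cnt : ℤ) := by
    have := mul_le_mul_of_nonneg_left c2 (by linarith : (0 : ℝ) ≤ 2 * p.n)
    rw [show 2 * (p.n : ℝ) * (1 / 2 + 1 / 2 * (1 / p.n) * p.I.cnt) = p.n + p.I.cnt by field_simp,
      mul_assoc] at this
    exact_mod_cast this
  rcases (abs_nonneg (r - p.I.cnt)).eq_or_lt with h0 | h0
  · simp [← h0]
  · nlinarith [Int.natCast_nonneg p.n]

theorem OK.med_good (h : p.OK) {L : ℕ} (hL : p.n ^ 900 ≤ L) :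
    Ex L (fun τ => ind ((p.I.cnt : ℤ) < p.n * |p.med τ - p.I.cnt|)) ≤ (1 / 2) ^ p.n := by
  have hn := h.n_ge
  let F : List Bool → Bool := fun τ =>
    !(decide (p.I.cnt - p.I.cnt / p.n ≤ p.raw τ) && decide (p.raw τ ≤ p.I.cnt + p.I.cnt / p.n))
  have key : ∀ z : ℤ, (p.I.cnt - p.I.cnt / p.n ≤ z ∧ z ≤ p.I.cnt + p.I.cnt / p.n) ↔
      p.n * |z - p.I.cnt| ≤ (p.I.cnt : ℤ) := fun z => by
    rw [mul_comm, ← Int.le_ediv_iff_mul_le (by omega), abs_le]; omega
  have hl : p.n * p.l4 ≤ p.n ^ 900 := by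
    have h1 : p.n ^ 34 + 3 ≤ p.n ^ 35 := by nlinarith [Nat.one_le_pow 34 p.n (by omega), pow_succ p.n 34]
    calc _ ≤ p.n * (p.n ^ 34 * (p.n ^ 116 * (p.n ^ 35 * (p.n ^ 700 * (p.n * p.n ^ 3))))) := by
          unfold l4 l3 l2 l1 K; gcongr; omega
      _ = p.n ^ 890 := by ring
      _ ≤ _ := Nat.pow_le_pow_right (by omega) (by norm_num)
  refine le_trans (Ex_mono fun τ _ => ind_mono fun hc => not_lt.1 fun h' => hc.not_ge ?_)
    (majority F (hl.trans hL) (le_trans (Ex_mono fun τ _ => ind_mono fun hc hg => ?_)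
      (h.learn_good le_rfl)))
  · refine (key _).1 (median_mem ?_)
    rwa [length_tab, tab, List.filter_map, List.length_map]
  · have := (key _).2 (h.raw_good hg)
    simp only [F, this, decide_true, Bool.and_self, Bool.not_true, Bool.false_eq_true] at hc

end Pre

end Crest.Agent.R309
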