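import Crest.Agent.R309.Basic
import Crest.Prelude.Def_FinProb

/-!
# Row 309: elementary probability on random tapes

Everything follows from `Ex_append` (split `Fin (a+b) → Bool` by `Fin.append`,
`List.ofFn_fin_append` / `Fin.appendEquiv`).
-/

set_option autoImplicit false

namespace Crest.Agent.R309

open Finset Crest.Agent.Lib.PolyTime

theorem ind_nonneg (p : Prop) : 0 ≤ ind p := by unfold ind; split_ifs <;> norm_num
theorem ind_le_one (p : Prop) : ind p ≤ 1 := by unfold ind; split_ifs <;> norm_num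
theorem ind_of {p : Prop} (h : p) : ind p = 1 := by simp [ind, h]
theorem ind_of_not {p : Prop} (h : ¬ p) : ind p = 0 := by simp [ind, h]
theorem ind_mono {p q : Prop} (h : p → q) : ind p ≤ ind q := by
  by_cases hp : p
  · rw [ind_of hp, ind_of (h hp)]
  · rw [ind_of_not hp]; exact ind_nonneg q
theorem ind_congr {p q : Prop} (h : p ↔ q) : ind p = ind q := by rw [propext h]
theorem ind_not (p : Prop) : ind (¬ p) = 1 - ind p := by by_cases hp : p <;> simp [ind, hp]
theorem ind_or_le (p q : Prop) : ind (p ∨ q) ≤ ind p + ind q := by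
  by_cases hp : p <;> by_cases hq : q <;> simp [ind, hp, hq]
theorem ind_and (p q : Prop) : ind (p ∧ q) = ind p * ind q := by
  by_cases hp : p <;> by_cases hq : q <;> simp [ind, hp, hq]
theorem ind_exists_le {ι : Type} (s : Finset ι) (p : ι → Prop) :
    ind (∃ i ∈ s, p i) ≤ ∑ i ∈ s, ind (p i) := by
  by_cases h : ∃ i ∈ s, p i
  · obtain ⟨i, hi, hp⟩ := h
    calc ind _ ≤ ind (p i) := by rw [ind_of hp]; exact ind_le_one _
      _ ≤ _ := single_le_sum (f := fun i => ind (p i)) (fun j _ => ind_nonneg _) hi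
  · rw [ind_of_not h]; exact sum_nonneg fun j _ => ind_nonneg _

theorem Ex_const (L : ℕ) (c : ℝ) : Ex L (fun _ => c) = c := by
  simp [Ex]

theorem Ex_add (L : ℕ) (F G : List Bool → ℝ) :
    Ex L (fun τ => F τ + G τ) = Ex L F + Ex L G := by
  simp [Ex, sum_add_distrib, add_div]

theorem Ex_sub (L : ℕ) (F G : List Bool → ℝ) :
    Ex L (fun τ => F τ - G τ) = Ex L F - Ex L G := by
  simp [Ex, sum_sub_distrib, sub_div]

theorem Ex_mul_left (L : ℕ) (c : ℝ) (F : List Bool → ℝ) :
    Ex L (fun τ => c * F τ) = c * Ex L F := by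
  simp [Ex, ← mul_sum, mul_div_assoc]

theorem Ex_mul_right (L : ℕ) (c : ℝ) (F : List Bool → ℝ) :
    Ex L (fun τ => F τ * c) = Ex L F * c := by
  simp only [mul_comm _ c, Ex_mul_left]

theorem Ex_sum {ι : Type} (L : ℕ) (s : Finset ι) (F : ι → List Bool → ℝ) :
    Ex L (fun τ => ∑ i ∈ s, F i τ) = ∑ i ∈ s, Ex L (F i) := by
  simp only [Ex, ← sum_div]; rw [sum_comm]

theorem Ex_mono {L : ℕ} {F G : List Bool → ℝ} (h : ∀ τ, τ.length = L → F τ ≤ G τ) :
    Ex L F ≤ Ex L G :=
  div_le_div_of_nonneg_right (sum_le_sum fun ω _ => h _ (by simp)) (by positivity)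

theorem Ex_congr {L : ℕ} {F G : List Bool → ℝ} (h : ∀ τ, τ.length = L → F τ = G τ) :
    Ex L F = Ex L G :=
  le_antisymm (Ex_mono fun τ hτ => (h τ hτ).le) (Ex_mono fun τ hτ => (h τ hτ).ge)

theorem Ex_nonneg {L : ℕ} {F : List Bool → ℝ} (h : ∀ τ, τ.length = L → 0 ≤ F τ) : 0 ≤ Ex L F := by
  simpa [Ex_const] using Ex_mono (F := fun _ => 0) h

theorem abs_Ex_le {L : ℕ} {F : List Bool → ℝ} {c : ℝ} (h : ∀ τ, τ.length = L → |F τ| ≤ c) :
    |Ex L F| ≤ c := by
  rw [abs_le]
  constructor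
  · simpa [Ex_const] using Ex_mono (F := fun _ => -c) fun τ hτ => (abs_le.1 (h τ hτ)).1
  · simpa [Ex_const] using Ex_mono (G := fun _ => c) fun τ hτ => (abs_le.1 (h τ hτ)).2

theorem abs_Ex_sub_le {L : ℕ} {F G : List Bool → ℝ} {c : ℝ}
    (h : ∀ τ, τ.length = L → |F τ - G τ| ≤ c) : |Ex L F - Ex L G| ≤ c := by
  rw [← Ex_sub]; exact abs_Ex_le h

theorem uniformProb_eq_Ex (L : ℕ) (p : List Bool → Prop) :
    Crest.FinProb.uniformProb {ω : Fin L → Bool | p (List.ofFn ω)} = Ex L fun τ => ind (p τ) := by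
  classical
  unfold Crest.FinProb.uniformProb Ex
  rw [card_filter]
  simp only [Fintype.card_pi, Fintype.card_bool, prod_const, card_univ, Fintype.card_fin, ind]
  push_cast
  congr 1

theorem Ex_append (a b : ℕ) (F : List Bool → ℝ) :
    Ex (a + b) F = Ex a fun x => Ex b fun y => F (x ++ y) := by
  unfold Ex
  rw [← (Fin.appendEquiv a b).sum_comp, Fintype.sum_prod_type, ← sum_div, div_div, pow_add,
    mul_comm]
  simp only [← List.ofFn_fin_append]
  rfl

theorem Ex_take {ℓ L : ℕ} (h : ℓ ≤ L) (F : List Bool → ℝ) :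
    Ex L (fun τ => F (τ.take ℓ)) = Ex ℓ F := by
  obtain ⟨b, rfl⟩ := Nat.exists_eq_add_of_le h
  rw [Ex_append]
  refine Ex_congr fun x hx => ?_
  simp only [List.take_left' hx, Ex_const]

theorem length_chunk {ℓ i : ℕ} {τ : List Bool} (h : (i + 1) * ℓ ≤ τ.length) :
    (chunk ℓ i τ).length = ℓ := by
  rw [add_mul, one_mul] at h
  simp only [chunk, List.length_take, List.length_drop]
  omega

theorem chunk_take {ℓ i m : ℕ} (τ : List Bool) (h : (i + 1) * ℓ ≤ m) :
    chunk ℓ i (τ.take m) = chunk ℓ i τ := by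
  rw [add_mul, one_mul] at h
  simp only [chunk, List.drop_take, List.take_take]
  congr 1
  omega

theorem Ex_chunk {ℓ i L : ℕ} (h : (i + 1) * ℓ ≤ L) (F : List Bool → ℝ) :
    Ex L (fun τ => F (chunk ℓ i τ)) = Ex ℓ F := by
  rw [add_mul, one_mul] at h
  obtain ⟨b, rfl⟩ := Nat.exists_eq_add_of_le (le_trans (Nat.le_add_right _ _) h)
  rw [Ex_append, ← Ex_const (i * ℓ) (Ex ℓ F)]
  refine Ex_congr fun x hx => ?_
  simp only [chunk, List.drop_left' hx]
  exact Ex_take (by omega) F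

/-- A fresh block is independent of the earlier ones. -/
theorem Ex_fresh {ℓ T L : ℕ} (h : (T + 1) * ℓ ≤ L) (F : List Bool → List Bool → ℝ)
    (hF : ∀ τ ω, F τ ω = F (τ.take (T * ℓ)) ω) :
    Ex L (fun τ => F τ (chunk ℓ T τ)) = Ex L fun τ => Ex ℓ (F τ) := by
  rw [add_mul, one_mul] at h
  obtain ⟨b, rfl⟩ := Nat.exists_eq_add_of_le (le_trans (Nat.le_add_right _ _) h)
  rw [Ex_append, Ex_append]
  refine Ex_congr fun x hx => ?_
  have h1 : ∀ y, F (x ++ y) = F x := fun y => funext fun ω => by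
    rw [hF, List.take_left' hx]
  simp only [h1, chunk, List.drop_left' hx, Ex_const]
  exact Ex_take (by omega) (F x)

theorem foldT_take {σ : Type} (step : ℕ → σ → List Bool → σ) {ℓ T m : ℕ} (h : T * ℓ ≤ m) (x : σ)
    (τ : List Bool) : foldT step ℓ T x (τ.take m) = foldT step ℓ T x τ := by
  induction T with
  | zero => rfl
  | succ T ih =>
    rw [foldT_succ, foldT_succ, ih ((Nat.mul_le_mul_right ℓ T.le_succ).trans h), chunk_take τ h]

theorem Ex_foldT_succ {σ : Type} (step : ℕ → σ → List Bool → σ) {ℓ T L : ℕ}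
    (h : (T + 1) * ℓ ≤ L) (x : σ) (g : σ → ℝ) :
    Ex L (fun τ => g (foldT step ℓ (T + 1) x τ)) =
      Ex L fun τ => Ex ℓ fun ω => g (step T (foldT step ℓ T x τ) ω) := by
  simp only [foldT_succ]
  exact Ex_fresh h (fun τ ω => g (step T (foldT step ℓ T x τ) ω)) fun τ ω => by
    rw [foldT_take step le_rfl]

/-- The Markov operator of a step function. -/
noncomputable def opS {σ : Type} (step : σ → List Bool → σ) (ℓ : ℕ) (g : σ → ℝ) (x : σ) : ℝ :=
  Ex ℓ fun ω => g (step x ω)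

theorem Ex_foldT_iter {σ : Type} (step : σ → List Bool → σ) {ℓ T L : ℕ} (h : T * ℓ ≤ L) (x : σ)
    (g : σ → ℝ) :
    Ex L (fun τ => g (foldT (fun _ => step) ℓ T x τ)) = (opS step ℓ)^[T] g x := by
  induction T generalizing g with
  | zero => simp only [foldT_zero, Ex_const, Function.iterate_zero, id]
  | succ T ih =>
    rw [Ex_foldT_succ _ h, Function.iterate_succ_apply]
    exact ih ((Nat.mul_le_mul_right ℓ T.le_succ).trans h) (opS step ℓ g)

theorem Ex_prod_chunk {ℓ k L : ℕ} (h : k * ℓ ≤ L) (F : ℕ → List Bool → ℝ) :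
    Ex L (fun τ => ∏ i ∈ range k, F i (chunk ℓ i τ)) = ∏ i ∈ range k, Ex ℓ (F i) := by
  induction k with
  | zero => simp [Ex_const]
  | succ k ih =>
    simp only [prod_range_succ]
    rw [Ex_fresh h (fun τ ω => (∏ i ∈ range k, F i (chunk ℓ i τ)) * F k ω) fun τ ω => ?_]
    · simp only [Ex_mul_left, Ex_mul_right]
      rw [ih ((Nat.mul_le_mul_right ℓ k.le_succ).trans h)]
    · congr 1
      exact prod_congr rfl fun i hi => by
        rw [chunk_take τ (Nat.mul_le_mul_right ℓ (mem_range.1 hi))]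

theorem num_nonneg (τ : List Bool) : 0 ≤ num τ := by simp [num]

theorem num_lt (τ : List Bool) : num τ < 2 ^ τ.length := by
  have := Bin.valMSB_lt τ
  unfold num; exact_mod_cast this

theorem Ex_succ_cons (K : ℕ) (F : List Bool → ℝ) :
    Ex (K + 1) F = (Ex K (fun τ => F (false :: τ)) + Ex K fun τ => F (true :: τ)) / 2 := by
  unfold Ex
  rw [← (Fin.consEquiv fun _ : Fin (K + 1) => Bool).sum_comp, Fintype.sum_prod_type,
    Fintype.sum_bool]
  simp only [Fin.consEquiv_apply, List.ofFn_succ, Fin.cons_zero, Fin.cons_succ]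
  rw [pow_succ]
  field_simp
  ring

/-- A block of `K` fair bits is a uniform number below `2 ^ K`. -/
theorem Ex_num (K : ℕ) (F : ℤ → ℝ) :
    Ex K (fun τ => F (num τ)) = (∑ j ∈ range (2 ^ K), F j) / 2 ^ K := by
  induction K generalizing F with
  | zero => simp [Ex, num, Bin.valMSB]
  | succ K ih =>
    rw [Ex_succ_cons]
    have h1 : Ex K (fun τ => F (num (false :: τ))) = Ex K fun τ => F (num τ) :=
      Ex_congr fun τ _ => by simp [num, Bin.valMSB]
    have h2 : Ex K (fun τ => F (num (true :: τ))) = Ex K fun τ => F (2 ^ K + num τ) :=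
      Ex_congr fun τ hτ => by simp [num, Bin.valMSB, hτ]
    rw [h1, h2, ih F, ih fun z => F (2 ^ K + z), pow_succ 2 K, mul_two, sum_range_add, pow_succ]
    push_cast
    field_simp

theorem card_mod_eq (n : ℕ) {s r : ℕ} (hs : 0 < s) (hr : r < s) :
    ((range n).filter fun j : ℕ => (j : ℤ) % (s : ℤ) = (r : ℤ)).card =
      n / s + if r < n % s then 1 else 0 := by
  have h := Nat.count_modEq_card n hs r
  rw [Nat.count_eq_card_filter_range, Nat.mod_eq_of_lt hr] at h
  rw [← h]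
  congr 1
  refine filter_congr fun j _ => ?_
  rw [Nat.ModEq, Nat.mod_eq_of_lt hr]
  norm_cast

/-- Residues of a uniform number are almost uniform. -/
theorem abs_card_mod_sub_le (n : ℕ) {s : ℤ} (hs : 0 < s) {r : ℤ} (h0 : 0 ≤ r) (hr : r < s) :
    |(((range n).filter fun j : ℕ => (j : ℤ) % s = r).card : ℝ) - n / s| ≤ 1 := by
  lift s to ℕ using hs.le
  lift r to ℕ using h0
  have hs' : 0 < s := by exact_mod_cast hs
  have hr' : r < s := by exact_mod_cast hr
  rw [card_mod_eq n hs' hr']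
  have hsR : (0 : ℝ) < s := by exact_mod_cast hs'
  have h1 : ((n / s : ℕ) : ℝ) ≤ n / s := Nat.cast_div_le
  have h2 : (n : ℝ) / s < (n / s : ℕ) + 1 := by
    rw [div_lt_iff₀ hsR]
    have := Nat.lt_div_mul_add (a := n) hs'
    have h3 : (n : ℝ) < (n / s : ℕ) * s + s := by exact_mod_cast this
    linarith
  rw [Int.cast_natCast, abs_le]
  split_ifs <;> push_cast <;> constructor <;> linarith

theorem half_le_card_mod (n : ℕ) {s : ℤ} (hs : 0 < s) (hn : s ≤ n) {r : ℤ} (h0 : 0 ≤ r)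
    (hr : r < s) :
    (n : ℝ) / (2 * s) ≤ ((range n).filter fun j : ℕ => (j : ℤ) % s = r).card := by
  lift s to ℕ using hs.le
  lift r to ℕ using h0
  have hs' : 0 < s := by exact_mod_cast hs
  have hr' : r < s := by exact_mod_cast hr
  have hn' : s ≤ n := by exact_mod_cast hn
  rw [card_mod_eq n hs' hr']
  have hsR : (0 : ℝ) < s := by exact_mod_cast hs'
  have h1 : (1 : ℝ) ≤ (n / s : ℕ) := by exact_mod_cast Nat.div_pos hn' hs'
  have h3 : (n : ℝ) < (n / s : ℕ) * s + s := by exact_mod_cast Nat.lt_div_mul_add (a := n) hs'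
  have h4 : (n : ℝ) / (2 * s) ≤ (n / s : ℕ) := by
    rw [div_le_iff₀ (by positivity)]
    nlinarith
  rw [Int.cast_natCast]
  split_ifs <;> push_cast <;> linarith

/-- The comparison `U * d < 2 ^ K * a` succeeds with probability `min 1 (a / d)` up to `2 ^ -K`. -/
theorem abs_Ex_coin_sub_le (K : ℕ) {a d : ℤ} (ha : 0 ≤ a) (hd : 0 < d) :
    |Ex K (fun τ => ind (num τ * d < 2 ^ K * a)) - min 1 ((a : ℝ) / d)| ≤ (1 / 2) ^ K := by
  rw [Ex_num K fun z => ind (z * d < 2 ^ K * a)]
  have hdR : (0 : ℝ) < d := by exact_mod_cast hd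
  have haR : (0 : ℝ) ≤ a := by exact_mod_cast ha
  have hN : (0 : ℝ) < 2 ^ K := by positivity
  set x : ℝ := 2 ^ K * (a / d) with hx
  have hx0 : 0 ≤ x := by positivity
  have hsum : ∑ j ∈ range (2 ^ K), ind ((j : ℤ) * d < 2 ^ K * a) = (min (2 ^ K) ⌈x⌉₊ : ℕ) := by
    have h1 : ∀ j : ℕ, ind ((j : ℤ) * d < 2 ^ K * a) = if j < ⌈x⌉₊ then 1 else 0 := by
      intro j
      have : (j : ℤ) * d < 2 ^ K * a ↔ j < ⌈x⌉₊ := by
        rw [Nat.lt_ceil, hx, ← mul_div_assoc, lt_div_iff₀ hdR]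
        exact_mod_cast Iff.rfl
      by_cases h : j < ⌈x⌉₊
      · rw [ind_of (this.2 h), if_pos h]
      · rw [ind_of_not (mt this.1 h), if_neg h]
    simp only [h1]
    rw [sum_boole]
    congr 1
    have : ((range (2 ^ K)).filter fun j => j < ⌈x⌉₊) = range (min (2 ^ K) ⌈x⌉₊) := by
      ext j; simp
    rw [this, card_range]
  rw [hsum]
  have h2 : min 1 ((a : ℝ) / d) = min (2 ^ K) x / 2 ^ K := by
    rw [← min_div_div_right hN.le, div_self hN.ne', hx, mul_div_cancel_left₀ _ hN.ne']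
  rw [h2, ← sub_div, abs_div, abs_of_pos hN, one_div_pow]
  refine div_le_div_of_nonneg_right ?_ hN.le
  have h3 := Nat.le_ceil x
  have h4 := Nat.ceil_lt_add_one hx0
  push_cast
  rw [abs_le]
  constructor
  · have : min (2 ^ K) x ≤ min (2 ^ K) (⌈x⌉₊ : ℝ) := min_le_min_left _ h3
    linarith
  · rcases le_total (2 ^ K) x with h | h
    · rw [min_eq_left h]; linarith [min_le_left (2 ^ K : ℝ) ⌈x⌉₊]
    · rw [min_eq_right h]; linarith [min_le_right (2 ^ K : ℝ) ⌈x⌉₊]

/-- Number of blocks among the first `k` on which `F` holds. -/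
def hits (F : List Bool → Bool) (ℓ k : ℕ) (τ : List Bool) : ℕ :=
  ((List.range k).filter fun i => F (chunk ℓ i τ)).length

theorem hits_succ (F : List Bool → Bool) (ℓ k : ℕ) (τ : List Bool) :
    hits F ℓ (k + 1) τ = hits F ℓ k τ + if F (chunk ℓ k τ) = true then 1 else 0 := by
  unfold hits
  rw [List.range_succ, List.filter_append, List.length_append]
  by_cases h : F (chunk ℓ k τ) = true <;> simp [h]

theorem hits_eq_sum (F : List Bool → Bool) (ℓ k : ℕ) (τ : List Bool) :
    (hits F ℓ k τ : ℝ) = ∑ i ∈ range k, ind (F (chunk ℓ i τ) = true) := by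
  induction k with
  | zero => simp [hits]
  | succ k ih =>
    rw [hits_succ, sum_range_succ, ← ih]
    by_cases h : F (chunk ℓ k τ) = true <;> simp [h, ind]

theorem hits_take (F : List Bool → Bool) (ℓ k : ℕ) (τ : List Bool) :
    (hits F ℓ k (τ.take (k * ℓ)) : ℝ) = hits F ℓ k τ := by
  rw [hits_eq_sum, hits_eq_sum]
  refine sum_congr rfl fun i hi => ?_
  rw [chunk_take τ (Nat.mul_le_mul_right ℓ (mem_range.1 hi))]

theorem Ex_hits_sq (F : List Bool → Bool) {ℓ k L : ℕ} (h : k * ℓ ≤ L) :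
    Ex L (fun τ => ((hits F ℓ k τ : ℝ) - k * Ex ℓ fun ω => ind (F ω = true)) ^ 2) ≤ k := by
  set p : ℝ := Ex ℓ fun ω => ind (F ω = true) with hp
  have hp0 : 0 ≤ p := Ex_nonneg fun _ _ => ind_nonneg _
  have hp1 : p ≤ 1 := by
    have := Ex_mono (L := ℓ) (F := fun ω => ind (F ω = true)) (G := fun _ => 1)
      fun _ _ => ind_le_one _
    rwa [Ex_const] at this
  induction k with
  | zero => simp [hits, Ex_const]
  | succ k ih =>
    have hk : k * ℓ ≤ L := (Nat.mul_le_mul_right ℓ k.le_succ).trans h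
    have hcross : Ex L (fun τ => ((hits F ℓ k τ : ℝ) - k * p) *
        (ind (F (chunk ℓ k τ) = true) - p)) = 0 := by
      rw [Ex_fresh h (fun τ ω => ((hits F ℓ k τ : ℝ) - k * p) * (ind (F ω = true) - p))
        fun τ ω => by rw [hits_take]]
      simp only [Ex_mul_left, Ex_sub, Ex_const, ← hp, sub_self, mul_zero]
    have hle : Ex L (fun τ => ((hits F ℓ (k + 1) τ : ℝ) - (k + 1 : ℕ) * p) ^ 2) ≤
        Ex L (fun τ => ((hits F ℓ k τ : ℝ) - k * p) ^ 2 + 2 * (((hits F ℓ k τ : ℝ) - k * p) *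
          (ind (F (chunk ℓ k τ) = true) - p)) + 1) := by
      refine Ex_mono fun τ _ => ?_
      rw [hits_eq_sum F ℓ (k + 1), sum_range_succ, ← hits_eq_sum]
      have h0 := ind_nonneg (F (chunk ℓ k τ) = true)
      have h1 := ind_le_one (F (chunk ℓ k τ) = true)
      have h2 : (ind (F (chunk ℓ k τ) = true) - p) ^ 2 ≤ 1 := by
        rw [sq_le_one_iff_abs_le_one, abs_le]; constructor <;> linarith
      push_cast
      nlinarith
    rw [Ex_add, Ex_add, Ex_mul_left, hcross, Ex_const] at hle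
    have := ih hk
    push_cast at hle ⊢
    linarith

/-- Chebyshev for independent blocks (second moment by induction with `Ex_fresh`). -/
theorem chebyshev (F : List Bool → Bool) {ℓ k L : ℕ} (h : k * ℓ ≤ L) (hk : 0 < k) {ζ : ℝ}
    (hζ : 0 < ζ) :
    Ex L (fun τ => ind (ζ * k ≤ |(hits F ℓ k τ : ℝ) - k * Ex ℓ fun ω => ind (F ω = true)|))
      ≤ 1 / (k * ζ ^ 2) := by
  have hkR : (0 : ℝ) < k := by exact_mod_cast hk
  have h1 := Ex_hits_sq F h
  calc _ ≤ Ex L (fun τ => (1 / (ζ * k) ^ 2) *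
        ((hits F ℓ k τ : ℝ) - k * Ex ℓ fun ω => ind (F ω = true)) ^ 2) := by
        refine Ex_mono fun τ _ => ?_
        by_cases hc : ζ * k ≤ |(hits F ℓ k τ : ℝ) - k * Ex ℓ fun ω => ind (F ω = true)|
        · rw [ind_of hc, one_div_mul_eq_div, le_div_iff₀ (by positivity), one_mul, ← sq_abs (_ - _)]
          exact pow_le_pow_left₀ (by positivity) hc 2
        · rw [ind_of_not hc]; positivity
    _ ≤ (1 / (ζ * k) ^ 2) * k := by
        rw [Ex_mul_left]; exact mul_le_mul_of_nonneg_left h1 (by positivity)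
    _ = 1 / (k * ζ ^ 2) := by field_simp

/-- Majority amplification: Markov's inequality for `16 ^ hits`, using `Ex_prod_chunk`:
`E 16 ^ hits ≤ (1 + 15/16) ^ k ≤ 2 ^ k`, and `k ≤ 2 * hits` forces `16 ^ hits ≥ 4 ^ k`. -/
theorem majority (F : List Bool → Bool) {ℓ k L : ℕ} (h : k * ℓ ≤ L)
    (hF : Ex ℓ (fun ω => ind (F ω = true)) ≤ 1 / 16) :
    Ex L (fun τ => ind (k ≤ 2 * hits F ℓ k τ)) ≤ (1 / 2) ^ k := by
  have hprod : ∀ (j : ℕ) (τ : List Bool), (16 : ℝ) ^ hits F ℓ j τ =
      ∏ i ∈ range j, (1 + 15 * ind (F (chunk ℓ i τ) = true)) := by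
    intro j τ
    induction j with
    | zero => simp [hits]
    | succ j ih =>
      rw [hits_succ, prod_range_succ, ← ih, pow_add]
      by_cases h : F (chunk ℓ j τ) = true <;> simp [h, ind]
      norm_num
  have h1 : Ex L (fun τ => (16 : ℝ) ^ hits F ℓ k τ) ≤ 2 ^ k := by
    simp only [hprod]
    rw [Ex_prod_chunk h fun _ ω => 1 + 15 * ind (F ω = true), prod_const, card_range, Ex_add,
      Ex_const, Ex_mul_left]
    have h0 : 0 ≤ Ex ℓ fun ω => ind (F ω = true) := Ex_nonneg fun _ _ => ind_nonneg _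
    exact pow_le_pow_left₀ (by positivity) (by linarith) k
  calc _ ≤ Ex L (fun τ => (1 / 4) ^ k * (16 : ℝ) ^ hits F ℓ k τ) := by
        refine Ex_mono fun τ _ => ?_
        by_cases hc : k ≤ 2 * hits F ℓ k τ
        · rw [ind_of hc, one_div_pow, one_div_mul_eq_div, le_div_iff₀ (by positivity), one_mul,
            show (16 : ℝ) = 4 ^ 2 by norm_num, ← pow_mul]
          exact pow_le_pow_right₀ (by norm_num) hc
        · rw [ind_of_not hc]; positivity
    _ ≤ (1 / 4) ^ k * 2 ^ k := by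
        rw [Ex_mul_left]; exact mul_le_mul_of_nonneg_left h1 (by positivity)
    _ = (1 / 2) ^ k := by rw [← mul_pow]; norm_num

/-- Failure probabilities of successive stages add up. -/
theorem stages {σ : Type} (step : ℕ → σ → List Bool → σ) {ℓ T L : ℕ} (h : T * ℓ ≤ L) (x : σ)
    (Good : ℕ → σ → Prop) (h0 : Good 0 x) {β : ℝ}
    (hs : ∀ i < T, ∀ y, Good i y → Ex ℓ (fun ω => ind (¬ Good (i + 1) (step i y ω))) ≤ β) :
    Ex L (fun τ => ind (¬ Good T (foldT step ℓ T x τ))) ≤ T * β := by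
  induction T with
  | zero => simp [foldT_zero, ind_of_not (not_not.2 h0), Ex_const]
  | succ T ih =>
    have hβ : 0 ≤ β := (Ex_nonneg fun _ _ => ind_nonneg _).trans (hs 0 T.succ_pos x h0)
    have h1 := ih ((Nat.mul_le_mul_right ℓ T.le_succ).trans h) fun i hi => hs i (by omega)
    rw [Ex_foldT_succ step h x fun y => ind (¬ Good (T + 1) y)]
    have h2 : Ex L (fun τ => Ex ℓ fun ω => ind (¬ Good (T + 1) (step T (foldT step ℓ T x τ) ω))) ≤
        Ex L fun τ => ind (¬ Good T (foldT step ℓ T x τ)) + β := by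
      refine Ex_mono fun τ _ => ?_
      by_cases hg : Good T (foldT step ℓ T x τ)
      · rw [ind_of_not (not_not.2 hg), zero_add]
        exact hs T T.lt_succ_self _ hg
      · have := Ex_mono (L := ℓ) (G := fun _ => 1)
          (F := fun ω => ind (¬ Good (T + 1) (step T (foldT step ℓ T x τ) ω)))
          fun _ _ => ind_le_one _
        rw [Ex_const] at this
        rw [ind_of hg]
        linarith
    rw [Ex_add, Ex_const] at h2
    push_cast
    linarith

/-- Errors of successive approximate transports add up: if the law `μ i` (a functional on test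
functions bounded by one) is moved to `μ (i+1)` by the `i`-th step up to `η`, then `T` steps move
`μ 0` to `μ T` up to `T * η`. -/
theorem transports {σ : Type} (step : ℕ → σ → List Bool → σ) {ℓ T L₀ L : ℕ} (h : T * ℓ ≤ L)
    (x : List Bool → σ) (μ : ℕ → (σ → ℝ) → ℝ) {η₀ η : ℝ}
    (h0 : ∀ g : σ → ℝ, (∀ y, |g y| ≤ 1) → |Ex L₀ (fun τ => g (x τ)) - μ 0 g| ≤ η₀)
    (hs : ∀ i < T, ∀ g : σ → ℝ, (∀ y, |g y| ≤ 1) →
      |μ i (fun y => Ex ℓ fun ω => g (step i y ω)) - μ (i + 1) g| ≤ η)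
    (g : σ → ℝ) (hg : ∀ y, |g y| ≤ 1) :
    |Ex L₀ (fun τ₀ => Ex L fun τ => g (foldT step ℓ T (x τ₀) τ)) - μ T g| ≤ η₀ + T * η := by
  induction T generalizing g with
  | zero => simpa only [foldT_zero, Ex_const, Nat.cast_zero, zero_mul, add_zero] using h0 g hg
  | succ T ih =>
    have h1 := ih ((Nat.mul_le_mul_right ℓ T.le_succ).trans h) (fun i hi => hs i (by omega))
      (fun y => Ex ℓ fun ω => g (step T y ω)) fun y => abs_Ex_le fun ω _ => hg _
    have h2 := hs T T.lt_succ_self g hg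
    simp only [Ex_foldT_succ step h _ g]
    have h3 := abs_sub_le (Ex L₀ fun τ₀ => Ex L fun τ => Ex ℓ fun ω =>
      g (step T (foldT step ℓ T (x τ₀) τ) ω)) (μ T fun y => Ex ℓ fun ω => g (step T y ω))
      (μ (T + 1) g)
    push_cast
    linarith

end Crest.Agent.R309
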