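import Mathlib
import Crest.Agent.Lib.PolyTime.Bridge

/-!
# Row 309, basic vocabulary (complete, no sorry)

* random tapes: `Ex L F` is the average of `F` over fair bit strings of length `L`;
  `chunk ℓ i τ` is the `i`-th block of length `ℓ`; `foldT` runs a step function on fresh blocks;
* integer flows on a digraph with cells `e : Fin M` going from `v e` to `u e`:
  `del u v X` is the divergence, `box lo hi` the capacity box, `cls` the flows with given
  divergence, `Zw` the weighted count;
* list instances `Inst` (for the polynomial time library), their count `cnt`, and the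
  specification `EstSpec` of the approximate counter.
-/

set_option autoImplicit false

namespace Crest.Agent.R309

open Finset Crest.Agent.Lib.PolyTime

/-! ### Random tapes -/

/-- Average over fair bit strings of length `L`. -/
noncomputable def Ex (L : ℕ) (F : List Bool → ℝ) : ℝ :=
  (∑ ω : Fin L → Bool, F (List.ofFn ω)) / 2 ^ L

open Classical in
/-- Real indicator of a proposition. -/
noncomputable def ind (p : Prop) : ℝ := if p then 1 else 0

/-- The `i`-th block of length `ℓ` of a tape. -/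
def chunk (ℓ i : ℕ) (τ : List Bool) : List Bool := (τ.drop (i * ℓ)).take ℓ

/-- The number written by a bit string, most significant bit first. -/
def num (τ : List Bool) : ℤ := (Bin.valMSB τ : ℤ)

/-- The list `[g 0, …, g (n-1)]`. -/
def tab {α : Type} (n : ℕ) (g : ℕ → α) : List α := (List.range n).map g

/-- `T` steps, the `i`-th one reading the `i`-th block of the tape. -/
def foldT {σ : Type} (step : ℕ → σ → List Bool → σ) (ℓ T : ℕ) (x : σ) (τ : List Bool) : σ :=
  (List.range T).foldl (fun y i => step i y (chunk ℓ i τ)) x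

theorem foldT_zero {σ : Type} (step : ℕ → σ → List Bool → σ) (ℓ : ℕ) (x : σ) (τ : List Bool) :
    foldT step ℓ 0 x τ = x := rfl

theorem foldT_succ {σ : Type} (step : ℕ → σ → List Bool → σ) (ℓ T : ℕ) (x : σ) (τ : List Bool) :
    foldT step ℓ (T + 1) x τ = step T (foldT step ℓ T x τ) (chunk ℓ T τ) := by
  simp [foldT, List.range_succ]

@[simp] theorem length_tab {α : Type} (n : ℕ) (g : ℕ → α) : (tab n g).length = n := by
  simp [tab]

theorem getD_tab {α : Type} {n i : ℕ} (g : ℕ → α) (d : α) (h : i < n) :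
    (tab n g).getD i d = g i := by
  simp [tab, List.getD_eq_getElem?_getD, h]

theorem tab_eq_ofFn {α : Type} (n : ℕ) (g : ℕ → α) :
    tab n g = List.ofFn fun i : Fin n => g i := by
  apply List.ext_getElem <;> simp [tab]

theorem getD_ofFn {α : Type} {n : ℕ} (X : Fin n → α) (d : α) (i : Fin n) :
    (List.ofFn X).getD i d = X i := by
  simp [List.getD_eq_getElem?_getD]

section PT

variable {α β : Type} [Enc α] [Enc β]

@[fun_prop] theorem pt_chunk {ℓ i : α → ℕ} {τ : α → List Bool} (hℓ : PT ℓ) (hi : PT i)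
    (hτ : PT τ) : PT fun a => chunk (ℓ a) (i a) (τ a) := by
  unfold chunk; fun_prop

@[fun_prop] theorem pt_num {τ : α → List Bool} (hτ : PT τ) : PT fun a => num (τ a) := by
  unfold num; fun_prop

@[fun_prop] theorem pt_tab {n : α → ℕ} {g : α → ℕ → β} (hn : PT n)
    (hg : PT fun p : α × ℕ => g p.1 p.2) : PT fun a => tab (n a) (g a) :=
  PT.map hg (PT.range hn)

/-- `foldT` is polynomial time once all intermediate states are polynomially bounded. -/
theorem pt_foldT {σ : Type} [Enc σ] {step : α → ℕ → σ → List Bool → σ} {ℓ T : α → ℕ}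
    {x : α → σ} {τ : α → List Bool}
    (hs : PT fun p : α × ℕ × σ × List Bool => step p.1 p.2.1 p.2.2.1 p.2.2.2)
    (hℓ : PT ℓ) (hT : PT T) (hx : PT x) (hτ : PT τ) {B : α → ℕ} (hB : PB B)
    (hsz : ∀ a i, i ≤ T a → size (foldT (step a) (ℓ a) i (x a) (τ a)) ≤ B a) :
    PT fun a => foldT (step a) (ℓ a) (T a) (x a) (τ a) := by
  refine PT.foldl (f := fun a (y : σ) (i : ℕ) => step a i y (chunk (ℓ a) i (τ a)))
    (hs.comp (g := fun p : α × σ × ℕ => (p.1, p.2.2, p.2.1, chunk (ℓ p.1) p.2.2 (τ p.1)))
      (by fun_prop)) (PT.range hT) hx hB fun a i => ?_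
  have h := hsz a (min i (T a)) (min_le_right _ _)
  rw [List.take_range]
  exact h

/-- The residue of an integer modulo a positive unary number, in unary. -/
theorem pt_toNat_emod {f : α → ℤ} {k : α → ℕ} (hf : PT f) (hk : PT k) :
    PT fun a => (f a % ((k a + 1 : ℕ) : ℤ)).toNat := by
  refine PT.toNat_of_le (n := fun a => k a + 1) (by fun_prop) (by fun_prop) fun a => ?_
  have := Int.emod_lt_of_pos (f a) (show (0 : ℤ) < ((k a + 1 : ℕ) : ℤ) by positivity)
  omega

end PT

/-! ### Flows -/

section Flow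

variable {V : Type} [Fintype V] [DecidableEq V] {M : ℕ}

/-- Unit vector of a vertex. -/
def ev (a : V) : V → ℤ := Pi.single a 1

/-- Unit vector of a cell. -/
def ec (e : Fin M) : Fin M → ℤ := Pi.single e 1

/-- Divergence: one unit on the cell `e` contributes `ev (u e) - ev (v e)`. -/
def del (u v : Fin M → V) (X : Fin M → ℤ) : V → ℤ := ∑ e, X e • (ev (u e) - ev (v e))

/-- The capacity box. -/
noncomputable def box (lo hi : Fin M → ℤ) : Finset (Fin M → ℤ) :=
  Fintype.piFinset fun e => Icc (lo e) (hi e)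

/-- Flows in the box with divergence `β`. -/
noncomputable def cls (u v : Fin M → V) (lo hi : Fin M → ℤ) (β : V → ℤ) : Finset (Fin M → ℤ) :=
  (box lo hi).filter fun X => del u v X = β

/-- Product weight. -/
noncomputable def wt (f : Fin M → ℤ → ℝ) (X : Fin M → ℤ) : ℝ := ∏ e, f e (X e)

/-- Weighted number of flows with divergence `β`. -/
noncomputable def Zw (u v : Fin M → V) (lo hi : Fin M → ℤ) (f : Fin M → ℤ → ℝ) (β : V → ℤ) : ℝ :=
  ∑ X ∈ cls u v lo hi β, wt f X

theorem mem_box {lo hi X : Fin M → ℤ} : X ∈ box lo hi ↔ ∀ e, lo e ≤ X e ∧ X e ≤ hi e := by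
  simp [box]

theorem mem_cls {u v : Fin M → V} {lo hi X : Fin M → ℤ} {β : V → ℤ} :
    X ∈ cls u v lo hi β ↔ (∀ e, lo e ≤ X e ∧ X e ≤ hi e) ∧ del u v X = β := by
  simp [cls, mem_box]

omit [Fintype V] in
theorem del_add (u v : Fin M → V) (X Y : Fin M → ℤ) :
    del u v (X + Y) = del u v X + del u v Y := by
  simp [del, add_smul, sum_add_distrib]

omit [Fintype V] in
theorem del_sub (u v : Fin M → V) (X Y : Fin M → ℤ) :
    del u v (X - Y) = del u v X - del u v Y := by
  simp only [del, Pi.sub_apply, sub_smul, sum_sub_distrib]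

omit [Fintype V] in
theorem del_smul (u v : Fin M → V) (c : ℤ) (X : Fin M → ℤ) :
    del u v (c • X) = c • del u v X := by
  simp only [del, Pi.smul_apply, smul_eq_mul, mul_smul, Finset.smul_sum]

omit [Fintype V] in
theorem del_sum {ι : Type} (u v : Fin M → V) (s : Finset ι) (X : ι → Fin M → ℤ) :
    del u v (∑ i ∈ s, X i) = ∑ i ∈ s, del u v (X i) := by
  classical
  induction s using Finset.induction_on with
  | empty => simp [del]
  | insert i s hi ih => rw [sum_insert hi, sum_insert hi, del_add, ih]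

omit [Fintype V] in
theorem del_ec (u v : Fin M → V) (e : Fin M) : del u v (ec e) = ev (u e) - ev (v e) := by
  unfold del
  rw [Finset.sum_eq_single e]
  · simp [ec]
  · intro b _ hb; simp [ec, hb]
  · simp

end Flow

/-! ### List instances -/

/-- `(nv, us, vs, los, his, tgt)`: vertices `0, …, nv` (the last one, `nv`, is a spare hub with
target `0`), cells `e < us.length` from `vs[e]` to `us[e]` with capacities `[los[e], his[e]]`,
and the target divergence. -/
abbrev Inst : Type := ℕ × List ℕ × List ℕ × List ℤ × List ℤ × List ℤ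

namespace Inst

def nv (I : Inst) : ℕ := I.1
def us (I : Inst) : List ℕ := I.2.1
def vs (I : Inst) : List ℕ := I.2.2.1
def los (I : Inst) : List ℤ := I.2.2.2.1
def his (I : Inst) : List ℤ := I.2.2.2.2.1
def tgt (I : Inst) : List ℤ := I.2.2.2.2.2
/-- number of cells -/
def M (I : Inst) : ℕ := I.us.length
def uN (I : Inst) (e : ℕ) : ℕ := I.us.getD e 0
def vN (I : Inst) (e : ℕ) : ℕ := I.vs.getD e 0
def loN (I : Inst) (e : ℕ) : ℤ := I.los.getD e 0
def hiN (I : Inst) (e : ℕ) : ℤ := I.his.getD e 0
def tN (I : Inst) (a : ℕ) : ℤ := I.tgt.getD a 0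
/-- the same graph and target with other capacities -/
def withBox (I : Inst) (los his : List ℤ) : Inst := (I.nv, I.us, I.vs, los, his, I.tgt)

section PT
variable {α : Type} [Enc α] {f : α → Inst} {e : α → ℕ}
@[fun_prop] theorem pt_nv (hf : PT f) : PT fun a => nv (f a) := by unfold nv; fun_prop
@[fun_prop] theorem pt_us (hf : PT f) : PT fun a => us (f a) := by unfold us; fun_prop
@[fun_prop] theorem pt_vs (hf : PT f) : PT fun a => vs (f a) := by unfold vs; fun_prop
@[fun_prop] theorem pt_los (hf : PT f) : PT fun a => los (f a) := by unfold los; fun_prop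
@[fun_prop] theorem pt_his (hf : PT f) : PT fun a => his (f a) := by unfold his; fun_prop
@[fun_prop] theorem pt_tgt (hf : PT f) : PT fun a => tgt (f a) := by unfold tgt; fun_prop
@[fun_prop] theorem pt_M (hf : PT f) : PT fun a => M (f a) := by unfold M; fun_prop
@[fun_prop] theorem pt_uN (hf : PT f) (he : PT e) : PT fun a => uN (f a) (e a) := by
  unfold uN; fun_prop
@[fun_prop] theorem pt_vN (hf : PT f) (he : PT e) : PT fun a => vN (f a) (e a) := by
  unfold vN; fun_prop
@[fun_prop] theorem pt_loN (hf : PT f) (he : PT e) : PT fun a => loN (f a) (e a) := by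
  unfold loN; fun_prop
@[fun_prop] theorem pt_hiN (hf : PT f) (he : PT e) : PT fun a => hiN (f a) (e a) := by
  unfold hiN; fun_prop
@[fun_prop] theorem pt_tN (hf : PT f) (he : PT e) : PT fun a => tN (f a) (e a) := by
  unfold tN; fun_prop
@[fun_prop] theorem pt_withBox {l h : α → List ℤ} (hf : PT f) (hl : PT l) (hh : PT h) :
    PT fun a => withBox (f a) (l a) (h a) := by
  unfold withBox; fun_prop
end PT

/-- vertex type -/
abbrev V (I : Inst) : Type := Fin (I.nv + 1)
/-- the vertex with number `k` -/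
def vtx (I : Inst) (k : ℕ) : I.V := Fin.ofNat (I.nv + 1) k
def u (I : Inst) (e : Fin I.M) : I.V := I.vtx (I.uN e)
def v (I : Inst) (e : Fin I.M) : I.V := I.vtx (I.vN e)
def lo (I : Inst) (e : Fin I.M) : ℤ := I.loN e
def hi (I : Inst) (e : Fin I.M) : ℤ := I.hiN e
def t (I : Inst) (a : I.V) : ℤ := I.tN a
/-- the feasible flows -/
noncomputable def sol (I : Inst) : Finset (Fin I.M → ℤ) := cls I.u I.v I.lo I.hi I.t
/-- the number of feasible flows -/
noncomputable def cnt (I : Inst) : ℕ := I.sol.card
/-- a list read as a vector on the cells -/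
def vec (I : Inst) (X : List ℤ) (e : Fin I.M) : ℤ := X.getD e 0

/-- Well-formed instances of size at most `n`. -/
structure WF (I : Inst) (n : ℕ) : Prop where
  size : I.M + I.nv + 1 ≤ n
  lvs : I.vs.length = I.M
  llos : I.los.length = I.M
  lhis : I.his.length = I.M
  ltgt : I.tgt.length = I.nv
  uN_le : ∀ e < I.M, I.uN e ≤ I.nv
  vN_le : ∀ e < I.M, I.vN e ≤ I.nv
  ne : ∀ e < I.M, I.uN e ≠ I.vN e
  lo_le : ∀ e, |I.loN e| ≤ 2 ^ n
  hi_le : ∀ e, |I.hiN e| ≤ 2 ^ n
  t_le : ∀ a, |I.tN a| ≤ 2 ^ n

/-- divergence of a list vector at the vertex number `a` -/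
def delN (I : Inst) (X : List ℤ) (a : ℕ) : ℤ :=
  (tab I.M fun e => X.getD e 0 * ((if I.uN e = a then 1 else 0) - (if I.vN e = a then 1 else 0))).sum

@[fun_prop] theorem pt_delN {α : Type} [Enc α] {f : α → Inst} {X : α → List ℤ} {b : α → ℕ}
    (hf : PT f) (hX : PT X) (hb : PT b) : PT fun a => delN (f a) (X a) (b a) := by
  unfold delN; fun_prop

theorem vtx_val {I : Inst} {k : ℕ} (h : k ≤ I.nv) : (I.vtx k : ℕ) = k := by
  simp [vtx, Nat.mod_eq_of_lt (Nat.lt_succ_of_le h)]

theorem vtx_coe (I : Inst) (a : I.V) : I.vtx a = a := by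
  ext; exact vtx_val (Nat.le_of_lt_succ a.2)

theorem WF.u_ne_v {I : Inst} {n : ℕ} (h : I.WF n) (e : Fin I.M) : I.u e ≠ I.v e := by
  intro he
  have := congrArg Fin.val he
  simp only [u, v] at this
  rw [vtx_val (h.uN_le e e.2), vtx_val (h.vN_le e e.2)] at this
  exact h.ne e e.2 this

theorem WF.delN_eq {I : Inst} {n : ℕ} (h : I.WF n) (X : List ℤ) (a : I.V) :
    I.delN X a = del I.u I.v (I.vec X) a := by
  unfold delN del
  rw [tab_eq_ofFn, List.sum_ofFn, Finset.sum_apply]
  refine Finset.sum_congr rfl fun e _ => ?_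
  have h1 : I.uN e = a ↔ a = I.u e := by
    rw [Fin.ext_iff, u, vtx_val (h.uN_le e e.2)]; exact eq_comm
  have h2 : I.vN e = a ↔ a = I.v e := by
    rw [Fin.ext_iff, v, vtx_val (h.vN_le e e.2)]; exact eq_comm
  simp only [h1, h2, vec, ev, Pi.smul_apply, Pi.sub_apply, Pi.single_apply, smul_eq_mul]

theorem vec_ofFn (I : Inst) (X : Fin I.M → ℤ) : I.vec (List.ofFn X) = X := by
  funext e; exact getD_ofFn X 0 e

end Inst

/-- Specification of the approximate counter `est (I, n, τ)` using at most `n ^ r` random bits. -/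
structure EstSpec (est : Inst × ℕ × List Bool → ℤ) (r : ℕ) : Prop where
  pt : PT est
  nonneg : ∀ x, 0 ≤ est x
  zero : ∀ I n τ, I.WF n → I.cnt = 0 → est (I, n, τ) = 0
  good : ∀ I n L, I.WF n → 64 ≤ n → n ^ r ≤ L →
    Ex L (fun τ => ind ((I.cnt : ℤ) < n * |est (I, n, τ) - I.cnt|)) ≤ (1 / 2) ^ n

/-- Specification of the feasibility routine: it returns a flag and a flow. -/
structure FeasSpec (feas : Inst × ℕ → Bool × List ℤ) : Prop where
  pt : PT feas
  len : ∀ I n, (feas (I, n)).2.length = I.M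
  sound : ∀ I n, I.WF n → (feas (I, n)).1 = true → I.vec (feas (I, n)).2 ∈ I.sol
  complete : ∀ I n, I.WF n → I.sol.Nonempty → (feas (I, n)).1 = true

end Crest.Agent.R309
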