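import Crest.Agent.R309.RamStk
import Crest.Agent.R309.Basic

/-!
# Row 309: input and output routines of the word RAM program
-/

set_option autoImplicit false

namespace Crest.Agent.R309.Ram

open Function Crest.Agent.Lib.PolyTime Crest.Enc

/-- The main stack (lane `0`) holds `l` and the constants are in place. -/
def MS (B κ : ℕ) (σ : S) (l : List Bool) : Prop :=
  σ.R 2 = 1 ∧ σ.R 3 = κ ∧ σ.R 5 = 2 ∧ σ.R 16 = B + κ * l.length ∧ Stk σ.m B κ l

/-- Only the registers in `X` and the memory above the sentinels change, `δ` words are drawn. -/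
def Fr (B κ : ℕ) (X : List ℕ) (δ : ℕ) (σ σ' : S) : Prop :=
  (∀ j, j ∉ X → σ'.R j = σ.R j) ∧ (∀ a < B + κ, σ'.m a = σ.m a) ∧ σ'.d = σ.d + δ

variable {w : ℕ} {ρ : ℕ → ℕ} {B κ H : ℕ}

theorem Fr.refl (X : List ℕ) (σ : S) : Fr B κ X 0 σ σ := ⟨fun _ _ => rfl, fun _ _ => rfl, rfl⟩

theorem Fr.trans {X Y : List ℕ} {δ δ' δ'' : ℕ} {σ σ' σ'' : S} (h : Fr B κ X δ σ σ')
    (h' : Fr B κ Y δ' σ' σ'') (hY : ∀ j ∈ Y, j ∈ X) (hδ : δ'' = δ + δ') : Fr B κ X δ'' σ σ'' :=
  ⟨fun j hj => (h'.1 j fun e => hj (hY j e)).trans (h.1 j hj),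
    fun a ha => (h'.2.1 a ha).trans (h.2.1 a ha), by rw [h'.2.2, h.2.2, hδ, add_assoc]⟩

theorem Fr.set {X : List ℕ} {δ : ℕ} {σ σ' : S} (h : Fr B κ X δ σ σ') {d : ℕ} (hd : d ∈ X) (v : ℕ) :
    Fr B κ X δ σ ⟨update σ'.R d v, σ'.m, σ'.d⟩ :=
  ⟨fun j hj => (update_of_ne (fun e : j = d => hj (e ▸ hd)) _ _).trans (h.1 j hj), h.2.1, h.2.2⟩

theorem MS.set {σ : S} {l : List Bool} (h : MS B κ σ l) {d : ℕ} (hd : d ∉ [2, 3, 5, 16]) (v n : ℕ) :
    MS B κ ⟨update σ.R d v, σ.m, n⟩ l := by
  simp only [List.mem_cons, List.not_mem_nil, or_false, not_or] at hd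
  obtain ⟨h2, h3, h5, h16, hs⟩ := h
  refine ⟨?_, ?_, ?_, ?_, hs⟩ <;> simp only [] <;> rw [update_of_ne (by omega)] <;> assumption

theorem push_post (hκ : 0 < κ) {σ : S} {l : List Bool} (h : MS B κ σ l) (b : Bool) :
    MS B κ ⟨update (update σ.R 16 (B + κ * (l.length + 1))) 15 (b.toNat + 1),
      update σ.m (B + κ * (l.length + 1)) (b.toNat + 1), σ.d⟩ (b :: l) ∧
    Fr B κ [15, 16] 0 σ ⟨update (update σ.R 16 (B + κ * (l.length + 1))) 15 (b.toNat + 1),
      update σ.m (B + κ * (l.length + 1)) (b.toNat + 1), σ.d⟩ := by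
  obtain ⟨h2, h3, h5, h16, hs⟩ := h
  refine ⟨⟨by simpa using h2, by simpa using h3, by simpa using h5, by simp, hs.push hκ b⟩,
    fun j hj => ?_, fun a ha => ?_, rfl⟩
  · simp only [List.mem_cons, List.not_mem_nil, or_false, not_or] at hj
    simp only []
    rw [update_of_ne hj.1, update_of_ne hj.2]
  · simp only []
    rw [update_of_ne (by nlinarith)]

theorem push_c (hw : B + κ * (H + 1) < 2 ^ w) (hκ : 0 < κ) {σ : S} {l : List Bool}
    (h : MS B κ σ l) (hH : l.length + 1 ≤ H) (b : Bool) :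
    W w ρ (pushC 16 b) σ 3 fun σ' => MS B κ σ' (b :: l) ∧ Fr B κ [15, 16] 0 σ σ' :=
  pushC_spec (j := 0) hw hκ hH le_rfl b h.2.1 h.2.2.2.1 (push_post hκ h b)

/-- Push the bit held in register `v`. -/
def pushR (v : ℕ) : Pr := ops [.add 16 16 3, .add 15 v 2, .store 15 16]

theorem push_r (hw : B + κ * (H + 1) < 2 ^ w) (hκ : 0 < κ) {σ : S} {l : List Bool}
    (h : MS B κ σ l) (hH : l.length + 1 ≤ H) {v : ℕ} (hv : v ≠ 16) (b : Bool)
    (hb : σ.R v = b.toNat) :
    W w ρ (pushR v) σ 3 fun σ' => MS B κ σ' (b :: l) ∧ Fr B κ [15, 16] 0 σ σ' := by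
  refine W.ops (l := [_, _, _]) ?_
  have h1 : κ * (l.length + 2) ≤ κ * (H + 1) := Nat.mul_le_mul_left _ (by omega)
  have h2 : (B + κ * l.length + κ) % 2 ^ w = B + κ * (l.length + 1) := by
    rw [Nat.mod_eq_of_lt (by nlinarith)]; ring
  have h4 : (b.toNat + 1) % 2 ^ w = b.toNat + 1 := by
    have := b.toNat_le
    exact Nat.mod_eq_of_lt (by nlinarith)
  simpa [Op.ex, h.1, h.2.1, h.2.2.2.1, h2, h4, update_of_ne hv, hb] using push_post hκ h b

/-- Push as many `true` as register `x` says. -/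
def pushT (x : ℕ) : Pr :=
  .seq (.op (.quot 6 x 2)) (.loop 6 (.seq (pushC 16 true) (.op (.sub 6 6 2))))

theorem pushT_spec (hw : B + κ * (H + 1) < 2 ^ w) (hκ : 0 < κ) {σ : S} {l : List Bool}
    (h : MS B κ σ l) {x n : ℕ} (hx : σ.R x = n) (hH : l.length + n ≤ H) :
    W w ρ (pushT x) σ (6 * n + 2) fun σ' =>
      MS B κ σ' (List.replicate n true ++ l) ∧ Fr B κ [6, 15, 16] 0 σ σ' := by
  refine W.time (W.step (W.mono (W.loop (t := 4) (fun i σ' => i ≤ n ∧ σ'.R 6 = i ∧
    MS B κ σ' (List.replicate (n - i) true ++ l) ∧ Fr B κ [6, 15, 16] 0 σ σ')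
    (fun σ' h' => h'.2.1) ?_ n _ ?_) le_rfl fun σ' h' => by simpa using h'.2.2)) (by omega)
  · rintro i σ' ⟨h1, h2, h3, h4⟩
    refine ⟨by omega, W.bind (t₂ := 1) (push_c hw hκ h3 (by simp; omega) true) ?_⟩
    rintro σ₁ ⟨h5, h6⟩
    have h7 : σ₁.R 6 = i + 1 := by rw [h6.1 6 (by simp), h2]
    refine W.op ⟨by omega, by simp [Op.ex, h7, h5.1], ?_, ?_⟩
    · have : n - i = n - (i + 1) + 1 := by omega
      rw [this, List.replicate_succ]
      exact h5.set (by simp) _ _
    · exact (h4.trans h6 (by simp) rfl).set (by simp) _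
  · refine ⟨le_rfl, by simp [Op.ex, h.1, hx], ?_, (Fr.refl _ _).set (by simp) _⟩
    simpa [Op.ex] using h.set (d := 6) (by simp) _ _

theorem bits_pos {x : ℕ} (hx : x ≠ 0) : x.bits = decide (x % 2 = 1) :: (x / 2).bits := by
  rcases Nat.mod_two_eq_zero_or_one x with h | h
  · obtain ⟨y, rfl⟩ : ∃ y, x = 2 * y := ⟨x / 2, by omega⟩
    rw [Nat.bit0_bits y (by omega)]
    simp
  · obtain ⟨y, rfl⟩ : ∃ y, x = 2 * y + 1 := ⟨x / 2, by omega⟩
    rw [Nat.bit1_bits y]
    have : (2 * y + 1) / 2 = y := by omega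
    simp [this, h]

theorem toNat_decide (x : ℕ) : x % 2 = (decide (x % 2 = 1)).toNat := by
  rcases Nat.mod_two_eq_zero_or_one x with h | h <;> simp [h]

/-- Push the digits of register `10`. -/
def encDig : Pr := .loop 10 (.seq (pushC 16 true) (.seq (.op (.rem 11 10 5)) (.seq (pushR 11)
  (.op (.quot 10 10 5)))))

theorem encDig_spec (hw : B + κ * (H + 1) < 2 ^ w) (hκ : 0 < κ) (bs : List Bool) :
    ∀ (σ : S) (l : List Bool), (σ.R 10).bits = bs → MS B κ σ l → l.length + 2 * bs.length ≤ H →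
      W w ρ encDig σ (10 * bs.length + 1) fun σ' =>
        MS B κ σ' ((bs.map fun b => [true, b]).flatten.reverse ++ l) ∧
          Fr B κ [10, 11, 15, 16] 0 σ σ' := by
  induction bs with
  | nil =>
    intro σ l hx h _
    refine W.loop_zero ?_ ⟨by simpa using h, Fr.refl _ _⟩
    by_contra h0
    rw [bits_pos h0] at hx
    cases hx
  | cons b bs ih =>
    intro σ l hx h hH
    have h0 : σ.R 10 ≠ 0 := by
      intro h0
      rw [h0, Nat.zero_bits] at hx
      cases hx
    rw [bits_pos h0] at hx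
    obtain ⟨hb, hbs⟩ := List.cons.inj hx
    simp only [List.length_cons] at hH ⊢
    refine W.time (W.loop_pos (t₂ := 10 * bs.length + 1) h0
      (W.bind (push_c hw hκ h (by omega) true) ?_ (t₂ := 5))) (by omega)
    rintro σ₁ ⟨h1, h2⟩
    have h3 : σ₁.R 10 = σ.R 10 := h2.1 10 (by simp)
    refine W.step (W.bind (t₂ := 1) (push_r (v := 11) hw hκ (h1.set (d := 11) (by simp) _ _)
      (by simp; omega) (by omega) b (by simp [h3, h1.2.2.1, ← hb, ← toNat_decide])) ?_)
    rintro σ₂ ⟨h4, h5⟩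
    have h6 : σ₂.R 10 = σ.R 10 := by rw [h5.1 10 (by simp)]; simpa using h3
    refine W.op ((ih _ _ (by simp [h6, h4.2.2.1, hbs]) (h4.set (by simp) _ _)
      (by simp; omega)).mono le_rfl ?_)
    rintro σ₃ ⟨h7, h8⟩
    refine ⟨by simpa using h7, ?_⟩
    exact (((((Fr.refl [10, 11, 15, 16] σ).trans h2 (by simp) rfl).set (by simp) _).trans h5
      (by simp) rfl).set (by simp) _).trans h8 (by simp) rfl

/-- Push the code of register `10`. -/
def encWord : Pr := .seq encDig (.seq (pushC 16 false) (pushC 16 false))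

theorem length_natCode (x : ℕ) : (natCode x).length = 2 * x.bits.length + 2 := by
  unfold natCode
  induction x.bits with
  | nil => rfl
  | cons b l ih => simp at ih ⊢; omega

theorem encWord_spec (hw : B + κ * (H + 1) < 2 ^ w) (hκ : 0 < κ) {σ : S} {l : List Bool} {x : ℕ}
    (hx : σ.R 10 = x) (h : MS B κ σ l) (hH : l.length + (natCode x).length ≤ H) :
    W w ρ encWord σ (5 * (natCode x).length) fun σ' =>
      MS B κ σ' ((natCode x).reverse ++ l) ∧ Fr B κ [10, 11, 15, 16] 0 σ σ' := by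
  have hl := length_natCode x
  have hl2 : ((x.bits.map fun b => [true, b]).flatten.reverse ++ l).length + 2 =
      l.length + (natCode x).length := by
    simp only [natCode, List.length_append, List.length_reverse, List.length_cons,
      List.length_nil]
    omega
  refine W.time (W.bind (encDig_spec hw hκ x.bits σ l (by rw [hx]) h (by omega)) ?_ (t₂ := 3 + 3))
    (by omega)
  rintro σ₁ ⟨h1, h2⟩
  refine W.bind (push_c hw hκ h1 (by omega) false) ?_
  rintro σ₂ ⟨h3, h4⟩
  refine (push_c hw hκ h3 (by rw [List.length_cons]; omega) false).mono le_rfl ?_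
  rintro σ₃ ⟨h5, h6⟩
  exact ⟨by simpa [natCode] using h5, (h2.trans h4 (by simp) rfl).trans h6 (by simp) rfl⟩

/-- Loop over the input words. -/
def encLoop : Pr := .loop 8 (.seq (.op (.load 10 7)) (.seq encWord (.seq (.op (.add 7 7 2))
  (.op (.sub 8 8 2)))))

theorem encLoop_spec (hw : B + κ * (H + 1) < 2 ^ w) (hκ : 0 < κ) (suf : List ℕ) :
    ∀ (σ : S) (l : List Bool) (a : ℕ), σ.R 7 = a → σ.R 8 = suf.length → a + suf.length ≤ B →
      (∀ i < suf.length, σ.m (a + i) = suf.getD i 0) → MS B κ σ l →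
      l.length + (suf.map natCode).flatten.length ≤ H →
      W w ρ encLoop σ (8 * (suf.map natCode).flatten.length + 1) fun σ' =>
        MS B κ σ' ((suf.map natCode).flatten.reverse ++ l) ∧
          Fr B κ [7, 8, 10, 11, 15, 16] 0 σ σ' := by
  induction suf with
  | nil =>
    intro σ l a _ h8 _ _ h _
    exact W.loop_zero h8 ⟨by simpa using h, Fr.refl _ _⟩
  | cons x suf ih =>
    intro σ l a h7 h8 ha hm h hH
    simp only [List.length_cons, List.map_cons, List.flatten_cons, List.length_append] at h8 ha hH ⊢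
    have hl := length_natCode x
    have hx : σ.m a = x := hm 0 (by simp)
    refine W.time (W.loop_pos (t₂ := 8 * (suf.map natCode).flatten.length + 1) (by omega)
      (W.step (W.bind (encWord_spec (x := x) hw hκ (by simp [Op.ex, h7, hx])
        (h.set (by simp) _ _) (by omega)) ?_ (t₂ := 1 + 1)))) (by omega)
    rintro σ₁ ⟨h1, h2⟩
    have e7 : σ₁.R 7 = a := by rw [h2.1 7 (by simp)]; simpa [Op.ex] using h7
    have e8 : σ₁.R 8 = suf.length + 1 := by rw [h2.1 8 (by simp)]; simpa [Op.ex] using h8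
    have e9 : (a + 1) % 2 ^ w = a + 1 := Nat.mod_eq_of_lt (by omega)
    refine W.step (W.op ((ih _ _ (a + 1) (by simp [Op.ex, e7, h1.1, e9])
      (by simp [Op.ex, e8, h1.1]) (by omega) (fun i hi => ?_)
      ((h1.set (by simp) _ _).set (by simp) _ _) (by simp at hH ⊢; omega)).mono le_rfl ?_))
    · have := hm (i + 1) (by simp; omega)
      rw [List.getD_cons_succ] at this
      rw [← this, add_assoc, add_comm 1]
      exact h2.2.1 _ (by omega)
    · rintro σ₃ ⟨h7, h8⟩
      refine ⟨by simpa using h7, ?_⟩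
      exact ((((((Fr.refl [7, 8, 10, 11, 15, 16] σ).set (by simp) _).trans h2 (by simp) rfl).set
        (by simp) _).set (by simp) _).trans h8 (by simp) rfl)

/-- Register `d` receives the `a`-th power of register `x`. -/
def powR (d x : ℕ) : ℕ → Pr
  | 0 => .op (.const d 1)
  | a + 1 => .seq (powR d x a) (.op (.mul d d x))

theorem powR_spec {d x q : ℕ} (hd : x ≠ d) (hq : 1 ≤ q) {σ : S} (hx : σ.R x = q) (a : ℕ)
    (ha : q ^ a < 2 ^ w) :
    W w ρ (powR d x a) σ (a + 1) fun σ' => σ' = ⟨update σ.R d (q ^ a), σ.m, σ.d⟩ := by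
  induction a with
  | zero =>
    refine W.op ?_
    simp only [Op.ex, pow_zero] at ha ⊢
    rw [Nat.mod_eq_of_lt ha]
  | succ a ih =>
    refine W.bind (ih (lt_of_le_of_lt (Nat.pow_le_pow_right hq (by omega)) ha)) ?_
    rintro _ rfl
    refine W.op ?_
    simp only [Op.ex, update_self, update_of_ne hd, hx, update_idem]
    rw [← pow_succ, Nat.mod_eq_of_lt ha]

/-- Low bits of the `n` random words from position `d` on. -/
def bitsAt (w : ℕ) (ρ : ℕ → ℕ) (d n : ℕ) : List Bool :=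
  tab n fun i => decide (ρ (d + i) % 2 ^ w % 2 = 1)

theorem bitsAt_succ (d n : ℕ) :
    bitsAt w ρ d (n + 1) = bitsAt w ρ d n ++ [decide (ρ (d + n) % 2 ^ w % 2 = 1)] := by
  simp [bitsAt, tab, List.range_succ]

theorem length_bitsAt (d n : ℕ) : (bitsAt w ρ d n).length = n := by simp [bitsAt]

theorem bitsAt_add (d a b : ℕ) :
    bitsAt w ρ d (a + b) = bitsAt w ρ d a ++ bitsAt w ρ (d + a) b := by
  induction b with
  | zero => simp [bitsAt, tab]
  | succ b ih => rw [← add_assoc, bitsAt_succ, ih, bitsAt_succ, add_assoc, List.append_assoc]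

/-- Draw the gate bits. -/
def gate : Pr := .seq (.op (.quot 6 12 2)) (.loop 6
  (ops [.rand 10, .rem 10 10 5, .sub 10 2 10, .mul 14 14 10, .sub 6 6 2]))

theorem gate_spec {σ : S} {l : List Bool} (h : MS B κ σ l) {K p : ℕ} (hK : σ.R 12 = K)
    (hp : σ.R 14 = p) (hpw : p < 2 ^ w) :
    W w ρ gate σ (7 * K + 2) fun σ' => MS B κ σ' l ∧ Fr B κ [6, 10, 14] K σ σ' ∧
      σ'.R 14 = if bitsAt w ρ σ.d K = List.replicate K false then p else 0 := by
  refine W.time (W.step (W.mono (W.loop (t := 5) (fun i σ' => i ≤ K ∧ σ'.R 6 = i ∧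
    MS B κ σ' l ∧ Fr B κ [6, 10, 14] (K - i) σ σ' ∧
      σ'.R 14 = if bitsAt w ρ σ.d (K - i) = List.replicate (K - i) false then p else 0)
    (fun σ' h' => h'.2.1) ?_ K _ ?_) le_rfl fun σ' h' => by simpa using h'.2.2)) (by omega)
  · rintro i σ' ⟨h1, h2, h3, h4, h5⟩
    refine ⟨by omega, W.ops (l := [_, _, _, _, _]) ⟨by omega, by simp [Op.ex, h2, h3.1], ?_, ?_, ?_⟩⟩
    · exact ((((h3.set (by simp) _ _).set (by simp) _ _).set (by simp) _ _).set (by simp) _ _).set
        (by simp) _ _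
    · have h6 : Fr B κ [6, 10, 14] (K - i) σ ⟨σ'.R, σ'.m, σ'.d + 1⟩ :=
        ⟨h4.1, h4.2.1, by simp only [h4.2.2]; omega⟩
      exact ((((h6.set (by simp) _).set (by simp) _).set (by simp) _).set (by simp) _).set
        (by simp) _
    · have e : K - i = K - (i + 1) + 1 := by omega
      rw [e, bitsAt_succ, List.replicate_succ', ← h4.2.2]
      simp only [List.foldl_cons, List.foldl_nil, Op.ex, List.append_singleton_inj]
      have hp' : σ'.R 14 % 2 ^ w = σ'.R 14 := by
        rw [h5]; split_ifs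
        · exact Nat.mod_eq_of_lt hpw
        · simp
      generalize ρ σ'.d % 2 ^ w = y
      rcases Nat.mod_two_eq_zero_or_one y with h6 | h6
      · simp [h3.1, h3.2.2.1, h6, hp', ← h5]
      · simp [h3.1, h3.2.2.1, h6]
  · refine ⟨le_rfl, by simp [Op.ex, h.1, hK], h.set (by simp) _ _, ?_, by simp [Op.ex, hp, bitsAt, tab]⟩
    simpa [Op.ex] using (Fr.refl [6, 10, 14] σ).set (d := 6) (by simp) _

/-- Draw and push the random tape. -/
def rnd : Pr := .seq (.op (.quot 6 13 2)) (.loop 6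
  (.seq (.op (.rand 10)) (.seq (.op (.rem 10 10 5)) (.seq (pushR 10) (.op (.sub 6 6 2))))))

theorem rnd_spec (hw : B + κ * (H + 1) < 2 ^ w) (hκ : 0 < κ) {σ : S} {l : List Bool}
    (h : MS B κ σ l) {L : ℕ} (hL : σ.R 13 = L) (hH : l.length + L ≤ H) :
    W w ρ rnd σ (8 * L + 2) fun σ' =>
      MS B κ σ' ((bitsAt w ρ σ.d L).reverse ++ l) ∧ Fr B κ [6, 10, 15, 16] L σ σ' := by
  refine W.time (W.step (W.mono (W.loop (t := 6) (fun i σ' => i ≤ L ∧ σ'.R 6 = i ∧
    MS B κ σ' ((bitsAt w ρ σ.d (L - i)).reverse ++ l) ∧ Fr B κ [6, 10, 15, 16] (L - i) σ σ')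
    (fun σ' h' => h'.2.1) ?_ L _ ?_) le_rfl fun σ' h' => by simpa using h'.2.2)) (by omega)
  · rintro i σ' ⟨h1, h2, h3, h4⟩
    refine ⟨by omega, W.step (W.step (W.bind (t₂ := 1) (push_r (v := 10) hw hκ
      ((h3.set (d := 10) (by simp) _ _).set (d := 10) (by simp) _ _)
      (by simp [length_bitsAt]; omega) (by omega)
      (decide (ρ σ'.d % 2 ^ w % 2 = 1)) ?_) ?_))⟩
    · rw [← toNat_decide]
      simp only [Op.ex]
      generalize ρ σ'.d % 2 ^ w = y
      simp [h3.2.2.1]
    rintro σ₁ ⟨h5, h6⟩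
    have h7 : σ₁.R 6 = i + 1 := by rw [h6.1 6 (by simp)]; simpa using h2
    refine W.op ⟨by omega, by simp [Op.ex, h7, h5.1], ?_, ?_⟩
    · have e : L - i = L - (i + 1) + 1 := by omega
      rw [e, bitsAt_succ, ← h4.2.2]
      simpa [Op.ex] using h5.set (d := 6) (by simp) _ _
    · have h8 : Fr B κ [6, 10, 15, 16] (L - i) σ ⟨σ'.R, σ'.m, σ'.d + 1⟩ :=
        ⟨h4.1, h4.2.1, by simp only [h4.2.2]; omega⟩
      exact (((h8.set (by simp) _).set (by simp) _).trans h6 (by simp) rfl).set (by simp) _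
  · refine ⟨le_rfl, by simp [Op.ex, h.1, hL], ?_, ?_⟩
    · simpa [bitsAt, tab, Op.ex] using h.set (d := 6) (by simp) _ _
    · simpa [Op.ex] using (Fr.refl [6, 10, 15, 16] σ).set (d := 6) (by simp) _

/-- Pop a bit into register `10`. -/
def popB : Pr := ops [.load 10 16, .sub 16 16 3, .sub 10 10 2]

theorem popB_spec {σ : S} {l : List Bool} {b : Bool} (h : MS B κ σ (b :: l)) :
    W w ρ popB σ 3 fun σ' => MS B κ σ' l ∧ Fr B κ [10, 16] 0 σ σ' ∧ σ'.R 10 = b.toNat := by
  obtain ⟨h2, h3, h5, h16, hs⟩ := h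
  rw [List.length_cons] at h16
  refine W.ops (l := [_, _, _]) ⟨⟨by simpa [Op.ex] using h2, by simpa [Op.ex] using h3,
    by simpa [Op.ex] using h5, ?_, hs.2⟩, ?_, ?_⟩
  · simp [Op.ex, h16, h3, Nat.mul_succ, ← add_assoc]
  · exact (((Fr.refl [10, 16] σ).set (by simp) _).set (by simp) _).set (by simp) _
  · simp [Op.ex, h16, h2, hs.1]

/-- The decoding loop. -/
def decLoop : Pr := .loop 10 (.seq (.op (.sub 16 16 3)) (.seq (.op (.sub 10 10 2))
  (.seq (.ifz 10 (ops [.store 8 7, .add 7 7 2, .const 8 0])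
    (ops [.load 11 16, .sub 16 16 3, .sub 11 11 2, .mul 8 8 5, .add 8 8 11]))
    (.op (.load 10 16)))))

theorem decLoop_dig (ds : List Bool) : ∀ (pre : List Bool) (σ : S) (l : List Bool) (t : ℕ)
    (Q : S → Prop), MS B κ σ ((ds.flatMap fun b => [true, b]) ++ l) → σ.R 10 = σ.m (σ.R 16) →
    σ.R 8 = Bin.valMSB pre → Bin.valMSB (pre ++ ds) < 2 ^ w →
    (∀ σ' : S, MS B κ σ' l → σ'.R 10 = σ'.m (σ'.R 16) → σ'.R 8 = Bin.valMSB (pre ++ ds) →
      σ'.R 7 = σ.R 7 → σ'.R 1 = σ.R 1 → σ'.m = σ.m → σ'.d = σ.d → W w ρ decLoop σ' t Q) →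
    W w ρ decLoop σ (t + 12 * ds.length) Q := by
  induction ds with
  | nil =>
    intro pre σ l t Q h h10 h8 _ hk
    exact hk σ (by simpa using h) h10 (by simpa using h8) rfl rfl rfl rfl
  | cons b ds ih =>
    intro pre σ l t Q h h10 h8 hv hk
    obtain ⟨h2, h3, h5, h16, hs⟩ := h
    simp only [List.flatMap_cons, List.cons_append, List.nil_append] at h16 hs
    obtain ⟨hs1, hs2, hs3⟩ := hs
    simp only [List.length_cons] at h16 hs1
    set n := ((ds.flatMap fun b => [true, b]) ++ l).length with hn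
    have e10 : σ.R 10 = 2 := by rw [h10, h16, hs1]; rfl
    have e1 : B + κ * (n + 1 + 1) - κ = B + κ * (n + 1) := by rw [Nat.mul_succ κ (n + 1)]; omega
    have e2 : B + κ * (n + 1) - κ = B + κ * n := by rw [Nat.mul_succ]; omega
    have hv' : Bin.valMSB (pre ++ [b]) < 2 ^ w := by
      refine lt_of_le_of_lt ?_ hv
      rw [show pre ++ b :: ds = (pre ++ [b]) ++ ds by simp, Bin.valMSB_append (pre ++ [b]) ds]
      have : 0 < 2 ^ ds.length := by positivity
      nlinarith
    have e3 : (Bin.valMSB pre * 2 % 2 ^ w + b.toNat) % 2 ^ w = Bin.valMSB (pre ++ [b]) := by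
      rw [Bin.valMSB_append_single] at hv' ⊢
      rw [Nat.mod_eq_of_lt (a := Bin.valMSB pre * 2) (by omega), Nat.mod_eq_of_lt (by omega)]
      omega
    refine W.time (W.loop_pos (t₂ := t + 12 * ds.length) (by omega) (W.step (W.step (W.seq
      (W.ifz_pos (by simp [Op.ex, e10, h2]) (W.ops (l := [_, _, _, _, _]) (W.op ?_)))))))
      (by simp only [List.length_cons, List.length_nil]; omega)
    refine ih (pre ++ [b]) _ l t Q ⟨by simpa [Op.ex] using h2, by simpa [Op.ex] using h3,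
      by simpa [Op.ex] using h5, by rw [← hn]; simp [Op.ex, h16, h3, e1, e2], hs3⟩ (by simp [Op.ex])
      (by
        simp only [List.foldl_cons, List.foldl_nil, Op.ex]
        simp [-Nat.mod_add_mod, h16, h3, h2, h5, h8, e1, hs2, e3])
      (by simpa using hv) fun σ' k1 k2 k3 k4 k5 k6 k7 => hk σ' k1 k2 (by simpa using k3)
        (by simpa [Op.ex] using k4) (by simpa [Op.ex] using k5) k6 k7

/-- Code of the output words. -/
def encOut (out : List ℕ) : List Bool :=
  (out.map fun x => (x.bits.reverse.flatMap fun b => [true, b]) ++ [false]).flatten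

theorem decLoop_spec (hw : B < 2 ^ w) (n : ℕ) (rest : List ℕ) : ∀ (done : List ℕ) (σ : S),
    MS B κ σ (encOut rest) → σ.R 10 = σ.m (σ.R 16) → σ.R 8 = 0 → σ.R 7 = n + done.length →
    (∀ i < done.length, σ.m (n + i) = done.getD i 0) → n + done.length + rest.length ≤ B →
    (∀ x ∈ rest, x < 2 ^ w) →
    W w ρ decLoop σ (10 * (encOut rest).length + 1) fun σ' =>
      σ'.R 7 = n + (done ++ rest).length ∧ σ'.R 1 = σ.R 1 ∧
      (∀ i < (done ++ rest).length, σ'.m (n + i) = (done ++ rest).getD i 0) ∧ σ'.d = σ.d := by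
  induction rest with
  | nil =>
    intro done σ h h10 _ h7 hm _ _
    refine W.loop_zero ?_ ⟨by simpa using h7, rfl, by simpa using hm, rfl⟩
    rw [h10, h.2.2.2.1]
    exact h.2.2.2.2
  | cons x rest ih =>
    intro done σ h h10 h8 h7 hm hB hx
    have e : encOut (x :: rest) =
        (x.bits.reverse.flatMap fun b => [true, b]) ++ false :: encOut rest := by simp [encOut]
    have hl : (encOut (x :: rest)).length = 2 * x.bits.reverse.length + 1 + (encOut rest).length := by
      rw [e]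
      induction x.bits.reverse with
      | nil => simp; omega
      | cons b l ih => simp at ih ⊢; omega
    rw [List.length_cons] at hB
    refine W.time (decLoop_dig x.bits.reverse [] σ (false :: encOut rest)
      (8 + (10 * (encOut rest).length + 1) + 2) _ (e ▸ h) h10 h8
      (by simpa [Bin.valMSB_bits_reverse] using hx x (by simp)) ?_) (by omega)
    intro σ' ⟨h2, h3, h5, h16, hs1, hs2⟩ k10 k8 k7 k1 km kd
    rw [List.nil_append, Bin.valMSB_bits_reverse] at k8
    rw [List.length_cons] at h16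
    have e10 : σ'.R 10 = 1 := by rw [k10, h16, hs1]; rfl
    have e2 : B + κ * ((encOut rest).length + 1) - κ = B + κ * (encOut rest).length := by
      rw [Nat.mul_succ]; omega
    have e3 : (n + done.length + 1) % 2 ^ w = n + done.length + 1 := Nat.mod_eq_of_lt (by omega)
    refine W.loop_pos (by omega) (W.step (W.step (W.seq (t₂ := 1)
      (W.ifz_zero (by simp [Op.ex, e10, h2]) (W.ops (l := [_, _, _]) (W.op ?_))))))
    refine (ih (done ++ [x]) _ ⟨by simpa [Op.ex] using h2, by simpa [Op.ex] using h3,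
      by simpa [Op.ex] using h5, by simp [Op.ex, h16, h3, e2], ?_⟩ (by simp [Op.ex])
      (by simp [Op.ex]) (by simp [Op.ex, k7, h7, h2, e3, ← add_assoc]) ?_ (by simp; omega)
      fun y hy => hx y (by simp [hy])).mono le_rfl ?_
    · simp only [List.foldl_cons, List.foldl_nil, Op.ex]
      refine hs2.update _ fun i _ => ?_
      simp [k7, h7]
      omega
    · intro i hi
      simp only [List.foldl_cons, List.foldl_nil, Op.ex]
      simp only [List.length_append, List.length_singleton] at hi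
      by_cases hi' : i < done.length
      · rw [update_of_ne (by simp [k7, h7]; omega), km, hm i hi', List.getD_append _ _ _ _ hi']
      · obtain rfl : i = done.length := by omega
        simp [k7, h7, k8]
    · rintro σ₂ ⟨m1, m2, m3, m4⟩
      refine ⟨by simpa using m1, ?_, by simpa using m3, m4.trans kd⟩
      rw [m2, ← k1]
      simp [Op.ex]

/-- Decode the output words. -/
def decode : Pr := .seq (ops [.quot 1 0 2, .quot 7 0 2, .const 8 0, .load 10 16])
  (.seq decLoop (.op (.sub 0 7 1)))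

theorem decode_spec (hw : B < 2 ^ w) {σ : S} {out : List ℕ} (h : MS B κ σ (encOut out))
    (hB : σ.R 0 + out.length ≤ B) (hx : ∀ x ∈ out, x < 2 ^ w) :
    W w ρ decode σ (10 * (encOut out).length + 6) fun σ' =>
      (List.range (σ'.R 0)).map (fun i => σ'.m (σ'.R 1 + i)) = out ∧ σ'.d = σ.d := by
  refine W.time (W.seq (t₂ := 10 * (encOut out).length + 1 + 1) (W.ops (l := [_, _, _, _])
    (W.bind (decLoop_spec hw (σ.R 0) out [] _
      ((((h.set (d := 1) (by simp) _ _).set (d := 7) (by simp) _ _).set (d := 8) (by simp) _ _).set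
        (d := 10) (by simp) _ _) (by simp [Op.ex]) (by simp [Op.ex]) (by simp [Op.ex, h.1]) (by simp)
      (by simpa using hB)
      hx) ?_))) (by simp only [List.length_cons, List.length_nil]; omega)
  rintro σ' ⟨h7, h1, hm, hd⟩
  have e1 : σ'.R 1 = σ.R 0 := by simpa [Op.ex, h.1] using h1
  refine W.op ⟨?_, hd⟩
  simp only [List.nil_append] at h7 hm
  simp only [Op.ex, update_self, h7, e1, Nat.add_sub_cancel_left]
  rw [update_of_ne (by omega), e1]
  refine List.ext_getElem (by simp) fun i h1 h2 => ?_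
  simp [hm i h2, h2]

/-- Initialise the stack pointers of the lanes `< j`. -/
def initSP : ℕ → Pr
  | 0 => .skip
  | j + 1 => .seq (initSP j) (ops [.const 6 j, .add (16 + j) 4 6])

theorem initSP_spec {σ : S} (h4 : σ.R 4 = B) (j : ℕ) (hj : B + j ≤ 2 ^ w) :
    W w ρ (initSP j) σ (2 * j) fun σ' => (∀ i < j, σ'.R (16 + i) = B + i) ∧
      (∀ i < 16, i ≠ 6 → σ'.R i = σ.R i) ∧ σ'.m = σ.m ∧ σ'.d = σ.d := by
  induction j with
  | zero => exact W.skip ⟨by simp, by simp, rfl, rfl⟩
  | succ j ih =>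
    refine W.bind (t₂ := 2) (ih (by omega)) ?_
    rintro σ' ⟨h1, h2, h3, h5⟩
    have e4 : σ'.R 4 = B := by rw [h2 4 (by omega) (by omega), h4]
    refine W.ops (l := [_, _]) ⟨fun i hi => ?_, fun i hi hi' => ?_, h3, h5⟩
    · simp only [List.foldl_cons, List.foldl_nil, Op.ex]
      by_cases hij : i = j
      · subst hij
        rw [update_self, update_self, update_of_ne (by omega), e4,
          Nat.mod_eq_of_lt (a := i) (by omega), Nat.mod_eq_of_lt (by omega)]
      · rw [update_of_ne (by omega), update_of_ne (by omega)]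
        exact h1 i (by omega)
    · simp only [List.foldl_cons, List.foldl_nil, Op.ex]
      rw [update_of_ne (by omega), update_of_ne hi']
      exact h2 i hi hi'

end Crest.Agent.R309.Ram
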