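import Crest.Agent.R309.Prob
import Crest.Prelude.Def_WordRAMProb

/-!
# Row 309: probability analysis of a Las Vegas loop on the word RAM

`R = K + L` random words are drawn in each round; `blk w ρ R j` is the list of their low bits in round `j`.
A round is *slow* if the first `K` bits are `false`; it *rejects* if it is slow and `acc` fails on the last `L` bits.

Sketch.
* `(step P w ρ c).drawn ≤ c.drawn + 1`, a halted configuration never changes.  If the rounds `0, …, j-1` reject, then
  at some time `n` with `j R ≤ n ≤ j Ts` the run is in a `Head` configuration with `drawn = j R` (induction on `j`).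
  So if the run is halted at time `T`, some round `j` with `(j+1) R ≤ T` is the first that does not reject, and the
  output is that of round `j` (otherwise the run is in a `Head` configuration at a time `≥ (T+1) R > T`).
* Low bits are fair: `uniformProb {tab : Fin T → Fin (2 ^ w) | p (List.ofFn fun i => decide (tab i % 2 = 1))}
  = Ex T (fun τ => ind (p τ))` (product of the fibres, each of size `2 ^ (w-1)`), and for `(j+1) R ≤ T`,
  `blk w (streamOf tab) R j = chunk R j (List.ofFn …)`.  With `Ex_prod_chunk` the event "rounds `< j` reject, round `j` gives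
  a good output" has probability `r ^ j * pG`, `r = 1 - pAll`, `r ≤ (1/2) ^ K < 1`; `pG` and `pAll` are computed by `Ex_append`
  (`Ex K (fun x => ind (x = replicate K false)) = (1/2) ^ K`).
  `probAfter … T ≤ ∑ j < T, r ^ j pG ≤ pG / pAll`, and for `T ≥ (J+1) Ts` it is `≥ ∑ j ≤ J, r ^ j pG` (disjoint events).
* Not halted at a time `T ≥ Tf` implies that the first `m = max 1 (T / Ts)` rounds are slow and `m R ≤ T` (look at the last
  `Head` time `≤ T`), so this has probability `≤ δ ^ m ≤ 2 δ (1/2) ^ (T / Ts)`, `δ = (1/2) ^ K`, and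
  `∑ T < N, (1/2) ^ (T / Ts) ≤ 2 Ts` (blocks of length `Ts`).
-/

set_option autoImplicit false

namespace Crest.Agent.R309

open Crest.WordRAM

/-- Low bits of the `j`-th block of `R` random words. -/
def blk (w : ℕ) (ρ : ℕ → ℕ) (R j : ℕ) : List Bool :=
  tab R fun i => decide (ρ (j * R + i) % 2 ^ w % 2 = 1)

theorem step_drawn_le (P : Program) (w : ℕ) (ρ : ℕ → ℕ) (c : Cfg P.numRegs) :
    (step P w ρ c).drawn ≤ c.drawn + 1 := by
  unfold step
  split_ifs
  · omega
  · dsimp only
    split <;> simp

theorem run_add (P : Program) (w : ℕ) (ρ : ℕ → ℕ) (ws : List ℕ) (k n : ℕ) :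
    run P w ρ ws (k + n) = (step P w ρ)^[k] (run P w ρ ws n) := by
  simp only [run, Function.iterate_add_apply]

theorem drawn_run_le (P : Program) (w : ℕ) (ρ : ℕ → ℕ) (ws : List ℕ) (n : ℕ) :
    (run P w ρ ws n).drawn ≤ n := by
  induction n with
  | zero => simp [run, init]
  | succ n ih =>
    rw [add_comm, run_add]
    have := step_drawn_le P w ρ (run P w ρ ws n)
    simp only [Function.iterate_one]
    omega

theorem run_of_halted {P : Program} {w : ℕ} {ρ : ℕ → ℕ} {ws : List ℕ} {n T : ℕ}
    (h : (run P w ρ ws n).halted = true) (hT : n ≤ T) : run P w ρ ws T = run P w ρ ws n := by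
  obtain ⟨k, rfl⟩ := Nat.exists_eq_add_of_le' hT
  rw [run_add]
  exact Function.iterate_fixed (by simp [step, h]) k

/-- The low bits of a table of words. -/
def lowBits {T m : ℕ} (tb : Fin T → Fin m) : List Bool :=
  List.ofFn fun i => decide ((tb i : ℕ) % 2 = 1)

theorem blk_streamOf {w T R j : ℕ} (tb : Fin T → Fin (2 ^ w)) (h : (j + 1) * R ≤ T) :
    blk w (streamOf tb) R j = chunk R j (lowBits tb) := by
  rw [add_mul, one_mul] at h
  apply List.ext_getElem
  · simp [blk, chunk, lowBits]; omega
  · intro i h1 h2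
    have hi : i < R := by simpa [blk] using h1
    have h3 : j * R + i < T := by omega
    simp only [blk, tab, chunk, lowBits, List.getElem_map, List.getElem_range, List.getElem_take,
      List.getElem_drop, List.getElem_ofFn, streamOf, h3, dif_pos]
    rw [Nat.mod_eq_of_lt (tb ⟨j * R + i, h3⟩).2]

theorem sum_parity (m : ℕ) (b : Bool) :
    ∑ x ∈ Finset.range (2 * m), (if decide (x % 2 = 1) = b then (1 : ℝ) else 0) = m := by
  induction m with
  | zero => simp
  | succ m ih =>
    rw [show 2 * (m + 1) = 2 * m + 1 + 1 by ring, Finset.sum_range_succ, Finset.sum_range_succ, ih]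
    have h1 : 2 * m % 2 = 0 := by omega
    have h2 : (2 * m + 1) % 2 = 1 := by omega
    cases b <;> simp [h1, h2]

theorem avg_lowBits {w : ℕ} (hw : 0 < w) (T : ℕ) (F : List Bool → ℝ) :
    (∑ tb : Fin T → Fin (2 ^ w), F (lowBits tb)) / (Fintype.card (Fin T → Fin (2 ^ w)) : ℝ) =
      Ex T F := by
  obtain ⟨k, rfl⟩ : ∃ k, w = k + 1 := ⟨w - 1, by omega⟩
  have h1 : ∀ tb : Fin T → Fin (2 ^ (k + 1)), F (lowBits tb) = ∑ ω : Fin T → Bool,
      F (List.ofFn ω) * ∏ i, (if decide ((tb i : ℕ) % 2 = 1) = ω i then (1 : ℝ) else 0) := by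
    intro tb
    rw [Finset.sum_eq_single fun i => decide ((tb i : ℕ) % 2 = 1)]
    · simp [lowBits]
    · intro ω _ hω
      obtain ⟨i, hi⟩ := Function.ne_iff.1 hω
      rw [Finset.prod_eq_zero (Finset.mem_univ i) (if_neg hi.symm), mul_zero]
    · simp
  have h2 : ∀ ω : Fin T → Bool, ∑ tb : Fin T → Fin (2 ^ (k + 1)),
      ∏ i, (if decide ((tb i : ℕ) % 2 = 1) = ω i then (1 : ℝ) else 0) = (2 ^ k) ^ T := by
    intro ω
    rw [← Fintype.prod_sum (fun (i : Fin T) (x : Fin (2 ^ (k + 1))) =>
      if decide ((x : ℕ) % 2 = 1) = ω i then (1 : ℝ) else 0)]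
    have h3 : ∀ b : Bool, ∑ x : Fin (2 ^ (k + 1)),
        (if decide ((x : ℕ) % 2 = 1) = b then (1 : ℝ) else 0) = 2 ^ k := by
      intro b
      rw [Fin.sum_univ_eq_sum_range (fun x => if decide (x % 2 = 1) = b then (1 : ℝ) else 0),
        pow_succ', sum_parity]
      simp
    simp only [h3, Finset.prod_const, Finset.card_univ, Fintype.card_fin]
  simp only [h1]
  rw [Finset.sum_comm]
  simp only [← Finset.mul_sum, h2, ← Finset.sum_mul]
  simp only [Ex, Fintype.card_fun, Fintype.card_fin]
  push_cast
  rw [pow_succ, mul_pow]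
  field_simp

theorem uniformProb_eq_avg {Ω : Type} [Fintype Ω] (S : Set Ω) :
    Crest.FinProb.uniformProb S = (∑ x, ind (x ∈ S)) / (Fintype.card Ω : ℝ) := by
  classical
  unfold Crest.FinProb.uniformProb ind
  rw [Finset.sum_boole]

theorem prob_le {w T : ℕ} (hw : 0 < w) (S : Set (Fin T → Fin (2 ^ w))) (F : List Bool → ℝ)
    (h : ∀ tb, ind (tb ∈ S) ≤ F (lowBits tb)) : Crest.FinProb.uniformProb S ≤ Ex T F := by
  rw [uniformProb_eq_avg, ← avg_lowBits hw]
  exact div_le_div_of_nonneg_right (Finset.sum_le_sum fun tb _ => h tb) (Nat.cast_nonneg _)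

theorem le_prob {w T : ℕ} (hw : 0 < w) (S : Set (Fin T → Fin (2 ^ w))) (F : List Bool → ℝ)
    (h : ∀ tb, F (lowBits tb) ≤ ind (tb ∈ S)) : Ex T F ≤ Crest.FinProb.uniformProb S := by
  rw [uniformProb_eq_avg, ← avg_lowBits hw]
  exact div_le_div_of_nonneg_right (Finset.sum_le_sum fun tb _ => h tb) (Nat.cast_nonneg _)

theorem prod_ind (j : ℕ) (p : ℕ → Prop) : ∏ i ∈ Finset.range j, ind (p i) = ind (∀ i < j, p i) := by
  by_cases h : ∀ i < j, p i
  · rw [ind_of h]
    exact Finset.prod_eq_one fun i hi => ind_of (h i (Finset.mem_range.1 hi))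
  · rw [ind_of_not h]
    push Not at h
    obtain ⟨i, hi, hp⟩ := h
    exact Finset.prod_eq_zero (Finset.mem_range.2 hi) (ind_of_not hp)

theorem sum_ind_le {ι : Type} (s : Finset ι) (p : ι → Prop) {q : Prop}
    (h1 : ∀ i ∈ s, ∀ j ∈ s, p i → p j → i = j) (h2 : ∀ i ∈ s, p i → q) :
    ∑ i ∈ s, ind (p i) ≤ ind q := by
  by_cases h : ∃ i ∈ s, p i
  · obtain ⟨i, hi, hp⟩ := h
    rw [Finset.sum_eq_single_of_mem i hi fun j hj hne => ind_of_not fun hq => hne (h1 j hj i hi hq hp)]
    exact ind_mono (h2 i hi)
  · rw [Finset.sum_eq_zero fun i hi => ind_of_not fun hp => h ⟨i, hi, hp⟩]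
    exact ind_nonneg _

theorem Ex_replicate (K : ℕ) : Ex K (fun x => ind (x = List.replicate K false)) = (1 / 2) ^ K := by
  unfold Ex
  rw [Finset.sum_eq_single fun _ => false]
  · dsimp only
    rw [ind_of (by simp [List.ofFn_const])]; simp
  · intro ω _ hω
    refine ind_of_not fun h => hω ?_
    exact List.ofFn_injective (h.trans (by simp))
  · simp

theorem Ex_split (K L : ℕ) (A B : List Bool → ℝ) :
    Ex (K + L) (fun b => if b.take K = List.replicate K false then A (b.drop K) else B (b.drop K)) =
      (1 / 2) ^ K * Ex L A + (1 - (1 / 2) ^ K) * Ex L B := by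
  rw [Ex_append, Ex_congr (G := fun x => ind (x = List.replicate K false) * Ex L A +
    (1 - ind (x = List.replicate K false)) * Ex L B)]
  · rw [Ex_add, Ex_mul_right, Ex_mul_right, Ex_sub, Ex_const, Ex_replicate]
  · intro x hx
    simp only [List.take_left' hx, List.drop_left' hx]
    by_cases h : x = List.replicate K false
    · rw [ind_of h]; simp only [if_pos h]; ring
    · rw [ind_of_not h]; simp only [if_neg h]; ring

theorem sum_half_div_le {s : ℕ} (hs : 0 < s) (N : ℕ) :
    ∑ T ∈ Finset.range N, (1 / 2 : ℝ) ^ (T / s) ≤ 2 * s := by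
  have h1 : ∀ q : ℕ, ∑ T ∈ Finset.range (q * s), (1 / 2 : ℝ) ^ (T / s) = s * (2 - 2 * (1 / 2) ^ q) := by
    intro q
    induction q with
    | zero => simp
    | succ q ih =>
      rw [add_mul, one_mul, Finset.sum_range_add, ih,
        Finset.sum_congr rfl (g := fun _ => (1 / 2 : ℝ) ^ q) fun x hx => by
          rw [add_comm, Nat.add_mul_div_right _ _ hs, Nat.div_eq_of_lt (Finset.mem_range.1 hx), zero_add]]
      simp only [Finset.sum_const, Finset.card_range, nsmul_eq_mul]
      ring
  refine le_trans (Finset.sum_le_sum_of_subset_of_nonneg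
    (Finset.range_subset_range.2 (Nat.le_mul_of_pos_right N hs)) fun _ _ _ => by positivity) ?_
  rw [h1]
  have : (0 : ℝ) ≤ s * (1 / 2) ^ N := by positivity
  linarith

theorem las_vegas (P : Program) (w : ℕ) (ws : List ℕ) (hw : 0 < w) (K L Tf Ts : ℕ) (hK : 0 < K)
    (hTf : K + L ≤ Tf) (hTs : Tf ≤ Ts) (acc : List Bool → Bool) (out : Bool → List Bool → List ℕ)
    (Head : Cfg P.numRegs → Prop) (h0 : Head (init P w ws))
    (hH : ∀ c, Head c → c.halted = false)
    (hR : ∀ (ρ : ℕ → ℕ) (c : Cfg P.numRegs) (j : ℕ), Head c → c.drawn = j * (K + L) →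
      ∃ n : ℕ, ((step P w ρ)^[n] c).drawn = (j + 1) * (K + L) ∧ n ≤ Ts ∧
        ((blk w ρ (K + L) j).take K ≠ List.replicate K false →
          n ≤ Tf ∧ ((step P w ρ)^[n] c).halted = true ∧
            ((step P w ρ)^[n] c).output = out false ((blk w ρ (K + L) j).drop K)) ∧
        ((blk w ρ (K + L) j).take K = List.replicate K false →
          acc ((blk w ρ (K + L) j).drop K) = true →
          ((step P w ρ)^[n] c).halted = true ∧
            ((step P w ρ)^[n] c).output = out true ((blk w ρ (K + L) j).drop K)) ∧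
        ((blk w ρ (K + L) j).take K = List.replicate K false →
          acc ((blk w ρ (K + L) j).drop K) = false → Head ((step P w ρ)^[n] c))) :
    expectedTime P w ws ≤ ENNReal.ofReal (Tf + 4 * ((1 / 2) ^ K * Ts)) ∧
    (∀ (ρ : ℕ → ℕ) (T : ℕ) (o : List ℕ), HaltsWithin P w ρ ws T o →
      ∃ τ : List Bool, τ.length = L ∧ (o = out false τ ∨ (acc τ = true ∧ o = out true τ))) ∧
    ∀ Good : List ℕ → Prop, probHaltsWith P w ws Good =
      ((1 - (1 / 2) ^ K) * Ex L (fun τ => ind (Good (out false τ))) +
        (1 / 2) ^ K * Ex L (fun τ => ind (acc τ = true ∧ Good (out true τ)))) /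
      ((1 - (1 / 2) ^ K) + (1 / 2) ^ K * Ex L (fun τ => ind (acc τ = true))) := by
  set R := K + L with hRdef
  have hR0 : 0 < R := by omega
  have hTs0 : 0 < Ts := by omega
  set slow : List Bool → Prop := fun b => b.take K = List.replicate K false with hslow
  set rej : List Bool → Prop := fun b => slow b ∧ acc (b.drop K) = false with hrej
  set outp : List Bool → List ℕ := fun b =>
    if b.take K = List.replicate K false then out true (b.drop K) else out false (b.drop K) with houtp
  set δ : ℝ := (1 / 2) ^ K with hδ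
  have hδ0 : 0 ≤ δ := by positivity
  have hδ1 : δ ≤ 1 / 2 := by
    have := pow_le_pow_of_le_one (a := (1 / 2 : ℝ)) (by norm_num) (by norm_num) hK
    rwa [pow_one] at this
  -- the run
  have headAt : ∀ ρ j, (∀ i < j, rej (blk w ρ R i)) →
      ∃ n, n ≤ j * Ts ∧ Head (run P w ρ ws n) ∧ (run P w ρ ws n).drawn = j * R := by
    intro ρ j
    induction j with
    | zero => intro _; exact ⟨0, le_rfl.trans (Nat.zero_le _), h0, by simp [run, init]⟩
    | succ j ih =>
      intro h
      obtain ⟨n, h1, h2, h3⟩ := ih fun i hi => h i (by omega)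
      obtain ⟨k, k1, k2, -, -, k5⟩ := hR ρ _ j h2 h3
      refine ⟨k + n, by rw [add_mul]; omega, ?_, ?_⟩
      · rw [run_add]; exact k5 (h j (by omega)).1 (h j (by omega)).2
      · rw [run_add]; exact k1
  have firstAt : ∀ ρ j, (∀ i < j, rej (blk w ρ R i)) → ¬ rej (blk w ρ R j) →
      ∃ n, n ≤ (j + 1) * Ts ∧ (¬ slow (blk w ρ R j) → n ≤ j * Ts + Tf) ∧
        (run P w ρ ws n).halted = true ∧ (run P w ρ ws n).output = outp (blk w ρ R j) ∧
        (run P w ρ ws n).drawn = (j + 1) * R := by
    intro ρ j h hj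
    obtain ⟨n, h1, h2, h3⟩ := headAt ρ j h
    obtain ⟨k, k1, k2, k3, k4, -⟩ := hR ρ _ j h2 h3
    refine ⟨k + n, by rw [add_mul]; omega, fun hs => ?_, ?_⟩
    · have := (k3 hs).1; omega
    rw [run_add]
    by_cases hs : slow (blk w ρ R j)
    · have ha : acc ((blk w ρ R j).drop K) = true := by
        by_contra ha
        exact hj ⟨hs, by simpa using ha⟩
      exact ⟨(k4 hs ha).1, by rw [(k4 hs ha).2]; exact (if_pos hs).symm, k1⟩
    · exact ⟨(k3 hs).2.1, by rw [(k3 hs).2.2]; exact (if_neg hs).symm, k1⟩
  have least : ∀ ρ i, ¬ rej (blk w ρ R i) →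
      ∃ j ≤ i, (∀ i < j, rej (blk w ρ R i)) ∧ ¬ rej (blk w ρ R j) := by
    classical
    intro ρ i hi
    have hex : ∃ j, ¬ rej (blk w ρ R j) := ⟨i, hi⟩
    exact ⟨Nat.find hex, Nat.find_min' hex hi, fun i hi => not_not.1 (Nat.find_min hex hi),
      Nat.find_spec hex⟩
  have haltAt : ∀ ρ T, (run P w ρ ws T).halted = true →
      ∃ j, (j + 1) * R ≤ T ∧ (∀ i < j, rej (blk w ρ R i)) ∧ ¬ rej (blk w ρ R j) ∧
        (run P w ρ ws T).output = outp (blk w ρ R j) := by
    intro ρ T hT
    have hex : ∃ i, ¬ rej (blk w ρ R i) := by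
      by_contra hne
      obtain ⟨n, -, h2, h3⟩ := headAt ρ T fun i _ => not_not.1 fun h => hne ⟨i, h⟩
      have h4 := drawn_run_le P w ρ ws n
      have h5 : T ≤ n := le_trans (Nat.le_mul_of_pos_right T hR0) (h3 ▸ h4)
      have h6 := hH _ h2
      rw [run_of_halted hT h5, hT] at h6
      exact absurd h6 (by simp)
    obtain ⟨i, hi⟩ := hex
    obtain ⟨j, -, h1, h2⟩ := least ρ i hi
    obtain ⟨n, -, -, k3, k4, k5⟩ := firstAt ρ j h1 h2
    have he : run P w ρ ws T = run P w ρ ws n := by
      rcases le_total T n with h | h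
      · exact (run_of_halted hT h).symm
      · exact run_of_halted k3 h
    refine ⟨j, ?_, h1, h2, by rw [he, k4]⟩
    rw [← k5, ← he]
    exact drawn_run_le P w ρ ws T
  have hsplit : ∀ A B : List Bool → ℝ, Ex R (fun b =>
      if b.take K = List.replicate K false then A (b.drop K) else B (b.drop K)) =
      δ * Ex L A + (1 - δ) * Ex L B := fun A B => Ex_split K L A B
  refine ⟨?_, fun ρ T o ho => ?_, fun Good => ?_⟩
  · -- expected time
    have hslowP : Ex R (fun b => ind (slow b)) = δ := by
      have := hsplit (fun _ => 1) fun _ => 0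
      simp only [Ex_const, mul_one, mul_zero, add_zero] at this
      rw [← this]
      refine Ex_congr fun b _ => ?_
      simp only [hslow]
      split_ifs with h
      · exact ind_of h
      · exact ind_of_not h
    have hall : ∀ m T, m * R ≤ T →
        (∀ ρ, (run P w ρ ws T).halted = false → ∀ i < m, slow (blk w ρ R i)) →
        probAfter P w ws T (fun c => c.halted = false) ≤ δ ^ m := by
      intro m T hm h
      have h1 := Ex_prod_chunk hm fun _ b => ind (slow b)
      rw [hslowP, Finset.prod_const, Finset.card_range] at h1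
      rw [← h1]
      refine prob_le hw _ _ fun tb => ?_
      rw [prod_ind]
      refine ind_mono fun h2 i hi => ?_
      rw [← blk_streamOf tb (le_trans (Nat.mul_le_mul_right R hi) hm)]
      exact h _ h2 i hi
    have hp : ∀ T, probAfter P w ws T (fun c => c.halted = false) ≤
        (if T < Tf then 1 else 0) + 2 * δ * (1 / 2) ^ (T / Ts) := by
      intro T
      have hnn : 0 ≤ 2 * δ * (1 / 2 : ℝ) ^ (T / Ts) := by positivity
      split_ifs with hT
      · have := hall 0 T (by simp) (by simp)
        rw [pow_zero] at this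
        linarith
      · rw [zero_add]
        rcases Nat.eq_zero_or_pos (T / Ts) with h | h
        · have := hall 1 T (by omega) fun ρ hρ i hi => by
            obtain rfl : i = 0 := by omega
            by_contra hs
            obtain ⟨n, -, k2, k3, -⟩ := firstAt ρ 0 (by simp) fun h => hs h.1
            rw [run_of_halted k3 (by have := k2 hs; omega), k3] at hρ
            exact absurd hρ (by simp)
          rw [h]
          simp only [pow_one, pow_zero] at this ⊢
          linarith
        · have hq : T / Ts * Ts ≤ T := Nat.div_mul_le_self T Ts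
          have := hall (T / Ts) T (le_trans (Nat.mul_le_mul_left _ (by omega)) hq) fun ρ hρ i hi => by
            by_contra hs
            obtain ⟨j, hj, h1, h2⟩ := least ρ i fun h => hs h.1
            obtain ⟨n, k1, -, k3, -⟩ := firstAt ρ j h1 h2
            have : n ≤ T := k1.trans (le_trans (Nat.mul_le_mul_right _ (by omega)) hq)
            rw [run_of_halted k3 this, k3] at hρ
            exact absurd hρ (by simp)
          obtain ⟨q, hq'⟩ : ∃ q, T / Ts = q + 1 := ⟨T / Ts - 1, by omega⟩
          rw [hq'] at this ⊢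
          refine this.trans ?_
          have h3 : δ ^ q ≤ (1 / 2) ^ q := pow_le_pow_left₀ hδ0 hδ1 q
          rw [pow_succ, pow_succ]
          nlinarith
    unfold expectedTime
    rw [ENNReal.tsum_eq_iSup_nat]
    refine iSup_le fun N => ?_
    refine (Finset.sum_le_sum fun T _ => ENNReal.ofReal_le_ofReal (hp T)).trans ?_
    rw [← ENNReal.ofReal_sum_of_nonneg fun T _ => by positivity]
    refine ENNReal.ofReal_le_ofReal ?_
    rw [Finset.sum_add_distrib, ← Finset.mul_sum]
    have h1 : ∑ T ∈ Finset.range N, (if T < Tf then (1 : ℝ) else 0) ≤ Tf := by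
      rw [← Finset.sum_filter, Finset.sum_const, nsmul_eq_mul, mul_one]
      have : ((Finset.range N).filter fun T => T < Tf).card ≤ (Finset.range Tf).card :=
        Finset.card_le_card fun T hT => Finset.mem_range.2 (Finset.mem_filter.1 hT).2
      rw [Finset.card_range] at this
      exact_mod_cast this
    have h2 := mul_le_mul_of_nonneg_left (sum_half_div_le hTs0 N) (show 0 ≤ 2 * δ by positivity)
    linarith
  · obtain ⟨j, -, -, h2, h3⟩ := haltAt ρ T ho.1
    refine ⟨(blk w ρ R j).drop K, by simp [blk, hRdef], ?_⟩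
    rw [← ho.2, h3]
    simp only [houtp]
    split_ifs with hs
    · refine Or.inr ⟨?_, rfl⟩
      by_contra ha
      exact h2 ⟨hs, by simpa using ha⟩
    · exact Or.inl rfl
  · set r := Ex R fun b => ind (rej b) with hr
    set pG := Ex R fun b => ind (¬ rej b ∧ Good (outp b)) with hpG
    have hr1 : r = δ * (1 - Ex L fun τ => ind (acc τ = true)) := by
      have := hsplit (fun τ => 1 - ind (acc τ = true)) fun _ => 0
      simp only [Ex_const, Ex_sub, mul_zero, add_zero] at this
      rw [← this]
      refine Ex_congr fun b _ => ?_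
      simp only [hrej, hslow]
      split_ifs with h
      · rw [← ind_not]; exact ind_congr (by simp [h])
      · exact ind_of_not fun h' => h h'.1
    have hpG1 : pG = (1 - δ) * Ex L (fun τ => ind (Good (out false τ))) +
        δ * Ex L (fun τ => ind (acc τ = true ∧ Good (out true τ))) := by
      rw [add_comm, ← hsplit]
      refine Ex_congr fun b _ => ?_
      simp only [hrej, hslow, houtp]
      split_ifs with h
      · exact ind_congr (by simp [h])
      · exact ind_congr (by simp [h])
    have hr0 : 0 ≤ r := Ex_nonneg fun _ _ => ind_nonneg _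
    have hpG0 : 0 ≤ pG := Ex_nonneg fun _ _ => ind_nonneg _
    have hrlt : r < 1 := by
      have : 0 ≤ Ex L fun τ => ind (acc τ = true) := Ex_nonneg fun _ _ => ind_nonneg _
      rw [hr1]; nlinarith
    have hden : (1 - δ) + δ * Ex L (fun τ => ind (acc τ = true)) = 1 - r := by rw [hr1]; ring
    rw [← hpG1, hden]
    have hev : ∀ j T, (j + 1) * R ≤ T → Ex T (fun τ => ind ((∀ i < j, rej (chunk R i τ)) ∧
        ¬ rej (chunk R j τ) ∧ Good (outp (chunk R j τ)))) = r ^ j * pG := by
      intro j T hj
      have h1 := Ex_prod_chunk hj fun i b =>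
        if i < j then ind (rej b) else ind (¬ rej b ∧ Good (outp b))
      simp only [Finset.prod_range_succ, lt_irrefl, if_false] at h1
      have h2 : ∏ i ∈ Finset.range j, Ex R (fun b =>
          if i < j then ind (rej b) else ind (¬ rej b ∧ Good (outp b))) = r ^ j := by
        rw [Finset.prod_congr rfl (g := fun _ => r) fun i hi => by
          simp only [Finset.mem_range.1 hi, if_true, hr], Finset.prod_const, Finset.card_range]
      rw [h2] at h1
      rw [← h1]
      refine Ex_congr fun τ _ => ?_
      rw [ind_and, ← prod_ind]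
      congr 1
      exact Finset.prod_congr rfl fun i hi => (if_pos (Finset.mem_range.1 hi)).symm
    have hsum : HasSum (fun j => r ^ j * pG) (pG / (1 - r)) := by
      rw [div_eq_inv_mul]
      exact (hasSum_geometric_of_lt_one hr0 hrlt).mul_right pG
    have hup : ∀ T, probAfter P w ws T (fun c => c.halted = true ∧ Good c.output) ≤ pG / (1 - r) := by
      intro T
      refine le_trans ?_ (sum_le_hasSum ((Finset.range T).filter fun j => (j + 1) * R ≤ T)
        (fun j _ => by positivity) hsum)
      rw [← Finset.sum_congr rfl fun j hj => hev j T (Finset.mem_filter.1 hj).2, ← Ex_sum]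
      refine prob_le hw _ _ fun tb => le_trans (ind_mono fun h => ?_) (ind_exists_le _ _)
      obtain ⟨j, h1, h2, h3, h4⟩ := haltAt _ T h.1
      have hjT : j < T := lt_of_lt_of_le (Nat.lt_succ_self j)
        (le_trans (Nat.le_mul_of_pos_right _ hR0) h1)
      refine ⟨j, Finset.mem_filter.2 ⟨Finset.mem_range.2 hjT, h1⟩, fun i hi => ?_, ?_⟩
      · rw [← blk_streamOf tb (le_trans (Nat.mul_le_mul_right R (by omega)) h1)]
        exact h2 i hi
      · rw [← blk_streamOf tb h1, ← h4]
        exact ⟨h3, h.2⟩
    have hlo : ∀ J, ∑ j ∈ Finset.range J, r ^ j * pG ≤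
        probAfter P w ws (J * Ts) (fun c => c.halted = true ∧ Good c.output) := by
      intro J
      have hJ : ∀ j < J, (j + 1) * R ≤ J * Ts := fun j hj => Nat.mul_le_mul hj (by omega)
      rw [← Finset.sum_congr rfl fun j hj => hev j (J * Ts) (hJ j (Finset.mem_range.1 hj)), ← Ex_sum]
      refine le_prob hw _ _ fun tb => sum_ind_le _ _ (fun j _ j' _ h h' => ?_) fun j hj h => ?_
      · rcases lt_trichotomy j j' with k | k | k
        · exact absurd (h'.1 j k) h.2.1
        · exact k
        · exact absurd (h.1 j' k) h'.2.1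
      · have hj' := Finset.mem_range.1 hj
        rw [← blk_streamOf tb (hJ j hj')] at h
        obtain ⟨n, k1, -, k3, k4, -⟩ := firstAt (streamOf tb) j (fun i hi => by
          rw [blk_streamOf tb (hJ i (by omega))]; exact h.1 i hi) h.2.1
        have : n ≤ J * Ts := k1.trans (Nat.mul_le_mul_right _ hj')
        show (run P w (streamOf tb) ws (J * Ts)).halted = true ∧ _
        rw [run_of_halted k3 this, k4]
        exact ⟨k3, h.2.2⟩
    unfold probHaltsWith
    refine le_antisymm (ciSup_le hup) (le_of_tendsto' hsum.tendsto_sum_nat fun J => ?_)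
    exact (hlo J).trans (le_ciSup ⟨_, Set.forall_mem_range.2 hup⟩ (J * Ts))

end Crest.Agent.R309
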