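import Crest.Agent.R309.Prob
import Crest.Prelude.Def_WordRAMProb
import Crest.Agent.R309.RamIO
import Crest.Agent.R309.RamProb

/-!
# Row 309: a Las Vegas loop around a polynomial time function, on the word RAM

The program repeats rounds.  In a round it pushes `fmt ws K₀ τ pad` on a bit stack, where `τ` consists of
`q ^ a₁` fresh random bits (low bit of a random word each), after drawing `K₀ = q ^ a₀` further *gate*
bits; `pad = 2 ^ (q ^ a₂)` if all gate bits are `0` (slow round, probability `2 ^ -K₀`), else `pad = 0`.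
It runs the `Cmd` program of `G`, pops the first output bit; on `false` it clears the stack and starts
a new round, on `true` it decodes the words into an output area and halts.

Suggested design (free to change; the owner may split it into files `Ram*.lean` and subtasks):
1. `hG : PT G` gives, through `PT.rawMk (hG.comp (PT.rawBits PT.id').reverse)`, a `Cmd (Option K)` program `c`
   and a polynomial `p` with `Exec c (one x.reverse) (one (G x)) (τ x)`, `τ x ≤ p |x|` (pushing the bits of `x` in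
   reading order leaves `x.reverse` on the stack).
2. A small structured language (register assignments, load/store, `rand`, `seq`, `ifZero`, `whileNonzero`)
   with a big-step cost semantics on `(regs, mem, drawn)`, compiled to `List (Instr r)` placed at an offset;
   one simulation lemma `(step P w ρ)^[t]`.  Stack number `k` (of `κ = card (Option K)`) keeps its bit number
   `i` at address `base + κ * i + k`, its height in a register; `base = len + len ^ 2`, the input stays in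
   `[0, len)`, the output goes to `[len, len + len ^ 2)` (or any other layout).  `Cmd` embeds by induction on `Exec`
   (`Exec.length_le` bounds the heights, so all numbers stay below `2 ^ w`, `w = c₀ S ^ c₁`).
3. Round lemma: from a configuration at the loop head with `drawn = j * R` (`R = K₀ + q ^ a₁`), after at most
   `Tf` (fast) or `Ts` (slow) and at least `R` steps the machine is halted with the output, or at the loop head
   with `drawn = (j+1) * R`.  `Tf ≤ C S ^ d` and `2 ^ -K₀ * Ts ≤ C S ^ d` as soon as `a₀ ≥ a₂ + deg p + 1`.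
4. Probability: `probAfter` at time `T` does not change when the table is extended to `T' ≥ T` words; the
   low bits of blocks of words are independent fair strings.  Not halted at time `T` implies `T < Tf`, or
   for some `j ≥ 1` the first `j` rounds are slow and `T < (j+1) Ts`; so the expected time is at most
   `Tf + ∑ j, (j+1) 2 ^ (-K₀ j) Ts ≤ Tf + 8 * 2 ^ -K₀ * Ts`.  Halting with a good output within `T` steps has
   probability at most `∑ j, ρ ^ j * pG` and, for `T ≥ (J+1) Ts`, at least `∑ j ≤ J, ρ ^ j * pG`, where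
   `ρ = 1 - pAll` is the rejection probability of a round.
-/

set_option autoImplicit false

namespace Crest.Agent.R309

open Crest.Agent.Lib.PolyTime Crest.Enc Crest.WordRAM

/-- Input format of the simulated function. -/
def fmt (ws : List ℕ) (K₀ : ℕ) (τ : List Bool) (pad : ℕ) : List Bool :=
  List.replicate ws.length true ++ false :: ((ws.map natCode).flatten ++
    (List.replicate K₀ true ++ false :: (List.replicate τ.length true ++ false ::
      (τ ++ List.replicate pad true))))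

/-- Output format: the acceptance bit, then every word most significant bit first, each digit `b`
written `true, b`, terminated by `false`. -/
def outFmt (acc : Bool) (out : List ℕ) : List Bool :=
  acc :: (out.map fun x => (x.bits.reverse.flatMap fun b => [true, b]) ++ [false]).flatten

/-- Size parameter computed by the machine. -/
def qOf (ws : List ℕ) : ℕ := (ws.map natCode).flatten.length + 2

namespace Ram

open Function

variable {w : ℕ} {ρ : ℕ → ℕ} {κ H : ℕ}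

/-- State at the loop head. -/
def Inv (ws : List ℕ) (κ : ℕ) (σ : S) : Prop :=
  σ.R 0 = ws.length ∧ ∀ a < ws.length * ws.length + ws.length + κ, σ.m a = ws.getD a 0

/-- Constants and stack pointers. -/
def phase0 (κ : ℕ) : Pr :=
  .seq (ops [.const 2 1, .const 3 κ, .const 5 2, .mul 4 0 0, .add 4 4 0]) (initSP κ)

theorem phase0_spec {ws : List ℕ} {B : ℕ} (hB : B = ws.length * ws.length + ws.length)
    (hw : B + κ * (H + 1) < 2 ^ w) (hκ : 0 < κ) (hH : 1 ≤ H) {σ : S} (h : Inv ws κ σ) :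
    W w ρ (phase0 κ) σ (5 + 2 * κ) fun σ' => MS B κ σ' [] ∧ Inv ws κ σ' ∧
      (∀ i < κ, σ'.R (16 + i) = B + i) ∧ σ'.d = σ.d := by
  have h1 : κ * 2 ≤ κ * (H + 1) := Nat.mul_le_mul_left _ (by omega)
  have e1 : 1 % 2 ^ w = 1 := Nat.mod_eq_of_lt (by omega)
  have e2 : 2 % 2 ^ w = 2 := Nat.mod_eq_of_lt (by omega)
  have e3 : κ % 2 ^ w = κ := Nat.mod_eq_of_lt (by omega)
  have e4 : (ws.length * ws.length % 2 ^ w + ws.length) % 2 ^ w = B := by
    rw [Nat.mod_eq_of_lt (a := ws.length * ws.length) (by omega), Nat.mod_eq_of_lt (by omega), hB]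
  refine W.seq (W.ops (l := [_, _, _, _, _]) ((initSP_spec (B := B) ?_ κ (by omega)).mono le_rfl ?_))
  · simp only [List.foldl_cons, List.foldl_nil, Op.ex]
    simp [-Nat.mod_add_mod, h.1, e4]
  · rintro σ' ⟨k1, k2, k3, k4⟩
    refine ⟨⟨?_, ?_, ?_, by simpa using k1 0 hκ, ?_⟩, ⟨?_, fun a ha => ?_⟩, k1, k4⟩
    · rw [k2 2 (by omega) (by omega)]; simp [Op.ex, e1]
    · rw [k2 3 (by omega) (by omega)]; simp [Op.ex, e3]
    · rw [k2 5 (by omega) (by omega)]; simp [Op.ex, e2]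
    · show σ'.m B = 0
      rw [k3]
      exact (h.2 B (by omega)).trans (List.getD_eq_default _ _ (by omega))
    · rw [k2 0 (by omega) (by omega)]; simp [Op.ex, h.1]
    · rw [k3]; exact h.2 a ha

/-- Push the input words and compute `q`. -/
def phase1 : Pr := .seq (pushT 0) (.seq (pushC 16 false)
  (.seq (ops [.quot 9 16 2, .const 7 0, .quot 8 0 2]) (.seq encLoop
    (ops [.sub 9 16 9, .quot 9 9 3, .add 9 9 5]))))

theorem phase1_spec {ws : List ℕ} {B : ℕ} (hB : B = ws.length * ws.length + ws.length)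
    (hw : B + κ * (H + 1) < 2 ^ w) (hκ : 0 < κ) (hH : ws.length + qOf ws ≤ H) {σ : S}
    (h : Inv ws κ σ) (hs : MS B κ σ []) :
    W w ρ phase1 σ (6 * ws.length + 8 * qOf ws) fun σ' =>
      MS B κ σ' (List.replicate ws.length true ++ false :: (ws.map natCode).flatten).reverse ∧
      Fr B κ [6, 7, 8, 9, 10, 11, 12, 13, 14, 15, 16] 0 σ σ' ∧ σ'.R 9 = qOf ws := by
  unfold qOf at hH ⊢
  set F := (ws.map natCode).flatten with hF
  refine W.time (W.bind (pushT_spec hw hκ hs h.1 (by simp; omega)) ?_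
    (t₂ := 3 + (3 + (8 * F.length + 1 + 3)))) (by omega)
  rintro σ₁ ⟨h1, f1⟩
  refine W.bind (push_c hw hκ h1 (by simp; omega) false) ?_
  rintro σ₂ ⟨h2, f2⟩
  have f3 := ((Fr.refl [6, 7, 8, 9, 10, 11, 12, 13, 14, 15, 16] σ).trans f1 (by simp) rfl).trans f2
    (by simp) rfl
  have e0 : σ₂.R 0 = ws.length := by rw [f3.1 0 (by simp), h.1]
  refine W.seq (W.ops (l := [_, _, _]) (W.bind (encLoop_spec hw hκ ws _ _ 0 (by simp [Op.ex])
    (by simp [Op.ex, e0, h2.1]) (by omega) (fun i hi => ?_)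
    (((h2.set (d := 9) (by simp) _ _).set (d := 7) (by simp) _ _).set (d := 8) (by simp) _ _)
    (by simp only [List.length_cons, List.length_append, List.length_replicate, List.length_nil, ← hF]
        omega)) ?_))
  · rw [zero_add]
    exact (f3.2.1 i (by omega)).trans (h.2 i (by omega))
  rintro σ₃ ⟨h4, f4⟩
  have e9 : σ₃.R 9 = B + κ * (ws.length + 1) := by
    rw [f4.1 9 (by simp)]
    simp [Op.ex, h2.1, h2.2.2.2.1]
  have e16 : σ₃.R 16 = B + κ * (ws.length + 1) + κ * F.length := by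
    rw [h4.2.2.2.1]
    simp only [List.length_append, List.length_reverse, List.length_cons, List.length_replicate,
      List.length_nil, ← hF]
    ring
  have e1 : (F.length + 2) % 2 ^ w = F.length + 2 := Nat.mod_eq_of_lt (by nlinarith)
  refine W.ops (l := [_, _, _]) ⟨?_, ?_, ?_⟩
  · simpa [Op.ex] using h4.set (d := 9) (by simp) _ _
  · exact (((((((f3.set (by simp) _).set (by simp) _).set (by simp) _).trans f4 (by simp) rfl).set
      (by simp) _).set (by simp) _).set (by simp) _)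
  · simp [Op.ex, e9, e16, h4.2.1, h4.2.2.1, Nat.mul_div_cancel_left _ hκ, e1]

/-- Compute the three size parameters. -/
def phase2 (a₀ a₁ a₂ : ℕ) : Pr :=
  .seq (powR 12 9 a₀) (.seq (powR 13 9 a₁) (.seq (powR 14 9 a₂) (.op (.shl 14 2 14))))

theorem phase2_spec {B a₀ a₁ a₂ q : ℕ} (hq : 1 ≤ q) (h₀ : q ^ a₀ < 2 ^ w) (h₁ : q ^ a₁ < 2 ^ w)
    (h₂ : 2 ^ q ^ a₂ < 2 ^ w) {σ : S} {l : List Bool} (hs : MS B κ σ l) (h9 : σ.R 9 = q) :
    W w ρ (phase2 a₀ a₁ a₂) σ (a₀ + a₁ + a₂ + 4) fun σ' => MS B κ σ' l ∧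
      Fr B κ [12, 13, 14] 0 σ σ' ∧ σ'.R 12 = q ^ a₀ ∧ σ'.R 13 = q ^ a₁ ∧ σ'.R 14 = 2 ^ q ^ a₂ := by
  have h₃ : q ^ a₂ < w := (Nat.pow_lt_pow_iff_right (by omega)).1 h₂
  refine W.time (W.bind (powR_spec (by omega) hq h9 a₀ h₀) ?_ (t₂ := a₁ + 1 + (a₂ + 1 + 1)))
    (by omega)
  rintro _ rfl
  refine W.bind (powR_spec (by omega) hq (by simpa using h9) a₁ h₁) ?_
  rintro _ rfl
  refine W.bind (powR_spec (by omega) hq (by simpa using h9) a₂
    (h₃.trans Nat.lt_two_pow_self)) ?_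
  rintro _ rfl
  refine W.op ⟨?_, ?_, by simp [Op.ex], by simp [Op.ex], ?_⟩
  · exact (((hs.set (by simp) _ _).set (by simp) _ _).set (by simp) _ _).set (by simp) _ _
  · exact ((((Fr.refl _ σ).set (by simp) _).set (by simp) _).set (by simp) _).set (by simp) _
  · simp [Op.ex, h₃, hs.1, Nat.shiftLeft_eq, Nat.mod_eq_of_lt h₂]

/-- Draw the random bits and push the rest of the input. -/
def phase3 : Pr := .seq (pushT 12) (.seq (pushC 16 false) (.seq (pushT 13) (.seq (pushC 16 false)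
  (.seq gate (.seq rnd (pushT 14))))))

theorem phase3_spec {B K L p pad : ℕ} (hw : B + κ * (H + 1) < 2 ^ w) (hκ : 0 < κ) {σ : S}
    {l : List Bool} (hs : MS B κ σ l) (h12 : σ.R 12 = K) (h13 : σ.R 13 = L) (h14 : σ.R 14 = p)
    (hp : p < 2 ^ w)
    (hpad : pad = if bitsAt w ρ σ.d K = List.replicate K false then p else 0)
    (hH : l.length + K + 2 * L + 2 + pad ≤ H) :
    W w ρ phase3 σ (13 * K + 14 * L + 6 * pad + 16) fun σ' =>
      MS B κ σ' ((List.replicate K true ++ false :: (List.replicate L true ++ false ::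
        (bitsAt w ρ (σ.d + K) L ++ List.replicate pad true))).reverse ++ l) ∧
      Fr B κ [6, 10, 14, 15, 16] (K + L) σ σ' := by
  refine W.time (W.bind (pushT_spec hw hκ hs h12 (by omega)) ?_
    (t₂ := 3 + (6 * L + 2 + (3 + (7 * K + 2 + (8 * L + 2 + (6 * pad + 2))))))) (by omega)
  rintro σ₁ ⟨h1, f1⟩
  refine W.bind (push_c hw hκ h1 (by simp; omega) false) ?_
  rintro σ₂ ⟨h2, f2⟩
  have g2 := f1.trans f2 (by simp) rfl
  refine W.bind (pushT_spec hw hκ h2 ((g2.1 13 (by simp)).trans h13) (by simp; omega)) ?_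
  rintro σ₃ ⟨h3, f3⟩
  refine W.bind (push_c hw hκ h3 (by simp; omega) false) ?_
  rintro σ₄ ⟨h4, f4⟩
  have g4 := (g2.trans f3 (by simp) rfl).trans f4 (by simp) rfl
  have d4 : σ₄.d = σ.d := g4.2.2
  refine W.bind (gate_spec h4 ((g4.1 12 (by simp)).trans h12) ((g4.1 14 (by simp)).trans h14) hp) ?_
  rintro σ₅ ⟨h5, f5, e5⟩
  rw [d4, ← hpad] at e5
  have g5 := ((Fr.refl [6, 10, 14, 15, 16] σ).trans g4 (by simp) rfl).trans f5 (by simp) rfl
  have d5 : σ₅.d = σ.d + K := by simpa using g5.2.2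
  refine W.bind (rnd_spec hw hκ h5 ((g5.1 13 (by simp)).trans h13) (by simp; omega)) ?_
  rintro σ₆ ⟨h6, f6⟩
  refine (pushT_spec hw hκ h6 ((f6.1 14 (by simp)).trans e5)
    (by simp [length_bitsAt]; omega)).mono le_rfl ?_
  rintro σ₇ ⟨h7, f7⟩
  exact ⟨by simpa [d5] using h7, (g5.trans f6 (by simp) rfl).trans f7 (by simp) (by omega)⟩

theorem length_fmt (ws : List ℕ) (K : ℕ) (τ : List Bool) (pad : ℕ) :
    (fmt ws K τ pad).length = ws.length + qOf ws + K + 2 * τ.length + 1 + pad := by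
  simp only [fmt, qOf, List.length_append, List.length_cons, List.length_replicate]
  omega

/-- One round. -/
def roundP (κ a₀ a₁ a₂ : ℕ) (c : Pr) : Pr :=
  .seq (phase0 κ) (.seq phase1 (.seq (phase2 a₀ a₁ a₂) (.seq phase3 (.seq c popB))))

theorem round_spec {K : Type} [DecidableEq K] {f : Option K → ℕ} (hf : Injective f)
    (hfκ : ∀ k, f k < κ) (hf0 : f none = 0) {c : Cmd (Option K)} {ws : List ℕ} {B a₀ a₁ a₂ pad t : ℕ}
    (hB : B = ws.length * ws.length + ws.length) (hw : B + κ * (H + 1) < 2 ^ w) {σ : S}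
    (h : Inv ws κ σ) {x y : List Bool} {b : Bool}
    (hpad : pad = if bitsAt w ρ σ.d (qOf ws ^ a₀) = List.replicate (qOf ws ^ a₀) false
      then 2 ^ qOf ws ^ a₂ else 0)
    (hx : x = fmt ws (qOf ws ^ a₀) (bitsAt w ρ (σ.d + qOf ws ^ a₀) (qOf ws ^ a₁)) pad)
    (hc : Exec c (one x.reverse) (one (b :: y)) t) (hH : x.length + t ≤ H)
    (hH₂ : 2 ^ qOf ws ^ a₂ ≤ H) :
    W w ρ (roundP κ a₀ a₁ a₂ (cc f c)) σ (14 * (x.length + t) + (2 * κ + a₀ + a₁ + a₂ + 28))
      fun σ' => MS B κ σ' y ∧ σ'.R 10 = b.toNat ∧ Inv ws κ σ' ∧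
        σ'.d = σ.d + (qOf ws ^ a₀ + qOf ws ^ a₁) := by
  have hκ : 0 < κ := lt_of_le_of_lt (Nat.zero_le _) (hfκ none)
  have hl : x.length = ws.length + qOf ws + qOf ws ^ a₀ + 2 * qOf ws ^ a₁ + 1 + pad := by
    rw [hx, length_fmt, length_bitsAt]
  have hq : 2 ≤ qOf ws := by unfold qOf; omega
  have hHw : H < 2 ^ w := by nlinarith
  refine W.time (W.bind (phase0_spec hB hw hκ (by omega) h) ?_
    (t₂ := 6 * ws.length + 8 * qOf ws + (a₀ + a₁ + a₂ + 4 +
      (13 * qOf ws ^ a₀ + 14 * qOf ws ^ a₁ + 6 * pad + 16 + (8 * t + 3))))) (by omega)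
  rintro σ₀ ⟨h0, i0, l0, d0⟩
  refine W.bind (phase1_spec hB hw hκ (by omega) i0 h0) ?_
  rintro σ₁ ⟨h1, f1, e9⟩
  refine W.bind (phase2_spec (by omega) (by omega) (by omega) (by omega) h1 e9) ?_
  rintro σ₂ ⟨h2, f2, e12, e13, e14⟩
  have g2 := f1.trans f2 (by simp) rfl
  have d2 : σ₂.d = σ.d := g2.2.2.trans d0
  refine W.bind (phase3_spec (pad := pad) hw hκ h2 e12 e13 e14 (by omega) (by rw [d2, hpad])
    (by simp only [List.length_reverse, List.length_append, List.length_replicate,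
      List.length_cons]; unfold qOf at hl ⊢; omega)) ?_
  rintro σ₃ ⟨h3, f3⟩
  have g3 := g2.trans f3 (by simp) rfl
  have h3' : MS B κ σ₃ x.reverse := by simpa [hx, fmt, d2, length_bitsAt] using h3
  have hrep : Rep f B κ (one x.reverse) σ₃ := by
    refine ⟨h3'.1, h3'.2.1, fun k => ?_⟩
    cases k with
    | none => rw [hf0]; exact ⟨h3'.2.2.2.1, h3'.2.2.2.2⟩
    | some k =>
      have h1 : f (some k) ≠ 0 := fun e => by cases hf (e.trans hf0.symm)
      have h2 := hfκ (some k)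
      refine ⟨?_, ?_⟩
      · rw [g3.1 _ (by simp; omega), l0 _ h2]; rfl
      · show σ₃.m (B + f (some k)) = 0
        rw [g3.2.1 _ (by omega), i0.2 _ (by omega)]
        exact List.getD_eq_default _ _ (by omega)
  refine W.bind (sim hw hf hfκ hc (fun k => by cases k <;> simp [one] <;> omega) hrep) ?_
  rintro σ₄ ⟨h4, k4⟩
  have h4' : MS B κ σ₄ (b :: y) := by
    have := h4.2.2 none
    rw [hf0] at this
    exact ⟨h4.1, h4.2.1, (k4.1 5 (by omega)).trans h3'.2.2.1, this.1, this.2⟩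
  refine (popB_spec h4').mono le_rfl ?_
  rintro σ₅ ⟨h5, f5, e5⟩
  refine ⟨h5, e5, ⟨?_, fun a ha => ?_⟩, ?_⟩
  · rw [f5.1 0 (by simp), k4.1 0 (by omega), g3.1 0 (by simp), i0.1]
  · rw [f5.2.1 a (by omega), k4.2.1 a (by omega), g3.2.1 a (by omega), i0.2 a ha]
  · rw [f5.2.2, k4.2.2, g3.2.2, d0]; omega

/-- The whole program. -/
abbrev prog (r : ℕ) [NeZero r] (R : Pr) : Program :=
  ⟨r, R.comp r 0 ++ .jumpIfZero (rg r 10) 0 :: decode.comp r (R.len + 1)⟩

theorem prog_round {r : ℕ} [NeZero r] {R : Pr} (hr : 10 < r) (hR : R.Bd r) (hD : decode.Bd r)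
    {B t : ℕ} (hw : B < 2 ^ w) {σ : S} {ws out : List ℕ} {b : Bool} {d : ℕ}
    (h : W w ρ R σ t fun σ' => MS B κ σ' (encOut out) ∧ σ'.R 10 = b.toNat ∧ Inv ws κ σ' ∧ σ'.d = d)
    (hB : ws.length + out.length ≤ B) (hx : ∀ x ∈ out, x < 2 ^ w) :
    ∃ n ≤ t + 10 * (encOut out).length + 8, ((step (prog r R) w ρ)^[n] (cfg r 0 σ)).drawn = d ∧
      (b = true → ((step (prog r R) w ρ)^[n] (cfg r 0 σ)).halted = true ∧
        ((step (prog r R) w ρ)^[n] (cfg r 0 σ)).output = out) ∧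
      (b = false → ∃ σ', (step (prog r R) w ρ)^[n] (cfg r 0 σ) = cfg r 0 σ' ∧ Inv ws κ σ') := by
  obtain ⟨σ₁, ⟨h1, h2, h3, h4⟩, h5⟩ := h
  obtain ⟨n₁, hn₁, e₁⟩ := h5 r _ 0 hR
    (at_comp R 0 [] (.jumpIfZero (rg r 10) 0 :: decode.comp r (R.len + 1)) rfl)
  rw [List.nil_append, zero_add] at e₁
  have hj : (R.comp r 0 ++ .jumpIfZero (rg r 10) 0 :: decode.comp r (R.len + 1))[R.len]? =
      some (.jumpIfZero (rg r 10) 0) := by
    rw [List.getElem?_append_right (by rw [Pr.length_comp]), Pr.length_comp]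
    simp
  have e₂ := step_jz (w := w) (ρ := ρ) hr hj σ₁
  cases b with
  | false =>
    have e₃ : (step (prog r R) w ρ)^[n₁ + 1] (cfg r 0 σ) = cfg r 0 σ₁ := by
      rw [iterate_succ_apply']
      rw [e₁, e₂, if_pos (show σ₁.R 10 = 0 from h2)]
    refine ⟨n₁ + 1, by omega, ?_, nofun, fun _ => ⟨σ₁, e₃, h3⟩⟩
    rw [e₃]; exact h4
  | true =>
    obtain ⟨σ₂, ⟨k1, k2⟩, k3⟩ := decode_spec (ρ := ρ) hw h1 (by rw [h3.1]; exact hB) hx
    obtain ⟨n₂, hn₂, e₃⟩ := k3 r
      (R.comp r 0 ++ .jumpIfZero (rg r 10) 0 :: decode.comp r (R.len + 1)) (R.len + 1) hD (by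
        have := at_comp decode (R.len + 1) (R.comp r 0 ++ [.jumpIfZero (rg r 10) 0]) []
          (by simp [Pr.length_comp])
        convert this using 1
        simp)
    have e₄ : (step (prog r R) w ρ)^[n₂ + (n₁ + 1) + 1] (cfg r 0 σ) =
        ⟨R.len + 1 + decode.len, true, fun j => σ₂.R j, σ₂.m, σ₂.d⟩ := by
      rw [iterate_succ_apply', iterate_add_apply, iterate_succ_apply']
      rw [e₁, e₂, if_neg (by rw [h2]; simp), e₃, step_end (by simp [Pr.length_comp]; omega)]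
    refine ⟨n₂ + (n₁ + 1) + 1, by omega, ?_, fun _ => ?_, nofun⟩
    · rw [e₄]; exact k2.trans h4
    · rw [e₄]
      refine ⟨rfl, ?_⟩
      rw [← k1]
      have h0 : 0 < (prog r R).numRegs := by show 0 < r; omega
      have h1 : 1 < (prog r R).numRegs := by show 1 < r; omega
      simp only [Cfg.output, Cfg.reg, dif_pos h0, dif_pos h1]

theorem poly_le (p : Polynomial ℕ) : ∃ c D : ℕ, ∀ n, p.eval n ≤ c * (n + 1) ^ D := by
  induction p using Polynomial.induction_on' with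
  | add p q hp hq =>
    obtain ⟨c₁, D₁, h₁⟩ := hp
    obtain ⟨c₂, D₂, h₂⟩ := hq
    refine ⟨c₁ + c₂, D₁ + D₂, fun n => ?_⟩
    have e₁ : (n + 1) ^ D₁ ≤ (n + 1) ^ (D₁ + D₂) := Nat.pow_le_pow_right (by omega) (by omega)
    have e₂ : (n + 1) ^ D₂ ≤ (n + 1) ^ (D₁ + D₂) := Nat.pow_le_pow_right (by omega) (by omega)
    rw [Polynomial.eval_add, add_mul]
    exact Nat.add_le_add ((h₁ n).trans (Nat.mul_le_mul_left _ e₁))
      ((h₂ n).trans (Nat.mul_le_mul_left _ e₂))
  | monomial k c =>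
    refine ⟨c, k, fun n => ?_⟩
    rw [Polynomial.eval_monomial]
    exact Nat.mul_le_mul_left _ (Nat.pow_le_pow_left (by omega) _)

theorem pby_bound {α : Type} {sz g : α → ℕ} (h : PBy sz g) :
    ∃ C d : ℕ, ∀ a, 1 ≤ sz a → g a ≤ C * sz a ^ d := by
  obtain ⟨p, hp⟩ := h
  obtain ⟨c, D, hc⟩ := poly_le p
  refine ⟨c * 2 ^ D, D, fun a ha => (hp a).trans ((hc _).trans ?_)⟩
  rw [mul_assoc, ← mul_pow]
  exact Nat.mul_le_mul_left _ (Nat.pow_le_pow_left (by omega) _)

theorem qOf_le {S : ℕ} {ws : List ℕ} (h : ∀ x ∈ ws, x < 2 ^ S) :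
    qOf ws ≤ ws.length * (2 * S + 2) + 2 := by
  unfold qOf
  induction ws with
  | nil => simp
  | cons x ws ih =>
    have h1 := ih fun y hy => h y (by simp [hy])
    have h2 : x.bits.length ≤ S := by
      rw [Nat.size_eq_bits_len, Nat.size_le]; exact h x (by simp)
    have h3 := length_natCode x
    simp only [List.map_cons, List.flatten_cons, List.length_append, List.length_cons]
    nlinarith

theorem core {G : List Bool → List Bool} {K : Type} [DecidableEq K] {f : Option K → ℕ}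
    (hfi : Injective f) (hfκ : ∀ k, f k < κ) (hf0 : f none = 0) {c : Cmd (Option K)}
    {p : Polynomial ℕ} (hex : ∀ x : List Bool, Exec c (one x.reverse) (one (G x)) (p.eval x.length))
    {a₀ a₁ a₂ r : ℕ} [NeZero r] (hr : 10 < r) (hr₁ : (roundP κ a₀ a₁ a₂ (cc f c)).Bd r)
    (hr₂ : decode.Bd r) {S : ℕ} {ws : List ℕ} {acc : List Bool → Bool}
    {out : Bool → List Bool → List ℕ} (hS : 1 ≤ S) (hSw : S ≤ w) (hws : ∀ x ∈ ws, x < 2 ^ S)
    (hG' : ∀ τ : List Bool, τ.length = qOf ws ^ a₁ →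
      G (fmt ws (qOf ws ^ a₀) τ 0) = outFmt true (out false τ) ∧
      G (fmt ws (qOf ws ^ a₀) τ (2 ^ qOf ws ^ a₂)) = outFmt (acc τ) (out true τ))
    (hout : ∀ b τ, τ.length = qOf ws ^ a₁ →
      (out b τ).length ≤ ws.length ^ 2 ∧ ∀ x ∈ out b τ, x < 2 ^ S)
    {nf c' B : ℕ} (hnf : nf = ws.length + qOf ws + qOf ws ^ a₀ + 2 * qOf ws ^ a₁ + 1)
    (hH : H = nf + 2 ^ qOf ws ^ a₂ + p.eval (nf + 2 ^ qOf ws ^ a₂))
    (hc' : c' = 2 * κ + a₀ + a₁ + a₂ + 36) (hB : B = ws.length * ws.length + ws.length)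
    (hwH : B + κ * (H + 1) < 2 ^ w) :
    expectedTime (prog r (roundP κ a₀ a₁ a₂ (cc f c))) w ws ≤
      ENNReal.ofReal ((24 * (nf + p.eval nf) + c' : ℕ) +
        4 * ((1 / 2) ^ qOf ws ^ a₀ * (24 * H + c' : ℕ))) ∧
    (∀ (ρ : ℕ → ℕ) (T : ℕ) (o : List ℕ), HaltsWithin (prog r (roundP κ a₀ a₁ a₂ (cc f c))) w ρ ws T o →
      ∃ τ : List Bool, τ.length = qOf ws ^ a₁ ∧
        (o = out false τ ∨ (acc τ = true ∧ o = out true τ))) ∧
    ∀ Good : List ℕ → Prop, probHaltsWith (prog r (roundP κ a₀ a₁ a₂ (cc f c))) w ws Good =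
      ((1 - (1 / 2) ^ qOf ws ^ a₀) * Ex (qOf ws ^ a₁) (fun τ => ind (Good (out false τ))) +
        (1 / 2) ^ qOf ws ^ a₀ *
          Ex (qOf ws ^ a₁) (fun τ => ind (acc τ = true ∧ Good (out true τ)))) /
      ((1 - (1 / 2) ^ qOf ws ^ a₀) +
        (1 / 2) ^ qOf ws ^ a₀ * Ex (qOf ws ^ a₁) (fun τ => ind (acc τ = true))) := by
  have hSw' : 2 ^ S ≤ 2 ^ w := Nat.pow_le_pow_right (by omega) hSw
  have hq2 : 2 ≤ qOf ws := by unfold qOf; omega
  have hpad0 : 0 < 2 ^ qOf ws ^ a₂ := by positivity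
  have hmono : p.eval nf ≤ p.eval (nf + 2 ^ qOf ws ^ a₂) := poly_eval_mono p (by omega)
  refine las_vegas (prog r (roundP κ a₀ a₁ a₂ (cc f c))) w ws (by omega) (qOf ws ^ a₀) (qOf ws ^ a₁)
    (24 * (nf + p.eval nf) + c') (24 * H + c') (by positivity) (by omega) (by omega) acc out
    (fun cf => ∃ σ, cf = cfg r 0 σ ∧ Inv ws κ σ)
    ⟨⟨fun j => if j = 0 then ws.length else 0, fun i => ws.getD i 0, 0⟩, ?_, rfl, fun _ _ => rfl⟩
    (by rintro _ ⟨σ, rfl, _⟩; rfl) ?_
  · unfold init cfg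
    congr 1
    · funext j
      rw [Nat.mod_eq_of_lt (by omega)]
    · funext i
      show _ = ws.getD i 0
      rw [List.getD_eq_getElem?_getD]
      refine Nat.mod_eq_of_lt ?_
      by_cases hi : i < ws.length
      · rw [List.getElem?_eq_getElem hi]
        exact (hws _ (List.getElem_mem hi)).trans_le hSw'
      · rw [List.getElem?_eq_none (by omega)]
        simp
  · rintro ρ _ j ⟨σ, rfl, hσ⟩ hd
    have hd' : σ.d = j * (qOf ws ^ a₀ + qOf ws ^ a₁) := hd
    have hblk : blk w ρ (qOf ws ^ a₀ + qOf ws ^ a₁) j =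
        bitsAt w ρ σ.d (qOf ws ^ a₀) ++ bitsAt w ρ (σ.d + qOf ws ^ a₀) (qOf ws ^ a₁) := by
      rw [← bitsAt_add, hd']; rfl
    have htake : (blk w ρ (qOf ws ^ a₀ + qOf ws ^ a₁) j).take (qOf ws ^ a₀) =
        bitsAt w ρ σ.d (qOf ws ^ a₀) := by
      rw [hblk, List.take_left' (length_bitsAt _ _)]
    have hdrop : (blk w ρ (qOf ws ^ a₀ + qOf ws ^ a₁) j).drop (qOf ws ^ a₀) =
        bitsAt w ρ (σ.d + qOf ws ^ a₀) (qOf ws ^ a₁) := by
      rw [hblk, List.drop_left' (length_bitsAt _ _)]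
    rw [htake, hdrop]
    obtain ⟨τ, hτ⟩ : ∃ τ, τ = bitsAt w ρ (σ.d + qOf ws ^ a₀) (qOf ws ^ a₁) := ⟨_, rfl⟩
    rw [← hτ]
    have hτl : τ.length = qOf ws ^ a₁ := by rw [hτ, length_bitsAt]
    have main : ∀ (pad : ℕ) (b s : Bool), pad ≤ 2 ^ qOf ws ^ a₂ →
        (pad = if bitsAt w ρ σ.d (qOf ws ^ a₀) = List.replicate (qOf ws ^ a₀) false
          then 2 ^ qOf ws ^ a₂ else 0) →
        G (fmt ws (qOf ws ^ a₀) τ pad) = outFmt b (out s τ) →
        ∃ n ≤ 24 * (nf + pad + p.eval (nf + pad)) + c',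
          ((step (prog r (roundP κ a₀ a₁ a₂ (cc f c))) w ρ)^[n] (cfg r 0 σ)).drawn =
            (j + 1) * (qOf ws ^ a₀ + qOf ws ^ a₁) ∧
          (b = true →
            ((step (prog r (roundP κ a₀ a₁ a₂ (cc f c))) w ρ)^[n] (cfg r 0 σ)).halted = true ∧
            ((step (prog r (roundP κ a₀ a₁ a₂ (cc f c))) w ρ)^[n] (cfg r 0 σ)).output = out s τ) ∧
          (b = false → ∃ σ', (step (prog r (roundP κ a₀ a₁ a₂ (cc f c))) w ρ)^[n] (cfg r 0 σ) =
            cfg r 0 σ' ∧ Inv ws κ σ') := by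
      intro pad b s hpad hpad' hGx
      have hlen : (fmt ws (qOf ws ^ a₀) τ pad).length = nf + pad := by rw [length_fmt, hτl, hnf]
      have h1 := hex (fmt ws (qOf ws ^ a₀) τ pad)
      rw [hGx, hlen] at h1
      have h2 : (outFmt b (out s τ)).length ≤ (fmt ws (qOf ws ^ a₀) τ pad).reverse.length +
          p.eval (nf + pad) := h1.length_le none
      rw [List.length_reverse, hlen] at h2
      have h3 : p.eval (nf + pad) ≤ p.eval (nf + 2 ^ qOf ws ^ a₂) :=
        poly_eval_mono p (Nat.add_le_add_left hpad _)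
      have h7 : (fmt ws (qOf ws ^ a₀) τ pad).length + p.eval (nf + pad) ≤ H := by
        rw [hlen, hH]
        exact Nat.add_le_add (Nat.add_le_add_left hpad _) h3
      have h8 : 2 ^ qOf ws ^ a₂ ≤ H := by
        rw [hH]
        exact (Nat.le_add_left _ _).trans (Nat.le_add_right _ _)
      have h4 := round_spec (ρ := ρ) (y := encOut (out s τ)) (b := b) hfi hfκ hf0 hB hwH hσ hpad'
        (by rw [hτ]) h1 h7 h8
      have h9 : ws.length + (out s τ).length ≤ B := by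
        have := (hout s τ hτl).1
        rw [hB, ← sq, add_comm]
        exact Nat.add_le_add_right this _
      obtain ⟨n, hn, h5⟩ := prog_round hr hr₁ hr₂ ((Nat.le_add_right _ _).trans_lt hwH) h4 h9
        fun x hx => ((hout s τ hτl).2 x hx).trans_le hSw'
      have h6 : (outFmt b (out s τ)).length = (encOut (out s τ)).length + 1 := rfl
      rw [hlen] at hn
      refine ⟨n, by clear hpad' h4 h5; omega, ?_, h5.2⟩
      rw [h5.1, hd']; ring
    by_cases hg : bitsAt w ρ σ.d (qOf ws ^ a₀) = List.replicate (qOf ws ^ a₀) false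
    · obtain ⟨n, hn, h1, h2, h3⟩ := main _ (acc τ) true le_rfl (if_pos hg).symm (hG' τ hτl).2
      rw [← hH] at hn
      exact ⟨n, h1, hn, fun h => absurd hg h, fun _ => h2, fun _ => h3⟩
    · obtain ⟨n, hn, h1, h2, h3⟩ := main 0 true false (by omega) (if_neg hg).symm (hG' τ hτl).1
      rw [add_zero] at hn
      exact ⟨n, h1, by omega, fun _ => ⟨hn, h2 rfl⟩, fun h => absurd h hg, fun h => absurd h hg⟩

theorem bounds {p : Polynomial ℕ} {cp D q a₀ a₂ nf c' U B : ℕ}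
    (hD : ∀ n, n + p.eval n ≤ cp * (n + 1) ^ D) (hq2 : 2 ≤ q) (ha : a₂ + D ≤ a₀)
    (hH : H = nf + 2 ^ q ^ a₂ + p.eval (nf + 2 ^ q ^ a₂))
    (hU : U = 24 * (cp * (nf + 2) ^ D) + c') (hw : B + κ * (U + 1) + q ^ a₀ ≤ w) :
    24 * H + c' ≤ U * 2 ^ q ^ a₀ ∧ 24 * (nf + p.eval nf) + c' ≤ U ∧ B + κ * (H + 1) < 2 ^ w := by
  have hHle : H ≤ cp * (nf + 2) ^ D * 2 ^ q ^ a₀ := by
    rw [hH]
    refine (hD _).trans ?_
    rw [mul_assoc]
    refine Nat.mul_le_mul_left _ ?_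
    have h1 : 1 ≤ 2 ^ q ^ a₂ := Nat.one_le_two_pow
    have h2 : nf + 2 ^ q ^ a₂ + 1 ≤ (nf + 2) * 2 ^ q ^ a₂ := by nlinarith
    refine (Nat.pow_le_pow_left h2 D).trans ?_
    rw [mul_pow, ← pow_mul]
    refine Nat.mul_le_mul_left _ (Nat.pow_le_pow_right (by omega) ?_)
    have h3 : D ≤ q ^ D := Nat.lt_two_pow_self.le.trans (Nat.pow_le_pow_left hq2 D)
    calc q ^ a₂ * D ≤ q ^ a₂ * q ^ D := Nat.mul_le_mul_left _ h3
      _ = q ^ (a₂ + D) := (pow_add _ _ _).symm
      _ ≤ q ^ a₀ := Nat.pow_le_pow_right (by omega) ha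
  have hK1 : 1 ≤ 2 ^ q ^ a₀ := Nat.one_le_two_pow
  have hTs : 24 * H + c' ≤ U * 2 ^ q ^ a₀ := by
    rw [hU, add_mul, mul_assoc]
    exact Nat.add_le_add (Nat.mul_le_mul_left _ hHle) (Nat.le_mul_of_pos_right _ hK1)
  refine ⟨hTs, ?_, ?_⟩
  · have h1 := hD nf
    have h2 : cp * (nf + 1) ^ D ≤ cp * (nf + 2) ^ D :=
      Nat.mul_le_mul_left _ (Nat.pow_le_pow_left (by omega) _)
    omega
  · have h1 : H + 1 ≤ (U + 1) * 2 ^ q ^ a₀ := by rw [add_mul]; omega
    have h2 : B + κ * (H + 1) ≤ (B + κ * (U + 1)) * 2 ^ q ^ a₀ := by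
      rw [add_mul B, mul_assoc]
      exact Nat.add_le_add (Nat.le_mul_of_pos_right _ hK1) (Nat.mul_le_mul_left _ h1)
    calc B + κ * (H + 1) ≤ (B + κ * (U + 1)) * 2 ^ q ^ a₀ := h2
      _ < 2 ^ (B + κ * (U + 1)) * 2 ^ q ^ a₀ :=
        Nat.mul_lt_mul_of_pos_right Nat.lt_two_pow_self hK1
      _ = 2 ^ (B + κ * (U + 1) + q ^ a₀) := (pow_add _ _ _).symm
      _ ≤ 2 ^ w := Nat.pow_le_pow_right (by omega) hw

end Ram

open Ram Function in
theorem ram_loop (G : List Bool → List Bool) (hG : PT G) (a₂ : ℕ) :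
    ∃ a : ℕ, ∀ a₀ a₁ : ℕ, a ≤ a₀ → ∃ (P : Program) (c₀ c₁ C d : ℕ),
      ∀ (S : ℕ) (ws : List ℕ) (acc : List Bool → Bool) (out : Bool → List Bool → List ℕ),
        1 ≤ S → ws.length ≤ S → (∀ x ∈ ws, x < 2 ^ S) →
        (∀ τ : List Bool, τ.length = qOf ws ^ a₁ →
          G (fmt ws (qOf ws ^ a₀) τ 0) = outFmt true (out false τ) ∧
          G (fmt ws (qOf ws ^ a₀) τ (2 ^ qOf ws ^ a₂)) = outFmt (acc τ) (out true τ)) →
        (∀ b τ, τ.length = qOf ws ^ a₁ →
          (out b τ).length ≤ ws.length ^ 2 ∧ ∀ x ∈ out b τ, x < 2 ^ S) →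
        expectedTime P (c₀ * S ^ c₁) ws ≤ ((C * S ^ d : ℕ) : ENNReal) ∧
        (∀ (ρ : ℕ → ℕ) (T : ℕ) (o : List ℕ), HaltsWithin P (c₀ * S ^ c₁) ρ ws T o →
          ∃ τ : List Bool, τ.length = qOf ws ^ a₁ ∧
            (o = out false τ ∨ (acc τ = true ∧ o = out true τ))) ∧
        ∀ Good : List ℕ → Prop, probHaltsWith P (c₀ * S ^ c₁) ws Good =
          ((1 - (1 / 2) ^ qOf ws ^ a₀) * Ex (qOf ws ^ a₁) (fun τ => ind (Good (out false τ))) +
            (1 / 2) ^ qOf ws ^ a₀ *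
              Ex (qOf ws ^ a₁) (fun τ => ind (acc τ = true ∧ Good (out true τ)))) /
          ((1 - (1 / 2) ^ qOf ws ^ a₀) +
            (1 / 2) ^ qOf ws ^ a₀ * Ex (qOf ws ^ a₁) (fun τ => ind (acc τ = true))) := by
  obtain ⟨K, _, _, c, tm, ⟨p, hp⟩, hc⟩ : PT fun r : Raw => Raw.mk (G r.bits.reverse) :=
    PT.rawMk (hG.comp (PT.rawBits PT.id').reverse)
  have hex : ∀ x : List Bool, Exec c (one x.reverse) (one (G x)) (p.eval x.length) := fun x => by
    have h1 := hc ⟨x.reverse⟩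
    have h2 := hp ⟨x.reverse⟩
    simp only [enc_raw, List.reverse_reverse, List.length_reverse] at h1 h2
    exact h1.mono h2
  obtain ⟨cp, D, hD⟩ := poly_le (Polynomial.X + p)
  simp only [Polynomial.eval_add, Polynomial.eval_X] at hD
  refine ⟨a₂ + D, fun a₀ a₁ ha => ?_⟩
  obtain ⟨κ, hκ⟩ : ∃ κ, κ = Fintype.card K + 1 := ⟨_, rfl⟩
  obtain ⟨f, hf⟩ : ∃ f : Option K → ℕ, f = fun k => k.elim 0 fun k => Fintype.equivFin K k + 1 :=
    ⟨_, rfl⟩
  have hfi : Injective f := by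
    rintro (_ | a) (_ | b) h
    · rfl
    · simp [hf] at h
    · simp [hf] at h
    · simp only [hf, Option.elim_some, Nat.add_right_cancel_iff] at h
      rw [(Fintype.equivFin K).injective (Fin.ext h)]
  have hfκ : ∀ k, f k < κ := by
    rintro (_ | a)
    · simp [hf, hκ]
    · simp [hf, hκ]
  obtain ⟨r₁, hr₁⟩ := (roundP κ a₀ a₁ a₂ (cc f c)).exists_bd
  obtain ⟨r₂, hr₂⟩ := decode.exists_bd
  have : NeZero (r₁ + r₂ + 11) := ⟨by omega⟩
  -- polynomial bounds
  let α := {x : ℕ × List ℕ // x.2.length ≤ x.1 ∧ ∀ y ∈ x.2, y < 2 ^ x.1}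
  have pS : PBy (fun a : α => a.1.1) fun a => a.1.1 := PBy.self
  have pl : PBy (fun a : α => a.1.1) fun a => a.1.2.length := pS.of_le fun a => a.2.1
  have pq : PBy (fun a : α => a.1.1) fun a => qOf a.1.2 :=
    ((pl.mul (((PBy.const 2).mul pS).add (PBy.const 2))).add (PBy.const 2)).of_le
      fun a => qOf_le a.2.2
  have pU := ((PBy.const 24).mul ((PBy.const cp).mul (((((((pl.add pq).add (pq.pow a₀)).add
      ((PBy.const 2).mul (pq.pow a₁))).add (PBy.const 1))).add (PBy.const 2)).pow D))).add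
      (PBy.const (2 * κ + a₀ + a₁ + a₂ + 36))
  obtain ⟨C, d, hC⟩ := pby_bound ((PBy.const 5).mul pU)
  obtain ⟨c₀, c₁, hc₀⟩ := pby_bound ((((((pl.mul pl).add pl).add
    ((PBy.const κ).mul (pU.add (PBy.const 1)))).add (pq.pow a₀))).add pS)
  refine ⟨prog (r₁ + r₂ + 11) (roundP κ a₀ a₁ a₂ (cc f c)), c₀, c₁, C, d,
    fun S ws acc out hS hl hws hG' hout => ?_⟩
  have hC' := hC ⟨(S, ws), hl, hws⟩ hS
  have hc₀' := hc₀ ⟨(S, ws), hl, hws⟩ hS
  simp only [] at hC' hc₀'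
  obtain ⟨b1, b2, b3⟩ := bounds (κ := κ) (w := c₀ * S ^ c₁) hD
    (show 2 ≤ qOf ws by unfold qOf; omega) ha rfl rfl ((Nat.le_add_right _ _).trans hc₀')
  have key := core hfi hfκ (by rw [hf]; rfl) hex (by omega) (hr₁ (r₁ + r₂ + 11) (by omega))
    (hr₂ _ (by omega)) hS ((Nat.le_add_left _ _).trans hc₀') hws hG' hout rfl rfl rfl rfl b3
  refine ⟨key.1.trans ?_, key.2⟩
  rw [← ENNReal.ofReal_natCast]
  refine ENNReal.ofReal_le_ofReal ?_
  generalize 24 * (cp * (ws.length + qOf ws + qOf ws ^ a₀ + 2 * qOf ws ^ a₁ + 1 + 2) ^ D) +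
    (2 * κ + a₀ + a₁ + a₂ + 36) = U at b1 b2 hC'
  have h1 := (Nat.cast_le (α := ℝ)).2 b1
  have h2 := (Nat.cast_le (α := ℝ)).2 b2
  have h3 := (Nat.cast_le (α := ℝ)).2 hC'
  rw [Nat.cast_mul U, Nat.cast_pow, Nat.cast_ofNat, mul_comm (U : ℝ),
    ← inv_mul_le_iff₀ (by positivity), ← inv_pow, ← one_div] at h1
  rw [Nat.cast_mul 5, Nat.cast_ofNat] at h3
  linarith

end Crest.Agent.R309
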