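import Crest.Agent.R309.FP

/-!
# Row 309: the restricted Poincaré inequality

`N = card V`, `Z a = m.Z f a w`, `θ a = 1 / ω a`, `γ = t - ev w` (so `γ + ev a = t + ev a - ev w`),
`∑ c, θ c / Z c ≤ N / lam`.  `Z (root a) ≤ 2 Z a` by `sum_cl_root` and `smp`, so
`ω a ≤ 2 / Z a ≤ 4 / Z (root a) ≤ (4 / lam) * ω (root a)`: take `gt` from `fiber_poincare` with
`cω = 4 / lam`, `Vr = ∑ W (g - gt)² ≤ CF * Dall`.  `Dth gt ≤ 3 Dunit + 6 M Vr` (write
`gt - gt' = (gt - g) + (g - g') + (g' - gt')`, `min ≤` either weight; for fixed `e` each state is at most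
once a lower and once an upper endpoint).  Then
`μ' g - π g = μ' (g - gt) + (μ' gt - μ gt) + (μ gt - π gt) + π (gt - g)` with squares at most
`18 Vr`, `16 Λ (N / lam) Dth / κ` (`tilt_le`, `H = 8`; zero if `ψ = 1`), `4 (N / lam) Dth / κ` (`class_le`,
`π gt` is a convex combination of the class means) and `2 Vr`.
-/

set_option autoImplicit false

set_option maxHeartbeats 800000

namespace Crest.Agent.R309

open Finset

namespace Mdl

variable {V : Type} [Fintype V] [DecidableEq V] {M : ℕ} {m : Mdl V M}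

theorem rp_jensen {ι : Type*} (s : Finset ι) (p d : ι → ℝ) (hp : ∀ i ∈ s, 0 ≤ p i)
    (hS : 0 < ∑ i ∈ s, p i) :
    ((∑ i ∈ s, p i * d i) / ∑ i ∈ s, p i) ^ 2 ≤ (∑ i ∈ s, p i * d i ^ 2) / ∑ i ∈ s, p i := by
  have h2 : ∀ c : ℝ, ∑ i ∈ s, p i * (d i - c) ^ 2 =
      (∑ i ∈ s, p i * d i ^ 2) - 2 * c * (∑ i ∈ s, p i * d i) + c ^ 2 * ∑ i ∈ s, p i := by
    intro c
    rw [mul_sum, mul_sum, ← sum_sub_distrib, ← sum_add_distrib]
    exact sum_congr rfl fun i _ => by ring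
  have h : 0 ≤ ∑ i ∈ s, p i * (d i - (∑ i ∈ s, p i * d i) / ∑ i ∈ s, p i) ^ 2 :=
    sum_nonneg fun i hi => mul_nonneg (hp i hi) (sq_nonneg _)
  rw [h2] at h
  generalize ∑ i ∈ s, p i = S at *
  generalize ∑ i ∈ s, p i * d i = A at *
  generalize ∑ i ∈ s, p i * d i ^ 2 = B at *
  have e : B / S - (A / S) ^ 2 = (B - 2 * (A / S) * A + (A / S) ^ 2 * S) / S := by
    field_simp
    ring
  have := div_nonneg h hS.le
  linarith

theorem rp_four (a₁ a₂ a₃ a₄ a₅ : ℝ) : (a₁ - a₅) ^ 2 ≤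
    4 * ((a₁ - a₂) ^ 2 + (a₂ - a₃) ^ 2 + (a₃ - a₄) ^ 2 + (a₄ - a₅) ^ 2) := by
  nlinarith [sq_nonneg ((a₁ - a₂) - (a₂ - a₃)), sq_nonneg ((a₁ - a₂) - (a₃ - a₄)),
    sq_nonneg ((a₁ - a₂) - (a₄ - a₅)), sq_nonneg ((a₂ - a₃) - (a₃ - a₄)),
    sq_nonneg ((a₂ - a₃) - (a₄ - a₅)), sq_nonneg ((a₃ - a₄) - (a₄ - a₅))]

theorem rp_three (a b a' b' : ℝ) :
    (a - b) ^ 2 ≤ 3 * (a' - b') ^ 2 + 3 * (a' - a) ^ 2 + 3 * (b' - b) ^ 2 := by
  nlinarith [sq_nonneg ((a' - b') + (a' - a)), sq_nonneg ((a' - b') - (b' - b)),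
    sq_nonneg ((a' - a) + (b' - b))]

theorem rp_cl_eq (a w : V) : cls m.u m.v m.lo m.hi (m.t - ev w + ev a) = m.cl a w := by
  unfold cl
  congr 1
  abel

theorem rp_cl_box {a w : V} {X : Fin M → ℤ} (h : X ∈ m.cl a w) : X ∈ box m.lo m.hi :=
  (mem_filter.1 h).1

theorem rp_ec_mem {w : V} {e : Fin M} {X : Fin M → ℤ} (h : X ∈ m.cl (m.v e) w)
    (h' : X + ec e ∈ box m.lo m.hi) : X + ec e ∈ m.cl (m.u e) w := by
  refine mem_filter.2 ⟨h', ?_⟩
  rw [del_add, del_ec, (mem_filter.1 h).2]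
  abel

/-- the thin Dirichlet form of `gt` is controlled by the unit form of `g` and the distance -/
theorem rp_Dth_le {f : Fin M → ℤ → ℝ} (hpos : ∀ X ∈ box m.lo m.hi, 0 < wt f X)
    (thin : Fin M → Prop) (w : V) (ω : V → ℝ) (hω : ∀ a, 0 < ω a)
    (g : (Fin M → ℤ) × V → ℝ) (gt : (Fin M → ℤ) → V → ℝ) :
    Dth m.u m.v m.lo m.hi f thin (fun a => 1 / ω a) (m.t - ev w) gt ≤
      3 * m.Dunit f ω w g + 6 * M * ∑ x ∈ m.Om w, W f ω x * (g x - gt x.1 x.2) ^ 2 := by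
  classical
  have hW : ∀ x ∈ m.Om w, 0 < W f ω x := fun x hx =>
    mul_pos (hpos _ (rp_cl_box (mem_Om.1 hx))) (hω _)
  set Vr := ∑ x ∈ m.Om w, W f ω x * (g x - gt x.1 x.2) ^ 2 with hVr
  have hterm : ∀ x ∈ m.Om w, 0 ≤ W f ω x * (g x - gt x.1 x.2) ^ 2 := fun x hx =>
    mul_nonneg (hW x hx).le (sq_nonneg _)
  have hVr0 : 0 ≤ Vr := sum_nonneg hterm
  have key : ∀ e, ∑ X ∈ (m.cl (m.v e) w).filter (fun X => X + ec e ∈ box m.lo m.hi),
      min (wt f X / (1 / ω (m.v e))) (wt f (X + ec e) / (1 / ω (m.u e))) *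
        (gt X (m.v e) - gt (X + ec e) (m.u e)) ^ 2 ≤
      3 * (∑ X ∈ box m.lo m.hi, edge (m.Om w) (W f ω) g (X, m.v e) (X + ec e, m.u e)) +
        6 * Vr := by
    intro e
    set A := (m.cl (m.v e) w).filter (fun X => X + ec e ∈ box m.lo m.hi) with hA
    have hA1 : ∀ X ∈ A, (X, m.v e) ∈ m.Om w := fun X hX => mem_Om.2 (mem_filter.1 hX).1
    have hA2 : ∀ X ∈ A, (X + ec e, m.u e) ∈ m.Om w := fun X hX =>
      mem_Om.2 (rp_ec_mem (mem_filter.1 hX).1 (mem_filter.1 hX).2)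
    have h1 : ∑ X ∈ A, edge (m.Om w) (W f ω) g (X, m.v e) (X + ec e, m.u e) ≤
        ∑ X ∈ box m.lo m.hi, edge (m.Om w) (W f ω) g (X, m.v e) (X + ec e, m.u e) :=
      sum_le_sum_of_subset_of_nonneg (fun X hX => rp_cl_box (mem_filter.1 hX).1)
        fun X _ _ => edge_nonneg hW g _ _
    have h2 : ∑ X ∈ A, W f ω (X, m.v e) * (g (X, m.v e) - gt X (m.v e)) ^ 2 ≤ Vr := by
      have := sum_le_sum_of_subset_of_nonneg (s := A.image fun X => (X, m.v e)) (t := m.Om w)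
        (f := fun x => W f ω x * (g x - gt x.1 x.2) ^ 2)
        (fun x hx => by
          obtain ⟨X, hX, rfl⟩ := mem_image.1 hx
          exact hA1 X hX) fun x hx _ => hterm x hx
      rwa [sum_image fun X _ Y _ h => (Prod.ext_iff.1 h).1] at this
    have h3 : ∑ X ∈ A, W f ω (X + ec e, m.u e) *
        (g (X + ec e, m.u e) - gt (X + ec e) (m.u e)) ^ 2 ≤ Vr := by
      have := sum_le_sum_of_subset_of_nonneg (s := A.image fun X => (X + ec e, m.u e))
        (t := m.Om w) (f := fun x => W f ω x * (g x - gt x.1 x.2) ^ 2)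
        (fun x hx => by
          obtain ⟨X, hX, rfl⟩ := mem_image.1 hx
          exact hA2 X hX) fun x hx _ => hterm x hx
      rwa [sum_image fun X _ Y _ h => add_right_cancel (Prod.ext_iff.1 h).1] at this
    have h4 : ∀ X ∈ A, min (wt f X / (1 / ω (m.v e))) (wt f (X + ec e) / (1 / ω (m.u e))) *
        (gt X (m.v e) - gt (X + ec e) (m.u e)) ^ 2 ≤
        3 * edge (m.Om w) (W f ω) g (X, m.v e) (X + ec e, m.u e) +
        3 * (W f ω (X, m.v e) * (g (X, m.v e) - gt X (m.v e)) ^ 2) +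
        3 * (W f ω (X + ec e, m.u e) * (g (X + ec e, m.u e) - gt (X + ec e) (m.u e)) ^ 2) := by
      intro X hX
      have e1 : wt f X / (1 / ω (m.v e)) = W f ω (X, m.v e) := by simp [W]
      have e2 : wt f (X + ec e) / (1 / ω (m.u e)) = W f ω (X + ec e, m.u e) := by simp [W]
      rw [e1, e2, edge, if_pos ⟨hA1 X hX, hA2 X hX⟩]
      have p1 := hW _ (hA1 X hX)
      have p2 := hW _ (hA2 X hX)
      have q1 := min_le_left (W f ω (X, m.v e)) (W f ω (X + ec e, m.u e))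
      have q2 := min_le_right (W f ω (X, m.v e)) (W f ω (X + ec e, m.u e))
      have q0 : 0 ≤ min (W f ω (X, m.v e)) (W f ω (X + ec e, m.u e)) := le_min p1.le p2.le
      generalize min (W f ω (X, m.v e)) (W f ω (X + ec e, m.u e)) = μ at *
      generalize W f ω (X, m.v e) = w₁ at *
      generalize W f ω (X + ec e, m.u e) = w₂ at *
      generalize gt X (m.v e) = a at *
      generalize gt (X + ec e) (m.u e) = b at *
      generalize g (X, m.v e) = a' at *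
      generalize g (X + ec e, m.u e) = b' at *
      have r0 := rp_three a b a' b'
      have r1 := mul_le_mul_of_nonneg_left r0 q0
      have r2 := mul_le_mul_of_nonneg_right q1 (sq_nonneg (a' - a))
      have r3 := mul_le_mul_of_nonneg_right q2 (sq_nonneg (b' - b))
      linarith
    refine (sum_le_sum h4).trans ?_
    rw [sum_add_distrib, sum_add_distrib, ← mul_sum, ← mul_sum, ← mul_sum]
    linarith
  unfold Dth Dunit
  simp only [rp_cl_eq]
  refine (sum_le_sum_of_subset_of_nonneg (filter_subset _ _) fun e _ _ => ?_).trans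
    ((sum_le_sum fun e _ => key e).trans ?_)
  · refine sum_nonneg fun X hX => mul_nonneg (le_min ?_ ?_) (sq_nonneg _)
    · exact div_nonneg (hpos _ (rp_cl_box (mem_filter.1 hX).1)).le
        (one_div_nonneg.2 (hω _).le)
    · exact div_nonneg (hpos _ (mem_filter.1 hX).2).le (one_div_nonneg.2 (hω _).le)
  · rw [sum_add_distrib, ← mul_sum, sum_const, card_univ, Fintype.card_fin, nsmul_eq_mul]
    linarith

theorem restricted_poincare {thick : Fin M → Bool} {s : Fin M → ℕ} {f : Fin M → ℤ → ℝ}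
    {κ κB η : ℝ} (hT : m.Thick thick s) (hS : m.Smooth thick s f κB η)
    (hf : LC m.lo m.hi f (fun e => thick e = false) κ) (hκ0 : 0 < κ) (hκ1 : κ ≤ 1 / 2)
    (w : V) (ω : V → ℝ) (hω : ∀ a, 0 < ω a) {lam : ℝ} (hl0 : 0 < lam) (hl1 : lam ≤ 1)
    (hlow : ∀ a, lam ≤ ω a * m.Z f a w) (hup : ∀ a, ω a * m.Z f a w ≤ 2)
    (hw : 1 / 2 ≤ ω w * m.Z f w w)
    (e₀ : Fin M) (ψ : ℤ → ℝ) {Λ : ℝ} (hΛ0 : 0 ≤ Λ)
    (hψ : ∀ x, m.lo e₀ ≤ x → x ≤ m.hi e₀ → 1 ≤ ψ x ∧ ψ x ≤ 9)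
    (hΛ : ∀ x, m.lo e₀ ≤ x → x < m.hi e₀ →
      ((m.hi e₀ - m.lo e₀ + 1 : ℤ) : ℝ) * |ψ (x + 1) - ψ x| ≤ Λ)
    (hv : m.v e₀ = w ∨ ∀ x, ψ x = 1) (g : (Fin M → ℤ) × V → ℝ) :
    ((∑ X ∈ m.cl w w, wt f X * ψ (X e₀) * g (X, w)) / (∑ X ∈ m.cl w w, wt f X * ψ (X e₀)) -
        (∑ x ∈ m.Om w, W f ω x * g x) / ∑ x ∈ m.Om w, W f ω x) ^ 2 ≤
      4 * (20 * (16 / lam * (1 + Fintype.card V * (16 / κB + 4))) +
          (16 * Λ + 4) * (Fintype.card V / (lam * κ)) *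
            (3 + 6 * M * (16 / lam * (1 + Fintype.card V * (16 / κB + 4))))) *
        m.Dall s f ω w g := by
  classical
  have hW : ∀ x ∈ m.Om w, 0 < W f ω x := fun x hx =>
    mul_pos (hS.pos _ (rp_cl_box (mem_Om.1 hx))) (hω _)
  have hZ : ∀ a, 0 < m.Z f a w := fun a =>
    (mul_pos_iff_of_pos_left (hω a)).1 (hl0.trans_le (hlow a))
  have hZr : ∀ a, m.Z f (m.root a) w ≤ 2 * m.Z f a w := by
    intro a
    unfold Z
    rw [hT.forest.sum_cl_root hT.root_root hT.path_root a w, mul_sum]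
    exact sum_le_sum fun X hX => (hS.smp X (rp_cl_box hX) a
      (rp_cl_box (hT.forest.add_path_mem hT.root_root hT.path_root hX))).2
  have hc1 : 1 ≤ 4 / lam := by rw [le_div_iff₀ hl0]; linarith
  have hc : ∀ a, ω a ≤ 4 / lam * ω (m.root a) := by
    intro a
    rw [div_mul_eq_mul_div, le_div_iff₀ hl0]
    have h1 := hlow (m.root a)
    have h2 := hup a
    have h3 := hZr a
    have h4 := hω a
    have h5 := hω (m.root a)
    calc ω a * lam ≤ ω a * (ω (m.root a) * m.Z f (m.root a) w) :=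
          mul_le_mul_of_nonneg_left h1 h4.le
      _ ≤ ω a * (ω (m.root a) * (2 * m.Z f a w)) := by gcongr
      _ = 2 * ω (m.root a) * (ω a * m.Z f a w) := by ring
      _ ≤ 2 * ω (m.root a) * 2 := by gcongr
      _ = 4 * ω (m.root a) := by ring
  obtain ⟨gt, hinv, hVr⟩ := fiber_poincare hT hS ω hω hc1 hc w g
  have hDth := rp_Dth_le (m := m) hS.pos (fun e => thick e = false) w ω hω g gt
  set Vr := ∑ x ∈ m.Om w, W f ω x * (g x - gt x.1 x.2) ^ 2 with hVrdef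
  set N : ℝ := (Fintype.card V : ℝ) with hN
  set CF : ℝ := 16 / lam * (1 + N * (16 / κB + 4)) with hCF
  set Dt := Dth m.u m.v m.lo m.hi f (fun e => thick e = false) (fun a => 1 / ω a) (m.t - ev w) gt
    with hDt
  have hN0 : 0 ≤ N := Nat.cast_nonneg _
  have hκB := hS.κB_pos
  have hCF0 : 0 ≤ CF := by positivity
  have hDu : 0 ≤ m.Dunit f ω w g :=
    sum_nonneg fun e _ => sum_nonneg fun X _ => edge_nonneg hW g _ _
  have hDc : 0 ≤ m.Dcoarse s f ω w g :=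
    sum_nonneg fun e _ => sum_nonneg fun X _ => edge_nonneg hW g _ _
  have hDo : 0 ≤ m.Doff s f ω w g :=
    sum_nonneg fun e _ => mul_nonneg (by positivity)
      (sum_nonneg fun j _ => sum_nonneg fun X _ => edge_nonneg hW g _ _)
  have hDp : 0 ≤ m.Dpath f ω w g :=
    sum_nonneg fun e _ => sum_nonneg fun X _ => edge_nonneg hW g _ _
  have hDa : m.Dall s f ω w g = m.Dunit f ω w g + m.Dcoarse s f ω w g + m.Doff s f ω w g +
      m.Dpath f ω w g := rfl
  set Da := m.Dall s f ω w g with hDadef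
  have hDa0 : 0 ≤ Da := by linarith
  have hVr1 : Vr ≤ CF * Da := by
    refine hVr.trans ?_
    have e : 4 * (4 / lam) * (1 + N * (16 / κB + 4)) = CF := by rw [hCF]; ring
    rw [e]
    exact mul_le_mul_of_nonneg_left (by linarith) hCF0
  have hM0 : (0 : ℝ) ≤ M := Nat.cast_nonneg _
  have hDt1 : Dt ≤ (3 + 6 * M * CF) * Da := by
    have := mul_le_mul_of_nonneg_left hVr1 (show (0 : ℝ) ≤ 6 * M by positivity)
    have h2 : m.Dunit f ω w g ≤ Da := by linarith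
    calc Dt ≤ 3 * m.Dunit f ω w g + 6 * M * Vr := hDth
      _ ≤ 3 * Da + 6 * M * (CF * Da) := by linarith
      _ = _ := by ring
  have hterm : ∀ x ∈ m.Om w, 0 ≤ W f ω x * (g x - gt x.1 x.2) ^ 2 := fun x hx =>
    mul_nonneg (hW x hx).le (sq_nonneg _)
  have hDt0 : 0 ≤ Dt := by
    refine sum_nonneg fun e _ => sum_nonneg fun X hX => mul_nonneg (le_min ?_ ?_) (sq_nonneg _)
    · exact div_nonneg (hS.pos _ (mem_filter.1 (mem_filter.1 hX).1).1).le
        (one_div_nonneg.2 (hω _).le)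
    · exact div_nonneg (hS.pos _ (mem_filter.1 hX).2).le (one_div_nonneg.2 (hω _).le)
  -- the partition functions
  have hZw : ∀ c, Zw m.u m.v m.lo m.hi f (m.t - ev w + ev c) = m.Z f c w := fun c => by
    unfold Zw Z; rw [rp_cl_eq]
  have hθ : ∀ a, 0 < 1 / ω a := fun a => one_div_pos.2 (hω a)
  have hZ' : ∀ c, 0 < Zw m.u m.v m.lo m.hi f (m.t - ev w + ev c) := fun c => by
    rw [hZw]; exact hZ c
  have hΘ : ∑ c, 1 / ω c / m.Z f c w ≤ N / lam := by
    calc ∑ c, 1 / ω c / m.Z f c w ≤ ∑ _c : V, 1 / lam := sum_le_sum fun c _ => by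
          rw [div_div]; exact one_div_le_one_div_of_le hl0 (hlow c)
      _ = N / lam := by rw [sum_const, card_univ, nsmul_eq_mul]; ring
  have hΘD : (∑ c, 1 / ω c / m.Z f c w) * (Dt / κ) ≤ N / (lam * κ) * Dt := by
    calc (∑ c, 1 / ω c / m.Z f c w) * (Dt / κ) ≤ N / lam * (Dt / κ) :=
          mul_le_mul_of_nonneg_right hΘ (div_nonneg hDt0 hκ0.le)
      _ = N / (lam * κ) * Dt := by field_simp
  have hWtot : ∑ x ∈ m.Om w, W f ω x = ∑ a, ω a * m.Z f a w := by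
    rw [sum_Om]
    refine sum_congr rfl fun a _ => ?_
    unfold Z
    rw [mul_sum]
    exact sum_congr rfl fun X _ => mul_comm _ _
  have hWt : 1 / 2 ≤ ∑ x ∈ m.Om w, W f ω x := by
    rw [hWtot]
    exact hw.trans (single_le_sum (f := fun a => ω a * m.Z f a w)
      (fun a _ => (mul_pos (hω a) (hZ a)).le) (mem_univ w))
  have hψ' : ∀ X ∈ m.cl w w, 1 ≤ ψ (X e₀) ∧ ψ (X e₀) ≤ 9 := fun X hX =>
    hψ _ (mem_box.1 (rp_cl_box hX) e₀).1 (mem_box.1 (rp_cl_box hX) e₀).2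
  have hwt : ∀ X ∈ m.cl w w, 0 < wt f X := fun X hX => hS.pos _ (rp_cl_box hX)
  set S := ∑ X ∈ m.cl w w, wt f X * ψ (X e₀) with hSdef
  have hZS : m.Z f w w ≤ S := sum_le_sum fun X hX =>
    le_mul_of_one_le_right (hwt X hX).le (hψ' X hX).1
  have hS0 : 0 < S := (hZ w).trans_le hZS
  set Wt := ∑ x ∈ m.Om w, W f ω x with hWtdef
  have hWt0 : 0 < Wt := by linarith
  -- the four terms
  set a₁ := (∑ X ∈ m.cl w w, wt f X * ψ (X e₀) * g (X, w)) / S with ha₁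
  set a₂ := (∑ X ∈ m.cl w w, wt f X * ψ (X e₀) * gt X w) / S with ha₂
  set a₃ := (∑ X ∈ m.cl w w, wt f X * gt X w) / m.Z f w w with ha₃
  set a₄ := (∑ x ∈ m.Om w, W f ω x * gt x.1 x.2) / Wt with ha₄
  set a₅ := (∑ x ∈ m.Om w, W f ω x * g x) / Wt with ha₅
  have T1 : (a₁ - a₂) ^ 2 ≤ 18 * Vr := by
    have e : a₁ - a₂ = (∑ X ∈ m.cl w w, wt f X * ψ (X e₀) * (g (X, w) - gt X w)) / S := by
      rw [ha₁, ha₂, ← sub_div, ← sum_sub_distrib]
      congr 1
      exact sum_congr rfl fun X _ => by ring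
    rw [e]
    refine (rp_jensen (m.cl w w) (fun X => wt f X * ψ (X e₀)) (fun X => g (X, w) - gt X w)
      (fun X hX => mul_nonneg (hwt X hX).le (by linarith [(hψ' X hX).1])) hS0).trans ?_
    have h1 : ∑ X ∈ m.cl w w, W f ω (X, w) * (g (X, w) - gt X w) ^ 2 ≤ Vr := by
      rw [hVrdef, sum_Om]
      exact single_le_sum
        (f := fun a => ∑ X ∈ m.cl a w, W f ω (X, a) * (g (X, a) - gt X a) ^ 2)
        (fun a _ => sum_nonneg fun X hX => hterm (X, a) (mem_Om.2 hX)) (mem_univ w)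
    have h2 : ω w * ∑ X ∈ m.cl w w, wt f X * ψ (X e₀) * (g (X, w) - gt X w) ^ 2 ≤ 9 * Vr := by
      refine le_trans ?_ (mul_le_mul_of_nonneg_left h1 (by norm_num))
      rw [mul_sum, mul_sum]
      refine sum_le_sum fun X hX => ?_
      have p1 := mul_nonneg (mul_pos (hwt X hX) (hω w)).le (sq_nonneg (g (X, w) - gt X w))
      have p2 := mul_le_mul_of_nonneg_right (hψ' X hX).2 p1
      simp only [W]
      linarith
    have h3 : 1 / 2 ≤ ω w * S := hw.trans (mul_le_mul_of_nonneg_left hZS (hω w).le)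
    have hVr0 : 0 ≤ Vr := sum_nonneg hterm
    rw [div_le_iff₀ hS0]
    refine le_of_mul_le_mul_left (h2.trans ?_) (hω w)
    calc 9 * Vr = 18 * Vr * (1 / 2) := by ring
      _ ≤ 18 * Vr * (ω w * S) := mul_le_mul_of_nonneg_left h3 (by positivity)
      _ = _ := by ring
  have T4 : (a₄ - a₅) ^ 2 ≤ 2 * Vr := by
    have e : a₅ - a₄ = (∑ x ∈ m.Om w, W f ω x * (g x - gt x.1 x.2)) / Wt := by
      rw [ha₄, ha₅, ← sub_div, ← sum_sub_distrib]
      congr 1
      exact sum_congr rfl fun X _ => by ring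
    rw [← neg_sub, neg_sq, e]
    refine (rp_jensen (m.Om w) (W f ω) (fun x => g x - gt x.1 x.2)
      (fun x hx => (hW x hx).le) hWt0).trans ?_
    have hVr0 : 0 ≤ Vr := sum_nonneg hterm
    rw [div_le_iff₀ hWt0]
    calc Vr = 2 * Vr * (1 / 2) := by ring
      _ ≤ _ := mul_le_mul_of_nonneg_left hWt (by positivity)
  have T3 : (a₃ - a₄) ^ 2 ≤ 4 * (N / (lam * κ) * Dt) := by
    have hcl : ∀ a, (a₃ - (∑ X ∈ m.cl a w, wt f X * gt X a) / m.Z f a w) ^ 2 ≤
        4 * (N / (lam * κ) * Dt) := by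
      intro a
      have := class_le hT.ne hf hκ0 hκ1 (fun a => 1 / ω a) hθ (m.t - ev w) hZ' gt hinv w a
      simp only [rp_cl_eq, hZw] at this
      refine this.trans ?_
      rw [mul_assoc]
      exact mul_le_mul_of_nonneg_left hΘD (by norm_num)
    have hpos : 0 < ∑ a, ω a * m.Z f a w := hWtot ▸ hWt0
    have e : a₃ - a₄ = (∑ a, ω a * m.Z f a w *
        (a₃ - (∑ X ∈ m.cl a w, wt f X * gt X a) / m.Z f a w)) / ∑ a, ω a * m.Z f a w := by
      have e1 : ∑ x ∈ m.Om w, W f ω x * gt x.1 x.2 = ∑ a, ω a * m.Z f a w *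
          ((∑ X ∈ m.cl a w, wt f X * gt X a) / m.Z f a w) := by
        rw [sum_Om]
        refine sum_congr rfl fun a _ => ?_
        rw [mul_assoc, mul_div_cancel₀ _ (hZ a).ne', mul_sum]
        exact sum_congr rfl fun X _ => by simp only [W]; ring
      simp only [mul_sub]
      rw [sum_sub_distrib, ← sum_mul, sub_div, mul_div_cancel_left₀ _ hpos.ne', ha₄, e1, hWtot]
    rw [e]
    refine (rp_jensen univ (fun a => ω a * m.Z f a w)
      (fun a => a₃ - (∑ X ∈ m.cl a w, wt f X * gt X a) / m.Z f a w)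
      (fun a _ => (mul_pos (hω a) (hZ a)).le) hpos).trans ?_
    rw [div_le_iff₀ hpos, mul_sum]
    exact sum_le_sum fun a _ => by
      rw [mul_comm]
      exact mul_le_mul_of_nonneg_right (hcl a) (mul_pos (hω a) (hZ a)).le
  have hND : 0 ≤ N / (lam * κ) * Dt := by positivity
  have T2 : (a₂ - a₃) ^ 2 ≤ 16 * Λ * (N / (lam * κ) * Dt) := by
    rcases hv with hv | hv
    · have := tilt_le hT.ne hf hκ0 hκ1 (fun a => 1 / ω a) hθ (m.t - ev w) hZ' gt hinv e₀ ψ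
        (H := 8) hΛ0 (fun x x' h1 h2 h3 h4 => by
          have := hψ x h1 h2
          have := hψ x' h3 h4
          rw [abs_le]; constructor <;> linarith) hΛ
      simp only [rp_cl_eq, hZw, hv] at this
      have e : a₂ - a₃ = ((∑ X ∈ m.cl w w, wt f X * (ψ (X e₀) * gt X w)) -
          S * (∑ X ∈ m.cl w w, wt f X * gt X w) / m.Z f w w) / S := by
        rw [ha₂, ha₃, sub_div, mul_div_assoc, mul_div_cancel_left₀ _ hS0.ne']
        simp only [mul_assoc]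
      rw [e, div_pow, div_le_iff₀ (by positivity)]
      refine this.trans ?_
      have h1 : m.Z f w w ^ 2 ≤ S ^ 2 := pow_le_pow_left₀ (hZ w).le hZS 2
      calc 2 * 8 * Λ * m.Z f w w ^ 2 * (∑ c, 1 / ω c / m.Z f c w) * (Dt / κ)
          = 16 * Λ * m.Z f w w ^ 2 * ((∑ c, 1 / ω c / m.Z f c w) * (Dt / κ)) := by ring
        _ ≤ 16 * Λ * m.Z f w w ^ 2 * (N / (lam * κ) * Dt) :=
          mul_le_mul_of_nonneg_left hΘD (by positivity)
        _ ≤ 16 * Λ * S ^ 2 * (N / (lam * κ) * Dt) := by gcongr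
        _ = _ := by ring
    · have e : a₂ = a₃ := by
        rw [ha₂, ha₃, hSdef]
        simp only [hv, mul_one]
        rfl
      rw [e, sub_self]
      have : 0 ≤ 16 * Λ * (N / (lam * κ) * Dt) := by positivity
      simpa using this
  have hsum : (a₁ - a₅) ^ 2 ≤
      4 * ((a₁ - a₂) ^ 2 + (a₂ - a₃) ^ 2 + (a₃ - a₄) ^ 2 + (a₄ - a₅) ^ 2) := rp_four _ _ _ _ _
  have hfin : (16 * Λ + 4) * (N / (lam * κ) * Dt) ≤
      (16 * Λ + 4) * (N / (lam * κ) * ((3 + 6 * M * CF) * Da)) := by gcongr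
  refine hsum.trans ?_
  calc 4 * ((a₁ - a₂) ^ 2 + (a₂ - a₃) ^ 2 + (a₃ - a₄) ^ 2 + (a₄ - a₅) ^ 2)
      ≤ 4 * (20 * Vr + (16 * Λ + 4) * (N / (lam * κ) * Dt)) := by linarith
    _ ≤ 4 * (20 * (CF * Da) + (16 * Λ + 4) * (N / (lam * κ) * ((3 + 6 * M * CF) * Da))) := by
      linarith
    _ = _ := by ring

end Mdl

end Crest.Agent.R309
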