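import Crest.Agent.R309.LorLim

/-!
# Row 309: enlarging long capacity intervals a little changes the count a little

Enlarge one side of one cell at a time.  In the current box (between the old and the new one) let
`m k` be the number of flows with `X e = k`; `marg_le` with `f = 1` gives
`m (a-1) * m (b+1) ≤ m a * m b` for `a ≤ b`, hence `m (x - i) * m (y + i) ≤ m x * m y` for `x ≤ y`.
`m lo, m hi ≥ 1`, so `m k ≥ 1` on `[lo, hi]` (integers), and `m ≤ 2 ^ b`.  With `d = (hi - lo) / (b + 1)`: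
`m hi ≤ 2 * m (hi - i)` for `i ≤ d` (else the ratios `m (hi - (k+1) i) / m (hi - k i)` stay below `1/2` and
`m (hi - (b+1) i) < 1`), so `m (hi + j) ≤ 2 * m hi` for `j ≤ d`.  The new mass is at most `2 Δ m hi`, the
old one at least `(d + 1) * m hi / 2`, and `4 E Δ ≤ d`.  The lower side is symmetric.
-/

set_option autoImplicit false

namespace Crest.Agent.R309

open Finset

/-- The one-dimensional statement. -/
theorem relax_one (m : ℤ → ℕ) (hlc : ∀ a b, a ≤ b → m (a - 1) * m (b + 1) ≤ m a * m b)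
    {lo hi Δ : ℤ} {b E : ℕ} (hE : 0 < E) (hΔ : 0 ≤ Δ) (hlo : 1 ≤ m lo) (hhi : 1 ≤ m hi)
    (hb : ∀ k, m k ≤ 2 ^ b) (hgap : 4 * E * (b + 1) * Δ ≤ hi - lo) :
    E * ∑ k ∈ Ioc hi (hi + Δ), m k ≤ ∑ k ∈ Icc lo hi, m k := by
  have shift : ∀ (i : ℕ) (x y : ℤ), x ≤ y → m (x - i) * m (y + i) ≤ m x * m y := by
    intro i x y hxy
    induction i with
    | zero => simp
    | succ i ih =>
      have h := hlc (x - i) (y + i) (by omega)
      have e1 : x - ((i + 1 : ℕ) : ℤ) = x - i - 1 := by push_cast; ring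
      have e2 : y + ((i + 1 : ℕ) : ℤ) = y + i + 1 := by push_cast; ring
      rw [e1, e2]
      exact h.trans ih
  have shift' : ∀ (i x y : ℤ), 0 ≤ i → x ≤ y → m (x - i) * m (y + i) ≤ m x * m y := by
    intro i x y hi hxy
    obtain ⟨n, rfl⟩ := Int.eq_ofNat_of_zero_le hi
    exact shift n x y hxy
  have pos : ∀ k, lo ≤ k → k ≤ hi → 1 ≤ m k := by
    intro k h1 h2
    have h0 : 1 ≤ m lo * m hi := Nat.mul_pos hlo hhi
    rcases le_total (2 * k) (lo + hi) with h | h
    · have := shift' (k - lo) k (hi - (k - lo)) (by omega) (by omega)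
      rw [sub_sub_cancel, sub_add_cancel] at this
      exact Nat.pos_of_mul_pos_right (h0.trans this)
    · have := shift' (hi - k) (lo + (hi - k)) k (by omega) (by omega)
      rw [add_sub_cancel_right, add_sub_cancel] at this
      exact Nat.pos_of_mul_pos_left (h0.trans this)
  obtain ⟨d, hd⟩ : ∃ d : ℤ, d = 4 * E * Δ := ⟨_, rfl⟩
  have hE' : (1 : ℤ) ≤ E := by exact_mod_cast hE
  have hΔd : Δ ≤ d := by rw [hd]; nlinarith
  have hd0 : 0 ≤ d := hΔ.trans hΔd
  have hbd : (b + 1) * d ≤ hi - lo := by rw [hd]; linarith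
  have hA : ∀ i, 0 ≤ i → i ≤ d → m hi ≤ 2 * m (hi - i) := by
    intro i hi0 hid
    by_contra hcon
    have hlt : 2 * m (hi - i) ≤ m hi := by omega
    have step : ∀ k : ℕ, 2 ^ (k + 1) * m (hi - (k + 1) * i) ≤ m hi := by
      intro k
      induction k with
      | zero => simpa using hlt
      | succ k ih =>
        have h1 := shift' i (hi - (k + 1) * i) (hi - i) hi0 (by nlinarith)
        rw [sub_add_cancel] at h1
        have e : hi - (((k + 1 : ℕ) : ℤ) + 1) * i = hi - (k + 1) * i - i := by push_cast; ring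
        rw [e]
        have h2 : 2 * m (hi - (k + 1) * i - i) * m hi ≤ m (hi - (k + 1) * i) * m hi := by
          nlinarith [Nat.mul_le_mul_left (m (hi - (k + 1) * i)) hlt]
        have h3 := Nat.le_of_mul_le_mul_right h2 hhi
        calc 2 ^ (k + 1 + 1) * m (hi - (k + 1) * i - i)
            = 2 ^ (k + 1) * (2 * m (hi - (k + 1) * i - i)) := by ring
          _ ≤ 2 ^ (k + 1) * m (hi - (k + 1) * i) := Nat.mul_le_mul_left _ h3
          _ ≤ m hi := ih
    have h1 := step b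
    have h2 := pos (hi - (b + 1) * i) (by nlinarith) (by nlinarith)
    have h3 := hb hi
    have h4 : 2 ^ (b + 1) * 1 ≤ 2 ^ (b + 1) * m (hi - (b + 1) * i) := Nat.mul_le_mul_left _ h2
    have h5 : 0 < 2 ^ b := by positivity
    rw [pow_succ] at h4 h1
    omega
  have hB : ∀ k ∈ Ioc hi (hi + Δ), m k ≤ 2 * m hi := by
    intro k hk
    rw [mem_Ioc] at hk
    have h1 := shift' (k - hi) hi hi (by omega) le_rfl
    rw [add_sub_cancel] at h1
    have h2 := hA (k - hi) (by omega) (by omega)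
    have h3 : m k * m hi ≤ 2 * m hi * m hi := by nlinarith [Nat.mul_le_mul_left (m k) h2]
    exact Nat.le_of_mul_le_mul_right h3 hhi
  have h1 := sum_le_card_nsmul _ _ _ hB
  rw [Int.card_Ioc, smul_eq_mul] at h1
  have h2 : (Icc (hi - d) hi).card • m hi ≤ ∑ k ∈ Icc (hi - d) hi, 2 * m k := by
    refine card_nsmul_le_sum _ _ _ fun k hk => ?_
    rw [mem_Icc] at hk
    have := hA (hi - k) (by omega) (by omega)
    rwa [sub_sub_cancel] at this
  rw [Int.card_Icc, smul_eq_mul, ← mul_sum] at h2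
  have h3 : ∑ k ∈ Icc (hi - d) hi, m k ≤ ∑ k ∈ Icc lo hi, m k :=
    sum_le_sum_of_subset (Icc_subset_Icc_left (by nlinarith))
  obtain ⟨D, rfl⟩ := Int.eq_ofNat_of_zero_le hΔ
  have e1 : (hi + D - hi).toNat = D := by omega
  have e2 : (hi + 1 - (hi - d)).toNat = 4 * E * D + 1 := by
    have : d = ((4 * E * D : ℕ) : ℤ) := by rw [hd]; push_cast; ring
    omega
  rw [e1] at h1
  rw [e2] at h2
  nlinarith [Nat.mul_le_mul_left E h1]

variable {V : Type} [Fintype V] [DecidableEq V] {M : ℕ}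

/-- Enlarging one cell on both sides. -/
theorem relax_cell (u v : Fin M → V) (huv : ∀ e, u e ≠ v e) {lo₁ hi₁ lo₂ hi₂ : Fin M → ℤ}
    (β : V → ℤ) (e : Fin M) {b E : ℕ} (hE : 0 < E) {l h l' h' : ℤ} (hl : l' ≤ l) (hh : h ≤ h')
    (e1 : lo₂ e = l') (e2 : hi₂ e = h')
    (hsub : ∀ X, X ∈ cls u v lo₁ hi₁ β ↔ X ∈ cls u v lo₂ hi₂ β ∧ l ≤ X e ∧ X e ≤ h)
    (hb : (cls u v lo₂ hi₂ β).card ≤ 2 ^ b) (ht1 : ∃ X ∈ cls u v lo₂ hi₂ β, X e = l)
    (ht2 : ∃ X ∈ cls u v lo₂ hi₂ β, X e = h) (_hlh : l ≤ h)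
    (hgap : 4 * E * (b + 1) * (l - l') ≤ h - l ∧ 4 * E * (b + 1) * (h' - h) ≤ h - l) :
    ((cls u v lo₂ hi₂ β).card : ℝ) ≤ (1 + 1 / E) ^ (2 * 1) * (cls u v lo₁ hi₁ β).card := by
  classical
  obtain ⟨m, hm⟩ : ∃ m : ℤ → ℕ, ∀ k, m k = ((cls u v lo₂ hi₂ β).filter fun X => X e = k).card :=
    ⟨_, fun _ => rfl⟩
  have hlc : ∀ a b, a ≤ b → m (a - 1) * m (b + 1) ≤ m a * m b := by
    intro a c hac
    have := marg_le (lo := lo₂) (hi := hi₂) (f := fun _ _ => 1) (thin := fun _ => False) (κ := 0)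
      huv ⟨by simp, by simp, by simp⟩ β e hac
    simp only [wt, prod_const_one, sum_const, nsmul_eq_mul, mul_one] at this
    rw [hm, hm, hm, hm]
    exact_mod_cast this
  have hmb : ∀ k, m k ≤ 2 ^ b := fun k => by rw [hm]; exact (card_filter_le _ _).trans hb
  have p1 : 1 ≤ m l := by
    obtain ⟨X, hX, hX'⟩ := ht1
    rw [hm]; exact card_pos.2 ⟨X, mem_filter.2 ⟨hX, hX'⟩⟩
  have p2 : 1 ≤ m h := by
    obtain ⟨X, hX, hX'⟩ := ht2
    rw [hm]; exact card_pos.2 ⟨X, mem_filter.2 ⟨hX, hX'⟩⟩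
  have fib : ∀ s : Finset ℤ, ∑ k ∈ s, m k = ((cls u v lo₂ hi₂ β).filter fun X => X e ∈ s).card := by
    intro s
    simp only [hm]
    exact sum_card_fiberwise_eq_card_filter _ s fun X : Fin M → ℤ => X e
  have up := relax_one m hlc (lo := l) (hi := h) (Δ := h' - h) hE (by omega) p1 p2 hmb hgap.2
  rw [add_sub_cancel] at up
  have dn := relax_one (fun k => m (-k)) (fun a c hac => by
      have := hlc (-c) (-a) (by omega)
      rw [show -(a - 1) = -a + 1 by ring, show -(c + 1) = -c - 1 by ring]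
      linarith) (lo := -h) (hi := -l) (Δ := l - l') hE (by omega) (by simpa using p2)
      (by simpa using p1) (fun k => hmb _) (by linarith [hgap.1])
  have r1 : ∑ k ∈ Ioc (-l) (-l + (l - l')), m (-k) = ∑ k ∈ Ico l' l, m k := by
    refine sum_nbij' (fun k => -k) (fun k => -k) ?_ ?_ ?_ ?_ ?_ <;> intro k hk <;>
      simp only [mem_Ioc, mem_Ico, neg_neg] at hk ⊢ <;> omega
  have r2 : ∑ k ∈ Icc (-h) (-l), m (-k) = ∑ k ∈ Icc l h, m k := by
    refine sum_nbij' (fun k => -k) (fun k => -k) ?_ ?_ ?_ ?_ ?_ <;> intro k hk <;>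
      simp only [mem_Icc, neg_neg] at hk ⊢ <;> omega
  rw [r1, r2] at dn
  have c1 : (cls u v lo₁ hi₁ β).card = ∑ k ∈ Icc l h, m k := by
    rw [fib]
    congr 1
    ext X
    rw [hsub, mem_filter, mem_Icc]
  have c2 : (cls u v lo₂ hi₂ β).card ≤
      ∑ k ∈ Ico l' l, m k + ∑ k ∈ Icc l h, m k + ∑ k ∈ Ioc h h', m k := by
    rw [fib, fib, fib]
    refine le_trans (card_le_card fun X hX => ?_)
      ((card_union_le _ _).trans (Nat.add_le_add_right (card_union_le _ _) _))
    have := (mem_cls.1 hX).1 e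
    simp only [mem_union, mem_filter, hX, true_and, mem_Ico, mem_Icc, mem_Ioc]
    omega
  rw [c1]
  have hE' : (0 : ℝ) < E := by exact_mod_cast hE
  have up' : (E : ℝ) * (∑ k ∈ Ioc h h', m k : ℕ) ≤ (∑ k ∈ Icc l h, m k : ℕ) := by
    exact_mod_cast up
  have dn' : (E : ℝ) * (∑ k ∈ Ico l' l, m k : ℕ) ≤ (∑ k ∈ Icc l h, m k : ℕ) := by
    exact_mod_cast dn
  have c2' : ((cls u v lo₂ hi₂ β).card : ℝ) ≤ (∑ k ∈ Ico l' l, m k : ℕ) +
      (∑ k ∈ Icc l h, m k : ℕ) + (∑ k ∈ Ioc h h', m k : ℕ) := by exact_mod_cast c2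
  generalize ((∑ k ∈ Ioc h h', m k : ℕ) : ℝ) = A at *
  generalize ((∑ k ∈ Ico l' l, m k : ℕ) : ℝ) = B at *
  have hC : (0 : ℝ) ≤ (∑ k ∈ Icc l h, m k : ℕ) := Nat.cast_nonneg _
  generalize ((∑ k ∈ Icc l h, m k : ℕ) : ℝ) = C at *
  have a1 : A ≤ 1 / E * C := by rw [one_div, inv_mul_eq_div, le_div_iff₀ hE']; linarith
  have a2 : B ≤ 1 / E * C := by rw [one_div, inv_mul_eq_div, le_div_iff₀ hE']; linarith
  have a3 : 0 ≤ (1 / (E : ℝ)) ^ 2 * C := by positivity
  nlinarith

theorem relax (u v : Fin M → V) (huv : ∀ e, u e ≠ v e) (lo hi lo' hi' : Fin M → ℤ) (β : V → ℤ)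
    (hlo : ∀ e, lo' e ≤ lo e) (hhi : ∀ e, hi e ≤ hi' e) {b E : ℕ} (hE : 0 < E)
    (hb : (cls u v lo' hi' β).card ≤ 2 ^ b)
    (htight : ∀ e, (∃ X ∈ cls u v lo hi β, X e = lo e) ∧ ∃ X ∈ cls u v lo hi β, X e = hi e)
    (hgap : ∀ e, 4 * E * (b + 1) * (lo e - lo' e) ≤ hi e - lo e ∧
      4 * E * (b + 1) * (hi' e - hi e) ≤ hi e - lo e) :
    ((cls u v lo' hi' β).card : ℝ) ≤ (1 + 1 / E) ^ (2 * M) * (cls u v lo hi β).card := by
  classical
  have hE' : (0 : ℝ) < E := by exact_mod_cast hE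
  have key : ∀ S : Finset (Fin M),
      ((cls u v (fun e => if e ∈ S then lo' e else lo e) (fun e => if e ∈ S then hi' e else hi e)
        β).card : ℝ) ≤ (1 + 1 / E) ^ (2 * S.card) * (cls u v lo hi β).card := by
    intro S
    induction S using Finset.induction_on with
    | empty => simp
    | insert e S he ih =>
      rw [card_insert_of_notMem he, mul_add, pow_add, mul_assoc, mul_left_comm]
      refine le_trans ?_ (mul_le_mul_of_nonneg_left ih (by positivity))
      refine relax_cell u v huv β e hE (hlo e) (hhi e) ?_ ?_ ?_ ?_ ?_ ?_ ?_ (hgap e)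
      · simp
      · simp
      · intro X
        simp only [mem_cls]
        constructor
        · rintro ⟨h1, h2⟩
          refine ⟨⟨fun i => ?_, h2⟩, by simpa [he] using h1 e⟩
          have h3 := h1 i
          have h4 := hlo i
          have h5 := hhi i
          by_cases hi : i = e
          · subst hi; simp only [he, if_false, mem_insert_self, if_true] at h3 ⊢; omega
          · simpa [hi] using h3
        · rintro ⟨⟨h1, h2⟩, h3⟩
          refine ⟨fun i => ?_, h2⟩
          by_cases hi : i = e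
          · subst hi; simpa [he] using h3
          · simpa [hi] using h1 i
      · refine le_trans (card_le_card fun X hX => ?_) hb
        rw [mem_cls] at hX ⊢
        refine ⟨fun i => ?_, hX.2⟩
        have h3 := hX.1 i
        have h4 := hlo i
        have h5 := hhi i
        split_ifs at h3 <;> omega
      · obtain ⟨X, hX, hX'⟩ := (htight e).1
        refine ⟨X, ?_, hX'⟩
        rw [mem_cls] at hX ⊢
        refine ⟨fun i => ?_, hX.2⟩
        have h3 := hX.1 i
        have h4 := hlo i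
        have h5 := hhi i
        split_ifs <;> omega
      · obtain ⟨X, hX, hX'⟩ := (htight e).2
        refine ⟨X, ?_, hX'⟩
        rw [mem_cls] at hX ⊢
        refine ⟨fun i => ?_, hX.2⟩
        have h3 := hX.1 i
        have h4 := hlo i
        have h5 := hhi i
        split_ifs <;> omega
      · obtain ⟨X, hX, -⟩ := (htight e).1
        have := (mem_cls.1 hX).1 e
        omega
  simpa using key univ

end Crest.Agent.R309
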