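import Crest.Agent.R309.WtA
import Crest.Agent.R309.Relax

/-!
# Row 309: the first and the last stage

Stage `0`: every factor is in `[1 - 1/n³, 1]` on the box (`y / sig ≤ -n³`, `exp (-n³) ≤ 1/n³`), and by
`Forest.sum_cl` for `mdlS` (balance is trivial: `root` is constant) every class is in bijection with `mdlS.fbox`,
of cardinality `Zbar`.
Stage `S` (all counters `n^33`): a true solution has weight `≥ 1 - 3/n²`.  Conversely a flow of the model has
weight `≤ exp (-2 n³)` if some star cell is nonzero (`exp (-n^33 / n^28)`) or some tree cell is more than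
`3 n³ sig` outside `[lo, hi]`; these contribute at most `2 ^ (n³) exp (-2 n³) ≤ 1/n²` (`card_box`).  The others
lie in the box enlarged by `3 n³ sig` (tree cells, both sides) and `hi' - hi < st` (free cells), have weight `≤ 1`,
and `relax` with `b = E = n³` bounds their number by `(1 + 1/n³)^(2M) cnt`.
-/

set_option autoImplicit false

namespace Crest.Agent.R309.Pre

open Finset

variable {p : Pre}

theorem OK.nR (h : p.OK) : (64 : ℝ) ≤ p.n := by exact_mod_cast h.n_ge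

theorem abs_le_len {e : ℕ} {x : ℤ} (h1 : p.lo' e ≤ x) (h2 : x ≤ p.hi' e) : |x - p.lo' e| ≤ p.len e := by
  rw [abs_of_nonneg (by linarith)]
  unfold len; linarith

theorem OK.fR_pos' (h : p.OK) (j : ℕ) (e : Fin p.I.M) {x : ℤ} (h1 : p.lo' e ≤ x) (h2 : x ≤ p.hi' e) :
    0 < p.fR j e x :=
  h.fR_pos j e (by linarith [abs_le_len h1 h2, h.len_pos e])

theorem OK.wt_pos (h : p.OK) (s : ℕ) {X : Fin p.I.M → ℤ} (hX : X ∈ box p.mdl.lo p.mdl.hi) : 0 < wt (p.f s) X :=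
  prod_pos fun e _ => h.fR_pos' _ e (mem_box.1 hX e).1 (mem_box.1 hX e).2

theorem OK.wt_le_one (h : p.OK) (s : ℕ) {X : Fin p.I.M → ℤ} (hX : X ∈ box p.mdl.lo p.mdl.hi) : wt (p.f s) X ≤ 1 :=
  prod_le_one (fun e _ => (h.fR_pos' _ e (mem_box.1 hX e).1 (mem_box.1 hX e).2).le)
    fun e _ => h.fR_le_one _ e (mem_box.1 hX e).1 (mem_box.1 hX e).2

theorem exp_neg_le_inv {y : ℝ} (hy : 0 < y) : Real.exp (-y) ≤ 1 / y := by
  rw [Real.exp_neg, ← one_div]
  exact one_div_le_one_div_of_le hy (by linarith [Real.add_one_le_exp y])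

theorem OK.fR_ge (h : p.OK) (j : ℕ) (e : Fin p.I.M) {x : ℤ} (h1 : p.lo' e ≤ x) (h2 : x ≤ p.hi' e)
    (hs : p.star e = true → j = 0 ∨ x = 0)
    (ht : p.tree e = true → p.y1 j e x ≤ -(p.nZ ^ 3 * p.sig e) ∧ p.y2 j e x ≤ -(p.nZ ^ 3 * p.sig e)) :
    1 - 3 / (p.n : ℝ) ^ 3 ≤ p.fR j e x := by
  have hn := h.nR
  have hq := (h.quad_bounds e (c := 1) (x := x) (by simpa using abs_le_len h1 h2)).1
  simp only [Nat.cast_one, one_pow] at hq
  have hn3 : (0 : ℝ) < (p.n : ℝ) ^ 3 := by positivity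
  have hδ : 1 / (p.n : ℝ) ^ 3 ≤ 1 / 64 ^ 3 := by gcongr
  have hδ0 : 0 < 1 / (p.n : ℝ) ^ 3 := by positivity
  have e3 : 3 / (p.n : ℝ) ^ 3 = 3 * (1 / (p.n : ℝ) ^ 3) := by ring
  rw [e3]
  generalize hd : 1 / (p.n : ℝ) ^ 3 = δ at *
  unfold fR
  by_cases hst : p.star e = true
  · have hy : p.y1 j e x = 0 ∧ p.y2 j e x = 0 := by
      rcases hs hst with h0 | h0 <;> simp [y1, y2, hst, h0]
    simp only [ann, hst, Bool.true_or, if_true, hy.1, hy.2, cc, Int.cast_zero, zero_div, Real.exp_zero, zero_add,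
      mul_one, div_one]
    linarith
  by_cases htr : p.tree e = true
  · have hsig : (0 : ℝ) < p.sig e := by exact_mod_cast h.sig_pos e
    have key : ∀ y : ℤ, y ≤ -(p.nZ ^ 3 * p.sig e) → Real.exp ((y : ℝ) / p.sig e) ≤ δ := by
      intro y hy
      rw [← hd]
      refine le_trans (Real.exp_le_exp.2 ?_) (exp_neg_le_inv hn3)
      rw [div_le_iff₀ hsig]
      have : (y : ℝ) ≤ -(((p.nZ : ℤ) : ℝ) ^ 3 * p.sig e) := by exact_mod_cast hy
      simpa [nZ] using this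
    have k1 := key _ (ht htr).1
    have k2 := key _ (ht htr).2
    simp only [ann, htr, Bool.or_true, if_true, cc, den, if_neg hst, Int.cast_one]
    have p1 := Real.exp_pos ((p.y1 j e x : ℝ) / p.sig e)
    have p2 := Real.exp_pos ((p.y2 j e x : ℝ) / p.sig e)
    generalize Real.exp ((p.y1 j e x : ℝ) / p.sig e) = u at *
    generalize Real.exp ((p.y2 j e x : ℝ) / p.sig e) = v at *
    have h3 : 1 - 2 * δ ≤ 1 / ((1 + u) * (1 + v)) := by
      rw [le_div_iff₀ (by positivity)]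
      have h4 : (1 + u) * (1 + v) ≤ (1 + δ) * (1 + δ) := by gcongr
      have h5 := mul_le_mul_of_nonneg_left h4 (show 0 ≤ 1 - 2 * δ by linarith)
      nlinarith [mul_pos hδ0 hδ0, mul_pos (mul_pos hδ0 hδ0) hδ0]
    have h6 := mul_le_mul hq h3 (by linarith) (by linarith)
    nlinarith [mul_pos hδ0 hδ0]
  · have : p.ann e = false := by simp [ann, hst, htr]
    simp only [this, Bool.false_eq_true, if_false, mul_one]
    linarith

theorem OK.wt_ge (h : p.OK) (s : ℕ) {X : Fin p.I.M → ℤ}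
    (hX : ∀ e, 1 - 3 / (p.n : ℝ) ^ 3 ≤ p.f s e (X e)) : 1 - 3 / (p.n : ℝ) ^ 2 ≤ wt (p.f s) X := by
  have hn := h.nR
  have hδ : 3 / (p.n : ℝ) ^ 3 ≤ 3 / 64 ^ 3 := by gcongr
  have hM : (p.I.M : ℝ) ≤ p.n := by exact_mod_cast (show p.I.M ≤ p.n by have := h.M_le; omega)
  have h1 : ∏ _e : Fin p.I.M, (1 - 3 / (p.n : ℝ) ^ 3) ≤ wt (p.f s) X :=
    prod_le_prod (fun e _ => by linarith) fun e _ => hX e
  rw [prod_const, card_univ, Fintype.card_fin] at h1
  have h2 := one_add_mul_le_pow (a := -(3 / (p.n : ℝ) ^ 3)) (by linarith) p.I.M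
  have h3 : (p.I.M : ℝ) * (3 / (p.n : ℝ) ^ 3) ≤ p.n * (3 / (p.n : ℝ) ^ 3) :=
    mul_le_mul_of_nonneg_right hM (by positivity)
  have h4 : (p.n : ℝ) * (3 / (p.n : ℝ) ^ 3) = 3 / (p.n : ℝ) ^ 2 := by field_simp
  rw [← sub_eq_add_neg] at h2
  linarith

theorem OK.wt_zero (h : p.OK) {X : Fin p.I.M → ℤ} (hX : X ∈ box p.mdl.lo p.mdl.hi) :
    1 - 3 / (p.n : ℝ) ^ 2 ≤ wt (p.f 0) X ∧ wt (p.f 0) X ≤ 1 := by
  refine ⟨h.wt_ge 0 fun e => ?_, h.wt_le_one 0 hX⟩
  have h1 : p.lo' e ≤ X e := (mem_box.1 hX e).1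
  have h2 : X e ≤ p.hi' e := (mem_box.1 hX e).2
  unfold f
  rw [jj_zero]
  refine h.fR_ge 0 e h1 h2 (fun _ => Or.inl rfl) fun ht => ?_
  have hs := (h.tree_thick ht).2
  simp only [lo', hi', hs, ht, Bool.false_eq_true, if_false, if_true] at h1 h2
  simp only [y1, y2, hs, Bool.false_eq_true, if_false, Nat.cast_zero, sub_zero]
  constructor <;> linarith

theorem OK.card_fbox (h : p.OK) : (p.mdlS.fbox.card : ℤ) = p.Zbar ∧ 0 < p.Zbar := by
  have h1 : p.Zbar = ∏ e : Fin p.I.M, if p.ann e = true then 1 else p.len e := by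
    rw [Zbar, tab_eq_ofFn, List.prod_ofFn]
  rw [h1]
  refine ⟨?_, prod_pos fun e _ => ?_⟩
  · rw [Mdl.fbox, box, Fintype.card_piFinset, Nat.cast_prod]
    refine prod_congr rfl fun e _ => ?_
    have := h.len_pos e
    rw [Int.card_Icc]
    simp only [mdlS]
    split_ifs
    · simp
    · unfold len at this ⊢
      omega
  · split_ifs
    · exact one_pos
    · exact h.len_pos e

theorem OK.sum_cl_zero (h : p.OK) (a w : p.I.V) (G : (Fin p.I.M → ℤ) → ℝ) :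
    ∑ X ∈ p.mdl.cl a w, G X = ∑ y ∈ p.mdlS.fbox, G (p.mdlS.Phi y a w) := by
  have h1 := h.forestS.sum_cl a w G
  rw [filter_true_of_mem fun y _ => by simp [Mdl.Bal, mdlS]] at h1
  exact h1

theorem OK.Z_pos (h : p.OK) (s : ℕ) (a w : p.I.V) : 0 < p.Z s a w := by
  unfold Z Mdl.Z
  rw [h.sum_cl_zero]
  refine sum_pos (fun y hy => h.wt_pos s (h.forestS.Phi_mem_box hy a w)) ?_
  have := h.card_fbox
  rw [← card_pos]
  omega

theorem OK.good_zero (h : p.OK) : p.Good 0 p.hist0 := by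
  refine ⟨rfl, fun i hi w a => ?_⟩
  obtain rfl : i = 0 := by omega
  have e : (rowOf p.hist0 0 w).getD a (1, 1) = (p.Zbar, 1) := by
    simp only [rowOf, hist0, List.getD_cons_zero]
    rw [getD_tab _ _ w.2, getD_tab _ _ a.2]
  rw [e]
  obtain ⟨hc, hZ⟩ := h.card_fbox
  refine ⟨hZ, one_pos, ?_⟩
  have hcR : (p.mdlS.fbox.card : ℝ) = p.Zbar := by exact_mod_cast hc
  have hZR : (0 : ℝ) < p.Zbar := by exact_mod_cast hZ
  have h1 : p.Z 0 a w ≤ p.Zbar := by
    unfold Z Mdl.Z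
    rw [h.sum_cl_zero, ← hcR]
    simpa using sum_le_card_nsmul _ _ _ fun y hy => (h.wt_zero (h.forestS.Phi_mem_box hy a w)).2
  have h2 : p.Zbar * (1 - 3 / (p.n : ℝ) ^ 2) ≤ p.Z 0 a w := by
    unfold Z Mdl.Z
    rw [h.sum_cl_zero, ← hcR]
    simpa using card_nsmul_le_sum _ _ _ fun y hy => (h.wt_zero (h.forestS.Phi_mem_box hy a w)).1
  have hn := h.nR
  have hδ : 1 / (p.n : ℝ) ^ 2 ≤ 1 / 64 ^ 2 := by gcongr
  have hδ0 : 0 < 1 / (p.n : ℝ) ^ 2 := by positivity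
  have e3 : 3 / (p.n : ℝ) ^ 2 = 3 * (1 / (p.n : ℝ) ^ 2) := by ring
  have e4 : 4 / (p.n : ℝ) ^ 2 = 4 * (1 / (p.n : ℝ) ^ 2) := by ring
  rw [e3] at h2
  simp only [Int.cast_one, div_one, Nat.cast_zero, zero_div, add_zero, e4]
  generalize 1 / (p.n : ℝ) ^ 2 = δ at *
  rw [abs_of_nonneg (by linarith)]
  have h3 : 3 * (p.Zbar : ℝ) ≤ 4 * p.Z 0 a w := by nlinarith
  nlinarith

/-- the slightly enlarged box -/
def lo2 (p : Pre) (e : Fin p.I.M) : ℤ := if p.tree e = true then p.I.loN e - 3 * p.nZ ^ 3 * p.sig e else p.I.loN e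

def hi2 (p : Pre) (e : Fin p.I.M) : ℤ :=
  if p.tree e = true then p.I.hiN e + 3 * p.nZ ^ 3 * p.sig e else if p.free e = true then p.hi' e else p.I.hiN e

theorem OK.box2 (h : p.OK) (e : Fin p.I.M) : p.lo' e ≤ p.lo2 e ∧ p.hi2 e ≤ p.hi' e := by
  have h1 := h.lo'_le e
  unfold lo2 hi2
  split_ifs with ht hf
  · have hs := (h.tree_thick ht).2
    have hn := h.nZ_ge
    have h2 : 3 * p.nZ ^ 3 ≤ p.nZ ^ 33 := by
      calc 3 * p.nZ ^ 3 ≤ p.nZ * p.nZ ^ 3 := by gcongr; linarith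
        _ = p.nZ ^ 4 := by ring
        _ ≤ _ := pow_le_pow_right₀ (by linarith) (by norm_num)
    have h3 := mul_le_mul_of_nonneg_right h2 (h.sig_pos e).le
    simp only [lo', hi', hs, ht, Bool.false_eq_true, if_false, if_true]
    constructor <;> linarith
  · exact ⟨h1.1, le_rfl⟩
  · exact h1

theorem OK.card2 (h : p.OK) :
    ((cls p.I.u p.I.v p.lo2 p.hi2 p.I.t).card : ℝ) ≤ (1 + 4 / (p.n : ℝ) ^ 2) * p.I.cnt := by
  have hn := h.nZ_ge
  have hnR := h.nR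
  have hsig := fun e => h.sig_pos e
  have h1 := relax p.I.u p.I.v h.wf.u_ne_v p.I.lo p.I.hi p.lo2 p.hi2 p.I.t
    (fun e => by
      have := hsig e
      unfold lo2 Inst.lo
      split_ifs
      · have : 0 ≤ 3 * p.nZ ^ 3 * p.sig e := by positivity
        linarith
      · exact le_rfl)
    (fun e => by
      have := hsig e
      unfold hi2 Inst.hi
      split_ifs
      · have : 0 ≤ 3 * p.nZ ^ 3 * p.sig e := by positivity
        linarith
      · exact (h.lo'_le e).2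
      · exact le_rfl) (b := p.n ^ 3) (E := p.n ^ 3) (by have := h.n_ge; positivity)
    (le_trans (card_le_card fun X hX => mem_box.2 fun e =>
      ⟨(h.box2 e).1.trans ((mem_cls.1 hX).1 e).1, ((mem_cls.1 hX).1 e).2.trans (h.box2 e).2⟩) h.card_box)
    h.tight (fun e => by
      have hr := h.rho_nonneg e
      have hc : (4 : ℤ) * (p.n ^ 3 : ℕ) * ((p.n ^ 3 : ℕ) + 1) ≤ 8 * p.nZ ^ 6 := by
        push_cast
        change 4 * p.nZ ^ 3 * (p.nZ ^ 3 + 1) ≤ _
        have : 1 ≤ p.nZ ^ 3 := one_le_pow₀ (by linarith)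
        nlinarith
      have hc0 : (0 : ℤ) ≤ 4 * (p.n ^ 3 : ℕ) * ((p.n ^ 3 : ℕ) + 1) := by positivity
      generalize (4 : ℤ) * (p.n ^ 3 : ℕ) * ((p.n ^ 3 : ℕ) + 1) = c at *
      change c * (p.I.loN e - p.lo2 e) ≤ p.rho e ∧ c * (p.hi2 e - p.I.hiN e) ≤ p.rho e
      unfold lo2 hi2
      split_ifs with ht hf
      · have h2 := (h.sig_bounds (h.tree_thick ht).1).2
        have h3 := hsig e
        have h4 : c * (3 * p.nZ ^ 3 * p.sig e) ≤ 8 * p.nZ ^ 6 * (3 * p.nZ ^ 3 * p.sig e) :=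
          mul_le_mul_of_nonneg_right hc (by positivity)
        have h5 : 48 * (p.nZ ^ 9 * p.sig e) ≤ p.nZ * (p.nZ ^ 9 * p.sig e) :=
          mul_le_mul_of_nonneg_right (by linarith) (by positivity)
        constructor <;> nlinarith
      · obtain ⟨-, h2, -, -, h3⟩ := h.free_bounds hf
        have h4 := h.st_pos e
        have h5 : c * (p.hi' e - p.I.hiN e) ≤ 8 * p.nZ ^ 6 * p.st e :=
          mul_le_mul hc h3.le (by linarith [(h.lo'_le e).2]) (by positivity)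
        have h6 : 8 * p.nZ ^ 6 ≤ p.nZ ^ 26 := by
          calc 8 * p.nZ ^ 6 ≤ p.nZ * p.nZ ^ 6 := by gcongr; linarith
            _ = p.nZ ^ 7 := by ring
            _ ≤ _ := pow_le_pow_right₀ (by linarith) (by norm_num)
        have h7 := mul_le_mul_of_nonneg_right h6 h4.le
        constructor <;> linarith
      · constructor <;> linarith)
  refine h1.trans (mul_le_mul_of_nonneg_right ?_ (Nat.cast_nonneg _))
  have hM : (p.I.M : ℝ) ≤ p.n := by exact_mod_cast (show p.I.M ≤ p.n by have := h.M_le; omega)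
  push_cast
  have h2 : (1 + 1 / (p.n : ℝ) ^ 3) ^ (2 * p.I.M) ≤ Real.exp (1 / (p.n : ℝ) ^ 3) ^ (2 * p.I.M) :=
    pow_le_pow_left₀ (by positivity) (by linarith [Real.add_one_le_exp (1 / (p.n : ℝ) ^ 3)]) _
  rw [← Real.exp_nat_mul] at h2
  have h3 : ((2 * p.I.M : ℕ) : ℝ) * (1 / (p.n : ℝ) ^ 3) ≤ 2 * (1 / (p.n : ℝ) ^ 2) := by
    push_cast
    calc 2 * (p.I.M : ℝ) * (1 / (p.n : ℝ) ^ 3) ≤ 2 * p.n * (1 / (p.n : ℝ) ^ 3) := by gcongr
      _ = _ := by field_simp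
  have hδ : 1 / (p.n : ℝ) ^ 2 ≤ 1 / 64 ^ 2 := by gcongr
  have hδ0 : 0 < 1 / (p.n : ℝ) ^ 2 := by positivity
  have e4 : 4 / (p.n : ℝ) ^ 2 = 4 * (1 / (p.n : ℝ) ^ 2) := by ring
  rw [e4]
  generalize 1 / (p.n : ℝ) ^ 2 = δ at *
  refine h2.trans ((Real.exp_le_exp.2 h3).trans
    ((Real.exp_bound_div_one_sub_of_interval (by linarith) (by linarith)).trans ?_))
  rw [div_le_iff₀ (by linarith)]
  nlinarith

theorem OK.fR_out (h : p.OK) (e : Fin p.I.M) {x : ℤ} (h1 : p.lo' e ≤ x) (h2 : x ≤ p.hi' e)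
    (hx : ¬(p.lo2 e ≤ x ∧ x ≤ p.hi2 e)) : p.fR (p.n ^ 33) e x ≤ Real.exp (-(2 * (p.n : ℝ) ^ 3)) := by
  have hn := h.nZ_ge
  have hnR := h.nR
  have hq := (h.quad_bounds e (c := 1) (x := x) (by simpa using abs_le_len h1 h2)).2
  have key : ∀ D : ℝ, Real.exp (2 * (p.n : ℝ) ^ 3) ≤ D →
      (p.qn e x : ℝ) / p.qd e * (1 / D) ≤ Real.exp (-(2 * (p.n : ℝ) ^ 3)) := by
    intro D hD
    have hE := Real.exp_pos (2 * (p.n : ℝ) ^ 3)
    rw [Real.exp_neg, ← one_div]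
    exact (mul_le_of_le_one_left (by have := hE.trans_le hD; positivity) hq).trans (one_div_le_one_div_of_le hE hD)
  unfold fR
  by_cases hst : p.star e = true
  · obtain ⟨a1, a2, a3, a4⟩ := h.star_rho hst
    have hx0 : x ≠ 0 := by
      rintro rfl
      apply hx
      simp [lo2, hi2, free, a1, a2, a3, a4]
    simp only [ann, hst, Bool.true_or, if_true, cc, den, Int.cast_zero, zero_add]
    apply key
    rw [← Real.exp_add, ← add_div]
    apply Real.exp_le_exp.2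
    have hy : p.nZ ^ 33 ≤ p.y1 (p.n ^ 33) e x + p.y2 (p.n ^ 33) e x := by
      simp only [y1, y2, hst, if_true, Nat.cast_pow]
      change p.nZ ^ 33 ≤ p.nZ ^ 33 * _ + p.nZ ^ 33 * _
      rw [← mul_add]
      refine le_mul_of_one_le_right (by positivity) ?_
      split_ifs <;> omega
    have hyR : (p.n : ℝ) ^ 33 ≤ (p.y1 (p.n ^ 33) e x : ℝ) + p.y2 (p.n ^ 33) e x := by
      have : ((p.nZ : ℤ) : ℝ) ^ 33 ≤ (p.y1 (p.n ^ 33) e x : ℝ) + p.y2 (p.n ^ 33) e x := by exact_mod_cast hy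
      simpa [nZ] using this
    rw [le_div_iff₀ (by simp only [nZ]; push_cast; positivity)]
    refine le_trans ?_ hyR
    simp only [nZ]
    push_cast
    calc 2 * (p.n : ℝ) ^ 3 * (p.n : ℝ) ^ 28 = 2 * (p.n : ℝ) ^ 31 := by ring
      _ ≤ p.n * (p.n : ℝ) ^ 31 := by gcongr; linarith
      _ = (p.n : ℝ) ^ 32 := by ring
      _ ≤ _ := pow_le_pow_right₀ (by linarith) (by norm_num)
  by_cases htr : p.tree e = true
  · have hsig : (0 : ℝ) < p.sig e := by exact_mod_cast h.sig_pos e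
    simp only [ann, htr, Bool.or_true, if_true, cc, den, if_neg hst, Int.cast_one]
    apply key
    have k : ∀ y : ℤ, 2 * p.nZ ^ 3 * p.sig e ≤ y → Real.exp (2 * (p.n : ℝ) ^ 3) ≤ Real.exp ((y : ℝ) / p.sig e) := by
      intro y hy
      apply Real.exp_le_exp.2
      rw [le_div_iff₀ hsig]
      have : 2 * ((p.nZ : ℤ) : ℝ) ^ 3 * p.sig e ≤ y := by exact_mod_cast hy
      simpa [nZ] using this
    have p1 := Real.exp_pos ((p.y1 (p.n ^ 33) e x : ℝ) / p.sig e)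
    have p2 := Real.exp_pos ((p.y2 (p.n ^ 33) e x : ℝ) / p.sig e)
    have e1 : ((p.n ^ 33 : ℕ) : ℤ) = p.nZ ^ 33 := by simp [nZ]
    simp only [lo2, hi2, htr, if_true, not_and_or, not_le] at hx
    rcases hx with hx | hx
    · have := k (p.y2 (p.n ^ 33) e x) (by simp only [y2, if_neg hst, e1]; linarith)
      nlinarith [mul_pos p1 p2]
    · have := k (p.y1 (p.n ^ 33) e x) (by simp only [y1, if_neg hst, e1]; linarith)
      nlinarith [mul_pos p1 p2]
  · exfalso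
    apply hx
    simp only [lo', hi', lo2, hi2, if_neg hst, if_neg htr] at h1 h2 ⊢
    refine ⟨h1, ?_⟩
    split_ifs at h2 ⊢ <;> exact h2

theorem OK.Z_final (h : p.OK) (w : p.I.V) :
    |p.Z p.S w w - p.I.cnt| ≤ 5 / (p.n : ℝ) ^ 2 * p.I.cnt := by
  classical
  have hnR := h.nR
  have hcnt : (1 : ℝ) ≤ p.I.cnt := by
    have : 0 < p.I.cnt := card_pos.2 ⟨_, h.X0_mem⟩
    exact_mod_cast this
  have hbox : ∀ X ∈ p.solM, X ∈ box p.mdl.lo p.mdl.hi := fun X hX => mem_box.2 (mem_cls.1 hX).1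
  unfold Z Mdl.Z
  rw [cl_self]
  have hlow : (p.I.cnt : ℝ) * (1 - 3 / (p.n : ℝ) ^ 2) ≤ ∑ X ∈ p.solM, wt (p.f p.S) X := by
    have hsub : p.I.sol ⊆ p.solM := fun X hX => mem_cls.2 ⟨fun e =>
      ⟨(h.lo'_le e).1.trans ((mem_cls.1 hX).1 e).1, ((mem_cls.1 hX).1 e).2.trans (h.lo'_le e).2⟩, (mem_cls.1 hX).2⟩
    refine le_trans ?_ (sum_le_sum_of_subset_of_nonneg hsub fun X hX _ => (h.wt_pos _ (hbox X hX)).le)
    rw [← nsmul_eq_mul]
    refine card_nsmul_le_sum _ _ _ fun X hX => h.wt_ge _ fun e => ?_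
    have h1 : p.I.loN e ≤ X e := ((mem_cls.1 hX).1 e).1
    have h2 : X e ≤ p.I.hiN e := ((mem_cls.1 hX).1 e).2
    unfold f
    rw [jj_S]
    refine h.fR_ge _ e ((h.lo'_le e).1.trans h1) (h2.trans (h.lo'_le e).2) (fun hs => Or.inr ?_) fun ht => ?_
    · obtain ⟨a1, a2, -, -⟩ := h.star_rho hs
      omega
    · have hs := (h.tree_thick ht).2
      have e1 : ((p.n ^ 33 : ℕ) : ℤ) = p.nZ ^ 33 := by simp [nZ]
      simp only [y1, y2, hs, Bool.false_eq_true, if_false, e1]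
      constructor <;> linarith
  have hup : ∑ X ∈ p.solM, wt (p.f p.S) X ≤ (1 + 4 / (p.n : ℝ) ^ 2) * p.I.cnt + 1 / (p.n : ℝ) ^ 2 := by
    rw [← sum_filter_add_sum_filter_not p.solM fun X => X ∈ box p.lo2 p.hi2]
    refine add_le_add (le_trans ?_ h.card2) ?_
    · have h1 := sum_le_card_nsmul (p.solM.filter fun X => X ∈ box p.lo2 p.hi2) (fun X => wt (p.f p.S) X) 1
        fun X hX => h.wt_le_one _ (hbox X (mem_filter.1 hX).1)
      rw [nsmul_eq_mul, mul_one] at h1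
      refine h1.trans (Nat.cast_le.2 (card_le_card fun X hX => ?_))
      exact mem_cls.2 ⟨mem_box.1 (mem_filter.1 hX).2, (mem_cls.1 (mem_filter.1 hX).1).2⟩
    · have h1 := sum_le_card_nsmul (p.solM.filter fun X => ¬X ∈ box p.lo2 p.hi2) (fun X => wt (p.f p.S) X)
        (Real.exp (-(2 * (p.n : ℝ) ^ 3))) fun X hX => by
          have hb := mem_box.1 (hbox X (mem_filter.1 hX).1)
          obtain ⟨e, he⟩ := not_forall.1 (mt mem_box.2 (mem_filter.1 hX).2)
          have h2 := h.fR_out e (hb e).1 (hb e).2 he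
          rw [← jj_S p e] at h2
          refine le_trans ?_ h2
          unfold wt
          rw [← mul_prod_erase univ _ (mem_univ e)]
          exact mul_le_of_le_one_right (h.fR_pos' _ e (hb e).1 (hb e).2).le
            (prod_le_one (fun e' _ => (h.fR_pos' _ e' (hb e').1 (hb e').2).le)
              fun e' _ => h.fR_le_one _ e' (hb e').1 (hb e').2)
      rw [nsmul_eq_mul] at h1
      have h2 : ((p.solM.filter fun X => ¬X ∈ box p.lo2 p.hi2).card : ℝ) ≤ Real.exp ((p.n : ℝ) ^ 3) := by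
        have h3 : (p.solM.filter fun X => ¬X ∈ box p.lo2 p.hi2).card ≤ 2 ^ p.n ^ 3 :=
          (card_le_card fun X hX => hbox X (mem_filter.1 hX).1).trans h.card_box
        have h4 : ((p.solM.filter fun X => ¬X ∈ box p.lo2 p.hi2).card : ℝ) ≤ 2 ^ p.n ^ 3 := by exact_mod_cast h3
        refine h4.trans ?_
        rw [← Nat.cast_pow, ← mul_one ((p.n ^ 3 : ℕ) : ℝ), Real.exp_nat_mul]
        exact pow_le_pow_left₀ (by norm_num) (by linarith [Real.add_one_le_exp 1]) _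
      refine h1.trans ((mul_le_mul_of_nonneg_right h2 (Real.exp_pos _).le).trans ?_)
      rw [← Real.exp_add, show (p.n : ℝ) ^ 3 + -(2 * (p.n : ℝ) ^ 3) = -(p.n : ℝ) ^ 3 by ring]
      refine (exp_neg_le_inv (by positivity)).trans (one_div_le_one_div_of_le (by positivity) ?_)
      exact pow_le_pow_right₀ (by linarith) (by norm_num)
  have hδ0 : 0 < 1 / (p.n : ℝ) ^ 2 := by positivity
  have e3 : 3 / (p.n : ℝ) ^ 2 = 3 * (1 / (p.n : ℝ) ^ 2) := by ring
  have e4 : 4 / (p.n : ℝ) ^ 2 = 4 * (1 / (p.n : ℝ) ^ 2) := by ring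
  have e5 : 5 / (p.n : ℝ) ^ 2 = 5 * (1 / (p.n : ℝ) ^ 2) := by ring
  rw [e3] at hlow
  rw [e4] at hup
  rw [e5]
  generalize 1 / (p.n : ℝ) ^ 2 = δ at *
  have h5 := mul_le_mul_of_nonneg_left hcnt hδ0.le
  rw [abs_le]
  constructor <;> nlinarith

end Crest.Agent.R309.Pre
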