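import Crest.Agent.R309.WtA

/-!
# Row 309: smoothness of the weights along cycles

`cyc e` (free `e`) is `1` at `e`, `0` at the other non-tree cells (`Forest.cyc_apply`), and on a tree cell `t`
`st e * |cyc e t| ≤ 2 sig t / n^16` (`step_small`).
`sm`, `smp`: a logistic factor changes by a factor at most `exp (|shift| / σ)`, a quadratic one by at most
`1 / (1 - 1/n³)`.
`bo`: for a logistic factor `ℓ`, `ℓ(x+a) ℓ(x+b) / (ℓ(x) ℓ(x+a+b)) = 1 + C (α-1)(β-1) / ((1+Cα)(1+Cβ))`,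
`α = e^{±a/σ}`, `β = e^{±b/σ}`, `C > 0`: this is `1 + v_e v_e'` with `|v_e| ≤ |α - 1| / (2 sqrt α) ≤ |a| / σ ≤ 2 / n^16`.
So `1 + A e e' = (1 + [e = e'] a_e) * ∏ (1 + v_e v_e')` over `2 M` factors at most (put `A = 0` unless both cells are
free), where `a_e = quad(x+s)² / (quad x quad(x+2s)) - 1 ∈ [2 γ s², 8 γ s²]`, `γ s² = s² / (n³ len²) ∈ [1/(9 n^55), 1/n^55]`.
`schur` says that `∏ (1 + v v') - 1` is positive semidefinite (induction: `(J + R) ∘ (J + v vᵀ) - J = R + v vᵀ + R ∘ v vᵀ`).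
-/

set_option autoImplicit false
set_option maxHeartbeats 400000

namespace Crest.Agent.R309

open Finset

theorem schur {ι κ : Type} [Fintype ι] (s : Finset κ) (v : κ → ι → ℝ) (z : ι → ℝ) :
    0 ≤ ∑ e, ∑ e', (∏ k ∈ s, (1 + v k e * v k e') - 1) * z e * z e' := by
  classical
  induction s using Finset.induction_on generalizing z with
  | empty => simp
  | insert k s hk ih =>
    have h1 := ih z
    have h2 := ih fun e => v k e * z e
    have h3 : 0 ≤ (∑ e, v k e * z e) * ∑ e, v k e * z e := mul_self_nonneg _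
    rw [sum_mul_sum] at h3
    refine (add_nonneg (add_nonneg h1 h2) h3).trans_eq ?_
    rw [← sum_add_distrib, ← sum_add_distrib]
    refine sum_congr rfl fun e _ => ?_
    rw [← sum_add_distrib, ← sum_add_distrib]
    refine sum_congr rfl fun e' _ => ?_
    rw [prod_insert hk]
    ring

namespace WtB

/-- logistic factor -/
noncomputable def lg (y : ℝ) : ℝ := 1 / (1 + Real.exp y)

/-- the rank one vector of a logistic factor -/
noncomputable def lv (y u : ℝ) : ℝ := Real.exp (y / 2) * (Real.exp u - 1) / (1 + Real.exp (y + u))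

theorem lg_pos (y : ℝ) : 0 < lg y := by unfold lg; positivity

theorem lg_shift (y u : ℝ) : lg (y + u) ≤ Real.exp |u| * lg y := by
  unfold lg
  rw [mul_one_div, div_le_div_iff₀ (by positivity) (by positivity), one_mul, mul_add, mul_one,
    ← Real.exp_add]
  have h1 : 1 ≤ Real.exp |u| := Real.one_le_exp (abs_nonneg u)
  have h2 : Real.exp y ≤ Real.exp (|u| + (y + u)) :=
    Real.exp_le_exp.2 (by linarith [neg_abs_le u])
  linarith

theorem lg_id (y u u' : ℝ) :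
    lg (y + u) * lg (y + u') = (1 + lv y u * lv y u') * (lg y * lg (y + (u + u'))) := by
  have h : Real.exp y = Real.exp (y / 2) * Real.exp (y / 2) := by
    rw [← Real.exp_add]; congr 1; ring
  unfold lg lv
  simp only [Real.exp_add]
  rw [h]
  have := Real.exp_pos (y / 2)
  have := Real.exp_pos u
  have := Real.exp_pos u'
  field_simp
  ring

theorem lv_zero (y : ℝ) : lv y 0 = 0 := by simp [lv]

theorem lv_sq_le (y : ℝ) {u : ℝ} (hu : |u| ≤ 1 / 2) : lv y u ^ 2 ≤ 2 * u ^ 2 := by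
  have h : Real.exp y = Real.exp (y / 2) ^ 2 := by
    rw [sq, ← Real.exp_add]; congr 1; ring
  have h1 : (Real.exp u - 1) ^ 2 ≤ 4 * u ^ 2 := by
    have := Real.abs_exp_sub_one_le (x := u) (by linarith)
    have h2 := pow_le_pow_left₀ (abs_nonneg _) this 2
    rw [sq_abs, mul_pow, sq_abs] at h2
    linarith
  have h2 : 1 / 2 ≤ Real.exp u := by
    have := Real.add_one_le_exp u
    linarith [neg_abs_le u]
  unfold lv
  rw [div_pow, mul_pow, ← h, div_le_iff₀ (by positivity), Real.exp_add]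
  have h3 := Real.exp_pos y
  generalize Real.exp y = C at *
  generalize Real.exp u = α at *
  have h4 : 2 * C ≤ (1 + C * α) ^ 2 := by nlinarith [sq_nonneg (1 - C * α)]
  calc C * (α - 1) ^ 2 ≤ C * (4 * u ^ 2) := mul_le_mul_of_nonneg_left h1 h3.le
    _ = 2 * u ^ 2 * (2 * C) := by ring
    _ ≤ _ := mul_le_mul_of_nonneg_left h4 (by positivity)

theorem abs_lv_mul_le (y : ℝ) {u u' δ : ℝ} (hu : |u| ≤ δ) (hu' : |u'| ≤ δ) (hδ : δ ≤ 1 / 2) :
    |lv y u * lv y u'| ≤ 2 * δ ^ 2 := by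
  have h1 := lv_sq_le y (hu.trans hδ)
  have h2 := lv_sq_le y (hu'.trans hδ)
  have h3 : u ^ 2 ≤ δ ^ 2 := by rw [← sq_abs]; exact pow_le_pow_left₀ (abs_nonneg _) hu 2
  have h4 : u' ^ 2 ≤ δ ^ 2 := by rw [← sq_abs]; exact pow_le_pow_left₀ (abs_nonneg _) hu' 2
  rw [abs_le]
  constructor <;> nlinarith [sq_nonneg (lv y u - lv y u'), sq_nonneg (lv y u + lv y u')]

/-- the diagonal term of a quadratic factor -/
theorem quad_diag {g d s : ℝ} (hg : 0 ≤ g) (hd : 0 ≤ d) (hs : 0 ≤ s)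
    (hT : g * (d + 2 * s) ^ 2 ≤ 1 / 10) :
    ∃ a : ℝ, g * s ^ 2 ≤ a ∧ a ≤ 4 * (g * s ^ 2) ∧
      (1 - g * (d + s) ^ 2) * (1 - g * (d + s) ^ 2) =
        (1 + a) * ((1 - g * d ^ 2) * (1 - g * (d + 2 * s) ^ 2)) := by
  have h0 : g * d ^ 2 ≤ 1 / 10 :=
    (mul_le_mul_of_nonneg_left (pow_le_pow_left₀ hd (by linarith) 2) hg).trans hT
  have h1 : g * (d + s) ^ 2 ≤ 1 / 10 :=
    (mul_le_mul_of_nonneg_left (pow_le_pow_left₀ (by linarith) (by linarith) 2) hg).trans hT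
  have h2 : g * s ^ 2 ≤ 1 / 10 :=
    (mul_le_mul_of_nonneg_left (pow_le_pow_left₀ hs (by linarith) 2) hg).trans hT
  have p0 : 0 ≤ g * d ^ 2 := by positivity
  have p1 : 0 ≤ g * (d + s) ^ 2 := by positivity
  have p2 : 0 ≤ g * s ^ 2 := by positivity
  have p3 : 0 ≤ g * (d + 2 * s) ^ 2 := by positivity
  have key : (1 - g * (d + s) ^ 2) * (1 - g * (d + s) ^ 2) =
      (1 - g * d ^ 2) * (1 - g * (d + 2 * s) ^ 2) + g * s ^ 2 *
        (4 * (g * (d + s) ^ 2) + (1 - g * d ^ 2) + (1 - g * (d + 2 * s) ^ 2) + g * s ^ 2) := by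
    ring
  rw [key]
  generalize g * d ^ 2 = t₀ at *
  generalize g * (d + s) ^ 2 = t₁ at *
  generalize g * (d + 2 * s) ^ 2 = t₂ at *
  generalize g * s ^ 2 = w at *
  have q1 : 81 / 100 ≤ (1 - t₀) * (1 - t₂) := by nlinarith
  have q2 : (1 - t₀) * (1 - t₂) ≤ 1 := by nlinarith
  have q0 : 0 < (1 - t₀) * (1 - t₂) := by linarith
  refine ⟨w * (4 * t₁ + (1 - t₀) + (1 - t₂) + w) / ((1 - t₀) * (1 - t₂)), ?_, ?_, ?_⟩
  · rw [le_div_iff₀ q0]
    exact mul_le_mul_of_nonneg_left (by linarith) p2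
  · rw [div_le_iff₀ q0, mul_comm 4 w, mul_assoc]
    exact mul_le_mul_of_nonneg_left (by linarith) p2
  · rw [add_mul, one_mul, div_mul_cancel₀ _ q0.ne']

variable {p : Pre}

theorem n_ge (h : p.OK) : (64 : ℝ) ≤ p.n := by exact_mod_cast h.n_ge

theorem M_le (h : p.OK) : (p.I.M : ℝ) ≤ p.n := by
  have := h.M_le
  exact_mod_cast (show p.I.M ≤ p.n by omega)

theorem qd_pos (h : p.OK) (e : Fin p.I.M) : (0 : ℝ) < p.qd e := by
  have h1 := h.len_pos e
  have h2 : (0 : ℤ) < p.nZ := by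
    have := h.n_ge
    unfold Pre.nZ
    omega
  have : 0 < p.qd e := by unfold Pre.qd; positivity
  exact_mod_cast this

theorem fR_tree (h : p.OK) {t : Fin p.I.M} (ht : p.tree t = true) (j : ℕ) (x a : ℤ) :
    p.fR j t (x + a) = lg (p.y1 j t x / p.sig t + a / p.sig t) *
      lg (p.y2 j t x / p.sig t + -(a / p.sig t)) := by
  have h1 := (h.tree_thick ht).2
  have h2 := qd_pos h t
  simp only [Pre.fR, Pre.ann, Pre.qn, Pre.cc, Pre.den, Pre.y1, Pre.y2, ht, h1, lg, if_true,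
    Bool.or_true, Bool.false_eq_true, if_false, div_self h2.ne', one_mul]
  rw [one_div_mul_one_div]
  push_cast
  congr 4 <;> ring

theorem fR_free (h : p.OK) {e : Fin p.I.M} (he : p.free e = true) (j : ℕ) (x : ℤ) :
    p.fR j e x = 1 - 1 / ((p.n : ℝ) ^ 3 * (p.len e : ℝ) ^ 2) * ((x : ℝ) - p.lo' e) ^ 2 := by
  have h1 := (h.free_bounds he).1
  have h2 := qd_pos h e
  have ht : p.tree e = false := by
    simp only [Pre.free, Bool.and_eq_true, Bool.not_eq_true'] at he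
    exact he.2
  have h3 : (p.qd e : ℝ) = (p.n : ℝ) ^ 3 * (p.len e : ℝ) ^ 2 := by
    simp [Pre.qd, Pre.nZ]
  simp only [Pre.fR, Pre.ann, Pre.qn, ht, h1, Bool.or_false, Bool.false_eq_true, if_false, mul_one]
  rw [← h3]
  push_cast
  field_simp

theorem free_iff (e : Fin p.I.M) :
    (p.thickF e = true ∧ p.mdl.tree e = false) ↔ p.free e = true := by
  simp [Pre.free, Pre.thickF, Pre.mdl]

theorem fR_pos' (h : p.OK) (j : ℕ) (e : Fin p.I.M) {x : ℤ} (h1 : p.lo' e ≤ x) (h2 : x ≤ p.hi' e) :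
    0 < p.fR j e x := by
  refine h.fR_pos j e ?_
  rw [abs_le]
  unfold Pre.len
  constructor <;> omega

theorem tree_shift (h : p.OK) {t : Fin p.I.M} (ht : p.tree t = true) (j : ℕ) (x a : ℤ)
    (ha : 4 * p.nZ * |a| ≤ p.sig t) :
    p.fR j t (x + a) ≤ Real.exp (1 / (2 * p.n)) * p.fR j t x := by
  have hs : (0 : ℝ) < p.sig t := by exact_mod_cast h.sig_pos t
  have hn := n_ge h
  have h0 := fR_tree h ht j x 0
  simp only [add_zero, Int.cast_zero, zero_div, neg_zero] at h0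
  rw [fR_tree h ht, h0]
  have ha' : 4 * (p.n : ℝ) * |(a : ℝ)| ≤ p.sig t := by
    unfold Pre.nZ at ha
    exact_mod_cast ha
  have hu : |(a : ℝ) / p.sig t| ≤ 1 / (4 * p.n) := by
    rw [abs_div, abs_of_pos hs, div_le_div_iff₀ hs (by positivity)]
    linarith
  have e1 := lg_shift (p.y1 j t x / p.sig t) (a / p.sig t)
  have e2 := lg_shift (p.y2 j t x / p.sig t) (-(a / p.sig t))
  rw [abs_neg] at e2
  have e3 : Real.exp |(a : ℝ) / p.sig t| * Real.exp |(a : ℝ) / p.sig t| ≤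
      Real.exp (1 / (2 * p.n)) := by
    rw [← Real.exp_add, Real.exp_le_exp]
    have : 1 / (2 * (p.n : ℝ)) = 1 / (4 * p.n) + 1 / (4 * p.n) := by field_simp; ring
    linarith
  calc _ ≤ (Real.exp |(a : ℝ) / p.sig t| * lg (p.y1 j t x / p.sig t)) *
        (Real.exp |(a : ℝ) / p.sig t| * lg (p.y2 j t x / p.sig t)) :=
        mul_le_mul e1 e2 (lg_pos _).le (mul_pos (Real.exp_pos _) (lg_pos _)).le
    _ = (Real.exp |(a : ℝ) / p.sig t| * Real.exp |(a : ℝ) / p.sig t|) *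
        (lg (p.y1 j t x / p.sig t) * lg (p.y2 j t x / p.sig t)) := by ring
    _ ≤ _ := mul_le_mul_of_nonneg_right e3 (mul_pos (lg_pos _) (lg_pos _)).le

theorem free_shift (h : p.OK) {e : Fin p.I.M} (he : p.free e = true) (j : ℕ) {x : ℤ} (x' : ℤ)
    (h1 : p.lo' e ≤ x) (h2 : x ≤ p.hi' e) :
    p.fR j e x' ≤ Real.exp (1 / (2 * p.n)) * p.fR j e x := by
  have hn := n_ge h
  have hl : (0 : ℝ) < p.len e := by exact_mod_cast h.len_pos e
  rw [fR_free h he, fR_free h he]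
  have a1 : (0 : ℝ) ≤ (x : ℝ) - p.lo' e := by
    have : 0 ≤ x - p.lo' e := by omega
    exact_mod_cast this
  have a2 : (x : ℝ) - p.lo' e ≤ p.len e := by
    have : x - p.lo' e ≤ p.len e := by unfold Pre.len; omega
    exact_mod_cast this
  have a3 : 1 / ((p.n : ℝ) ^ 3 * (p.len e : ℝ) ^ 2) * ((x : ℝ) - p.lo' e) ^ 2 ≤
      1 / (p.n : ℝ) ^ 3 := by
    calc _ ≤ 1 / ((p.n : ℝ) ^ 3 * (p.len e : ℝ) ^ 2) * (p.len e : ℝ) ^ 2 := by gcongr
      _ = _ := by field_simp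
  have a4 : 0 ≤ 1 / ((p.n : ℝ) ^ 3 * (p.len e : ℝ) ^ 2) * ((x' : ℝ) - p.lo' e) ^ 2 := by positivity
  have a5 := Real.add_one_le_exp (1 / (2 * (p.n : ℝ)))
  have a6 : 1 / (p.n : ℝ) ^ 3 ≤ 1 / (4 * p.n) :=
    one_div_le_one_div_of_le (by positivity) (by nlinarith [sq_nonneg ((p.n : ℝ) - 2)])
  have a7 : 1 / (2 * (p.n : ℝ)) = 2 * (1 / (4 * p.n)) := by field_simp; ring
  have a8 : 1 / (4 * (p.n : ℝ)) ≤ 1 / 4 := one_div_le_one_div_of_le (by norm_num) (by linarith)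
  have a9 : 0 ≤ 1 / (4 * (p.n : ℝ)) := by positivity
  generalize 1 / (4 * (p.n : ℝ)) = r at *
  calc _ ≤ (1 : ℝ) := by linarith
    _ ≤ (2 * r + 1) * (1 - r) := by nlinarith
    _ ≤ _ := mul_le_mul (by linarith) (by linarith) (by linarith) (Real.exp_pos _).le

theorem wt_le_two (h : p.OK) (s : ℕ) {X X' : Fin p.I.M → ℤ} (hX : X ∈ box p.mdl.lo p.mdl.hi)
    (hX' : X' ∈ box p.mdl.lo p.mdl.hi)
    (hle : ∀ t, p.f s t (X' t) ≤ Real.exp (1 / (2 * p.n)) * p.f s t (X t)) :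
    wt (p.f s) X' ≤ 2 * wt (p.f s) X := by
  have hn := n_ge h
  have hM := M_le h
  have h1 : wt (p.f s) X' ≤ ∏ t, Real.exp (1 / (2 * p.n)) * p.f s t (X t) :=
    prod_le_prod (fun t _ => (fR_pos' h _ t (mem_box.1 hX' t).1 (mem_box.1 hX' t).2).le)
      fun t _ => hle t
  rw [prod_mul_distrib, prod_const, card_univ, Fintype.card_fin, ← Real.exp_nat_mul] at h1
  refine h1.trans (mul_le_mul_of_nonneg_right ?_
    (prod_nonneg fun t _ => (fR_pos' h _ t (mem_box.1 hX t).1 (mem_box.1 hX t).2).le))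
  have h2 : (p.I.M : ℝ) * (1 / (2 * p.n)) ≤ 1 / 2 := by
    rw [mul_one_div, div_le_div_iff₀ (by positivity) (by norm_num)]
    linarith
  refine (Real.exp_le_exp.2 h2).trans ?_
  rw [Real.exp_half]
  exact Real.sqrt_le_iff.2 ⟨by norm_num, by linarith [Real.exp_one_lt_three]⟩

theorem le_exp_mul (h : p.OK) (j : ℕ) (e : Fin p.I.M) {x : ℤ} (h1 : p.lo' e ≤ x)
    (h2 : x ≤ p.hi' e) : p.fR j e x ≤ Real.exp (1 / (2 * p.n)) * p.fR j e x :=
  le_mul_of_one_le_left (fR_pos' h j e h1 h2).le (Real.one_le_exp (by positivity))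

theorem nZ_ge (h : p.OK) : 64 ≤ p.nZ := by
  have := h.n_ge
  unfold Pre.nZ
  omega

theorem smooth_sm (h : p.OK) (s : ℕ) {X : Fin p.I.M → ℤ} (hX : X ∈ box p.mdl.lo p.mdl.hi)
    (c : Fin p.I.M → ℤ) (hc : ∀ e, |c e| ≤ p.sF e)
    (hc0 : ∀ e, ¬ (p.thickF e = true ∧ p.mdl.tree e = false) → c e = 0)
    (hX' : X + ∑ e, c e • p.mdl.cyc e ∈ box p.mdl.lo p.mdl.hi) :
    wt (p.f s) (X + ∑ e, c e • p.mdl.cyc e) ≤ 2 * wt (p.f s) X := by
  refine wt_le_two h s hX hX' fun t => ?_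
  have hb := mem_box.1 hX t
  simp only [Pi.add_apply, Finset.sum_apply, Pi.smul_apply, smul_eq_mul]
  by_cases ht : p.tree t = true
  · refine tree_shift h ht _ _ _ ?_
    have hs := h.sig_pos t
    have hn := nZ_ge h
    have h1 : ∀ e, p.nZ ^ 16 * |c e * p.mdl.cyc e t| ≤ 2 * p.sig t := by
      intro e
      by_cases he : p.free e = true
      · refine le_trans ?_ (h.step_small he ht)
        rw [abs_mul, Pre.cyc_eq p h, ← h.sF_cast]
        gcongr
        exact hc e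
      · rw [hc0 e (fun h' => he ((free_iff e).1 h'))]
        simp only [zero_mul, abs_zero, mul_zero]
        omega
    have h2 : p.nZ ^ 16 * |∑ e, c e * p.mdl.cyc e t| ≤ p.nZ * (2 * p.sig t) := by
      calc p.nZ ^ 16 * |∑ e, c e * p.mdl.cyc e t| ≤ p.nZ ^ 16 * ∑ e, |c e * p.mdl.cyc e t| :=
            mul_le_mul_of_nonneg_left (abs_sum_le_sum_abs _ _) (by positivity)
        _ ≤ ∑ _e : Fin p.I.M, 2 * p.sig t := by
            rw [mul_sum]; exact sum_le_sum fun e _ => h1 e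
        _ = p.I.M * (2 * p.sig t) := by simp
        _ ≤ _ := by
            have := h.M_le
            refine mul_le_mul_of_nonneg_right ?_ (by omega)
            unfold Pre.nZ
            omega
    have h3 : 8 * p.nZ ^ 2 ≤ p.nZ ^ 16 := by
      calc 8 * p.nZ ^ 2 ≤ p.nZ * p.nZ ^ 2 := by gcongr; omega
        _ = p.nZ ^ 3 := by ring
        _ ≤ _ := pow_le_pow_right₀ (by omega) (by norm_num)
    have h4 := mul_le_mul_of_nonneg_right h3 (abs_nonneg (∑ e, c e * p.mdl.cyc e t))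
    refine le_of_mul_le_mul_left ?_ (show 0 < 2 * p.nZ by omega)
    linarith
  · have ht' : p.mdl.tree t = false := by simpa [Pre.mdl] using ht
    by_cases hf : p.free t = true
    · exact free_shift h hf _ _ hb.1 hb.2
    · have : ∑ e, c e * p.mdl.cyc e t = 0 := by
        refine sum_eq_zero fun e _ => ?_
        rw [h.thickM.forest.cyc_apply e ht']
        split_ifs with he
        · rw [← he, hc0 t (fun h' => hf ((free_iff t).1 h')), zero_mul]
        · rw [mul_zero]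
      rw [this, add_zero]
      exact le_exp_mul h _ t hb.1 hb.2

theorem smooth_smp (h : p.OK) (s : ℕ) {X Y : Fin p.I.M → ℤ} (hX : X ∈ box p.mdl.lo p.mdl.hi)
    (hY : ∀ t, |Y t| ≤ 1) (hY0 : ∀ t, p.mdl.tree t = false → Y t = 0)
    (hX' : X + Y ∈ box p.mdl.lo p.mdl.hi) : wt (p.f s) (X + Y) ≤ 2 * wt (p.f s) X := by
  refine wt_le_two h s hX hX' fun t => ?_
  have hb := mem_box.1 hX t
  simp only [Pi.add_apply]
  by_cases ht : p.tree t = true
  · refine tree_shift h ht _ _ _ (le_trans ?_ (h.sig_large ht))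
    have hn := nZ_ge h
    calc 4 * p.nZ * |Y t| ≤ p.nZ * p.nZ * 1 := by
          gcongr
          · omega
          · exact hY t
      _ = p.nZ ^ 2 := by ring
      _ ≤ _ := pow_le_pow_right₀ (by omega) (by norm_num)
  · rw [hY0 t (by simpa [Pre.mdl] using ht), add_zero]
    exact le_exp_mul h _ t hb.1 hb.2

/-- the diagonal terms -/
theorem exists_diag (h : p.OK) (s : ℕ) {X : Fin p.I.M → ℤ} (hX : X ∈ box p.mdl.lo p.mdl.hi)
    (e : Fin p.I.M) : ∃ a : ℝ, 0 ≤ a ∧ a ≤ 4 / (p.n : ℝ) ^ 55 ∧ (p.free e = true →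
      1 / (9 * (p.n : ℝ) ^ 55) ≤ a ∧ p.f s e (X e + p.st e) * p.f s e (X e + p.st e) =
        (1 + a) * (p.f s e (X e) * p.f s e (X e + p.st e + p.st e))) := by
  have hn := n_ge h
  by_cases he : p.free e = true
  swap
  · exact ⟨0, le_rfl, by positivity, fun h' => absurd h' he⟩
  obtain ⟨-, -, b1, b2, -⟩ := h.free_bounds he
  have hb := mem_box.1 hX e
  have hl : (0 : ℝ) < p.len e := by exact_mod_cast h.len_pos e
  have hs : (0 : ℝ) < p.st e := by exact_mod_cast h.st_pos e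
  have c1 : (p.n : ℝ) ^ 26 * p.st e ≤ p.len e := by
    unfold Pre.nZ at b1
    exact_mod_cast b1
  have c2 : (p.len e : ℝ) ≤ 3 * (p.n : ℝ) ^ 26 * p.st e := by
    unfold Pre.nZ at b2
    exact_mod_cast b2
  have a1 : (0 : ℝ) ≤ (X e : ℝ) - p.lo' e := by
    have : 0 ≤ X e - p.lo' e := sub_nonneg.2 hb.1
    exact_mod_cast this
  have a2 : (X e : ℝ) - p.lo' e ≤ p.len e := by
    have h2 : X e ≤ p.hi' e := hb.2
    have : X e - p.lo' e ≤ p.len e := by unfold Pre.len; omega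
    exact_mod_cast this
  have c3 : (p.st e : ℝ) ≤ p.len e :=
    (le_mul_of_one_le_left hs.le (one_le_pow₀ (by linarith))).trans c1
  have hT : 1 / ((p.n : ℝ) ^ 3 * (p.len e : ℝ) ^ 2) * ((X e : ℝ) - p.lo' e + 2 * p.st e) ^ 2 ≤
      1 / 10 := by
    calc _ ≤ 1 / ((p.n : ℝ) ^ 3 * (p.len e : ℝ) ^ 2) * (3 * (p.len e : ℝ)) ^ 2 := by
          gcongr
          linarith
      _ = 9 / (p.n : ℝ) ^ 3 := by field_simp; ring
      _ ≤ 9 / 64 ^ 3 := by gcongr
      _ ≤ _ := by norm_num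
  obtain ⟨a, d1, d2, d3⟩ := quad_diag (by positivity) a1 hs.le hT
  have g1 : 1 / (9 * (p.n : ℝ) ^ 55) ≤
      1 / ((p.n : ℝ) ^ 3 * (p.len e : ℝ) ^ 2) * (p.st e : ℝ) ^ 2 := by
    calc 1 / (9 * (p.n : ℝ) ^ 55) =
          1 / ((p.n : ℝ) ^ 3 * (3 * (p.n : ℝ) ^ 26 * p.st e) ^ 2) * (p.st e : ℝ) ^ 2 := by
          field_simp; ring
      _ ≤ _ := by gcongr
  have g2 : 1 / ((p.n : ℝ) ^ 3 * (p.len e : ℝ) ^ 2) * (p.st e : ℝ) ^ 2 ≤ 1 / (p.n : ℝ) ^ 55 := by
    calc _ ≤ 1 / ((p.n : ℝ) ^ 3 * ((p.n : ℝ) ^ 26 * p.st e) ^ 2) * (p.st e : ℝ) ^ 2 := by gcongr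
      _ = _ := by field_simp
  refine ⟨a, le_trans (by positivity) d1, d2.trans ?_, fun _ => ⟨g1.trans d1, ?_⟩⟩
  · rw [div_eq_mul_one_div 4]; linarith
  · simp only [Pre.f, fR_free h he]
    push_cast
    convert d3 using 5 <;> ring

/-- the shift of the cell `t` along the long step of `e`, on the scale of `t` -/
noncomputable def sh (p : Pre) (e t : Fin p.I.M) : ℝ :=
  if p.free e = true ∧ p.tree t = true then ((p.sF e : ℤ) * p.mdl.cyc e t : ℤ) / (p.sig t : ℝ) else 0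

theorem abs_sh_le (h : p.OK) (e t : Fin p.I.M) : |sh p e t| ≤ 2 / (p.n : ℝ) ^ 16 := by
  have hn := n_ge h
  unfold sh
  split_ifs with h'
  · have h1 := h.step_small h'.1 h'.2
    have hs : (0 : ℝ) < p.sig t := by exact_mod_cast h.sig_pos t
    rw [← abs_of_pos (h.st_pos e), ← abs_mul, ← Pre.cyc_eq p h, ← h.sF_cast] at h1
    rw [abs_div, abs_of_pos hs, div_le_div_iff₀ hs (by positivity), mul_comm]
    unfold Pre.nZ at h1
    exact_mod_cast h1
  · simp only [abs_zero]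
    positivity

/-- the rank one vectors -/
noncomputable def vv (p : Pre) (s : ℕ) (X : Fin p.I.M → ℤ) (k : Fin p.I.M × Bool) (e : Fin p.I.M) :
    ℝ :=
  if k.2 = true then lv (p.y1 (p.jj s k.1) k.1 (X k.1) / p.sig k.1) (sh p e k.1)
  else lv (p.y2 (p.jj s k.1) k.1 (X k.1) / p.sig k.1) (-sh p e k.1)

theorem abs_vv_le (h : p.OK) (s : ℕ) (X : Fin p.I.M → ℤ) (k : Fin p.I.M × Bool)
    (e e' : Fin p.I.M) : |vv p s X k e * vv p s X k e'| ≤ 8 / (p.n : ℝ) ^ 32 := by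
  have hn := n_ge h
  have h1 : 2 / (p.n : ℝ) ^ 16 ≤ 1 / 2 := by
    calc 2 / (p.n : ℝ) ^ 16 ≤ 2 / 64 ^ 16 := by gcongr
      _ ≤ _ := by norm_num
  have h2 : 8 / (p.n : ℝ) ^ 32 = 2 * (2 / (p.n : ℝ) ^ 16) ^ 2 := by field_simp; ring
  rw [h2]
  unfold vv
  split_ifs
  · exact abs_lv_mul_le _ (abs_sh_le h e _) (abs_sh_le h e' _) h1
  · exact abs_lv_mul_le _ (by rw [abs_neg]; exact abs_sh_le h e _)
      (by rw [abs_neg]; exact abs_sh_le h e' _) h1

theorem abs_prod_le (h : p.OK) (s : ℕ) (X : Fin p.I.M → ℤ) (e e' : Fin p.I.M) :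
    |∏ k, (1 + vv p s X k e * vv p s X k e') - 1| ≤ 32 / (p.n : ℝ) ^ 31 := by
  have hn := n_ge h
  have hM := M_le h
  have h1 := Finset.norm_prod_one_add_sub_one_le univ fun k => vv p s X k e * vv p s X k e'
  simp only [Real.norm_eq_abs] at h1
  have h2 : ∑ k, |vv p s X k e * vv p s X k e'| ≤ 16 / (p.n : ℝ) ^ 31 := by
    calc _ ≤ ∑ _k : Fin p.I.M × Bool, 8 / (p.n : ℝ) ^ 32 :=
          sum_le_sum fun k _ => abs_vv_le h s X k e e'
      _ = p.I.M * 2 * (8 / (p.n : ℝ) ^ 32) := by simp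
      _ ≤ p.n * 2 * (8 / (p.n : ℝ) ^ 32) := by gcongr
      _ = _ := by field_simp; ring
  have h3 : 16 / (p.n : ℝ) ^ 31 ≤ 1 := by
    calc 16 / (p.n : ℝ) ^ 31 ≤ 16 / 64 ^ 31 := by gcongr
      _ ≤ _ := by norm_num
  have h4 : (0 : ℝ) ≤ 16 / (p.n : ℝ) ^ 31 := by positivity
  have h5 := Real.abs_exp_sub_one_le (x := 16 / (p.n : ℝ) ^ 31) (by rwa [abs_of_nonneg h4])
  rw [abs_of_nonneg h4] at h5
  have h6 := Real.exp_le_exp.2 h2
  have h7 : 32 / (p.n : ℝ) ^ 31 = 2 * (16 / (p.n : ℝ) ^ 31) := by ring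
  linarith [le_abs_self (Real.exp (16 / (p.n : ℝ) ^ 31) - 1)]

theorem bo_id (h : p.OK) (s : ℕ) (X : Fin p.I.M → ℤ) (a : Fin p.I.M → ℝ) {e e' : Fin p.I.M}
    (he : p.free e = true) (he' : p.free e' = true)
    (ha : p.f s e (X e + p.st e) * p.f s e (X e + p.st e) =
        (1 + a e) * (p.f s e (X e) * p.f s e (X e + p.st e + p.st e))) :
    wt (p.f s) (X + (p.sF e : ℤ) • p.mdl.cyc e) * wt (p.f s) (X + (p.sF e' : ℤ) • p.mdl.cyc e') =
      ((1 + if e = e' then a e else 0) * ∏ k, (1 + vv p s X k e * vv p s X k e')) *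
        (wt (p.f s) X *
          wt (p.f s) (X + (p.sF e : ℤ) • p.mdl.cyc e + (p.sF e' : ℤ) • p.mdl.cyc e')) := by
  have e1 : (1 + if e = e' then a e else 0) =
      ∏ t, (1 + if t = e then (if e = e' then a e else 0) else 0) := by
    rw [prod_eq_single e]
    · simp
    · intro t _ ht; simp [ht]
    · simp
  rw [e1, Fintype.prod_prod_type]
  unfold wt
  simp only [← prod_mul_distrib]
  refine prod_congr rfl fun t _ => ?_
  simp only [Fintype.prod_bool, vv, if_true, Bool.false_eq_true, if_false, Pi.add_apply,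
    Pi.smul_apply, smul_eq_mul]
  by_cases ht : p.tree t = true
  · have hte : t ≠ e := by
      rintro rfl
      simp [Pre.free, ht] at he
    have h0 := fR_tree h ht (p.jj s t) (X t) 0
    simp only [add_zero, Int.cast_zero, zero_div, neg_zero] at h0
    simp only [Pre.f, if_neg hte, add_zero, one_mul, add_assoc, sh, he, he', ht, and_self, if_true]
    rw [fR_tree h ht, fR_tree h ht, fR_tree h ht, h0, Int.cast_add, add_div, neg_add]
    have i1 := lg_id (p.y1 (p.jj s t) t (X t) / p.sig t)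
      (((p.sF e : ℤ) * p.mdl.cyc e t : ℤ) / (p.sig t : ℝ))
      (((p.sF e' : ℤ) * p.mdl.cyc e' t : ℤ) / (p.sig t : ℝ))
    have i2 := lg_id (p.y2 (p.jj s t) t (X t) / p.sig t)
      (-(((p.sF e : ℤ) * p.mdl.cyc e t : ℤ) / (p.sig t : ℝ)))
      (-(((p.sF e' : ℤ) * p.mdl.cyc e' t : ℤ) / (p.sig t : ℝ)))
    rw [mul_mul_mul_comm, i1, i2]
    ring
  · have ht' : p.mdl.tree t = false := by simpa [Pre.mdl] using ht
    simp only [sh, ht, and_false, if_false, neg_zero, lv_zero, mul_zero, add_zero, mul_one,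
      Bool.false_eq_true, h.thickM.forest.cyc_apply _ ht', h.sF_cast]
    by_cases h1 : t = e
    · subst h1
      by_cases h2 : t = e'
      · subst h2
        simpa using ha
      · simp [h2, mul_comm]
    · simp [h1]

end WtB

open WtB in

theorem Pre.OK.smooth {p : Pre} (h : p.OK) (s : ℕ) :
    p.mdl.Smooth p.thickF p.sF (p.f s) (1 / (9 * (p.n : ℝ) ^ 55)) (40 / (p.n : ℝ) ^ 31) := by
  have hn := WtB.n_ge h
  have hM := WtB.M_le h
  refine ⟨fun X hX => prod_pos fun t _ => fR_pos' h _ t (mem_box.1 hX t).1 (mem_box.1 hX t).2,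
    fun X hX c hc hc0 hX' => smooth_sm h s hX c hc hc0 hX', fun X hX a hX' => ⟨?_, ?_⟩,
    fun X hX => ?_, by positivity, ?_, ?_⟩
  · exact smooth_smp h s hX (h.thickM.forest.path_abs a) (h.thickM.forest.path_supp a) hX'
  · have := smooth_smp h s (Y := -p.mdl.path a) hX'
      (fun t => by simpa using h.thickM.forest.path_abs a t)
      (fun t ht => by simpa using h.thickM.forest.path_supp a t ht) (by simpa using hX)
    simpa using this
  · choose a ha0 ha1 ha2 using exists_diag h s hX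
    refine ⟨fun e e' => (1 + if e = e' then a e else 0) *
      ∏ k, (1 + vv p s X k e * vv p s X k e') - 1, fun e e' h1 h2 h3 h4 => ?_, fun e e' => ?_,
      fun z hz => ?_⟩
    · rw [add_sub_cancel]
      exact bo_id h s X a ((WtB.free_iff e).1 ⟨h1, h2⟩) ((WtB.free_iff e').1 ⟨h3, h4⟩)
        (ha2 e ((WtB.free_iff e).1 ⟨h1, h2⟩)).2
    · have h1 := abs_prod_le h s X e e'
      have h2 : 0 ≤ (if e = e' then a e else 0) ∧ (if e = e' then a e else 0) ≤
          4 / (p.n : ℝ) ^ 31 := by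
        split_ifs
        · refine ⟨ha0 e, (ha1 e).trans ?_⟩
          gcongr
          · linarith
          · norm_num
        · exact ⟨le_rfl, by positivity⟩
      have h3 : 32 / (p.n : ℝ) ^ 31 ≤ 1 := by
        calc 32 / (p.n : ℝ) ^ 31 ≤ 32 / 64 ^ 31 := by gcongr
          _ ≤ _ := by norm_num
      have h4 : 40 / (p.n : ℝ) ^ 31 = 32 / (p.n : ℝ) ^ 31 + 2 * (4 / (p.n : ℝ) ^ 31) := by ring
      rw [h4]
      beta_reduce
      generalize (if e = e' then a e else 0) = b at *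
      generalize ∏ k, (1 + vv p s X k e * vv p s X k e') = R at *
      rw [abs_le] at h1 ⊢
      have h5 : 0 ≤ b * R := mul_nonneg h2.1 (by linarith)
      have h6 : b * R ≤ 4 / (p.n : ℝ) ^ 31 * 2 :=
        mul_le_mul h2.2 (by linarith) (by linarith) (by linarith)
      constructor <;> linarith
    · have h1 := schur univ (vv p s X) z
      have h2 : ∀ e, 1 / (9 * (p.n : ℝ) ^ 55) * z e ^ 2 ≤ ∑ e',
          (if e = e' then a e else 0) * (∏ k, (1 + vv p s X k e * vv p s X k e')) * z e * z e' := by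
        intro e
        rw [sum_eq_single e (fun e' _ he => by simp [he.symm]) (by simp), if_pos rfl]
        by_cases he : p.free e = true
        · have h3 : 1 ≤ ∏ k, (1 + vv p s X k e * vv p s X k e) :=
            Finset.one_le_prod fun k _ => le_add_of_nonneg_right (mul_self_nonneg _)
          rw [mul_assoc, ← sq]
          exact mul_le_mul_of_nonneg_right
            ((ha2 e he).1.trans (le_mul_of_one_le_right (ha0 e) h3)) (sq_nonneg _)
        · rw [hz e fun h' => he ((WtB.free_iff e).1 h')]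
          simp
      rw [mul_sum]
      refine (sum_le_sum fun e _ => h2 e).trans ((le_add_of_nonneg_left h1).trans_eq ?_)
      rw [← sum_add_distrib]
      refine sum_congr rfl fun e _ => ?_
      rw [← sum_add_distrib]
      exact sum_congr rfl fun e' _ => by ring
  · calc 40 / (p.n : ℝ) ^ 31 ≤ 40 / 64 ^ 31 := by gcongr
      _ ≤ _ := by norm_num
  · calc 4 * (p.I.M : ℝ) * (40 / (p.n : ℝ) ^ 31) ^ 2 ≤ 4 * p.n * (40 / (p.n : ℝ) ^ 31) ^ 2 := by
          gcongr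
      _ = 57600 / (p.n : ℝ) ^ 6 * (1 / (9 * (p.n : ℝ) ^ 55)) := by field_simp; ring
      _ ≤ 57600 / 64 ^ 6 * (1 / (9 * (p.n : ℝ) ^ 55)) := by gcongr
      _ ≤ _ := mul_le_of_le_one_left (by positivity) (by norm_num)

end Crest.Agent.R309
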