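import Crest.Agent.R309.Step
import Crest.Agent.R309.WtB
import Crest.Agent.R309.Ends

/-!
# Row 309: one run of the chain

`run_close`: `Ex_foldT_iter`, `abs_iter_sub_le` with `step_close`, and `chain_mix` with `lam = 1 / (2 n^78)`,
`κ = 1/n^60`, `κB = 1/(9 n^55)`, `Λ = n^34`, `CR = n^314`
(`16/κB + 4 ≤ n^57`, `16/lam (1 + N n^57) ≤ n^137`, `3 + 6 M n^137 ≤ n^139`, `N/(lam κ) ≤ 2 n^139`, `16 Λ + 4 ≤ n^35`);
the fourth power of the error is `≤ n^320 / n^700`; `n^700 * 10 n * 2^-(n³) ≤ 1/(2 n^76)` since `n ≤ 2^n`, `64 ≤ n`.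
`om a * Z a = Z a / Ẑ a / (1 or li)`.
`transit_close`: `wt_succ`, `tilt_bounds`, `tilt_lip`; the stationary law gives mass at most `4 N / n^78` to
the states with `a ≠ w`.
-/

set_option autoImplicit false

namespace Crest.Agent.R309.Pre

open Finset

variable {p : Pre}

theorem OK.om_Z (h : p.OK) {s : ℕ} {w : p.I.V} {row : List (ℤ × ℤ)} (hrow : p.RowOK s w row (1 / 2))
    {li : ℤ} (hli : 1 ≤ li) (a : p.I.V) :
    0 < p.om w row li a ∧
      1 / (2 * if a = w then (1 : ℝ) else li) ≤ p.om w row li a * p.Z s a w ∧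
      p.om w row li a * p.Z s a w ≤ 2 / if a = w then (1 : ℝ) else li := by
  obtain ⟨h1, h2, h3⟩ := hrow a
  have hZ := h.Z_pos s a w
  have hc : (1 : ℝ) ≤ if a = w then (1 : ℝ) else li := by
    split_ifs
    · exact le_rfl
    · exact_mod_cast hli
  have hcc : ((if a = w then 1 else li : ℤ) : ℝ) = if a = w then (1 : ℝ) else li := by
    split_ifs <;> simp
  unfold om
  rw [hcc]
  generalize (if a = w then (1 : ℝ) else li) = c at hc ⊢
  have hc0 : 0 < c := by linarith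
  have h1' : (0 : ℝ) < ((row.getD a (1, 1)).1 : ℝ) := by exact_mod_cast h1
  have h2' : (0 : ℝ) < ((row.getD a (1, 1)).2 : ℝ) := by exact_mod_cast h2
  generalize ((row.getD a (1, 1)).1 : ℝ) = x at h1' h3 ⊢
  generalize ((row.getD a (1, 1)).2 : ℝ) = y at h2' h3 ⊢
  generalize p.Z s a w = Z at hZ h3 ⊢
  obtain ⟨h4, h5⟩ := abs_le.1 h3
  have h6 : Z / 2 ≤ x / y := by linarith
  have h7 : x / y ≤ 2 * Z := by linarith
  rw [le_div_iff₀ h2'] at h6
  rw [div_le_iff₀ h2'] at h7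
  refine ⟨by positivity, ?_, ?_⟩
  · have : y / x / c * Z = (y * Z / x) / c := by field_simp
    rw [this, ← div_div, div_le_div_iff_of_pos_right hc0, le_div_iff₀ h1']
    linarith
  · have : y / x / c * Z = (y * Z / x) / c := by field_simp
    rw [this, div_le_div_iff_of_pos_right hc0, div_le_iff₀ h1']
    linarith

theorem run_CR {n N M : ℝ} (hn : 64 ≤ n) (hN0 : 0 ≤ N) (hN : N ≤ n) (hM0 : 0 ≤ M) (hM : M ≤ n) :
    4 * (20 * (16 / (1 / (2 * n ^ 78)) * (1 + N * (16 / (1 / (9 * n ^ 55)) + 4))) +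
          (16 * n ^ 34 + 4) * (N / (1 / (2 * n ^ 78) * (1 / n ^ 60))) *
            (3 + 6 * M * (16 / (1 / (2 * n ^ 78)) * (1 + N * (16 / (1 / (9 * n ^ 55)) + 4))))) ≤
      n ^ 314 := by
  have hn0 : 0 < n := by linarith
  have hn1 : 1 ≤ n := by linarith
  have hp : ∀ k : ℕ, 1 ≤ n ^ k := fun k => one_le_pow₀ hn1
  have hs : ∀ k : ℕ, 64 * n ^ k ≤ n ^ (k + 1) := fun k => by
    rw [pow_succ, mul_comm]; exact mul_le_mul_of_nonneg_left hn (by positivity)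
  have e1 : 16 / (1 / (9 * n ^ 55)) + 4 ≤ n ^ 57 := by
    have : 16 / (1 / (9 * n ^ 55)) = 144 * n ^ 55 := by field_simp; norm_num
    rw [this]
    have := hs 55; have := hs 56; have := hp 55
    norm_num at *
    linarith
  have e10 : 0 ≤ 16 / (1 / (9 * n ^ 55)) + 4 := by positivity
  have e2 : 1 + N * (16 / (1 / (9 * n ^ 55)) + 4) ≤ 2 * n ^ 58 := by
    have h1 : N * (16 / (1 / (9 * n ^ 55)) + 4) ≤ n * n ^ 57 := by gcongr
    have h2 : n * n ^ 57 = n ^ 58 := by ring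
    have := hp 58
    linarith
  have e20 : 0 ≤ 1 + N * (16 / (1 / (9 * n ^ 55)) + 4) := by positivity
  have e3 : 16 / (1 / (2 * n ^ 78)) * (1 + N * (16 / (1 / (9 * n ^ 55)) + 4)) ≤ n ^ 137 := by
    have : 16 / (1 / (2 * n ^ 78)) = 32 * n ^ 78 := by field_simp; norm_num
    rw [this]
    calc _ ≤ 32 * n ^ 78 * (2 * n ^ 58) := by gcongr
      _ = 64 * n ^ 136 := by ring
      _ ≤ _ := hs 136
  have e30 : 0 ≤ 16 / (1 / (2 * n ^ 78)) * (1 + N * (16 / (1 / (9 * n ^ 55)) + 4)) := by positivity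
  generalize 16 / (1 / (2 * n ^ 78)) * (1 + N * (16 / (1 / (9 * n ^ 55)) + 4)) = A at e3 e30 ⊢
  have e4 : 3 + 6 * M * A ≤ n ^ 139 := by
    have h1 : 6 * M * A ≤ 6 * n * n ^ 137 := by gcongr
    have h2 : 6 * n * n ^ 137 = 6 * n ^ 138 := by ring
    have := hp 138
    have := hs 138
    norm_num at *
    linarith
  have e5 : N / (1 / (2 * n ^ 78) * (1 / n ^ 60)) ≤ 2 * n ^ 139 := by
    have : N / (1 / (2 * n ^ 78) * (1 / n ^ 60)) = N * (2 * n ^ 138) := by field_simp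
    rw [this]
    calc _ ≤ n * (2 * n ^ 138) := by gcongr
      _ = _ := by ring
  have e6 : 16 * n ^ 34 + 4 ≤ n ^ 35 := by
    have := hp 34
    have := hs 34
    norm_num at *
    linarith
  have e7 : (16 * n ^ 34 + 4) * (N / (1 / (2 * n ^ 78) * (1 / n ^ 60))) * (3 + 6 * M * A) ≤
      2 * n ^ 313 := by
    calc _ ≤ n ^ 35 * (2 * n ^ 139) * n ^ 139 := by gcongr
      _ = _ := by ring
  have e8 : n ^ 137 ≤ n ^ 312 := pow_le_pow_right₀ hn1 (by norm_num)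
  have := hs 312
  have := hs 313
  have := hp 312
  norm_num at *
  linarith

theorem run_mixnum {n N M E : ℝ} (hn : 64 ≤ n) (hN0 : 0 ≤ N) (hM0 : 0 ≤ M) (hM : M + N + 1 ≤ n)
    (hE : E ^ 4 ≤ 2 * (n ^ 314 * (16 * (3 * M + N + 1)) * (2 * (N + 1))) * (36 * (N + 1)) / n ^ 700) :
    |E| ≤ 1 / (2 * n ^ 76) := by
  have hn0 : 0 < n := by linarith
  have hn1 : 1 ≤ n := by linarith
  have h1 : 3 * M + N + 1 ≤ 3 * n := by linarith
  have h2 : N + 1 ≤ n := by linarith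
  have h3 : 2 * (n ^ 314 * (16 * (3 * M + N + 1)) * (2 * (N + 1))) * (36 * (N + 1)) ≤
      2 * (n ^ 314 * (16 * (3 * n)) * (2 * n)) * (36 * n) := by gcongr
  have h4 : E ^ 4 ≤ (1 / (2 * n ^ 76)) ^ 4 := by
    refine hE.trans ((div_le_div_of_nonneg_right h3 (by positivity)).trans ?_)
    rw [div_pow, div_le_div_iff₀ (by positivity) (by positivity)]
    have h5 : (64 : ℝ) ^ 3 ≤ n ^ 3 := by gcongr
    have h6 : n ^ 624 ≤ n ^ 700 := pow_le_pow_right₀ hn1 (by norm_num)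
    calc _ = 110592 * n ^ 621 := by ring
      _ ≤ n ^ 3 * n ^ 621 := by gcongr; linarith
      _ = n ^ 624 := by ring
      _ ≤ _ := by simpa using h6
  have h7 : |E| ^ 4 ≤ (1 / (2 * n ^ 76)) ^ 4 := by
    rwa [Even.pow_abs (by decide)]
  exact le_of_pow_le_pow_left₀ (by norm_num) (by positivity) h7

theorem run_stepnum {n : ℕ} (hn : 64 ≤ n) :
    ((n ^ 700 : ℕ) : ℝ) * (10 * n * (1 / 2) ^ (n ^ 3)) ≤ 1 / (2 * (n : ℝ) ^ 76) := by
  have hn0 : (0 : ℝ) < n := by exact_mod_cast (by omega : 0 < n)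
  have h1 : 20 * n ^ 777 ≤ 2 ^ (n ^ 3) := by
    have h2 : n ≤ 2 ^ n := Nat.lt_two_pow_self.le
    have h3 : n ^ 778 ≤ (2 ^ n) ^ 778 := Nat.pow_le_pow_left h2 _
    have h4 : n * 778 ≤ n ^ 3 := by
      have : 64 * 64 ≤ n * n := Nat.mul_le_mul hn hn
      calc n * 778 ≤ n * (n * n) := Nat.mul_le_mul_left _ (by omega)
        _ = n ^ 3 := by ring
    calc 20 * n ^ 777 ≤ n * n ^ 777 := Nat.mul_le_mul_right _ (by omega)
      _ = n ^ 778 := by ring
      _ ≤ 2 ^ (n * 778) := by rw [pow_mul]; exact h3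
      _ ≤ _ := Nat.pow_le_pow_right (by norm_num) h4
  have h5 : (20 : ℝ) * (n : ℝ) ^ 777 ≤ 2 ^ (n ^ 3) := by exact_mod_cast h1
  rw [one_div_pow, le_div_iff₀ (by positivity)]
  push_cast
  have : (n : ℝ) ^ 700 * (10 * n * (1 / 2 ^ n ^ 3)) * (2 * n ^ 76) = 20 * n ^ 777 / 2 ^ n ^ 3 := by
    ring
  rw [this, div_le_one (by positivity)]
  exact h5

theorem OK.run_close (h : p.OK) (s : ℕ) (w : p.I.V) (row : List (ℤ × ℤ))
    (hrow : p.RowOK s w row (1 / 2)) {li : ℤ} (hl1 : 1 ≤ li) (hl2 : li ≤ p.nZ ^ 78)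
    (e₀ : Fin p.I.M) (ψ : ℤ → ℝ)
    (hψ : ∀ x, p.lo' e₀ ≤ x → x ≤ p.hi' e₀ → 1 ≤ ψ x ∧ ψ x ≤ 9)
    (hΛ : ∀ x, p.lo' e₀ ≤ x → x < p.hi' e₀ →
      ((p.hi' e₀ - p.lo' e₀ + 1 : ℤ) : ℝ) * |ψ (x + 1) - ψ x| ≤ (p.n : ℝ) ^ 34)
    (hv : p.I.v e₀ = w ∨ ∀ x, ψ x = 1) {L : ℕ} (hL : p.l1 ≤ L)
    (G : List ℤ × ℕ → ℝ) (hG : ∀ y, |G y| ≤ 1) :
    |(∑ X ∈ p.solM, wt (p.f s) X * ψ (X e₀) *
          Ex L fun τ => G (p.run s w row li (List.ofFn X) τ)) /
        (∑ X ∈ p.solM, wt (p.f s) X * ψ (X e₀)) - p.piE s w row li G| ≤ 1 / (p.n : ℝ) ^ 76 := by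
  have hn : (64 : ℝ) ≤ p.n := by exact_mod_cast h.n_ge
  have hn0 : (0 : ℝ) < p.n := by linarith
  have hn1 : (1 : ℝ) ≤ p.n := by linarith
  have hsz : (p.I.M : ℝ) + p.I.nv + 1 ≤ p.n := by exact_mod_cast h.M_le
  have hM0 : (0 : ℝ) ≤ p.I.M := Nat.cast_nonneg _
  have hN0 : (0 : ℝ) ≤ p.I.nv := Nat.cast_nonneg _
  have hS := h.smooth s
  have hom := h.om_Z hrow hl1
  have hli1 : (1 : ℝ) ≤ li := by exact_mod_cast hl1
  have hli2 : (li : ℝ) ≤ (p.n : ℝ) ^ 78 := by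
    have : ((p.nZ ^ 78 : ℤ) : ℝ) = (p.n : ℝ) ^ 78 := by simp [nZ]
    rw [← this]; exact_mod_cast hl2
  have hp78 : (1 : ℝ) ≤ (p.n : ℝ) ^ 78 := one_le_pow₀ hn1
  have hc : ∀ a : p.I.V, (1 : ℝ) ≤ (if a = w then (1 : ℝ) else li) ∧
      (if a = w then (1 : ℝ) else li) ≤ (p.n : ℝ) ^ 78 := fun a => by
    split_ifs
    · exact ⟨le_rfl, hp78⟩
    · exact ⟨hli1, hli2⟩
  have hW : ∀ x ∈ p.mdl.Om w, 0 < Mdl.W (p.f s) (p.om w row li) x := fun x hx =>
    mul_pos (hS.pos _ (mem_product.1 (mem_filter.1 hx).1).1) (hom _).1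
  have hwt : ∀ X ∈ p.solM, 0 < wt (p.f s) X := fun X hX => hS.pos _ (mem_filter.1 hX).1
  have hψ' : ∀ X ∈ p.solM, 1 ≤ ψ (X e₀) := fun X hX =>
    (hψ _ ((mem_cls.1 hX).1 e₀).1 ((mem_cls.1 hX).1 e₀).2).1
  have hT0 : 0 < p.n ^ 700 := pow_pos (by have := h.n_ge; omega) _
  have hmix := Mdl.chain_mix (m := p.mdl) h.thickM hS (h.lc s) (by positivity)
    (by
      rw [div_le_div_iff₀ (by positivity) (by positivity)]
      have : (p.n : ℝ) ^ 1 ≤ (p.n : ℝ) ^ 60 := pow_le_pow_right₀ hn1 (by norm_num)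
      rw [pow_one] at this
      linarith)
    w (p.om w row li) (fun a => (hom a).1) (lam := 1 / (2 * (p.n : ℝ) ^ 78)) (by positivity)
    (by rw [div_le_one (by positivity)]; linarith)
    (fun a => by
      refine le_trans ?_ (hom a).2.1
      have := hc a
      exact one_div_le_one_div_of_le (by linarith) (by linarith))
    (fun a => (hom a).2.2.trans (div_le_self (by norm_num) (hc a).1))
    (by have := (hom w).2.1; rw [if_pos rfl, mul_one] at this; exact this) e₀ ψ (Λ := (p.n : ℝ) ^ 34) (by positivity) hψ hΛ hv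
    h.moves_le h.sF_le (CR := (p.n : ℝ) ^ 314)
    (run_CR hn (by positivity) (by linarith) hM0 (by linarith)) hT0
    (fun y => G (p.code y)) (fun y => hG _)
  rw [p.cl_self] at hmix
  have hmix' := run_mixnum hn hN0 hM0 hsz (by simpa only [Nat.cast_pow] using hmix)
  have hne : p.solM.Nonempty := by
    have := h.Z_pos s w w
    by_contra h0
    rw [not_nonempty_iff_eq_empty] at h0
    simp [Z, Mdl.Z, p.cl_self, h0] at this
  have hD : 0 < ∑ X ∈ p.solM, wt (p.f s) X * ψ (X e₀) :=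
    sum_pos (fun X hX => mul_pos (hwt X hX) (by linarith [hψ' X hX])) hne
  have hstep : ∀ X ∈ p.solM,
      |Ex L (fun τ => G (p.run s w row li (List.ofFn X) τ)) -
        (Pop (p.mdl.Om w) (Mdl.W (p.f s) (p.om w row li)) (p.mdl.prop p.sF p.K))^[p.n ^ 700]
          (fun y => G (p.code y)) (X, w)| ≤ 1 / (2 * (p.n : ℝ) ^ 76) := by
    intro X hX
    have h1 : Ex L (fun τ => G (p.run s w row li (List.ofFn X) τ)) =
        (opS (p.step s w row li) (4 * p.K))^[p.n ^ 700] G (p.code (X, w)) :=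
      Ex_foldT_iter _ hL _ G
    rw [h1]
    refine (abs_iter_sub_le hW _ p.code _ _
      (fun G' hG' x hx => h.step_close s w row (fun a => ⟨(hrow a).1, (hrow a).2.1⟩)
        (by omega) G' hG' x hx) _ G hG (Mdl.mem_Om.2 (by rw [p.cl_self]; exact hX))).trans ?_
    exact run_stepnum h.n_ge
  have hA : |(∑ X ∈ p.solM, wt (p.f s) X * ψ (X e₀) *
          Ex L fun τ => G (p.run s w row li (List.ofFn X) τ)) /
        (∑ X ∈ p.solM, wt (p.f s) X * ψ (X e₀)) -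
      (∑ X ∈ p.solM, wt (p.f s) X * ψ (X e₀) *
        (Pop (p.mdl.Om w) (Mdl.W (p.f s) (p.om w row li)) (p.mdl.prop p.sF p.K))^[p.n ^ 700]
          (fun y => G (p.code y)) (X, w)) /
        (∑ X ∈ p.solM, wt (p.f s) X * ψ (X e₀))| ≤ 1 / (2 * (p.n : ℝ) ^ 76) := by
    rw [← sub_div, abs_div, abs_of_pos hD, div_le_iff₀ hD, ← sum_sub_distrib, mul_sum]
    refine (abs_sum_le_sum_abs _ _).trans (sum_le_sum fun X hX => ?_)
    have h0 : 0 < wt (p.f s) X * ψ (X e₀) := mul_pos (hwt X hX) (by linarith [hψ' X hX])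
    rw [← mul_sub, abs_mul, abs_of_pos h0, mul_comm]
    exact mul_le_mul_of_nonneg_right (hstep X hX) h0.le
  refine (abs_sub_le _ _ _).trans ((add_le_add hA hmix').trans (le_of_eq ?_))
  field_simp
  norm_num

theorem Good.row_half (h : p.OK) {s : ℕ} (hs : s ≤ p.S) {H : Hist} (hH : p.Good s H) {i : ℕ}
    (hi : i ≤ s) (w : p.I.V) : p.RowOK i w (rowOf H i w) (1 / 2) := by
  intro a
  obtain ⟨h1, h2, h3⟩ := hH.2 i hi w a
  refine ⟨h1, h2, h3.trans (mul_le_mul_of_nonneg_right ?_ (h.Z_pos i a w).le)⟩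
  have hn : (64 : ℝ) ≤ p.n := by exact_mod_cast h.n_ge
  have hn0 : (0 : ℝ) < p.n := by linarith
  have hi' : (i : ℝ) ≤ (p.n : ℝ) ^ 34 := by exact_mod_cast hi.trans (hs.trans h.S_le)
  have h4 : (i : ℝ) / (p.n : ℝ) ^ 36 ≤ 1 / (p.n : ℝ) ^ 2 := by
    rw [div_le_div_iff₀ (by positivity) (by positivity)]
    calc (i : ℝ) * (p.n : ℝ) ^ 2 ≤ (p.n : ℝ) ^ 34 * (p.n : ℝ) ^ 2 := by gcongr
      _ = _ := by ring
  have h5 : 1 / (p.n : ℝ) ^ 2 ≤ 1 / 10 :=
    one_div_le_one_div_of_le (by norm_num) (by nlinarith)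
  have h6 : 4 / (p.n : ℝ) ^ 2 = 4 * (1 / (p.n : ℝ) ^ 2) := by ring
  linarith

theorem run_ratio {A A' B B' δ : ℝ} (hB : 1 / 2 ≤ B) (hA : |A| ≤ B) (hA' : |A'| ≤ B')
    (hB' : B' ≤ δ) : |(A + A') / (B + B') - A / B| ≤ 4 * δ := by
  have hB0 : 0 < B := by linarith
  have hB'0 : 0 ≤ B' := (abs_nonneg _).trans hA'
  have hBB : 0 < B + B' := by linarith
  have : (A + A') / (B + B') - A / B = (A' * B - A * B') / (B * (B + B')) := by
    field_simp; ring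
  rw [this, abs_div, abs_of_pos (mul_pos hB0 hBB), div_le_iff₀ (mul_pos hB0 hBB)]
  have h1 : |A' * B - A * B'| ≤ 2 * (B * B') := by
    refine (abs_sub _ _).trans ?_
    rw [abs_mul, abs_mul, abs_of_pos hB0, abs_of_nonneg hB'0]
    nlinarith [mul_le_mul_of_nonneg_right hA' hB0.le, mul_le_mul_of_nonneg_right hA hB'0]
  refine h1.trans ?_
  have h2 : B' ≤ 2 * δ * (B + B') := by nlinarith
  nlinarith [mul_le_mul_of_nonneg_left h2 hB0.le]

/-- With the large penalty the stationary law is close to the law on exact flows. -/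
theorem OK.piE_mu (h : p.OK) (s : ℕ) (w : p.I.V) (row : List (ℤ × ℤ))
    (hrow : p.RowOK s w row (1 / 2)) (g : List ℤ → ℝ) (hg : ∀ y, |g y| ≤ 1) :
    |p.piE s w row (p.nZ ^ 78) (fun y => g y.1) - p.mu s g| ≤ 8 / (p.n : ℝ) ^ 77 := by
  have hn : (64 : ℝ) ≤ p.n := by exact_mod_cast h.n_ge
  have hn0 : (0 : ℝ) < p.n := by linarith
  have hsz : (p.I.M : ℝ) + p.I.nv + 1 ≤ p.n := by exact_mod_cast h.M_le
  have hM0 : (0 : ℝ) ≤ p.I.M := Nat.cast_nonneg _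
  have hl1 : 1 ≤ p.nZ ^ 78 := one_le_pow₀ (by have := h.n_ge; unfold nZ; omega)
  have hcast : ((p.nZ ^ 78 : ℤ) : ℝ) = (p.n : ℝ) ^ 78 := by simp [nZ]
  have hom := h.om_Z hrow hl1
  have hS := h.smooth s
  have hwt : ∀ {a} X, X ∈ p.mdl.cl a w → 0 < wt (p.f s) X :=
    fun X hX => hS.pos _ (mem_filter.1 hX).1
  set om := p.om w row (p.nZ ^ 78) with hom_def
  set Y : p.I.V → ℝ := fun a => ∑ X ∈ p.mdl.cl a w, wt (p.f s) X * g (List.ofFn X) with hY
  have hYle : ∀ a, |Y a| ≤ p.Z s a w := fun a => by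
    refine (abs_sum_le_sum_abs _ _).trans (sum_le_sum fun X hX => ?_)
    rw [abs_mul, abs_of_pos (hwt X hX)]
    exact mul_le_of_le_one_right (hwt X hX).le (hg _)
  have e1 : ∑ x ∈ p.mdl.Om w, Mdl.W (p.f s) om x * g (p.code x).1 = ∑ a, om a * Y a := by
    rw [Mdl.sum_Om]
    refine sum_congr rfl fun a _ => ?_
    simp only [hY, mul_sum, Mdl.W, code]
    exact sum_congr rfl fun X _ => by ring
  have e2 : ∑ x ∈ p.mdl.Om w, Mdl.W (p.f s) om x = ∑ a, om a * p.Z s a w := by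
    rw [Mdl.sum_Om]
    refine sum_congr rfl fun a _ => ?_
    simp only [Z, Mdl.Z, mul_sum, Mdl.W]
    exact sum_congr rfl fun X _ => by ring
  have e3 : p.mu s g = (om w * Y w) / (om w * p.Z s w w) := by
    rw [mul_div_mul_left _ _ (hom w).1.ne']
    simp only [mu, hY, Z, Mdl.Z, p.cl_self]
  unfold piE
  rw [e1, e2, e3, ← add_sum_erase _ _ (mem_univ w), ← add_sum_erase _ _ (mem_univ w)]
  refine (run_ratio (δ := 2 / (p.n : ℝ) ^ 77) ?_ ?_ ?_ ?_).trans (le_of_eq (by ring))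
  · have := (hom w).2.1
    rwa [if_pos rfl, mul_one] at this
  · rw [abs_mul, abs_of_pos (hom w).1]
    exact mul_le_mul_of_nonneg_left (hYle w) (hom w).1.le
  · refine (abs_sum_le_sum_abs _ _).trans (sum_le_sum fun a _ => ?_)
    rw [abs_mul, abs_of_pos (hom a).1]
    exact mul_le_mul_of_nonneg_left (hYle a) (hom a).1.le
  · have h1 : ∀ a ∈ univ.erase w, om a * p.Z s a w ≤ 2 / (p.n : ℝ) ^ 78 := fun a ha => by
      have := (hom a).2.2
      rwa [if_neg (ne_of_mem_erase ha), hcast] at this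
    refine (sum_le_card_nsmul _ _ _ h1).trans ?_
    have h2 : ((univ.erase w).card : ℝ) ≤ p.n := by
      rw [card_erase_of_mem (mem_univ w), card_univ, Fintype.card_fin]
      simp only [Nat.add_sub_cancel]
      linarith
    rw [nsmul_eq_mul]
    calc _ ≤ (p.n : ℝ) * (2 / (p.n : ℝ) ^ 78) := by gcongr
      _ = _ := by field_simp

theorem OK.transit_close (h : p.OK) {s : ℕ} (hs : s ≤ p.S) {H : Hist} (hH : p.Good s H) {i : ℕ}
    (hi : i < s) (g : List ℤ → ℝ) (hg : ∀ y, |g y| ≤ 1) :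
    |p.mu i (fun X => Ex p.l1 fun ω => g (p.transit H i X ω)) - p.mu (i + 1) g| ≤
      1 / (p.n : ℝ) ^ 75 := by
  have hn : (64 : ℝ) ≤ p.n := by exact_mod_cast h.n_ge
  have hn0 : (0 : ℝ) < p.n := by linarith
  have hiS : i < p.S := hi.trans_le hs
  have hl1 : 1 ≤ p.nZ ^ 78 := one_le_pow₀ (by have := h.n_ge; unfold nZ; omega)
  let e₀ : Fin p.I.M := ⟨p.cell i, h.cell_lt hiS⟩
  have hw : ((p.I.v e₀ : p.I.V) : ℕ) = p.I.vN (p.cell i) :=
    Inst.vtx_val (h.wf.vN_le _ (h.cell_lt hiS))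
  have hrow := Good.row_half h hs hH (i := i + 1) hi (p.I.v e₀)
  have h1 := h.run_close (i + 1) (p.I.v e₀) _ hrow hl1 le_rfl e₀
    (fun x => p.fR (p.jj i (p.cell i)) (p.cell i) x / p.fR (p.jj i (p.cell i) + 1) (p.cell i) x)
    (fun x h1 h2 => h.tilt_bounds _ e₀ h1 h2) (fun x h1 h2 => h.tilt_lip _ e₀ h1 h2)
    (Or.inl rfl) le_rfl (fun y => g y.1) (fun y => hg _)
  have h2 := h.piE_mu (i + 1) (p.I.v e₀) _ hrow g hg
  have h3 : p.mu i (fun X => Ex p.l1 fun ω => g (p.transit H i X ω)) =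
      (∑ X ∈ p.solM, wt (p.f (i + 1)) X *
        (p.fR (p.jj i (p.cell i)) (p.cell i) (X e₀) /
          p.fR (p.jj i (p.cell i) + 1) (p.cell i) (X e₀)) *
          Ex p.l1 fun τ => g (p.run (i + 1) (p.I.v e₀) (rowOf H (i + 1) (p.I.v e₀)) (p.nZ ^ 78)
            (List.ofFn X) τ).1) /
        (∑ X ∈ p.solM, wt (p.f (i + 1)) X * (p.fR (p.jj i (p.cell i)) (p.cell i) (X e₀) /
          p.fR (p.jj i (p.cell i) + 1) (p.cell i) (X e₀))) := by
    unfold mu transit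
    rw [hw]
    congr 1
    · exact sum_congr rfl fun X hX => by rw [h.wt_succ hiS (mem_filter.1 hX).1]
    · exact sum_congr rfl fun X hX => by rw [h.wt_succ hiS (mem_filter.1 hX).1]
  rw [h3]
  refine (abs_sub_le _ _ _).trans ((add_le_add h1 h2).trans ?_)
  have h4 : 1 / (p.n : ℝ) ^ 76 + 8 / (p.n : ℝ) ^ 77 = (p.n + 8) / (p.n : ℝ) ^ 77 := by
    field_simp
  have h5 : 1 / (p.n : ℝ) ^ 75 = (p.n : ℝ) ^ 2 / (p.n : ℝ) ^ 77 := by field_simp
  rw [h4, h5]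
  exact div_le_div_of_nonneg_right (by nlinarith) (by positivity)

end Crest.Agent.R309.Pre
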