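import Crest.Agent.R309.Basic

/-!
# Row 309: discrete Bochner inequality on a box

Put `u_e y = g (y + ec e) - g y`, `J_e y = ν y * u_e y` if `y, y + ec e ∈ box`, else `0`,
`E g = ∑ e, ∑ y, J_e y * u_e y`, `(T g) x = ∑ e, (J_e (x - ec e) - J_e x)` (the graph Laplacian,
`∑ x, h x * T g x = E(g,h)`).

*Bochner*: `∑ x, (T g x)^2 / ν x ≥ κ/2 * E g`.  Expand the square; for a pair `(e, e')` collect the four
terms on the square based at `y` (`x = y, y + ec e', y + ec e, y + ec e + ec e'`): if all four corners are in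
the box they add up to `ν y * (w^2 + A e e' * (u_e + w) * (u_e' + w))`, `w = u_e (y + ec e') - u_e y`, which
is `≥ ν y * (A e e' * u_e * u_e' - η^2 * (u_e^2 + u_e'^2))`.  For `e ≠ e'`, `y + ec e, y + ec e' ∈ box` forces
the fourth corner in the box.  For `e = e'` with `y + ec e ∈ box`, `y + 2 ec e ∉ box` only the term
`ν y * u_e^2 ≥ ν y * A e e * u_e^2` is present; terms `J_e (x - ec e)^2 / ν x` with `x - 2 ec e ∉ box`
are nonnegative and dropped.  Sum: `≥ (κ - 2 M η²) E g ≥ κ/2 * E g`.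

*Poincaré*: `h ↦ T h + ν * ∑ ν h` is injective on functions on the (connected) box, hence surjective:
`T h = ν (g - c)` with `c = ∑ ν h`, and
`∑ ν (g-c)² = E(g,h) ≤ E g / κ + κ/4 * E h ≤ E g / κ + ∑ ν (g-c)² / 2`.
-/

set_option autoImplicit false

namespace Crest.Agent.R309

open Finset

variable {M : ℕ}

namespace Boch

variable {lo hi : Fin M → ℤ} {ν : (Fin M → ℤ) → ℝ}

lemma shift_le {B : Finset (Fin M → ℤ)} (c : Fin M → ℤ) {F : (Fin M → ℤ) → ℝ}
    (h1 : ∀ x ∈ B, x - c ∉ B → 0 ≤ F x) (h2 : ∀ y ∈ B, y + c ∉ B → F (y + c) = 0) :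
    ∑ y ∈ B, F (y + c) ≤ ∑ x ∈ B, F x := by
  rw [← sum_filter_of_ne (p := fun y => y + c ∈ B) fun y hy h => by_contra fun h' => h (h2 y hy h'),
    ← sum_image (g := fun y => y + c) (add_left_injective c).injOn]
  refine sum_le_sum_of_subset_of_nonneg (image_subset_iff.2 fun y hy => (mem_filter.1 hy).2)
    fun x hx h => h1 x hx fun h' => h (mem_image.2 ⟨x - c, by simpa using ⟨h', hx⟩, by simp⟩)

lemma shift_eq {B : Finset (Fin M → ℤ)} (c : Fin M → ℤ) {F : (Fin M → ℤ) → ℝ}
    (h1 : ∀ x ∈ B, x - c ∉ B → F x = 0) (h2 : ∀ y ∈ B, y + c ∉ B → F (y + c) = 0) :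
    ∑ y ∈ B, F (y + c) = ∑ x ∈ B, F x := by
  refine (shift_le c (fun x hx h => (h1 x hx h).ge) h2).antisymm (neg_le_neg_iff.1 ?_)
  simp only [← sum_neg_distrib]
  exact shift_le (F := fun x => -F x) c (fun x hx h => by simp [h1 x hx h])
    fun y hy h => by simp [h2 y hy h]

lemma mid {y : Fin M → ℤ} {e e' : Fin M} (h : y ∈ box lo hi) (h' : y + ec e + ec e' ∈ box lo hi) :
    y + ec e ∈ box lo hi := by
  refine mem_box.2 fun i => ?_
  have := mem_box.1 h i
  have := mem_box.1 h' i
  simp only [ec, Pi.add_apply, Pi.single_apply] at *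
  split_ifs at * <;> omega

lemma corner {y : Fin M → ℤ} {e e' : Fin M} (hne : e ≠ e') (s : ℤ)
    (h : y + s • ec e ∈ box lo hi) (h' : y + s • ec e' ∈ box lo hi) :
    y + s • ec e + s • ec e' ∈ box lo hi := by
  refine mem_box.2 fun i => ?_
  have := mem_box.1 h i
  have := mem_box.1 h' i
  simp only [ec, Pi.add_apply, Pi.smul_apply, Pi.single_apply] at *
  split_ifs at * <;> simp_all

/-- the gradient along the edges of the box -/
noncomputable def gr (lo hi : Fin M → ℤ) (h : (Fin M → ℤ) → ℝ) (e : Fin M) (y : Fin M → ℤ) : ℝ :=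
  if y ∈ box lo hi ∧ y + ec e ∈ box lo hi then h (y + ec e) - h y else 0

/-- the graph Laplacian -/
noncomputable def lap (lo hi : Fin M → ℤ) (ν : (Fin M → ℤ) → ℝ) :
    ((Fin M → ℤ) → ℝ) →ₗ[ℝ] ((Fin M → ℤ) → ℝ) where
  toFun h x := ∑ e, (ν (x - ec e) * gr lo hi h e (x - ec e) - ν x * gr lo hi h e x)
  map_add' h k := by
    ext x
    rw [Pi.add_apply, ← sum_add_distrib]
    refine sum_congr rfl fun e _ => ?_
    simp only [gr, Pi.add_apply]
    split_ifs <;> ring
  map_smul' c h := by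
    ext x
    rw [Pi.smul_apply, smul_sum]
    refine sum_congr rfl fun e _ => ?_
    simp only [gr, Pi.smul_apply, smul_eq_mul, RingHom.id_apply]
    split_ifs <;> ring

lemma green (k h : (Fin M → ℤ) → ℝ) : ∑ x ∈ box lo hi, k x * lap lo hi ν h x =
    ∑ e, ∑ y ∈ box lo hi, ν y * (gr lo hi k e y * gr lo hi h e y) := by
  simp only [lap, LinearMap.coe_mk, AddHom.coe_mk, mul_sum, mul_sub]
  rw [sum_comm]
  refine sum_congr rfl fun e _ => ?_
  rw [sum_sub_distrib, ← shift_eq (ec e) (fun x _ h => by simp [gr, h]) fun y _ h => by simp [gr, h],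
    ← sum_sub_distrib]
  refine sum_congr rfl fun y _ => ?_
  simp only [add_sub_cancel_right, gr]
  split_ifs <;> ring

lemma const {h : (Fin M → ℤ) → ℝ} (H : ∀ e, ∀ y ∈ box lo hi, gr lo hi h e y = 0) :
    ∀ y ∈ box lo hi, h y = h lo := by
  suffices ∀ n : ℕ, ∀ y ∈ box lo hi, ∑ e, (y e - lo e) ≤ n → h y = h lo from
    fun y hy => this _ y hy (Int.self_le_toNat _)
  intro n
  induction n with
  | zero =>
    intro y hy h0
    have := (sum_eq_zero_iff_of_nonneg fun e _ => sub_nonneg.2 (mem_box.1 hy e).1).1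
      (h0.antisymm (sum_nonneg fun e _ => sub_nonneg.2 (mem_box.1 hy e).1))
    rw [funext fun e => sub_eq_zero.1 (this e (mem_univ e))]
  | succ n ih =>
    intro y hy hn
    by_cases h0 : y = lo
    · rw [h0]
    obtain ⟨e, he⟩ := Function.ne_iff.1 h0
    have h1 : y - ec e ∈ box lo hi := mem_box.2 fun i => by
      have := mem_box.1 hy i
      simp only [ec, Pi.sub_apply, Pi.single_apply]
      split_ifs with h
      · subst h; omega
      · omega
    have h2 := H e _ h1
    simp only [gr, sub_add_cancel, h1, hy, and_self, if_true] at h2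
    rw [sub_eq_zero.1 h2]
    refine ih _ h1 ?_
    simp only [Pi.sub_apply, sub_right_comm _ (ec e _), sum_sub_distrib (g := ec e)]
    simp only [ec, sum_pi_single', mem_univ, if_true]
    push_cast at hn
    omega

lemma poisson (hν : ∀ y ∈ box lo hi, 0 < ν y) (g : (Fin M → ℤ) → ℝ) :
    ∃ h c, ∀ x ∈ box lo hi, lap lo hi ν h x = ν x * (g x - c) := by
  let S : ((Fin M → ℤ) → ℝ) →ₗ[ℝ] ((Fin M → ℤ) → ℝ) :=
    lap lo hi ν + (∑ y ∈ box lo hi, ν y • LinearMap.proj y).smulRight ν
  have hS : ∀ h x, S h x = lap lo hi ν h x + (∑ y ∈ box lo hi, ν y * h y) * ν x := fun h x => by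
    simp [S, LinearMap.sum_apply]
  let T := LinearMap.funLeft ℝ ℝ (Subtype.val : box lo hi → _) ∘ₗ S ∘ₗ
    Function.ExtendByZero.linearMap ℝ (Subtype.val : box lo hi → _)
  have hT : Function.Injective T := by
    refine (injective_iff_map_eq_zero T).2 fun k hk => ?_
    set h := Function.ExtendByZero.linearMap ℝ (Subtype.val : box lo hi → _) k with hh
    have h0 : ∑ x ∈ box lo hi, h x * S h x = 0 :=
      sum_eq_zero fun x hx => mul_eq_zero_of_right _ (congrFun hk ⟨x, hx⟩)
    have h1 : ∀ e, ∀ y ∈ box lo hi, 0 ≤ ν y * (gr lo hi h e y * gr lo hi h e y) := fun e y hy =>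
      mul_nonneg (hν y hy).le (mul_self_nonneg _)
    simp only [hS, mul_add, sum_add_distrib, green] at h0
    simp only [mul_comm (h _), mul_assoc _ (ν _), ← mul_sum] at h0
    rw [add_eq_zero_iff_of_nonneg (sum_nonneg fun e _ => sum_nonneg (h1 e)) (mul_self_nonneg _),
      sum_eq_zero_iff_of_nonneg fun e _ => sum_nonneg (h1 e), mul_self_eq_zero] at h0
    have h2 := const fun e y hy => by
      simpa [(hν y hy).ne'] using (sum_eq_zero_iff_of_nonneg (h1 e)).1 (h0.1 e (mem_univ e)) y hy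
    funext x
    have h3 := h0.2
    rw [sum_congr rfl fun y hy => by rw [h2 y hy], ← sum_mul, mul_eq_zero] at h3
    have h4 := (h2 x x.2).trans (h3.resolve_left (sum_pos hν ⟨x, x.2⟩).ne')
    simpa [hh, Subtype.val_injective.extend_apply] using h4
  obtain ⟨k, hk⟩ := LinearMap.injective_iff_surjective.1 hT fun x => ν x * g x
  set h := Function.ExtendByZero.linearMap ℝ (Subtype.val : box lo hi → _) k
  refine ⟨h, ∑ y ∈ box lo hi, ν y * h y, fun x hx => ?_⟩
  have := (hS h x).symm.trans (congrFun hk ⟨x, hx⟩)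
  linarith

lemma loc {y : Fin M → ℤ} (hν : ∀ y ∈ box lo hi, 0 < ν y) (hy : y ∈ box lo hi) (e e' : Fin M)
    {A η : ℝ} (hη : η ≤ 1 / 2) (hA : |A| ≤ η) (h : (Fin M → ℤ) → ℝ)
    (H : y + ec e + ec e' ∈ box lo hi →
      ν (y + ec e) * ν (y + ec e') = (1 + A) * (ν y * ν (y + ec e + ec e'))) :
    ν y * (A * gr lo hi h e y * gr lo hi h e' y -
        η ^ 2 * (gr lo hi h e y ^ 2 + gr lo hi h e' y ^ 2)) ≤
      ν (y + ec e') * gr lo hi h e (y + ec e') * (ν (y + ec e) * gr lo hi h e' (y + ec e)) /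
          ν (y + ec e + ec e') -
        ν y * gr lo hi h e y * (ν (y + ec e) * gr lo hi h e' (y + ec e)) / ν (y + ec e) -
        ν (y + ec e') * gr lo hi h e (y + ec e') * (ν y * gr lo hi h e' y) / ν (y + ec e') +
        ν y * gr lo hi h e y * (ν y * gr lo hi h e' y) / ν y := by
  have hc := add_right_comm y (ec e') (ec e)
  have h0 := hν y hy
  obtain ⟨hA1, hA2⟩ := abs_le.1 hA
  by_cases h3 : y + ec e + ec e' ∈ box lo hi
  · have h1 := mid hy h3
    have h2 := mid hy (hc ▸ h3)
    have := hν _ h1; have := hν _ h2; have := hν _ h3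
    simp only [gr, hc, hy, h1, h2, h3, and_self, if_true]
    rw [mul_mul_mul_comm (ν (y + ec e')), mul_comm (ν (y + ec e')), H h3]
    generalize h (y + ec e + ec e') = d
    obtain ⟨u, hu⟩ : ∃ u, h (y + ec e) = h y + u := ⟨_, (add_sub_cancel _ _).symm⟩
    obtain ⟨v, hv⟩ : ∃ u, h (y + ec e') = h y + u := ⟨_, (add_sub_cancel _ _).symm⟩
    obtain ⟨w, rfl⟩ : ∃ w, d = h y + u + v + w := ⟨_, (add_sub_cancel _ _).symm⟩
    rw [hu, hv]
    refine le_of_le_of_eq (b := ν y * (w ^ 2 + A * (u + w) * (v + w)))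
      (mul_le_mul_of_nonneg_left ?_ h0.le) (by field_simp; ring)
    have : A ^ 2 ≤ η ^ 2 := sq_le_sq' hA1 hA2
    nlinarith [sq_nonneg (w + A * (u + v)), mul_nonneg (sub_nonneg.2 this) (sq_nonneg (u + v)),
      mul_nonneg (sq_nonneg η) (sq_nonneg (u - v)),
      mul_nonneg (by linarith : 0 ≤ A + 1 / 2) (sq_nonneg w)]
  · have e1 : gr lo hi h e' (y + ec e) = 0 := by simp [gr, h3]
    have e2 : gr lo hi h e (y + ec e') = 0 := by simp [gr, hc, h3]
    rw [e1, e2]
    refine le_of_le_of_eq (b := ν y * (gr lo hi h e y * gr lo hi h e' y))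
      (mul_le_mul_of_nonneg_left ?_ h0.le) (by field_simp; ring)
    have : 0 ≤ η ^ 2 * (gr lo hi h e y ^ 2 + gr lo hi h e' y ^ 2) := by positivity
    rcases eq_or_ne e e' with rfl | hne
    · nlinarith [mul_nonneg (by linarith : 0 ≤ 1 - A) (sq_nonneg (gr lo hi h e y))]
    · have : gr lo hi h e y * gr lo hi h e' y = 0 := by
        simp only [gr]
        split_ifs with h1 h2 <;> try simp
        exact absurd (by simpa using corner hne 1 (by simpa using h1.2) (by simpa using h2.2)) h3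
      rw [mul_assoc, this]
      linarith

end Boch

open Boch

theorem bochner_poincare (lo hi : Fin M → ℤ) (ν : (Fin M → ℤ) → ℝ) (hν : ∀ y ∈ box lo hi, 0 < ν y)
    {κ η : ℝ} (hκ : 0 < κ) (hη : η ≤ 1 / 2) (hκη : 4 * M * η ^ 2 ≤ κ)
    (hA : ∀ y ∈ box lo hi, ∃ A : Fin M → Fin M → ℝ,
      (∀ e e', y + ec e + ec e' ∈ box lo hi →
        ν (y + ec e) * ν (y + ec e') = (1 + A e e') * (ν y * ν (y + ec e + ec e'))) ∧
      (∀ e e', |A e e'| ≤ η) ∧
      ∀ z : Fin M → ℝ, (∀ e, y + ec e ∉ box lo hi → z e = 0) →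
        κ * ∑ e, z e ^ 2 ≤ ∑ e, ∑ e', A e e' * z e * z e')
    (g : (Fin M → ℤ) → ℝ) :
    ∃ c : ℝ, ∑ y ∈ box lo hi, ν y * (g y - c) ^ 2 ≤
      2 / κ * ∑ e, ∑ y ∈ (box lo hi).filter (fun y => y + ec e ∈ box lo hi),
        ν y * (g (y + ec e) - g y) ^ 2 := by
  obtain ⟨h, c, hc⟩ := poisson hν g
  refine ⟨c, ?_⟩
  set V := ∑ y ∈ box lo hi, ν y * (g y - c) ^ 2 with hV
  have h1 : V = ∑ e, ∑ y ∈ box lo hi, ν y * (gr lo hi g e y * gr lo hi h e y) := by
    have : gr lo hi (fun x => g x - c) = gr lo hi g := by ext e y; simp [gr]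
    rw [← this, ← green]
    exact sum_congr rfl fun x hx => by rw [hc x hx]; ring
  have h2 : V = ∑ x ∈ box lo hi, lap lo hi ν h x * lap lo hi ν h x / ν x :=
    sum_congr rfl fun x hx => by have := hν x hx; rw [hc x hx]; field_simp
  have h3 : κ / 2 * ∑ e, ∑ y ∈ box lo hi, ν y * gr lo hi h e y ^ 2 ≤ V := by
    choose! A hA1 hA2 hA3 using hA
    calc _ ≤ ∑ y ∈ box lo hi, ∑ e, ∑ e', ν y * (A y e e' * gr lo hi h e y * gr lo hi h e' y -
          η ^ 2 * (gr lo hi h e y ^ 2 + gr lo hi h e' y ^ 2)) := by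
          rw [sum_comm, mul_sum]
          refine sum_le_sum fun y hy => ?_
          have := hA3 y hy (fun e => gr lo hi h e y) fun e he => by simp [gr, he]
          simp only [← mul_sum, sum_sub_distrib, sum_add_distrib, sum_const, card_univ,
            Fintype.card_fin, nsmul_eq_mul] at this ⊢
          rw [mul_left_comm]
          refine mul_le_mul_of_nonneg_left ?_ (hν y hy).le
          nlinarith [mul_nonneg (sub_nonneg.2 hκη)
            (sum_nonneg fun e (_ : e ∈ univ) => sq_nonneg (gr lo hi h e y))]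
      _ ≤ _ := by
        simp only [h2, lap, LinearMap.coe_mk, AddHom.coe_mk, sum_mul_sum, sum_div]
        rw [sum_comm, sum_comm (s := box lo hi)]
        refine sum_le_sum fun e _ => ?_
        rw [sum_comm, sum_comm (s := box lo hi)]
        refine sum_le_sum fun e' _ => ?_
        refine (sum_le_sum fun y hy => loc hν hy e e' hη (hA2 y hy e e') h (hA1 y hy e e')).trans ?_
        simp only [sub_mul, mul_sub, sub_div, sum_sub_distrib, sum_add_distrib]
        have k1 := shift_eq (B := box lo hi) (ec e) (F := fun x => ν (x - ec e) *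
          gr lo hi h e (x - ec e) * (ν x * gr lo hi h e' x) / ν x) (fun x _ h => by simp [gr, h])
          fun y _ h => by simp [gr, h]
        have k2 := shift_eq (B := box lo hi) (ec e') (F := fun x => ν x * gr lo hi h e x *
          (ν (x - ec e') * gr lo hi h e' (x - ec e')) / ν x) (fun x _ h => by simp [gr, h])
          fun y _ h => by simp [gr, h]
        have k3 := shift_le (B := box lo hi) (ec e + ec e') (F := fun x => ν (x - ec e) *
          gr lo hi h e (x - ec e) * (ν (x - ec e') * gr lo hi h e' (x - ec e')) / ν x)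
          (fun x hx h => by
            rcases eq_or_ne e e' with rfl | hne
            · exact div_nonneg (mul_self_nonneg _) (hν x hx).le
            · simp only [gr]
              split_ifs with h1 h2 <;> try simp
              exact absurd (by simpa [← sub_sub, ← sub_eq_add_neg] using (corner (y := x) hne (-1)
                (by simpa [sub_eq_add_neg] using h1.1) (by simpa [sub_eq_add_neg] using h2.1))) h)
          fun y _ h => by simp [gr, h]
        simp only [← add_assoc, add_sub_cancel_right,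
          show ∀ y : Fin M → ℤ, y + ec e + ec e' - ec e = y + ec e' from fun y => by abel] at k1 k2 k3
        linarith
  have h4 : V ≤ 1 / κ * (∑ e, ∑ y ∈ box lo hi, ν y * gr lo hi g e y ^ 2) +
      κ / 4 * ∑ e, ∑ y ∈ box lo hi, ν y * gr lo hi h e y ^ 2 := by
    simp only [h1, mul_sum, ← sum_add_distrib]
    refine sum_le_sum fun e _ => sum_le_sum fun y hy => ?_
    rw [← sub_nonneg]
    refine le_of_le_of_eq (b := ν y / κ * (gr lo hi g e y - κ / 2 * gr lo hi h e y) ^ 2) ?_
      (by field_simp; ring)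
    have := hν y hy
    positivity
  have h5 : ∑ e, ∑ y ∈ (box lo hi).filter (fun y => y + ec e ∈ box lo hi),
      ν y * (g (y + ec e) - g y) ^ 2 = ∑ e, ∑ y ∈ box lo hi, ν y * gr lo hi g e y ^ 2 := by
    refine sum_congr rfl fun e _ => ?_
    rw [sum_filter]
    refine sum_congr rfl fun y hy => ?_
    simp only [gr, hy, true_and]
    split_ifs <;> simp
  rw [h5, show 2 / κ = 2 * (1 / κ) by ring]
  linarith

end Crest.Agent.R309
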