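import Crest.Agent.R309.Impl

/-!
# Row 309: combinatorial facts about the model of a preprocessed instance

Star cells (`e ≥ M0`) have range `0`, so they are not thick and not tree; thick cells have `e < M0`, so their
ends are not the hub; by `Krus.iso` the hub is its own root and the root of no other vertex.
`room`: for a tree cell `t`, a non-tree cell `e` with `cyc e t ≠ 0` is free with `rho e ≤ rho t` (`maxspan`;
`hi' - lo' ≤ 2 rho e`) or a thin original cell (`rho e < n^26 ≤ rho t`); star cells of roots have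
`cyc e t = 0`; `|cyc e t| ≤ 2`, `rho t < n ^ 10 * sig t`.  For the star cell `t` of a root `r`,
`cycS e t = 0` for thick `e` and `|cycS e t| ≤ 1`.
-/

set_option autoImplicit false

namespace Crest.Agent.R309.Pre

open Finset

variable {p : Pre}

theorem OK.M_le (h : p.OK) : p.I.M + p.I.nv + 1 ≤ p.n := h.wf.size

theorem OK.nZ_ge (h : p.OK) : 64 ≤ p.nZ := by
  unfold nZ; exact_mod_cast h.n_ge

theorem OK.nZ_pos (h : p.OK) : 0 < p.nZ := by linarith [h.nZ_ge]

theorem OK.one_le_nZ (h : p.OK) : 1 ≤ p.nZ := by linarith [h.nZ_ge]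

theorem OK.pow_le_pow (h : p.OK) {i j : ℕ} (hij : i ≤ j) : p.nZ ^ i ≤ p.nZ ^ j :=
  pow_le_pow_right₀ h.one_le_nZ hij

theorem OK.M_le_nZ (h : p.OK) : (p.I.M : ℤ) ≤ p.nZ := by
  have := h.M_le
  unfold nZ; omega

theorem OK.u_val (h : p.OK) (e : Fin p.I.M) : (p.I.u e : ℕ) = p.I.uN e :=
  Inst.vtx_val (h.wf.uN_le e e.2)

theorem OK.v_val (h : p.OK) (e : Fin p.I.M) : (p.I.v e : ℕ) = p.I.vN e :=
  Inst.vtx_val (h.wf.vN_le e e.2)

theorem OK.X0_le (h : p.OK) (e : Fin p.I.M) :
    p.I.loN e ≤ p.I.vec p.X0 e ∧ p.I.vec p.X0 e ≤ p.I.hiN e :=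
  (mem_cls.1 h.X0_mem).1 e

theorem thick_iff (e : ℕ) : p.thick e = true ↔ p.nZ ^ 26 ≤ p.rho e := by simp [thick]

theorem free_iff (e : ℕ) : p.free e = true ↔ p.thick e = true ∧ p.tree e = false := by
  simp [free]

theorem star_iff (e : ℕ) : p.star e = true ↔ p.M0 ≤ e ∧ p.rootN (e - p.M0) = e - p.M0 := by
  simp [star]

theorem ann_false_iff (e : ℕ) : p.ann e = false ↔ p.star e = false ∧ p.tree e = false := by
  simp [ann]

theorem OK.thick_of_tree (h : p.OK) {e : Fin p.I.M} (he : p.tree e = true) :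
    p.thick e = true :=
  (thick_iff _).2 (h.krus.tree_thick e he)

/-- The cells `e ≥ M0` join the hub to the vertex `e - M0` and have range `0`. -/
theorem OK.new_cell (h : p.OK) {e : Fin p.I.M} (he : p.M0 ≤ e) :
    e - p.M0 < p.I.nv ∧ p.I.uN e = e - p.M0 ∧ p.I.vN e = p.I.nv ∧ p.I.loN e = 0 ∧
      p.I.hiN e = 0 ∧ p.thick e = false ∧ p.tree e = false := by
  have h1 : e - p.M0 < p.I.nv := by
    have := e.2
    have := h.star.M_eq
    omega
  have h2 := h.star.star _ h1
  rw [Nat.add_sub_cancel' he] at h2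
  have h3 : p.thick e = false := by
    have := pow_pos h.nZ_pos 26
    rw [← Bool.not_eq_true, thick_iff, rho, h2.2.2.1, h2.2.2.2]
    omega
  refine ⟨h1, h2.1, h2.2.1, h2.2.2.1, h2.2.2.2, h3, ?_⟩
  rw [← Bool.not_eq_true]
  intro h4
  rw [h.thick_of_tree h4] at h3
  exact absurd h3 (by simp)

theorem OK.thick_old (h : p.OK) {e : Fin p.I.M} (he : p.thick e = true) :
    (e : ℕ) < p.M0 ∧ p.I.uN e < p.I.nv ∧ p.I.vN e < p.I.nv := by
  have h1 : (e : ℕ) < p.M0 := by
    by_contra h1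
    rw [(h.new_cell (not_lt.1 h1)).2.2.2.2.2.1] at he
    exact absurd he (by simp)
  exact ⟨h1, h.star.old _ h1⟩

/-- The hub is its own root and the root of no other vertex. -/
theorem OK.hub (h : p.OK) :
    p.rootN p.I.nv = p.I.nv ∧ ∀ a < p.I.nv, p.rootN a < p.I.nv := by
  have h1 := h.krus.iso (Fin.last _) fun e he => by
    have h2 := h.thick_old ((thick_iff _).2 he)
    constructor
    · intro h3
      have := congrArg Fin.val h3
      rw [h.u_val, Fin.val_last] at this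
      omega
    · intro h3
      have := congrArg Fin.val h3
      rw [h.v_val, Fin.val_last] at this
      omega
  refine ⟨h1.1, fun a ha => ?_⟩
  have h2 := h.krus.root_le ⟨a, by omega⟩
  refine lt_of_le_of_ne h2 fun h3 => ?_
  have := congrArg Fin.val (h1.2 ⟨a, by omega⟩ h3)
  simp only [Fin.val_last] at this
  omega

theorem OK.pathN_abs (h : p.OK) {a : ℕ} (ha : a ≤ p.I.nv) (t : Fin p.I.M) :
    |p.pathN a t| ≤ 1 :=
  h.krus.path_abs ⟨a, by omega⟩ t

theorem OK.pathN_supp (h : p.OK) {a : ℕ} (ha : a ≤ p.I.nv) {t : Fin p.I.M}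
    (ht : p.tree t = false) : p.pathN a t = 0 :=
  h.krus.path_supp ⟨a, by omega⟩ t ht

theorem OK.pathN_root (h : p.OK) {a : ℕ} (ha : a ≤ p.I.nv) (t : Fin p.I.M) :
    p.pathN (p.rootN a) t = 0 :=
  congrFun (h.krus.path_root ⟨a, by omega⟩) t

theorem OK.rootN_root (h : p.OK) {a : ℕ} (ha : a ≤ p.I.nv) :
    p.rootN (p.rootN a) = p.rootN a :=
  h.krus.root_root ⟨a, by omega⟩

theorem OK.rootN_eq (h : p.OK) {e : Fin p.I.M} (he : p.thick e = true) :
    p.rootN (p.I.uN e) = p.rootN (p.I.vN e) :=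
  h.krus.root_eq e ((thick_iff _).1 he)

theorem OK.cycN_abs (h : p.OK) {e t : Fin p.I.M} (hne : t ≠ e) : |p.cycN e t| ≤ 2 := by
  have h1 := abs_le.1 (h.pathN_abs (h.wf.uN_le e e.2) t)
  have h2 := abs_le.1 (h.pathN_abs (h.wf.vN_le e e.2) t)
  have h3 : (t : ℕ) ≠ e := fun h3 => hne (Fin.ext h3)
  rw [cycN, if_neg h3, abs_le]
  constructor <;> linarith [h1.1, h1.2, h2.1, h2.2]

theorem OK.rho_le_of_cyc (h : p.OK) {e t : Fin p.I.M} (he : p.thick e = true) (hne : t ≠ e)
    (hc : p.cycN e t ≠ 0) : p.rho e ≤ p.rho t := by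
  have h3 : (t : ℕ) ≠ e := fun h3 => hne (Fin.ext h3)
  refine h.krus.maxspan e t ((thick_iff _).1 he) fun h4 => hc ?_
  have h5 : p.pathN (p.I.uN e) t = p.pathN (p.I.vN e) t := h4
  rw [cycN, if_neg h3, h5]
  ring

theorem OK.nZ_le_two_pow (_h : p.OK) : p.nZ ≤ 2 ^ p.n := by
  unfold nZ
  exact_mod_cast (Nat.lt_two_pow_self).le

theorem cyc_eq (p : Pre) (h : p.OK) (e t : Fin p.I.M) : p.mdl.cyc e t = p.cycN e t := by
  have : p.mdl.cyc e t = ec e t - p.pathN (p.I.u e) t + p.pathN (p.I.v e) t := rfl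
  rw [this, h.u_val, h.v_val, cycN]
  simp [ec, Pi.single_apply, Fin.ext_iff]

theorem cycS_eq (p : Pre) (h : p.OK) (e t : Fin p.I.M) : p.mdlS.cyc e t = p.cycS e t := by
  have : p.mdlS.cyc e t = ec e t - p.pathS (p.I.u e) t + p.pathS (p.I.v e) t := rfl
  rw [this, h.u_val, h.v_val, cycS]
  simp [ec, Pi.single_apply, Fin.ext_iff]

theorem OK.rho_nonneg (h : p.OK) (e : Fin p.I.M) : 0 ≤ p.rho e := by
  have := h.X0_le e
  unfold rho
  linarith [this.1, this.2]

theorem OK.rho_le (h : p.OK) (e : Fin p.I.M) : p.rho e ≤ 2 ^ (p.n + 1) := by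
  have h1 := abs_le.1 (h.wf.lo_le e)
  have h2 := abs_le.1 (h.wf.hi_le e)
  unfold rho
  rw [pow_succ]
  linarith [h1.1, h2.2]

theorem OK.star_rho (h : p.OK) {e : Fin p.I.M} (he : p.star e = true) :
    p.I.loN e = 0 ∧ p.I.hiN e = 0 ∧ p.thick e = false ∧ p.tree e = false := by
  exact (h.new_cell ((star_iff _).1 he).1).2.2.2

theorem OK.tree_thick (h : p.OK) {e : Fin p.I.M} (he : p.tree e = true) :
    p.thick e = true ∧ p.star e = false := by
  refine ⟨h.thick_of_tree he, ?_⟩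
  rw [← Bool.not_eq_true]
  intro h1
  rw [(h.star_rho h1).2.2.2] at he
  exact absurd he (by simp)

theorem OK.sig_pos (h : p.OK) (e : Fin p.I.M) : 0 < p.sig e := by
  have := Int.ediv_nonneg (h.rho_nonneg e) (pow_pos h.nZ_pos 10).le
  unfold sig
  omega

theorem OK.den_pos (h : p.OK) (e : Fin p.I.M) : 0 < p.den e := by
  unfold den
  split_ifs
  · exact pow_pos h.nZ_pos 28
  · exact h.sig_pos e

/-- `rho / n^10 < sig ≤ 2 rho / n^10` on thick cells. -/
theorem OK.sig_bounds (h : p.OK) {e : Fin p.I.M} (he : p.thick e = true) :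
    p.rho e < p.nZ ^ 10 * p.sig e ∧ p.nZ ^ 10 * p.sig e ≤ 2 * p.rho e := by
  have hp := pow_pos h.nZ_pos 10
  have h1 := Int.mul_ediv_add_emod (p.rho e) (p.nZ ^ 10)
  have h2 := Int.emod_nonneg (p.rho e) hp.ne'
  have h3 := Int.emod_lt_of_pos (p.rho e) hp
  have h4 := (thick_iff _).1 he
  have h5 : p.nZ ^ 10 ≤ p.nZ ^ 26 := h.pow_le_pow (by norm_num)
  unfold sig
  rw [mul_add, mul_one]
  constructor <;> linarith

theorem OK.st_pos (h : p.OK) (e : Fin p.I.M) : 0 < p.st e := by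
  unfold st
  split_ifs with h1
  · have h2 := (thick_iff _).1 ((free_iff _).1 h1).1
    exact (Int.le_ediv_iff_mul_le (pow_pos h.nZ_pos 26)).2 (by linarith)
  · exact one_pos

theorem OK.sF_cast (h : p.OK) (e : Fin p.I.M) : (p.sF e : ℤ) = p.st e := by
  exact Int.toNat_of_nonneg (h.st_pos e).le

theorem OK.free_star (h : p.OK) {e : Fin p.I.M} (he : p.free e = true) : p.star e = false := by
  rw [← Bool.not_eq_true]
  intro h1
  have h2 := ((free_iff _).1 he).1
  rw [(h.star_rho h1).2.2.1] at h2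
  exact absurd h2 (by simp)

theorem OK.free_len (h : p.OK) {e : Fin p.I.M} (he : p.free e = true) :
    p.lo' e = p.I.loN e ∧ p.len e = (p.rho e / p.st e + 1) * p.st e ∧
      p.rho e < p.len e ∧ p.len e ≤ p.rho e + p.st e := by
  have h1 := h.free_star he
  have h2 := ((free_iff _).1 he).2
  have h3 : p.lo' e = p.I.loN e := by simp [lo', h1, h2]
  have h4 : p.len e = (p.rho e / p.st e + 1) * p.st e := by
    simp only [len, h3, hi', h1, h2, he, Bool.false_eq_true, if_false, if_true]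
    ring
  have hp := h.st_pos e
  have h5 := Int.mul_ediv_add_emod (p.rho e) (p.st e)
  have h6 := Int.emod_nonneg (p.rho e) hp.ne'
  have h7 := Int.emod_lt_of_pos (p.rho e) hp
  refine ⟨h3, h4, ?_, ?_⟩ <;> rw [h4, add_mul, one_mul, mul_comm] <;> linarith

/-- On free cells `len = N * st` with `n^26 ≤ N ≤ 3 n^26`, and `n^26 * st ≤ rho`. -/
theorem OK.free_bounds (h : p.OK) {e : Fin p.I.M} (he : p.free e = true) :
    p.star e = false ∧ p.nZ ^ 26 * p.st e ≤ p.rho e ∧ p.nZ ^ 26 * p.st e ≤ p.len e ∧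
      p.len e ≤ 3 * p.nZ ^ 26 * p.st e ∧ p.hi' e - p.I.hiN e < p.st e := by
  obtain ⟨h1, -, h3, h4⟩ := h.free_len he
  have hp := pow_pos h.nZ_pos 26
  have hs := h.st_pos e
  have h5 := Int.mul_ediv_add_emod (p.rho e) (p.nZ ^ 26)
  have h6 := Int.emod_nonneg (p.rho e) hp.ne'
  have h7 := Int.emod_lt_of_pos (p.rho e) hp
  have h8 : p.st e = p.rho e / p.nZ ^ 26 := by simp [st, he]
  rw [← h8] at h5
  have h9 : p.nZ ^ 26 ≤ p.nZ ^ 26 * p.st e := le_mul_of_one_le_right hp.le hs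
  have h10 : p.st e ≤ p.nZ ^ 26 * p.st e := le_mul_of_one_le_left hs.le hp
  refine ⟨h.free_star he, by linarith, by linarith, by linarith, ?_⟩
  unfold len rho at h4
  linarith

theorem OK.lo'_le (h : p.OK) (e : Fin p.I.M) : p.lo' e ≤ p.I.loN e ∧ p.I.hiN e ≤ p.hi' e := by
  by_cases h1 : p.star e = true
  · have h2 := h.star_rho h1
    have := pow_pos h.nZ_pos 28
    simp only [lo', hi', h1, if_true, h2.1, h2.2.1]
    constructor <;> linarith
  by_cases h2 : p.tree e = true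
  · have := mul_pos (pow_pos h.nZ_pos 33) (h.sig_pos e)
    simp only [lo', hi', h1, h2, if_true, if_false, Bool.false_eq_true]
    constructor <;> linarith
  by_cases h3 : p.free e = true
  · obtain ⟨h4, -, h5, -⟩ := h.free_len h3
    unfold len rho at h5
    constructor <;> linarith
  · simp only [lo', hi', h1, h2, h3, if_false, Bool.false_eq_true]
    exact ⟨le_rfl, le_rfl⟩

theorem OK.len_pos (h : p.OK) (e : Fin p.I.M) : 0 < p.len e := by
  have h1 := h.lo'_le e
  have h2 := h.rho_nonneg e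
  unfold len
  unfold rho at h2
  linarith [h1.1, h1.2]

theorem OK.len_thin (h : p.OK) {e : Fin p.I.M} (he : p.thick e = false) :
    p.len e ≤ 3 * p.nZ ^ 28 := by
  have h0 : p.tree e = false := by
    rw [← Bool.not_eq_true]
    intro h1
    rw [h.thick_of_tree h1] at he
    exact absurd he (by simp)
  have h2 : p.free e = false := by simp [free, he]
  have h3 : 1 ≤ p.nZ ^ 28 := pow_pos h.nZ_pos 28
  by_cases h1 : p.star e = true
  · simp only [len, lo', hi', h1, if_true]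
    linarith
  · have h4 : p.rho e < p.nZ ^ 26 := by
      rw [← not_le, ← thick_iff, he]
      simp
    have h5 : p.nZ ^ 26 ≤ p.nZ ^ 28 := h.pow_le_pow (by norm_num)
    simp only [len, lo', hi', h0, h1, h2, if_false, Bool.false_eq_true]
    unfold rho at h4
    linarith

theorem OK.len_tree (h : p.OK) {e : Fin p.I.M} (he : p.tree e = true) :
    p.len e ≤ 3 * p.nZ ^ 33 * p.sig e := by
  obtain ⟨h1, h2⟩ := h.tree_thick he
  have h3 := (h.sig_bounds h1).1
  have h4 : p.nZ ^ 10 * p.sig e ≤ p.nZ ^ 33 * p.sig e :=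
    mul_le_mul_of_nonneg_right (h.pow_le_pow (by norm_num)) (h.sig_pos e).le
  simp only [len, lo', hi', he, h2, if_true, if_false, Bool.false_eq_true]
  unfold rho at h3
  linarith

theorem OK.len_le (h : p.OK) (e : Fin p.I.M) : p.len e ≤ 2 ^ (36 * p.n) := by
  have hn := h.n_ge
  have hpow : ∀ k : ℕ, p.nZ ^ k ≤ 2 ^ (k * p.n) := fun k => by
    rw [mul_comm, pow_mul]
    exact pow_le_pow_left₀ h.nZ_pos.le h.nZ_le_two_pow k
  have hmono : ∀ {i j : ℕ}, i ≤ j → (2 : ℤ) ^ i ≤ 2 ^ j := fun hij =>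
    pow_le_pow_right₀ (by norm_num) hij
  have hr := h.rho_le e
  by_cases h1 : p.thick e = true
  · by_cases h2 : p.tree e = true
    · have h3 := h.len_tree h2
      have h4 := (h.sig_bounds h1).2
      have h5 : p.sig e ≤ p.nZ ^ 10 * p.sig e :=
        le_mul_of_one_le_left (h.sig_pos e).le (pow_pos h.nZ_pos 10)
      have h6 : p.sig e ≤ 2 * 2 ^ (p.n + 1) := by linarith
      calc p.len e ≤ 3 * p.nZ ^ 33 * p.sig e := h3
        _ ≤ 4 * 2 ^ (33 * p.n) * (2 * 2 ^ (p.n + 1)) := by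
          refine mul_le_mul ?_ h6 (h.sig_pos e).le (by positivity)
          have := hpow 33
          have : (0 : ℤ) < 2 ^ (33 * p.n) := by positivity
          linarith
        _ = 2 ^ (34 * p.n + 4) := by ring
        _ ≤ 2 ^ (36 * p.n) := hmono (by omega)
    · have h3 := h.free_bounds (e := e) ((free_iff _).2 ⟨h1, by simpa using h2⟩)
      have : (0 : ℤ) < 2 ^ (p.n + 1) := by positivity
      calc p.len e ≤ 4 * 2 ^ (p.n + 1) := by linarith [h3.2.1, h3.2.2.2.1]
        _ = 2 ^ (p.n + 3) := by ring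
        _ ≤ 2 ^ (36 * p.n) := hmono (by omega)
  · have h3 := h.len_thin (e := e) (by simpa using h1)
    have h4 := hpow 28
    have : (0 : ℤ) < 2 ^ (28 * p.n) := by positivity
    calc p.len e ≤ 4 * 2 ^ (28 * p.n) := by linarith
      _ = 2 ^ (28 * p.n + 2) := by ring
      _ ≤ 2 ^ (36 * p.n) := hmono (by omega)

theorem OK.card_box (h : p.OK) : (box p.mdl.lo p.mdl.hi).card ≤ 2 ^ p.n ^ 3 := by
  have hn := h.n_ge
  have hM := h.M_le
  unfold box
  rw [Fintype.card_piFinset]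
  calc ∏ e, (Icc (p.mdl.lo e) (p.mdl.hi e)).card ≤ ∏ _e : Fin p.I.M, 2 ^ (36 * p.n) := by
        refine prod_le_prod' fun e _ => ?_
        rw [Int.card_Icc, Int.toNat_le]
        have := h.len_le e
        unfold len at this
        push_cast
        change p.hi' e + 1 - p.lo' e ≤ _
        linarith
    _ = 2 ^ (36 * p.n * p.I.M) := by simp [← pow_mul]
    _ ≤ 2 ^ p.n ^ 3 := by
        refine Nat.pow_le_pow_right (by norm_num) ?_
        calc 36 * p.n * p.I.M ≤ p.n * p.n * p.n := by gcongr <;> omega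
          _ = p.n ^ 3 := by ring

/-- A long step on a free cell is short on the scale of the tree cells of its cycle. -/
theorem OK.step_small (h : p.OK) {e t : Fin p.I.M} (he : p.free e = true) (ht : p.tree t = true) :
    p.nZ ^ 16 * (p.st e * |p.cycN e t|) ≤ 2 * p.sig t := by
  have hne : t ≠ e := by
    rintro rfl
    rw [((free_iff _).1 he).2] at ht
    exact absurd ht (by simp)
  by_cases hc : p.cycN e t = 0
  · rw [hc]
    have := h.sig_pos t
    simp only [abs_zero, mul_zero]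
    linarith
  have h1 := h.rho_le_of_cyc ((free_iff _).1 he).1 hne hc
  have h2 := (h.free_bounds he).2.1
  have h3 := (h.sig_bounds (h.thick_of_tree ht)).1
  have h4 : p.nZ ^ 16 * p.st e ≤ p.sig t := by
    refine le_of_mul_le_mul_left ?_ (pow_pos h.nZ_pos 10)
    calc p.nZ ^ 10 * (p.nZ ^ 16 * p.st e) = p.nZ ^ 26 * p.st e := by ring
      _ ≤ _ := by linarith
  have h5 := h.cycN_abs hne
  have h6 : 0 < p.nZ ^ 16 * p.st e := mul_pos (pow_pos h.nZ_pos 16) (h.st_pos e)
  calc p.nZ ^ 16 * (p.st e * |p.cycN e t|) = p.nZ ^ 16 * p.st e * |p.cycN e t| := by ring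
    _ ≤ p.nZ ^ 16 * p.st e * 2 := mul_le_mul_of_nonneg_left h5 h6.le
    _ ≤ 2 * p.sig t := by linarith

theorem OK.sig_large (h : p.OK) {t : Fin p.I.M} (ht : p.tree t = true) : p.nZ ^ 16 ≤ p.sig t := by
  have h1 := h.thick_of_tree ht
  have h2 := (h.sig_bounds h1).1
  have h3 := (thick_iff _).1 h1
  refine le_of_mul_le_mul_left ?_ (pow_pos h.nZ_pos 10)
  calc p.nZ ^ 10 * p.nZ ^ 16 = p.nZ ^ 26 := by ring
    _ ≤ _ := by linarith

theorem OK.add_two_le_K (h : p.OK) : p.n + 2 ≤ p.K := by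
  have hn := h.n_ge
  unfold K
  calc p.n + 2 ≤ p.n * 2 * 1 := by omega
    _ ≤ p.n * p.n * p.n := by gcongr <;> omega
    _ = p.n ^ 3 := by ring

theorem OK.moves_le (h : p.OK) : 3 * p.I.M + p.I.nv + 1 ≤ 2 ^ p.K := by
  have h1 := h.M_le
  have h2 : p.n < 2 ^ p.n := Nat.lt_two_pow_self
  calc 3 * p.I.M + p.I.nv + 1 ≤ 4 * 2 ^ p.n := by omega
    _ = 2 ^ (p.n + 2) := by ring
    _ ≤ 2 ^ p.K := Nat.pow_le_pow_right (by norm_num) h.add_two_le_K

theorem OK.sF_le (h : p.OK) (e : Fin p.I.M) : p.sF e ≤ 2 ^ p.K := by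
  have h1 : p.st e ≤ 2 ^ (p.n + 1) := by
    by_cases he : p.free e = true
    · have h2 := (h.free_bounds he).2.1
      have h3 : p.st e ≤ p.nZ ^ 26 * p.st e :=
        le_mul_of_one_le_left (h.st_pos e).le (pow_pos h.nZ_pos 26)
      linarith [h.rho_le e]
    · simp only [st, he, if_false, Bool.false_eq_true]
      exact one_le_pow₀ (by norm_num)
  rw [← h.sF_cast] at h1
  have h2 : p.sF e ≤ 2 ^ (p.n + 1) := by exact_mod_cast h1
  exact h2.trans (Nat.pow_le_pow_right (by norm_num) (by linarith [h.add_two_le_K]))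

theorem OK.X0_mem' (h : p.OK) :
    p.I.vec p.X0 ∈ cls p.I.u p.I.v (fun e => p.lo' e) (fun e => p.hi' e) p.I.t := by
  refine mem_cls.2 ⟨fun e => ?_, (mem_cls.1 h.X0_mem).2⟩
  have h1 := h.X0_le e
  have h2 := h.lo'_le e
  exact ⟨h2.1.trans h1.1, h1.2.trans h2.2⟩

theorem OK.term_le (h : p.OK) {e t : Fin p.I.M} (he : p.tree e = false) (ht : p.tree t = true) :
    |p.cycN e t| * (p.hi' e - p.lo' e) ≤ 6 * p.nZ ^ 12 * p.sig t := by
  have hne : t ≠ e := by
    rintro rfl
    rw [he] at ht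
    exact absurd ht (by simp)
  have hs := h.sig_pos t
  have h0 : 0 < p.nZ ^ 12 * p.sig t := mul_pos (pow_pos h.nZ_pos 12) hs
  by_cases hc : p.cycN e t = 0
  · rw [hc]
    simp only [abs_zero, zero_mul]
    linarith
  have h1 : p.len e ≤ 3 * (p.nZ ^ 12 * p.sig t) := by
    by_cases h2 : p.thick e = true
    · have h3 := h.free_bounds ((free_iff _).2 ⟨h2, he⟩)
      have h4 := h.rho_le_of_cyc h2 hne hc
      have h5 := (h.sig_bounds (h.thick_of_tree ht)).1
      have h6 : p.nZ ^ 10 * p.sig t ≤ p.nZ ^ 12 * p.sig t :=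
        mul_le_mul_of_nonneg_right (h.pow_le_pow (by norm_num)) hs.le
      linarith [h3.2.1, h3.2.2.2.1]
    · have h3 := h.len_thin (e := e) (by simpa using h2)
      have h4 : p.nZ ^ 12 * p.nZ ^ 16 ≤ p.nZ ^ 12 * p.sig t :=
        mul_le_mul_of_nonneg_left (h.sig_large ht) (pow_pos h.nZ_pos 12).le
      have h5 : p.nZ ^ 28 = p.nZ ^ 12 * p.nZ ^ 16 := by ring
      linarith
  have h2 := h.len_pos e
  have h3 := h.cycN_abs hne
  unfold len at h1 h2
  calc |p.cycN e t| * (p.hi' e - p.lo' e) ≤ 2 * (p.hi' e - p.lo' e) :=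
        mul_le_mul_of_nonneg_right h3 (by linarith)
    _ ≤ _ := by linarith

theorem OK.room_tree (h : p.OK) {t : Fin p.I.M} (ht : p.tree t = true) (s : Finset (Fin p.I.M))
    (hs : ∀ e ∈ s, p.tree e = false) :
    p.lo' t + (2 + ∑ e ∈ s, |p.cycN e t| * (p.hi' e - p.lo' e)) ≤ p.I.vec p.X0 t ∧
      p.I.vec p.X0 t + (2 + ∑ e ∈ s, |p.cycN e t| * (p.hi' e - p.lo' e)) ≤ p.hi' t := by
  have hs0 := h.sig_pos t
  have h0 : 0 < p.nZ ^ 12 * p.sig t := mul_pos (pow_pos h.nZ_pos 12) hs0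
  have h1 : ∑ e ∈ s, |p.cycN e t| * (p.hi' e - p.lo' e) ≤ p.nZ * (6 * p.nZ ^ 12 * p.sig t) := by
    refine (sum_le_card_nsmul _ _ _ fun e he => h.term_le (hs e he) ht).trans ?_
    rw [nsmul_eq_mul]
    refine mul_le_mul_of_nonneg_right ?_ (by linarith)
    have := s.card_le_univ
    rw [Fintype.card_fin] at this
    exact (Int.ofNat_le.2 this).trans h.M_le_nZ
  have h2 : 0 < p.nZ ^ 13 * p.sig t := mul_pos (pow_pos h.nZ_pos 13) hs0
  have h3 : 8 * (p.nZ ^ 13 * p.sig t) ≤ p.nZ ^ 33 * p.sig t := by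
    calc 8 * (p.nZ ^ 13 * p.sig t) ≤ p.nZ * (p.nZ ^ 13 * p.sig t) :=
          mul_le_mul_of_nonneg_right (by linarith [h.nZ_ge]) h2.le
      _ = p.nZ ^ 14 * p.sig t := by ring
      _ ≤ _ := mul_le_mul_of_nonneg_right (h.pow_le_pow (by norm_num)) hs0.le
  have h4 : p.nZ * (6 * p.nZ ^ 12 * p.sig t) = 6 * (p.nZ ^ 13 * p.sig t) := by ring
  have h5 := h.X0_le t
  have h6 := (h.tree_thick ht).2
  generalize ∑ e ∈ s, |p.cycN e t| * (p.hi' e - p.lo' e) = A at h1 ⊢
  simp only [lo', hi', ht, h6, if_true, if_false, Bool.false_eq_true]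
  constructor <;> linarith [h5.1, h5.2]

theorem OK.root_val (h : p.OK) (a : p.I.V) : (p.mdl.root a : ℕ) = p.rootN a :=
  Inst.vtx_val (h.krus.root_le a)

theorem OK.cycN_tree (h : p.OK) {e : Fin p.I.M} (he : p.tree e = true) (t : Fin p.I.M) :
    p.cycN e t = 0 := by
  have h1 : p.pathN (p.I.uN e) t - p.pathN (p.I.vN e) t = ec e t :=
    congrFun (h.krus.path_tree e he) t
  have h2 : ec e t = if (t : ℕ) = e then 1 else 0 := by
    simp [ec, Pi.single_apply, Fin.ext_iff]
  unfold cycN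
  linarith

theorem OK.forest (h : p.OK) : p.mdl.Forest where
  del_path a := h.krus.del_path a
  path_supp a e he := h.krus.path_supp a e he
  cyc_tree e he := by
    funext t
    rw [cyc_eq p h]
    exact h.cycN_tree he t
  path_abs a e := h.krus.path_abs a e
  X0_mem := h.X0_mem'
  room t ht := by
    simp only [cyc_eq p h]
    exact h.room_tree ht _ fun e he => (mem_filter.1 he).2

theorem OK.thickM (h : p.OK) : p.mdl.Thick p.thickF p.sF := by
  refine ⟨h.forest, h.wf.u_ne_v, fun e he => h.thick_of_tree he, fun e he => ?_, fun a => ?_,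
    fun a => ?_, fun e => ?_, fun e he he' => ?_⟩
  · ext
    rw [h.root_val, h.root_val]
    change p.rootN (p.I.u e) = p.rootN (p.I.v e)
    rw [h.u_val, h.v_val]
    exact h.rootN_eq he
  · ext
    rw [h.root_val, h.root_val]
    exact h.krus.root_root a
  · funext t
    change p.pathN (p.mdl.root a) t = 0
    rw [h.root_val]
    exact congrFun (h.krus.path_root a) t
  · have := h.st_pos e
    rw [← h.sF_cast] at this
    exact_mod_cast this
  · rw [h.sF_cast]
    change p.st e ∣ p.len e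
    rw [(h.free_len ((free_iff _).2 ⟨he, he'⟩)).2.1]
    exact dvd_mul_left _ _

theorem OK.pathS_tree (h : p.OK) {a : ℕ} {t : Fin p.I.M} (ht : (t : ℕ) < p.M0) :
    p.pathS a t = p.pathN a t := by
  unfold pathS
  split_ifs with h1 h2
  · rw [h1, ← h.hub.1, h.pathN_root le_rfl]
  · omega
  · simp

theorem OK.pathS_abs (h : p.OK) {a : ℕ} (ha : a ≤ p.I.nv) (t : Fin p.I.M) :
    |p.pathS a t| ≤ 1 := by
  unfold pathS
  split_ifs with h1 h2
  · simp
  · rw [h.pathN_supp ha (h.new_cell (e := t) (by omega)).2.2.2.2.2.2]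
    simp
  · simpa using h.pathN_abs ha t

theorem OK.cycS_abs (h : p.OK) {e t : Fin p.I.M} (hne : t ≠ e) : |p.cycS e t| ≤ 2 := by
  have h1 := abs_le.1 (h.pathS_abs (h.wf.uN_le e e.2) t)
  have h2 := abs_le.1 (h.pathS_abs (h.wf.vN_le e e.2) t)
  have h3 : (t : ℕ) ≠ e := fun h3 => hne (Fin.ext h3)
  rw [cycS, if_neg h3, abs_le]
  constructor <;> linarith [h1.1, h1.2, h2.1, h2.2]

theorem OK.cycS_thick (h : p.OK) {e : Fin p.I.M} (he : p.thick e = true) (t : ℕ) :
    p.cycS e t = p.cycN e t := by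
  obtain ⟨-, h1, h2⟩ := h.thick_old he
  rw [cycS, cycN, pathS, pathS, if_neg h1.ne, if_neg h2.ne, h.rootN_eq he]
  ring

theorem OK.room_star (h : p.OK) {t : Fin p.I.M} (ht : p.star t = true) (s : Finset (Fin p.I.M))
    (hs : ∀ e ∈ s, p.ann e = false) :
    p.lo' t + (2 + ∑ e ∈ s, |p.cycS e t| * (p.hi' e - p.lo' e)) ≤ p.I.vec p.X0 t ∧
      p.I.vec p.X0 t + (2 + ∑ e ∈ s, |p.cycS e t| * (p.hi' e - p.lo' e)) ≤ p.hi' t := by
  obtain ⟨ht1, ht2, -, ht4⟩ := h.star_rho ht
  have h0 : 0 < p.nZ ^ 26 := pow_pos h.nZ_pos 26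
  have h1 : ∑ e ∈ s, |p.cycS e t| * (p.hi' e - p.lo' e) ≤ p.nZ * (2 * p.nZ ^ 26) := by
    refine (sum_le_card_nsmul _ _ (2 * p.nZ ^ 26) fun e he => ?_).trans ?_
    · obtain ⟨he1, he2⟩ := (ann_false_iff _).1 (hs e he)
      have hne : t ≠ e := by
        rintro rfl
        rw [he1] at ht
        exact absurd ht (by simp)
      by_cases h2 : p.thick e = true
      · have h3 : (t : ℕ) ≠ e := fun h3 => hne (Fin.ext h3)
        rw [h.cycS_thick h2, cycN, if_neg h3, h.pathN_supp (h.wf.uN_le e e.2) ht4,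
          h.pathN_supp (h.wf.vN_le e e.2) ht4]
        simp only [sub_zero, add_zero, abs_zero, zero_mul]
        linarith
      · have h3 : p.free e = false := by simp [free, h2]
        have h4 : p.rho e < p.nZ ^ 26 := by rw [← not_le, ← thick_iff]; exact h2
        have h5 : p.hi' e - p.lo' e = p.rho e := by
          simp only [lo', hi', he1, he2, h3, if_false, Bool.false_eq_true, rho]
        rw [h5]
        exact mul_le_mul (h.cycS_abs hne) h4.le (h.rho_nonneg e) (by norm_num)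
    · rw [nsmul_eq_mul]
      refine mul_le_mul_of_nonneg_right ?_ (by linarith)
      have := s.card_le_univ
      rw [Fintype.card_fin] at this
      exact (Int.ofNat_le.2 this).trans h.M_le_nZ
  have h2 : 0 < p.nZ ^ 27 := pow_pos h.nZ_pos 27
  have h3 : 4 * p.nZ ^ 27 ≤ p.nZ ^ 28 := by
    calc 4 * p.nZ ^ 27 ≤ p.nZ * p.nZ ^ 27 :=
          mul_le_mul_of_nonneg_right (by linarith [h.nZ_ge]) h2.le
      _ = _ := by ring
  have h4 : p.nZ * (2 * p.nZ ^ 26) = 2 * p.nZ ^ 27 := by ring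
  have h5 := h.X0_le t
  rw [ht1, ht2] at h5
  generalize ∑ e ∈ s, |p.cycS e t| * (p.hi' e - p.lo' e) = A at h1 ⊢
  simp only [lo', hi', ht, if_true]
  constructor <;> linarith [h5.1, h5.2]

theorem OK.forestS (h : p.OK) : p.mdlS.Forest := by
  have hM := h.star.M_eq
  refine ⟨fun a => ?_, fun a e he => ?_, fun e he => ?_, fun a e => ?_, h.X0_mem', fun t ht => ?_⟩
  · change del p.I.u p.I.v (fun e => p.pathS a e) = ev a - ev (Fin.last _)
    by_cases ha : (a : ℕ) = p.I.nv
    · have h1 : a = Fin.last _ := Fin.ext ha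
      simp [pathS, h1, del]
    · have ha' : (a : ℕ) < p.I.nv := by have := a.2; omega
      have hr := h.hub.2 a ha'
      let c : Fin p.I.M := ⟨p.M0 + p.rootN a, by omega⟩
      have h1 : (fun e : Fin p.I.M => p.pathS a e) = p.I.vec (p.paths.getD a []) + ec c := by
        funext e
        simp only [pathS, if_neg ha, Pi.add_apply, ec, Pi.single_apply, Fin.ext_iff, c]
        rfl
      have h2 := h.star.star _ hr
      have h3 : p.I.u c = p.I.vtx (p.rootN a) := by
        unfold Inst.u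
        rw [h2.1]
      have h4 : p.I.v c = Fin.last _ := by
        ext
        rw [h.v_val, h2.2.1, Fin.val_last]
      rw [h1, del_add, h.krus.del_path, del_ec, h3, h4]
      unfold rootN
      abel
  · obtain ⟨he1, he2⟩ := (ann_false_iff _).1 he
    have ha : (a : ℕ) ≤ p.I.nv := Nat.le_of_lt_succ a.2
    change p.pathS a e = 0
    unfold pathS
    split_ifs with h1 h2
    · rfl
    · have h3 : p.star e = true := by
        rw [star_iff, h2, Nat.add_sub_cancel_left]
        exact ⟨by omega, h.rootN_root ha⟩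
      rw [he1] at h3
      exact absurd h3 (by simp)
    · simp [h.pathN_supp ha he2]
  · funext t
    rw [cycS_eq p h]
    change p.cycS e t = 0
    by_cases h1 : p.tree e = true
    · rw [h.cycS_thick (h.thick_of_tree h1), h.cycN_tree h1]
    · have h2 : p.star e = true := by
        have h3 : p.ann e = true := he
        simpa [ann, h1] using h3
      obtain ⟨h3, h4⟩ := (star_iff _).1 h2
      obtain ⟨h5, h6, h7, -⟩ := h.new_cell h3
      have h8 := h.pathN_root h5.le t
      rw [h4] at h8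
      rw [cycS, pathS, pathS, h6, h7, if_neg h5.ne, if_pos rfl, h4, h8, Nat.add_sub_cancel' h3]
      ring
  · exact h.pathS_abs (Nat.le_of_lt_succ a.2) e
  · simp only [cycS_eq p h]
    by_cases h1 : p.tree t = true
    · have h2 := (h.thick_old (h.thick_of_tree h1)).1
      have h3 : ∀ e : Fin p.I.M, p.cycS e t = p.cycN e t := fun e => by
        rw [cycS, cycN, h.pathS_tree h2, h.pathS_tree h2]
      simp only [h3]
      exact h.room_tree h1 _ fun e he => ((ann_false_iff _).1 (mem_filter.1 he).2).2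
    · have h2 : p.star t = true := by
        have h3 : p.ann t = true := ht
        simpa [ann, h1] using h3
      exact h.room_star h2 _ fun e he => (mem_filter.1 he).2

theorem jj_le (p : Pre) (s e : ℕ) : p.jj s e ≤ p.n ^ 33 := min_le_left _ _

theorem jj_zero (p : Pre) (e : ℕ) : p.jj 0 e = 0 := by simp [jj]

theorem OK.cell_lt (h : p.OK) {s : ℕ} (hs : s < p.S) : p.cell s < p.I.M := by
  unfold cell
  unfold S at hs
  exact Nat.div_lt_of_lt_mul (by rwa [mul_comm])

theorem OK.jj_succ (h : p.OK) (s : ℕ) :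
    p.jj s (p.cell s) < p.n ^ 33 ∧ p.jj (s + 1) (p.cell s) = p.jj s (p.cell s) + 1 ∧
      ∀ e, e ≠ p.cell s → p.jj (s + 1) e = p.jj s e := by
  have hD : 0 < p.n ^ 33 := pow_pos (by linarith [h.n_ge]) 33
  unfold jj cell
  generalize p.n ^ 33 = D at hD ⊢
  have h1 := Nat.div_add_mod s D
  have h2 := Nat.mod_lt s hD
  rw [mul_comm] at h1
  refine ⟨by omega, by omega, fun e he => ?_⟩
  rcases lt_or_gt_of_ne he with h3 | h3
  · have : (e + 1) * D ≤ s / D * D := Nat.mul_le_mul_right D h3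
    rw [add_mul, one_mul] at this
    omega
  · have : (s / D + 1) * D ≤ e * D := Nat.mul_le_mul_right D h3
    rw [add_mul, one_mul] at this
    omega

theorem jj_S (p : Pre) (e : Fin p.I.M) : p.jj p.S e = p.n ^ 33 := by
  unfold jj S
  have : ((e : ℕ) + 1) * p.n ^ 33 ≤ p.I.M * p.n ^ 33 := Nat.mul_le_mul_right _ e.2
  rw [add_mul, one_mul] at this
  omega

theorem OK.S_le (h : p.OK) : p.S ≤ p.n ^ 34 := by
  have := h.M_le
  unfold S
  calc p.I.M * p.n ^ 33 ≤ p.n * p.n ^ 33 := Nat.mul_le_mul_right _ (by omega)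
    _ = p.n ^ 34 := by ring

end Crest.Agent.R309.Pre
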