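import Crest.Agent.R309.Basic

/-!
# Row 309: feasibility of capacitated flows in polynomial time (fat augmenting paths)

State: a list `X` (start at `los`), `β a = delN X a - tN a`, potential `Φ = ∑ a, max (β a) 0`.  Each step puts
`Δ = Φ / (n + 1) + 1` and grows a list of reached vertices from `{a | Δ ≤ β a}`, each with a sign vector `p`
(supported on cells with both ends reached, `del p = ev b - ev a` for a source `a`, `X + Δ p` in the box).
If some reached `b` has `β b ≤ -Δ` replace `X` by `X + Δ p_b`: the potential drops by `Δ`.  If none does and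
a feasible `Y` exists, the cut inequality for the closed reached set gives `Φ ≤ (M + nv + 1) (Δ - 1)`, so
`Φ = 0`.  Hence every step multiplies `Φ` by at most `n / (n + 1)`.
-/

set_option autoImplicit false
set_option maxHeartbeats 400000

namespace Crest.Agent.R309

open Finset Crest.Agent.Lib.PolyTime

namespace Feas

/-- sign vectors -/
abbrev Sv : Type := List (Bool × Bool)

def sv (p : Sv) (e : ℕ) : ℤ :=
  (if (p.getD e (false, false)).1 then 1 else 0) - (if (p.getD e (false, false)).2 then 1 else 0)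

def sg (σ : Bool) : ℤ := if σ then 1 else -1

def hd (I : Inst) (r : ℕ × Bool) : ℕ := if r.2 then I.uN r.1 else I.vN r.1

def tl (I : Inst) (r : ℕ × Bool) : ℕ := if r.2 then I.vN r.1 else I.uN r.1

def arcs (I : Inst) : List (ℕ × Bool) := tab I.M (fun e => (e, true)) ++ tab I.M fun e => (e, false)

def bet (I : Inst) (X : List ℤ) (a : ℕ) : ℤ := I.delN X a - I.tN a

def upd (I : Inst) (p : Sv) (r : ℕ × Bool) : Sv :=
  tab I.M fun e => if e = r.1 then (r.2, !r.2) else p.getD e (false, false)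

def ok (I : Inst) (X : List ℤ) (Δ : ℤ) (s : List (ℕ × Sv)) (b : ℕ) (r : ℕ × Bool) : Bool :=
  decide (I.loN r.1 ≤ X.getD r.1 0 + Δ * sg r.2) && decide (X.getD r.1 0 + Δ * sg r.2 ≤ I.hiN r.1) &&
    decide (b = tl I r) && s.all fun q' => decide (q'.1 ≠ hd I r)

def cands (I : Inst) (X : List ℤ) (Δ : ℤ) (s : List (ℕ × Sv)) : List (ℕ × Sv) :=
  s.flatMap fun q => ((arcs I).filter (ok I X Δ s q.1)).map fun r => (hd I r, upd I q.2 r)

def grow (I : Inst) (X : List ℤ) (Δ : ℤ) (s : List (ℕ × Sv)) : List (ℕ × Sv) :=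
  (cands I X Δ s).take 1 ++ s

def src (I : Inst) (X : List ℤ) (Δ : ℤ) : List (ℕ × Sv) :=
  ((List.range (I.nv + 1)).filter fun a => decide (Δ ≤ bet I X a)).map fun a => (a, [])

def reach (I : Inst) (X : List ℤ) (Δ : ℤ) : List (ℕ × Sv) :=
  (grow I X Δ)^[I.nv + 2] (src I X Δ)

def clamp (I : Inst) (e : ℕ) (x : ℤ) : ℤ := if I.loN e ≤ x ∧ x ≤ I.hiN e then x else 0

def aug (I : Inst) (X : List ℤ) (Δ : ℤ) (p : Sv) : List ℤ :=
  tab I.M fun e => clamp I e (X.getD e 0 + Δ * sv p e)

def attempt (I : Inst) (X : List ℤ) (Δ : ℤ) : List ℤ :=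
  (((reach I X Δ).filter fun q => decide (bet I X q.1 ≤ -Δ)).map fun q => aug I X Δ q.2).headD X

def pot (I : Inst) (X : List ℤ) : ℤ :=
  (tab (I.nv + 1) fun a => if 0 ≤ bet I X a then bet I X a else 0).sum

def step (I : Inst) (n : ℕ) (X : List ℤ) : List ℤ := attempt I X (pot I X / ((n : ℤ) + 1) + 1)

def run (I : Inst) (n : ℕ) : List ℤ := (step I n)^[(n + 1) * size (pot I I.los)] I.los

def flag (I : Inst) (X : List ℤ) : Bool :=
  ((List.range I.M).all fun e => decide (I.loN e ≤ X.getD e 0) && decide (X.getD e 0 ≤ I.hiN e)) &&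
    (List.range (I.nv + 1)).all fun a => decide (bet I X a = 0)

def feas (x : Inst × ℕ) : Bool × List ℤ :=
  (flag x.1 (run x.1 x.2), tab x.1.M fun e => (run x.1 x.2).getD e 0)

/-! ### Polynomial time -/

section PT

variable {α σ : Type} [Enc α] [Enc σ]

theorem pt_iter_growth {st : α → σ → σ} (hs : PT fun p : α × σ => st p.1 p.2) {n : α → ℕ}
    {s₀ : α → σ} (hn : PT n) (h₀ : PT s₀) {G : α → ℕ} (hG : PB G)
    (hsz : ∀ a s, size (st a s) ≤ size s + G a) : PT fun a => (st a)^[n a] (s₀ a) := by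
  refine PT.iterate hs hn h₀ (B := fun a => size (s₀ a) + n a * G a)
    ((PB.size h₀).add ((PB.of_PT hn).mul hG)) fun a i hi => ?_
  have : ∀ j, size ((st a)^[j] (s₀ a)) ≤ size (s₀ a) + j * G a := by
    intro j
    induction j with
    | zero => simp
    | succ j ih =>
      rw [Function.iterate_succ_apply']
      have := hsz a ((st a)^[j] (s₀ a))
      rw [Nat.succ_mul]
      omega
  exact (this i).trans (Nat.add_le_add_left (Nat.mul_le_mul_right _ hi) _)

theorem size_getD_le {β : Type} [Enc β] (l : List β) (i : ℕ) (d : β) :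
    size (l.getD i d) ≤ size l + size d := by
  rw [List.getD_eq_getElem?_getD]
  rcases h : l[i]? with _ | x
  · simp
  · have := size_le_of_mem (List.mem_of_getElem? h)
    simp only [Option.getD_some]
    omega

theorem size_tab_le {β : Type} [Enc β] (n : ℕ) (g : ℕ → β) {m : ℕ} (h : ∀ i, size (g i) ≤ m) :
    size (tab n g) ≤ n * (2 * m + 1) := by
  have := size_list_le (l := tab n g) (m := m) fun a ha => by
    obtain ⟨i, -, rfl⟩ := List.mem_map.1 ha
    exact h i
  rwa [length_tab] at this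

variable {I : α → Inst} {X : α → List ℤ} {Δ : α → ℤ} {s : α → List (ℕ × Sv)} {p : α → Sv}
  {r : α → ℕ × Bool} {e : α → ℕ}

@[fun_prop] theorem pt_sv (hp : PT p) (he : PT e) : PT fun a => sv (p a) (e a) := by
  unfold sv; fun_prop

@[fun_prop] theorem pt_sg {b : α → Bool} (hb : PT b) : PT fun a => sg (b a) := by
  unfold sg; fun_prop

@[fun_prop] theorem pt_hd (hI : PT I) (hr : PT r) : PT fun a => hd (I a) (r a) := by
  unfold hd; fun_prop

@[fun_prop] theorem pt_tl (hI : PT I) (hr : PT r) : PT fun a => tl (I a) (r a) := by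
  unfold tl; fun_prop

@[fun_prop] theorem pt_arcs (hI : PT I) : PT fun a => arcs (I a) := by
  unfold arcs; fun_prop

@[fun_prop] theorem pt_bet (hI : PT I) (hX : PT X) (he : PT e) :
    PT fun a => bet (I a) (X a) (e a) := by
  unfold bet; fun_prop

@[fun_prop] theorem pt_upd (hI : PT I) (hp : PT p) (hr : PT r) :
    PT fun a => upd (I a) (p a) (r a) := by
  unfold upd; fun_prop

@[fun_prop] theorem pt_ok (hI : PT I) (hX : PT X) (hΔ : PT Δ) (hs : PT s) (he : PT e) (hr : PT r) :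
    PT fun a => ok (I a) (X a) (Δ a) (s a) (e a) (r a) := by
  unfold ok; fun_prop

@[fun_prop] theorem pt_cands (hI : PT I) (hX : PT X) (hΔ : PT Δ) (hs : PT s) :
    PT fun a => cands (I a) (X a) (Δ a) (s a) := by
  unfold cands; fun_prop

@[fun_prop] theorem pt_grow (hI : PT I) (hX : PT X) (hΔ : PT Δ) (hs : PT s) :
    PT fun a => grow (I a) (X a) (Δ a) (s a) := by
  unfold grow; fun_prop

@[fun_prop] theorem pt_src (hI : PT I) (hX : PT X) (hΔ : PT Δ) :
    PT fun a => src (I a) (X a) (Δ a) := by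
  unfold src; fun_prop

theorem size_grow_le (I : Inst) (X : List ℤ) (Δ : ℤ) (s : List (ℕ × Sv)) :
    size (grow I X Δ s) ≤ size s + (2 * (2 * (size I.us + size I.vs) + 1 + I.M * 9) + 1) := by
  unfold grow
  rcases h : cands I X Δ s with _ | ⟨c, l⟩
  · simp
  · have hc : c ∈ cands I X Δ s := by rw [h]; exact List.mem_cons_self
    obtain ⟨q, -, hc⟩ := List.mem_flatMap.1 hc
    obtain ⟨r, -, rfl⟩ := List.mem_map.1 hc
    have h1 : hd I r ≤ size I.us + size I.vs := by
      have h2 := size_getD_le I.us r.1 0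
      have h3 := size_getD_le I.vs r.1 0
      simp only [size_nat] at h2 h3
      unfold hd Inst.uN Inst.vN
      split_ifs <;> omega
    have h2 : size (upd I q.2 r) ≤ I.M * (2 * 4 + 1) :=
      size_tab_le _ _ fun i => by rw [size_prod']; simp
    simp only [List.take_succ_cons, List.take_zero, List.singleton_append, size_cons, size_prod,
      size_nat]
    omega

@[fun_prop] theorem pt_reach (hI : PT I) (hX : PT X) (hΔ : PT Δ) :
    PT fun a => reach (I a) (X a) (Δ a) :=
  pt_iter_growth (st := fun a => grow (I a) (X a) (Δ a)) (by fun_prop) (by fun_prop) (by fun_prop)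
    (G := fun a => 2 * (2 * (size (I a).us + size (I a).vs) + 1 + (I a).us.length * 9) + 1)
    (by fun_prop) fun _ _ => size_grow_le _ _ _ _

@[fun_prop] theorem pt_clamp (hI : PT I) (he : PT e) (hΔ : PT Δ) :
    PT fun a => clamp (I a) (e a) (Δ a) := by
  unfold clamp; fun_prop

@[fun_prop] theorem pt_aug (hI : PT I) (hX : PT X) (hΔ : PT Δ) (hp : PT p) :
    PT fun a => aug (I a) (X a) (Δ a) (p a) := by
  unfold aug; fun_prop

@[fun_prop] theorem pt_attempt (hI : PT I) (hX : PT X) (hΔ : PT Δ) :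
    PT fun a => attempt (I a) (X a) (Δ a) := by
  unfold attempt; fun_prop

@[fun_prop] theorem pt_pot (hI : PT I) (hX : PT X) : PT fun a => pot (I a) (X a) := by
  unfold pot; fun_prop

@[fun_prop] theorem pt_step (hI : PT I) (he : PT e) (hX : PT X) :
    PT fun a => step (I a) (e a) (X a) := by
  unfold step; fun_prop

theorem size_clamp_le (I : Inst) (e : ℕ) (x : ℤ) :
    size (clamp I e x) ≤ size I.los + size I.his + 1 := by
  have h0 : size (0 : ℤ) = 1 := by simp [size_int]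
  have h1 := size_getD_le I.los e 0
  have h2 := size_getD_le I.his e 0
  unfold clamp
  split_ifs with h
  · by_cases hx : 0 ≤ x
    · have := size_int_le_of_natAbs_le (a := x) (b := I.hiN e) (by omega)
      unfold Inst.hiN at this
      omega
    · have := size_int_le_of_natAbs_le (a := x) (b := I.loN e) (by omega)
      unfold Inst.loN at this
      omega
  · omega

theorem size_attempt_le (I : Inst) (X : List ℤ) (Δ : ℤ) :
    size (attempt I X Δ) ≤ size X + I.M * (2 * (size I.los + size I.his + 1) + 1) := by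
  unfold attempt
  generalize ((reach I X Δ).filter fun q => decide (bet I X q.1 ≤ -Δ)) = L
  rcases L with _ | ⟨q, l⟩
  · simp
  · have : size (aug I X Δ q.2) ≤ I.M * (2 * (size I.los + size I.his + 1) + 1) :=
      size_tab_le _ _ fun i => size_clamp_le _ _ _
    simp only [List.map_cons, List.headD_cons]
    omega

@[fun_prop] theorem pt_run (hI : PT I) (he : PT e) : PT fun a => run (I a) (e a) :=
  pt_iter_growth (st := fun a => step (I a) (e a)) (by fun_prop) (by fun_prop) (by fun_prop)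
    (G := fun a => (I a).us.length * (2 * (size (I a).los + size (I a).his + 1) + 1))
    (by fun_prop) fun _ _ => size_attempt_le _ _ _

@[fun_prop] theorem pt_flag (hI : PT I) (hX : PT X) : PT fun a => flag (I a) (X a) := by
  unfold flag; fun_prop

theorem pt_feas : PT feas := by
  unfold feas; fun_prop

end PT

/-! ### Correctness -/

section Sem

variable {I : Inst} {n : ℕ} {X : List ℤ} {Δ : ℤ}

/-- a sign vector as a vector on the cells -/
def P (I : Inst) (p : Sv) : Fin I.M → ℤ := fun e => sv p e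

/-- the excess -/
def B (I : Inst) (X : List ℤ) : I.V → ℤ := del I.u I.v (I.vec X) - I.t

theorem bet_eq (h : I.WF n) (X : List ℤ) (a : I.V) : bet I X a = B I X a := by
  unfold bet B
  rw [h.delN_eq]
  rfl

theorem bet_vtx (h : I.WF n) (X : List ℤ) {k : ℕ} (hk : k ≤ I.nv) :
    bet I X k = B I X (I.vtx k) := by
  rw [← bet_eq h, Inst.vtx_val hk]

theorem pot_eq (h : I.WF n) (X : List ℤ) : pot I X = ∑ a : I.V, max (B I X a) 0 := by
  unfold pot
  rw [tab_eq_ofFn, List.sum_ofFn]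
  refine sum_congr rfl fun a _ => ?_
  rw [bet_eq h]
  split_ifs <;> omega

theorem P_nil : P I [] = 0 := by
  funext e
  simp [P, sv]

theorem P_upd (p : Sv) (e : Fin I.M) (σ : Bool) (h : P I p e = 0) :
    P I (upd I p (e, σ)) = P I p + sg σ • ec e := by
  funext e'
  simp only [P, sv, upd, getD_tab _ _ e'.2, Pi.add_apply, Pi.smul_apply, ec, smul_eq_mul]
  by_cases he : e' = e
  · subst he
    simp only [P, sv] at h
    rw [h]
    cases σ <;> simp [sg]
  · have : (e' : ℕ) ≠ e := fun h => he (Fin.ext h)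
    simp [this, he]

theorem del_arc (e : Fin I.M) (σ : Bool) :
    del I.u I.v (sg σ • ec e) = ev (I.vtx (hd I (e, σ))) - ev (I.vtx (tl I (e, σ))) := by
  rw [del_smul, del_ec]
  cases σ <;> simp [sg, hd, tl, Inst.u, Inst.v]

theorem mem_arcs {r : ℕ × Bool} : r ∈ arcs I ↔ r.1 < I.M := by
  obtain ⟨e, σ⟩ := r
  cases σ <;> simp [arcs, tab]

theorem mem_cands {s : List (ℕ × Sv)} {c : ℕ × Sv} : c ∈ cands I X Δ s ↔
    ∃ q ∈ s, ∃ (e : Fin I.M) (σ : Bool), I.lo e ≤ I.vec X e + Δ * sg σ ∧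
      I.vec X e + Δ * sg σ ≤ I.hi e ∧ q.1 = tl I (e, σ) ∧ hd I (e, σ) ∉ s.map Prod.fst ∧
      c = (hd I (e, σ), upd I q.2 (e, σ)) := by
  simp only [cands, List.mem_flatMap, List.mem_map, List.mem_filter, mem_arcs, ok, Bool.and_eq_true,
    decide_eq_true_eq, List.all_eq_true]
  constructor
  · rintro ⟨q, hq, ⟨e, σ⟩, ⟨he, ⟨⟨h1, h2⟩, h3⟩, h4⟩, rfl⟩
    exact ⟨q, hq, ⟨e, he⟩, σ, h1, h2, h3, fun ⟨q', hq', h⟩ => h4 q' hq' h, rfl⟩
  · rintro ⟨q, hq, e, σ, h1, h2, h3, h4, rfl⟩
    exact ⟨q, hq, (e, σ), ⟨e.2, ⟨⟨h1, h2⟩, h3⟩, fun q' hq' h => h4 ⟨q', hq', h⟩⟩, rfl⟩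

/-- the invariant of a reached vertex -/
structure Good (I : Inst) (X : List ℤ) (Δ : ℤ) (s : List (ℕ × Sv)) (q : ℕ × Sv) : Prop where
  le : q.1 ≤ I.nv
  src : ∃ a : I.V, Δ ≤ B I X a ∧ del I.u I.v (P I q.2) = ev (I.vtx q.1) - ev a
  box : I.vec X + Δ • P I q.2 ∈ box I.lo I.hi
  supp : ∀ e : Fin I.M, P I q.2 e ≠ 0 → I.uN e ∈ s.map Prod.fst ∧ I.vN e ∈ s.map Prod.fst

theorem Good.mono {s : List (ℕ × Sv)} {q : ℕ × Sv} (h : Good I X Δ s q) (c : ℕ × Sv) :
    Good I X Δ (c :: s) q :=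
  ⟨h.le, h.src, h.box, fun e he =>
    ⟨List.mem_cons_of_mem _ (h.supp e he).1, List.mem_cons_of_mem _ (h.supp e he).2⟩⟩

theorem good_cand (h : I.WF n) {s : List (ℕ × Sv)} (hs : ∀ q ∈ s, Good I X Δ s q) {c : ℕ × Sv}
    (hc : c ∈ cands I X Δ s) : Good I X Δ (c :: s) c ∧ c.1 ∉ s.map Prod.fst := by
  obtain ⟨q, hq, e, σ, h1, h2, h3, h4, rfl⟩ := mem_cands.1 hc
  have g := hs q hq
  have h0 : P I q.2 e = 0 := by
    by_contra h0
    have := g.supp e h0
    apply h4
    cases σ
    · exact this.2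
    · exact this.1
  have hq1 : tl I (e, σ) ∈ s.map Prod.fst := h3 ▸ List.mem_map_of_mem hq
  refine ⟨⟨?_, ?_, ?_, ?_⟩, h4⟩
  · cases σ
    · exact h.vN_le e e.2
    · exact h.uN_le e e.2
  · obtain ⟨a, ha, hd⟩ := g.src
    refine ⟨a, ha, ?_⟩
    rw [P_upd _ _ _ h0, del_add, del_arc, hd, h3]
    abel
  · rw [P_upd _ _ _ h0, mem_box]
    intro e'
    have := mem_box.1 g.box e'
    by_cases he : e' = e
    · subst he
      simp only [Pi.add_apply, Pi.smul_apply, smul_eq_mul, h0, ec, Pi.single_eq_same, zero_add,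
        mul_one]
      exact ⟨h1, h2⟩
    · simpa [ec, he] using this
  · intro e' he'
    by_cases he : e' = e
    · subst he
      cases σ
      · exact ⟨List.mem_cons_of_mem _ hq1, List.mem_cons_self⟩
      · exact ⟨List.mem_cons_self, List.mem_cons_of_mem _ hq1⟩
    · rw [P_upd _ _ _ h0] at he'
      have : P I q.2 e' ≠ 0 := by simpa [ec, he] using he'
      exact ⟨List.mem_cons_of_mem _ (g.supp e' this).1, List.mem_cons_of_mem _ (g.supp e' this).2⟩

theorem grow_cases (s : List (ℕ × Sv)) :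
    (cands I X Δ s = [] ∧ grow I X Δ s = s) ∨ ∃ c ∈ cands I X Δ s, grow I X Δ s = c :: s := by
  unfold grow
  rcases cands I X Δ s with _ | ⟨c, l⟩
  · exact Or.inl ⟨rfl, rfl⟩
  · exact Or.inr ⟨c, List.mem_cons_self, rfl⟩

theorem iter_grow (h : I.WF n) (hX : I.vec X ∈ box I.lo I.hi) (i : ℕ) :
    (∀ q ∈ (grow I X Δ)^[i] (src I X Δ), Good I X Δ ((grow I X Δ)^[i] (src I X Δ)) q) ∧
    (∀ a : I.V, Δ ≤ B I X a → (a : ℕ) ∈ ((grow I X Δ)^[i] (src I X Δ)).map Prod.fst) ∧
    (cands I X Δ ((grow I X Δ)^[i] (src I X Δ)) = [] ∨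
      i ≤ (((grow I X Δ)^[i] (src I X Δ)).map Prod.fst).toFinset.card) := by
  induction i with
  | zero =>
    refine ⟨fun q hq => ?_, fun a ha => ?_, Or.inr (Nat.zero_le _)⟩
    · obtain ⟨a, ha, rfl⟩ := List.mem_map.1 hq
      obtain ⟨ha1, ha2⟩ := List.mem_filter.1 ha
      have ha3 : a ≤ I.nv := Nat.le_of_lt_succ (List.mem_range.1 ha1)
      refine ⟨ha3, ⟨I.vtx a, ?_, ?_⟩, ?_, fun e he => ?_⟩
      · rw [← bet_vtx h X ha3]; simpa using ha2
      · simp [P_nil, del]
      · simpa [P_nil] using hX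
      · simp [P_nil] at he
    · refine List.mem_map.2 ⟨(a, []), List.mem_map.2 ⟨a, List.mem_filter.2
        ⟨List.mem_range.2 a.2, ?_⟩, rfl⟩, rfl⟩
      rw [bet_eq h]; simpa using ha
  | succ i ih =>
    rw [Function.iterate_succ_apply']
    generalize (grow I X Δ)^[i] (src I X Δ) = s at ih ⊢
    obtain ⟨h1, h2, h3⟩ := ih
    rcases grow_cases (I := I) (X := X) (Δ := Δ) s with ⟨e1, e2⟩ | ⟨c, hc, e2⟩
    · rw [e2]; exact ⟨h1, h2, Or.inl e1⟩
    · rw [e2]
      obtain ⟨g1, g2⟩ := good_cand h h1 hc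
      refine ⟨fun q hq => ?_, fun a ha => List.mem_cons_of_mem _ (h2 a ha), Or.inr ?_⟩
      · rcases List.mem_cons.1 hq with rfl | hq
        · exact g1
        · exact (h1 q hq).mono c
      · rcases h3 with h3 | h3
        · rw [h3] at hc; simp at hc
        · rw [List.map_cons, List.toFinset_cons, card_insert_of_notMem (by simpa using g2)]
          omega

theorem reach_spec (h : I.WF n) (hX : I.vec X ∈ box I.lo I.hi) :
    (∀ q ∈ reach I X Δ, Good I X Δ (reach I X Δ) q) ∧
    (∀ a : I.V, Δ ≤ B I X a → (a : ℕ) ∈ (reach I X Δ).map Prod.fst) ∧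
    cands I X Δ (reach I X Δ) = [] := by
  obtain ⟨h1, h2, h3⟩ := iter_grow (Δ := Δ) h hX (I.nv + 2)
  refine ⟨h1, h2, h3.resolve_right fun h4 => ?_⟩
  have : (((grow I X Δ)^[I.nv + 2] (src I X Δ)).map Prod.fst).toFinset ⊆ range (I.nv + 1) := by
    intro a ha
    obtain ⟨q, hq, rfl⟩ := List.mem_map.1 (List.mem_toFinset.1 ha)
    exact mem_range.2 (Nat.lt_succ_of_le (h1 q hq).le)
  have := card_le_card this
  rw [card_range] at this
  omega

theorem sum_del_mul {V : Type} [Fintype V] [DecidableEq V] {M : ℕ} (u v : Fin M → V)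
    (Z : Fin M → ℤ) (c : V → ℤ) :
    ∑ a, c a * del u v Z a = ∑ e, Z e * (c (u e) - c (v e)) := by
  simp only [del, Finset.sum_apply, Pi.smul_apply, Pi.sub_apply, smul_eq_mul, mul_sum]
  rw [sum_comm]
  refine sum_congr rfl fun e _ => ?_
  simp only [ev, Pi.single_apply, mul_sub, mul_ite, mul_one, mul_zero, sum_sub_distrib,
    sum_ite_eq', mem_univ, if_true]
  ring

/-- the cut inequality -/
theorem cut (h : I.WF n) (hX : I.vec X ∈ box I.lo I.hi) (hΔ : 1 ≤ Δ) {Y : Fin I.M → ℤ}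
    (hY : Y ∈ I.sol) (hno : ∀ q ∈ reach I X Δ, -Δ < bet I X q.1) :
    pot I X ≤ (I.M + I.nv + 1) * (Δ - 1) := by
  obtain ⟨h1, h2, h3⟩ := reach_spec (Δ := Δ) h hX
  generalize reach I X Δ = s at h1 h2 h3 hno
  obtain ⟨hYb, hYd⟩ := mem_cls.1 hY
  have hXb := mem_box.1 hX
  let c : I.V → ℤ := fun a => if (a : ℕ) ∈ s.map Prod.fst then 1 else 0
  have hB : B I X = del I.u I.v (I.vec X - Y) := by rw [del_sub, hYd]; rfl
  have hcl : ∀ (e : Fin I.M) (σ : Bool), tl I (e, σ) ∈ s.map Prod.fst →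
      hd I (e, σ) ∉ s.map Prod.fst →
      ¬ (I.lo e ≤ I.vec X e + Δ * sg σ ∧ I.vec X e + Δ * sg σ ≤ I.hi e) := by
    rintro e σ ht hh ⟨a1, a2⟩
    obtain ⟨q, hq, hq'⟩ := List.mem_map.1 ht
    have : (hd I (e, σ), upd I q.2 (e, σ)) ∈ cands I X Δ s :=
      mem_cands.2 ⟨q, hq, e, σ, a1, a2, hq', hh, rfl⟩
    rw [h3] at this
    simp at this
  have e1 : ∑ a, c a * B I X a ≤ I.M * (Δ - 1) := by
    rw [hB, sum_del_mul]
    calc ∑ e, (I.vec X - Y) e * (c (I.u e) - c (I.v e)) ≤ ∑ _e : Fin I.M, (Δ - 1) := by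
          refine sum_le_sum fun e _ => ?_
          have hu : ((I.u e : I.V) : ℕ) = I.uN e := Inst.vtx_val (h.uN_le e e.2)
          have hv : ((I.v e : I.V) : ℕ) = I.vN e := Inst.vtx_val (h.vN_le e e.2)
          have a1 := hcl e true
          have a2 := hcl e false
          have a3 := hXb e
          have a4 := hYb e
          simp only [hd, tl, sg, if_true, Bool.false_eq_true, if_false] at a1 a2
          simp only [c, hu, hv, Pi.sub_apply]
          split_ifs with b1 b2 b2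
          · omega
          · have := a2 b1 b2
            omega
          · have := a1 b2 b1
            omega
          · omega
      _ = I.M * (Δ - 1) := by simp [mul_sub]
  rw [pot_eq h]
  calc ∑ a, max (B I X a) 0 ≤ ∑ a, (c a * B I X a + (Δ - 1)) := by
        refine sum_le_sum fun a _ => ?_
        simp only [c]
        split_ifs with b
        · obtain ⟨q, hq, hq'⟩ := List.mem_map.1 b
          have := hno q hq
          rw [hq', bet_eq h] at this
          omega
        · have : ¬ Δ ≤ B I X a := fun h => b (h2 a h)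
          omega
    _ = ∑ a, c a * B I X a + (I.nv + 1) * (Δ - 1) := by
        rw [sum_add_distrib]; simp [mul_sub]
    _ ≤ _ := by linarith

theorem vec_aug {p : Sv} (hb : I.vec X + Δ • P I p ∈ box I.lo I.hi) :
    I.vec (aug I X Δ p) = I.vec X + Δ • P I p := by
  funext e
  have := mem_box.1 hb e
  simp only [Inst.vec, aug, getD_tab _ _ e.2, clamp]
  exact if_pos this

theorem attempt_spec (h : I.WF n) (hX : I.vec X ∈ box I.lo I.hi) (hΔ : 1 ≤ Δ) {Y : Fin I.M → ℤ}
    (hY : Y ∈ I.sol) : I.vec (attempt I X Δ) ∈ box I.lo I.hi ∧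
      ((attempt I X Δ = X ∧ pot I X ≤ (I.M + I.nv + 1) * (Δ - 1)) ∨
        pot I (attempt I X Δ) ≤ pot I X - Δ) := by
  unfold attempt
  rcases hL : ((reach I X Δ).filter fun q => decide (bet I X q.1 ≤ -Δ)) with _ | ⟨q, l⟩
  · rw [hL]
    refine ⟨hX, Or.inl ⟨rfl, cut h hX hΔ hY fun q hq => ?_⟩⟩
    have := List.filter_eq_nil_iff.1 hL q hq
    simpa using this
  · have hq : q ∈ (reach I X Δ).filter fun q => decide (bet I X q.1 ≤ -Δ) := by
      rw [hL]; exact List.mem_cons_self
    obtain ⟨hq1, hq2⟩ := List.mem_filter.1 hq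
    have g := (reach_spec (Δ := Δ) h hX).1 q hq1
    rw [hL]
    simp only [List.map_cons, List.headD_cons]
    refine ⟨by rw [vec_aug g.box]; exact g.box, Or.inr ?_⟩
    obtain ⟨a, ha, hd⟩ := g.src
    have hb : B I X (I.vtx q.1) ≤ -Δ := by rw [← bet_vtx h X g.le]; simpa using hq2
    have hB : B I (aug I X Δ q.2) = B I X + Δ • (ev (I.vtx q.1) - ev a) := by
      unfold B
      rw [vec_aug g.box, del_add, del_smul, hd]
      abel
    rw [pot_eq h, pot_eq h, hB]
    have : Δ = ∑ c : I.V, if c = a then Δ else 0 := by simp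
    rw [this, ← sum_sub_distrib, ← this]
    refine sum_le_sum fun c _ => ?_
    simp only [Pi.add_apply, Pi.smul_apply, Pi.sub_apply, ev, Pi.single_apply, smul_eq_mul]
    by_cases c1 : c = a
    · have c2 : c ≠ I.vtx q.1 := by
        rintro rfl
        rw [c1] at hb
        omega
      subst c1
      simp only [if_neg c2, if_true]
      omega
    · by_cases c2 : c = I.vtx q.1
      · subst c2
        simp only [if_neg c1, if_true]
        omega
      · simp [c1, c2]

theorem pot_nonneg (h : I.WF n) (X : List ℤ) : 0 ≤ pot I X := by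
  rw [pot_eq h]
  exact sum_nonneg fun a _ => le_max_right _ _

theorem step_spec (h : I.WF n) (hX : I.vec X ∈ box I.lo I.hi) {Y : Fin I.M → ℤ}
    (hY : Y ∈ I.sol) : I.vec (step I n X) ∈ box I.lo I.hi ∧
      ((n : ℤ) + 1) * pot I (step I n X) ≤ n * pot I X := by
  have h0 := pot_nonneg h X
  have hn : (0 : ℤ) < (n : ℤ) + 1 := by positivity
  have hq : 0 ≤ pot I X / ((n : ℤ) + 1) := Int.ediv_nonneg h0 hn.le
  have h1 := Int.mul_ediv_add_emod (pot I X) ((n : ℤ) + 1)
  have h2 := Int.emod_nonneg (pot I X) hn.ne'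
  have h3 := Int.emod_lt_of_pos (pot I X) hn
  obtain ⟨a1, a2⟩ := attempt_spec h hX (Δ := pot I X / ((n : ℤ) + 1) + 1) (by omega) hY
  refine ⟨a1, ?_⟩
  unfold step
  have hs : ((I.M : ℤ) + I.nv + 1) ≤ n := by exact_mod_cast h.size
  generalize pot I X / ((n : ℤ) + 1) = k at *
  generalize pot I X % ((n : ℤ) + 1) = r at *
  rcases a2 with ⟨a2, a3⟩ | a2
  · rw [a2]
    have : ((I.M : ℤ) + I.nv + 1) * (k + 1 - 1) ≤ n * k := by
      rw [add_sub_cancel_right]; exact mul_le_mul_of_nonneg_right hs hq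
    have : pot I X = 0 := by nlinarith
    rw [this]; simp
  · nlinarith

theorem run_spec (h : I.WF n) {Y : Fin I.M → ℤ} (hY : Y ∈ I.sol) :
    I.vec (run I n) ∈ box I.lo I.hi ∧ pot I (run I n) = 0 := by
  have key : ∀ i, I.vec ((step I n)^[i] I.los) ∈ box I.lo I.hi ∧
      (pot I ((step I n)^[i] I.los) : ℝ) ≤ (1 - 1 / ((n + 1 : ℕ) : ℝ)) ^ i * pot I I.los := by
    intro i
    induction i with
    | zero =>
      refine ⟨mem_box.2 fun e => ?_, by simp⟩
      have := (mem_cls.1 hY).1 e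
      exact ⟨le_rfl, this.1.trans this.2⟩
    | succ i ih =>
      rw [Function.iterate_succ_apply']
      obtain ⟨a1, a2⟩ := step_spec h ih.1 hY
      refine ⟨a1, ?_⟩
      have a3 : ((n : ℝ) + 1) * (pot I (step I n ((step I n)^[i] I.los)) : ℝ) ≤
          n * (pot I ((step I n)^[i] I.los) : ℝ) := by exact_mod_cast a2
      have hn : (0 : ℝ) < (n : ℝ) + 1 := by positivity
      have e : (1 - 1 / ((n + 1 : ℕ) : ℝ)) = n / ((n : ℝ) + 1) := by
        push_cast; field_simp; ring
      rw [pow_succ, mul_comm _ (1 - 1 / ((n + 1 : ℕ) : ℝ)), mul_assoc]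
      refine le_trans ?_ (mul_le_mul_of_nonneg_left ih.2 (by rw [e]; positivity))
      rw [e, div_mul_eq_mul_div, le_div_iff₀ hn]
      linarith
  obtain ⟨a1, a2⟩ := key ((n + 1) * size (pot I I.los))
  refine ⟨a1, le_antisymm ?_ (pot_nonneg h _)⟩
  have h0 := pot_nonneg h I.los
  have h1 : (1 - 1 / ((n + 1 : ℕ) : ℝ)) ^ (n + 1) ≤ 1 / 2 := by
    refine (Real.one_sub_div_pow_le_exp_neg (n := n + 1) (t := 1) (by simp)).trans ?_
    have := Real.exp_neg_one_lt_d9
    linarith
  have h2 : (0 : ℝ) ≤ 1 - 1 / ((n + 1 : ℕ) : ℝ) := by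
    rw [sub_nonneg, div_le_one (by positivity)]
    simp
  have h3 : (pot I I.los : ℝ) < 2 ^ size (pot I I.los) := by
    have b1 := Nat.lt_size_self (pot I I.los).natAbs
    have b2 : 2 ^ (pot I I.los).natAbs.size ≤ 2 ^ size (pot I I.los) :=
      Nat.pow_le_pow_right (by norm_num) (by rw [size_int]; omega)
    have b3 : pot I I.los < 2 ^ size (pot I I.los) := by
      have : ((pot I I.los).natAbs : ℤ) < 2 ^ size (pot I I.los) := by
        exact_mod_cast b1.trans_le b2
      omega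
    exact_mod_cast b3
  have h4 : (pot I (run I n) : ℝ) < 1 := by
    refine a2.trans_lt ?_
    rw [pow_mul]
    calc ((1 - 1 / ((n + 1 : ℕ) : ℝ)) ^ (n + 1)) ^ size (pot I I.los) * (pot I I.los : ℝ)
        ≤ (1 / 2) ^ size (pot I I.los) * (pot I I.los : ℝ) := by
          gcongr
      _ < (1 / 2) ^ size (pot I I.los) * 2 ^ size (pot I I.los) := by gcongr
      _ = 1 := by rw [← mul_pow]; norm_num
  have h5 : pot I (run I n) < 1 := by exact_mod_cast h4
  show pot I (run I n) ≤ 0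
  omega

theorem flag_iff (h : I.WF n) (X : List ℤ) : flag I X = true ↔ I.vec X ∈ I.sol := by
  simp only [flag, Bool.and_eq_true, List.all_eq_true, List.mem_range, decide_eq_true_eq]
  rw [Inst.sol, mem_cls]
  refine and_congr ⟨fun a e => a e e.2, fun a e he => a ⟨e, he⟩⟩ ⟨fun a => ?_, fun a k hk => ?_⟩
  · funext c
    have := a c c.2
    rw [bet_eq h] at this
    exact sub_eq_zero.1 this
  · rw [bet_vtx h X (Nat.le_of_lt_succ hk), B, a]
    simp

theorem mem_sol_of_pot (h : I.WF n) (hX : I.vec X ∈ box I.lo I.hi) (h0 : pot I X = 0)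
    {Y : Fin I.M → ℤ} (hY : Y ∈ I.sol) : I.vec X ∈ I.sol := by
  have hB : B I X = del I.u I.v (I.vec X - Y) := by rw [del_sub, (mem_cls.1 hY).2]; rfl
  have h1 : ∑ a, -B I X a = 0 := by
    have := sum_del_mul I.u I.v (I.vec X - Y) fun _ => -1
    rw [hB]
    simpa using this
  rw [pot_eq h, sum_eq_zero_iff_of_nonneg fun a _ => le_max_right _ _] at h0
  rw [sum_eq_zero_iff_of_nonneg fun a ha => by have := h0 a ha; omega] at h1
  refine mem_cls.2 ⟨mem_box.1 hX, ?_⟩
  funext a
  have := h1 a (mem_univ a)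
  simp only [B, Pi.sub_apply] at this
  omega

end Sem

end Feas

theorem exists_feas : ∃ feas, FeasSpec feas := by
  refine ⟨Feas.feas, Feas.pt_feas, fun I n => length_tab _ _, fun I n h hf => ?_,
    fun I n h ⟨Y, hY⟩ => ?_⟩
  · have : I.vec (Feas.feas (I, n)).2 = I.vec (Feas.run I n) :=
      funext fun e => getD_tab _ _ e.2
    rw [this]
    exact (Feas.flag_iff h _).1 hf
  · obtain ⟨h1, h2⟩ := Feas.run_spec h hY
    exact (Feas.flag_iff h _).2 (Feas.mem_sol_of_pot h h1 h2 hY)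

end Crest.Agent.R309
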