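import Crest.Agent.R309.Learn
import Crest.Agent.R309.PTb
import Crest.Agent.R309.Feas

/-!
# Row 309: the approximate counter

With `n' = 2 n + 64`, `J = ext I`, `(los, his) = tight (J, n')`, `J' = J.withBox los his` (same solutions, `WF n'`,
`Star`, tight), `X0 = (feas (J, n')).2`, `(roots, paths, trees) = krus (J', n'^26)`:
`est (I, n, τ) = if (feas (J, n')).1 then |med (J', X0, roots, paths, trees, I.M, n') τ| else 0`
(`|·|` only helps since `cnt ≥ 0`).  `n' ≤ n²` for `64 ≤ n`, so `r = 1800` works.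
-/

set_option autoImplicit false

namespace Crest.Agent.R309

open Crest.Agent.Lib.PolyTime

section

variable {tight : Inst × ℕ → List ℤ × List ℤ} {J : Inst} {n : ℕ}

/-- the instance with exact ranges -/
def tightI (tight : Inst × ℕ → List ℤ × List ℤ) (J : Inst) (n : ℕ) : Inst :=
  J.withBox (tight (J, n)).1 (tight (J, n)).2

theorem TightSpec.sol_eq (ht : TightSpec tight) (h : J.WF n) (hne : J.sol.Nonempty) :
    (tightI tight J n).sol = J.sol := by
  ext X
  refine (Inst.mem_sol_withBox (I := J) (X := X)).trans ⟨fun hX => Inst.mem_sol.2 ⟨fun e => ?_, hX.2⟩, fun hX => ?_⟩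
  · obtain ⟨Y, hY, e1⟩ := (ht.lo J n h hne e).1
    obtain ⟨Z, hZ, e2⟩ := (ht.hi J n h hne e).1
    have h1 := ((Inst.mem_sol.1 hY).1 e).1
    have h2 := ((Inst.mem_sol.1 hZ).1 e).2
    have h3 := hX.1 e
    simp only [Inst.vec] at e1 e2
    omega
  · exact ⟨fun e => ⟨(ht.lo J n h hne e).2 X hX, (ht.hi J n h hne e).2 X hX⟩, (Inst.mem_sol.1 hX).2⟩

theorem TightSpec.box_le (ht : TightSpec tight) (h : J.WF n) (hne : J.sol.Nonempty) {e : ℕ} (he : e < J.M) :
    (J.loN e ≤ (tightI tight J n).loN e ∧ (tightI tight J n).loN e ≤ J.hiN e) ∧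
      J.loN e ≤ (tightI tight J n).hiN e ∧ (tightI tight J n).hiN e ≤ J.hiN e := by
  obtain ⟨Y, hY, e1⟩ := (ht.lo J n h hne ⟨e, he⟩).1
  obtain ⟨Z, hZ, e2⟩ := (ht.hi J n h hne ⟨e, he⟩).1
  have h1 := (Inst.mem_sol.1 hY).1 ⟨e, he⟩
  have h2 := (Inst.mem_sol.1 hZ).1 ⟨e, he⟩
  rw [e1] at h1
  rw [e2] at h2
  exact ⟨h1, h2⟩

theorem TightSpec.wf (ht : TightSpec tight) (h : J.WF n) (hne : J.sol.Nonempty) : (tightI tight J n).WF n := by
  refine ⟨h.size, h.lvs, (ht.len J n).1, (ht.len J n).2, h.ltgt, h.uN_le, h.vN_le, h.ne, fun e => ?_,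
    fun e => ?_, h.t_le⟩
  · by_cases he : e < J.M
    · have h1 := (ht.box_le h hne he).1
      have h2 := abs_le.1 (h.lo_le e)
      have h3 := abs_le.1 (h.hi_le e)
      rw [abs_le]
      omega
    · have : (tightI tight J n).loN e = 0 :=
        List.getD_eq_default _ _ ((ht.len J n).1.trans_le (not_lt.1 he))
      rw [this]
      simp
  · by_cases he : e < J.M
    · have h1 := (ht.box_le h hne he).2
      have h2 := abs_le.1 (h.lo_le e)
      have h3 := abs_le.1 (h.hi_le e)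
      rw [abs_le]
      omega
    · have : (tightI tight J n).hiN e = 0 :=
        List.getD_eq_default _ _ ((ht.len J n).2.trans_le (not_lt.1 he))
      rw [this]
      simp

theorem TightSpec.star (ht : TightSpec tight) (h : J.WF n) (hne : J.sol.Nonempty) {M₀ : ℕ} (hs : Star J M₀) :
    Star (tightI tight J n) M₀ := by
  refine ⟨hs.M_eq, hs.old, fun a ha => ?_⟩
  obtain ⟨h1, h2, h3, h4⟩ := hs.star a ha
  have h5 := ht.box_le h hne (e := M₀ + a) (by rw [hs.M_eq]; exact Nat.add_lt_add_left ha _)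
  exact ⟨h1, h2, by omega, by omega⟩

end

/-- the preprocessed instance -/
def preOf (feas : Inst × ℕ → Bool × List ℤ) (tight : Inst × ℕ → List ℤ × List ℤ)
    (krus : Inst × ℤ → List ℕ × List (List ℤ) × List Bool) (I : Inst) (n : ℕ) : Pre :=
  (tightI tight (ext I) (2 * n + 64), (feas (ext I, 2 * n + 64)).2,
    (krus (tightI tight (ext I) (2 * n + 64), ((2 * n + 64 : ℕ) : ℤ) ^ 26)).1,
    (krus (tightI tight (ext I) (2 * n + 64), ((2 * n + 64 : ℕ) : ℤ) ^ 26)).2.1,
    (krus (tightI tight (ext I) (2 * n + 64), ((2 * n + 64 : ℕ) : ℤ) ^ 26)).2.2, I.M, 2 * n + 64)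

theorem exists_est : ∃ est r, EstSpec est r := by
  obtain ⟨feas, hf⟩ := exists_feas
  obtain ⟨tight, ht⟩ := exists_tight hf
  obtain ⟨krus, hkp, hk⟩ := exists_krus
  have hzero : ∀ (I : Inst) (n : ℕ), I.WF n → I.cnt = 0 → ¬ (feas (ext I, 2 * n + 64)).1 = true := by
    intro I n h h0 hc
    have h1 := (hf.iff (ext_wf h)).1 hc
    rw [← ext_cnt h, Inst.cnt, Finset.card_eq_zero] at h0
    exact h1.ne_empty h0
  refine ⟨fun x => if (feas (ext x.1, 2 * x.2.1 + 64)).1 = true then
    |(preOf feas tight krus x.1 x.2.1).med x.2.2| else 0, 1800, ?_, fun x => ?_, fun I n τ h h0 => ?_,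
    fun I n L h hn hL => ?_⟩
  · have h1 : PT fun x : Inst × ℕ × List Bool => feas (ext x.1, 2 * x.2.1 + 64) := hf.pt.comp (by fun_prop)
    have h2 : PT fun x : Inst × ℕ × List Bool => tight (ext x.1, 2 * x.2.1 + 64) := ht.pt.comp (by fun_prop)
    have h3 : PT fun x : Inst × ℕ × List Bool => tightI tight (ext x.1) (2 * x.2.1 + 64) :=
      Inst.pt_withBox (by fun_prop) h2.fst h2.snd
    have h4 : PT fun x : Inst × ℕ × List Bool =>
        krus (tightI tight (ext x.1) (2 * x.2.1 + 64), ((2 * x.2.1 + 64 : ℕ) : ℤ) ^ 26) :=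
      hkp.comp (PT.pair h3 (by fun_prop))
    have h5 : PT fun x : Inst × ℕ × List Bool => preOf feas tight krus x.1 x.2.1 :=
      PT.pair h3 (PT.pair h1.snd (PT.pair h4.fst (PT.pair h4.snd.fst (PT.pair h4.snd.snd (by fun_prop)))))
    have h6 := Pre.pt_med (τ := fun x : Inst × ℕ × List Bool => x.2.2) h5 (by fun_prop)
    exact PT.ite (PT.decide_eq_true h1.fst) (by fun_prop) (by fun_prop)
  · split_ifs
    · exact abs_nonneg _
    · exact le_rfl
  · exact if_neg (hzero I n h h0)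
  · by_cases h0 : I.cnt = 0
    · simp only [if_neg (hzero I n h h0), h0]
      rw [ind_of_not (by simp), Ex_const]
      positivity
    have hJ := ext_wf h
    have hne : (ext I).sol.Nonempty := by
      rw [← ext_cnt h] at h0
      exact Finset.card_ne_zero.1 h0
    have hsol := ht.sol_eq hJ hne
    have hok : (preOf feas tight krus I n).OK := by
      refine ⟨ht.wf hJ hne, Nat.le_add_left _ _, ht.star hJ hne (ext_star h), hf.len _ _, ?_, fun e => ?_,
        hk _ _ _ (ht.wf hJ hne)⟩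
      · exact hsol.symm ▸ hf.sound _ _ hJ (hf.complete _ _ hJ hne)
      · obtain ⟨Y, hY, e1⟩ := (ht.lo _ _ hJ hne e).1
        obtain ⟨Z, hZ, e2⟩ := (ht.hi _ _ hJ hne e).1
        exact ⟨⟨Y, hsol.symm ▸ hY, e1⟩, Z, hsol.symm ▸ hZ, e2⟩
    have hcnt : (preOf feas tight krus I n).I.cnt = I.cnt := by
      rw [← ext_cnt h]
      exact congrArg Finset.card hsol
    have hL' : (2 * n + 64) ^ 900 ≤ L := by
      refine le_trans ?_ hL
      rw [show n ^ 1800 = (n ^ 2) ^ 900 from pow_mul n 2 900]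
      exact Nat.pow_le_pow_left (by nlinarith) _
    have hm := hok.med_good (L := L) hL'
    rw [hcnt] at hm
    simp only [if_pos (hf.complete _ _ hJ hne)]
    refine le_trans (Ex_mono fun τ _ => ind_mono fun hτ => ?_)
      (hm.trans (pow_le_pow_of_le_one (by norm_num) (by norm_num) (show n ≤ 2 * n + 64 by omega)))
    refine hτ.trans_le ?_
    have h1 := abs_abs_sub_abs_le ((preOf feas tight krus I n).med τ) (I.cnt : ℤ)
    rw [abs_of_nonneg (Int.natCast_nonneg I.cnt)] at h1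
    refine mul_le_mul ?_ h1 (abs_nonneg _) (Int.natCast_nonneg _)
    exact_mod_cast (show n ≤ 2 * n + 64 by omega)

end Crest.Agent.R309
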