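import Crest.Agent.R309.Str

/-!
# Row 309: exact compensation by brute force

`strs k pad` lists all strings of length `k` when `2 ^ k ≤ pad`.  `cntVec t` lists, parallel to `strs D pad`,
the number of tapes of length `ℓ t` on which `t` steps lead from `X₀` to the given string (induction with
`Ex_foldT_succ`; strings of the same length are compared through `num`, see `num_inj`).  With
`mx = max` over the valid strings, `slow` outputs the valid string `Y` on exactly
`(2 ^ K₀ - 1) * (mx - N Y)` of the `2 ^ (ℓ t)` values of `U = num (τ.take (t ℓ))` (cumulative sums; the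
total is at most `2 ^ (ℓ t)` by the accuracy hypothesis), so `a = (1 - 2 ^ -K₀) * mx / 2 ^ (ℓ t)`.
For `pt_slow` bound the entries of `cntVec` by `(pad + 1) ^ (2 i)`.
-/

set_option autoImplicit false

namespace Crest.Agent.R309

open Finset Crest.Agent.Lib.PolyTime

def strs (k pad : ℕ) : List (List Bool) :=
  ((List.range pad).filter fun i : ℕ => decide ((i : ℤ) < 2 ^ k)).map fun i : ℕ => bitsOf k i

/-- One multiplication by the transition counts. -/
def cntStep (step : List Bool → List Bool → List Bool) (D ℓ pad : ℕ) (N : List ℤ) : List ℤ :=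
  (strs D pad).map fun Y =>
    (tab (strs D pad).length fun i => N.getD i 0 *
      (((strs ℓ pad).filter fun ω =>
        decide (num (step ((strs D pad).getD i []) ω) = num Y)).length : ℤ)).sum

def cntVec (step : List Bool → List Bool → List Bool) (D ℓ pad : ℕ) (X₀ : List Bool) (t : ℕ) :
    List ℤ :=
  (cntStep step D ℓ pad)^[t] ((strs D pad).map fun Y => if num Y = num X₀ then 1 else 0)

/-- The compensation masses, parallel to `strs D pad` (zero at invalid strings). -/
def comp (valid : List Bool → Bool) (D pad K₀ : ℕ) (N : List ℤ) : List ℤ :=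
  tab (strs D pad).length fun i =>
    if valid ((strs D pad).getD i []) = true then
      (2 ^ K₀ - 1) * (((List.range (strs D pad).length).foldl (fun m j =>
        if valid ((strs D pad).getD j []) = true ∧ m < N.getD j 0 then N.getD j 0 else m) 0) -
        N.getD i 0)
    else 0

/-- The slow branch: an acceptance bit and a string. -/
def slow (valid : List Bool → Bool) (step : List Bool → List Bool → List Bool)
    (D ℓ pad K₀ t : ℕ) (X₀ τ : List Bool) : Bool × List Bool :=
  let c := comp valid D pad K₀ (cntVec step D ℓ pad X₀ t)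
  let hit := (List.range c.length).filter fun i => decide (num (τ.take (t * ℓ)) < (c.take (i + 1)).sum)
  (!hit.isEmpty, (strs D pad).getD (hit.headD 0) [])

theorem sum_tab (n : ℕ) (g : ℕ → ℤ) : (tab n g).sum = ∑ i ∈ range n, g i := by
  induction n with
  | zero => rfl
  | succ n ih => rw [tab_succ, List.sum_append, ih, sum_range_succ]; simp

theorem take_tab {α : Type} {n k : ℕ} (h : k ≤ n) (g : ℕ → α) : (tab n g).take k = tab k g := by
  rw [tab, ← List.map_take, List.take_range, min_eq_left h, tab]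

theorem length_filter_tab {α : Type} (n : ℕ) (g : ℕ → α) (P : α → Bool) :
    (((tab n g).filter P).length : ℝ) = ∑ i ∈ range n, ind (P (g i) = true) := by
  induction n with
  | zero => simp [tab]
  | succ n ih =>
    rw [tab_succ, List.filter_append, List.length_append, sum_range_succ, ← ih]
    by_cases h : P (g n) = true <;> simp [h, ind]

theorem strs_eq {k pad : ℕ} (h : 2 ^ k ≤ pad) : strs k pad = tab (2 ^ k) fun i => bitsOf k i := by
  obtain ⟨b, rfl⟩ := Nat.exists_eq_add_of_le h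
  have h1 : ∀ i : ℕ, ((i : ℤ) < 2 ^ k) ↔ i < 2 ^ k := fun i => by exact_mod_cast Iff.rfl
  simp only [strs, h1, List.range_add, List.filter_append]
  rw [List.filter_eq_self.2 (by simp), List.filter_eq_nil_iff.2 (by simp), List.append_nil, tab]

theorem length_strs_le (k pad : ℕ) : (strs k pad).length ≤ pad := by
  rw [strs, List.length_map]
  exact (List.length_filter_le _ _).trans (by simp)

theorem Ex_eq_sum_bitsOf (k : ℕ) (F : List Bool → ℝ) :
    Ex k F = (∑ j ∈ range (2 ^ k), F (bitsOf k j)) / 2 ^ k := by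
  rw [← Ex_num k fun z => F (bitsOf k z)]
  refine Ex_congr fun τ hτ => ?_
  rw [← hτ, bitsOf_num]

theorem num_bitsOf_nat {k i : ℕ} (h : i < 2 ^ k) : num (bitsOf k i) = i :=
  num_bitsOf (by positivity) (by exact_mod_cast h)

theorem exists_bitsOf {k : ℕ} {X : List Bool} (h : X.length = k) :
    ∃ i < 2 ^ k, bitsOf k (i : ℕ) = X := by
  subst h
  exact ⟨Bin.valMSB X, Bin.valMSB_lt X, bitsOf_num X⟩

theorem bitsOf_inj {k i j : ℕ} (hi : i < 2 ^ k) (hj : j < 2 ^ k) (h : bitsOf k i = bitsOf k j) :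
    i = j := by
  have := congrArg num h
  rw [num_bitsOf_nat hi, num_bitsOf_nat hj] at this
  exact_mod_cast this

theorem foldT_mem {σ : Type} {Ω : Finset σ} {step : σ → List Bool → σ}
    (hmem : ∀ X ∈ Ω, ∀ ω, step X ω ∈ Ω) {X₀ : σ} (h₀ : X₀ ∈ Ω) (ℓ t : ℕ) (τ : List Bool) :
    foldT (fun _ => step) ℓ t X₀ τ ∈ Ω := by
  induction t with
  | zero => exact h₀
  | succ t ih => rw [foldT_succ]; exact hmem _ ih _

theorem cntVec_spec (valid : List Bool → Bool) (step : List Bool → List Bool → List Bool)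
    {D ℓ pad t L : ℕ} (hD : 2 ^ D ≤ pad) (hℓ : 2 ^ ℓ ≤ pad) (hL : t * ℓ ≤ L)
    (hmem : ∀ X ∈ Val valid D, ∀ ω, step X ω ∈ Val valid D) {X₀ : List Bool}
    (h₀ : X₀ ∈ Val valid D) {j : ℕ} (hj : j < 2 ^ D) :
    ((cntVec step D ℓ pad X₀ t).getD j 0 : ℝ) =
      2 ^ (t * ℓ) * Ex L fun τ => ind (foldT (fun _ => step) ℓ t X₀ τ = bitsOf D j) := by
  have hnum : ∀ X ∈ Val valid D, ∀ j : ℕ, (num X = num (bitsOf D j) ↔ X = bitsOf D j) :=
    fun X hX j => ⟨num_inj (by rw [(mem_Val.1 hX).1, length_bitsOf]), congrArg num⟩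
  induction t generalizing j with
  | zero =>
    rw [cntVec, Function.iterate_zero, id, strs_eq hD, tab, List.map_map, ← tab, getD_tab _ _ hj]
    simp only [foldT_zero, Ex_const, Function.comp, eq_comm (a := num (bitsOf D j)), hnum X₀ h₀]
    by_cases h : X₀ = bitsOf D j <;> simp [ind, h]
  | succ t ih =>
    have ih' := fun i hi => @ih ((Nat.mul_le_mul_right ℓ t.le_succ).trans hL) i hi
    rw [cntVec, Function.iterate_succ_apply', ← cntVec, cntStep, strs_eq hD, strs_eq hℓ, tab,
      List.map_map, ← tab, ← tab, getD_tab _ _ hj, Function.comp, length_tab, sum_tab,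
      Ex_foldT_succ _ hL X₀ fun y => ind (y = bitsOf D j)]
    have h1 : ∀ τ, (Ex ℓ fun ω => ind (step (foldT (fun _ => step) ℓ t X₀ τ) ω = bitsOf D j)) =
        ∑ i ∈ range (2 ^ D), ind (foldT (fun _ => step) ℓ t X₀ τ = bitsOf D i) *
          Ex ℓ fun ω => ind (num (step (bitsOf D i) ω) = num (bitsOf D j)) := by
      intro τ
      have hm := foldT_mem hmem h₀ ℓ t τ
      obtain ⟨i, hi, e⟩ := exists_bitsOf (mem_Val.1 hm).1
      rw [← e] at hm ⊢
      rw [sum_eq_single_of_mem i (mem_range.2 hi), ind_of rfl, one_mul]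
      · exact Ex_congr fun ω _ => ind_congr (hnum _ (hmem _ hm ω) j).symm
      · intro i' hi' hne
        rw [ind_of_not fun h => hne (bitsOf_inj hi (mem_range.1 hi') h).symm, zero_mul]
    simp only [h1]
    rw [Ex_sum, mul_sum]
    push_cast
    refine sum_congr rfl fun i hi => ?_
    rw [ih' i (mem_range.1 hi), getD_tab _ _ (mem_range.1 hi), length_filter_tab, Ex_mul_right,
      Ex_eq_sum_bitsOf ℓ, add_mul, one_mul, pow_add]
    simp only [decide_eq_true_eq]
    field_simp

theorem foldl_max_spec (P : ℕ → Prop) [DecidablePred P] (N : ℕ → ℤ) (n : ℕ) :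
    let mx := (List.range n).foldl (fun m j => if P j ∧ m < N j then N j else m) 0
    (∀ j < n, P j → N j ≤ mx) ∧ (mx = 0 ∨ ∃ j < n, P j ∧ mx = N j) := by
  induction n with
  | zero => simp
  | succ n ih =>
    simp only [List.range_succ, List.foldl_append, List.foldl_cons, List.foldl_nil] at ih ⊢
    generalize (List.range n).foldl (fun m j => if P j ∧ m < N j then N j else m) 0 = m at ih ⊢
    split_ifs with h
    · refine ⟨fun j hj hP => ?_, Or.inr ⟨n, n.lt_succ_self, h.1, rfl⟩⟩
      rcases Nat.lt_succ_iff_lt_or_eq.1 hj with h1 | rfl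
      · exact (ih.1 j h1 hP).trans h.2.le
      · exact le_rfl
    · refine ⟨fun j hj hP => ?_, ih.2.imp id fun ⟨j, hj, h1⟩ => ⟨j, by omega, h1⟩⟩
      rcases Nat.lt_succ_iff_lt_or_eq.1 hj with h1 | rfl
      · exact ih.1 j h1 hP
      · exact not_lt.1 fun h2 => h ⟨hP, h2⟩

theorem first_hit {n : ℕ} {g : ℕ → ℤ} (hg : ∀ i, 0 ≤ g i) {U : ℤ} (hU : 0 ≤ U) (i : ℕ) :
    ((List.range n).filter fun i => decide (U < ((tab n g).take (i + 1)).sum)).head? = some i ↔
      i < n ∧ ∑ k ∈ range i, g k ≤ U ∧ U < ∑ k ∈ range (i + 1), g k := by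
  rw [List.head?_filter, List.find?_range_eq_some]
  simp only [decide_eq_true_eq, List.mem_range, Bool.not_eq_eq_eq_not, Bool.not_true,
    decide_eq_false_iff_not, not_lt]
  constructor
  · rintro ⟨h1, h2, h3⟩
    rw [take_tab h2, sum_tab] at h1
    refine ⟨h2, ?_, h1⟩
    cases i with
    | zero => simpa using hU
    | succ i =>
      have := h3 i i.lt_succ_self
      rwa [take_tab h2.le, sum_tab] at this
  · rintro ⟨h1, h2, h3⟩
    refine ⟨by rwa [take_tab h1, sum_tab], h1, fun j hj => ?_⟩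
    rw [take_tab (by omega), sum_tab]
    exact (sum_le_sum_of_subset_of_nonneg (range_subset_range.2 hj) fun k _ _ => hg k).trans h2

theorem Ex_interval {K : ℕ} {a b : ℤ} (h0 : 0 ≤ a) (hab : a ≤ b) (hb : b ≤ 2 ^ K) :
    Ex K (fun τ => ind (a ≤ num τ ∧ num τ < b)) = (b - a) / 2 ^ K := by
  rw [Ex_num K fun z => ind (a ≤ z ∧ z < b)]
  congr 1
  lift a to ℕ using h0
  lift b to ℕ using (by omega)
  have hab' : a ≤ b := by exact_mod_cast hab
  have hb' : b ≤ 2 ^ K := by exact_mod_cast hb
  simp only [ind, Nat.cast_le, Nat.cast_lt]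
  rw [sum_boole]
  have : ((range (2 ^ K)).filter fun j => a ≤ j ∧ j < b) = Ico a b := by
    ext j; simp only [mem_filter, mem_range, mem_Ico]; omega
  convert congrArg (fun s : Finset ℕ => (s.card : ℝ)) this using 1
  simp [Nat.cast_sub hab']

theorem slow_spec (valid : List Bool → Bool) (step : List Bool → List Bool → List Bool)
    {D ℓ pad K₀ t L : ℕ} (hK : 0 < K₀) (hD : 2 ^ D ≤ pad) (hℓ : 2 ^ ℓ ≤ pad) (hL : t * ℓ ≤ L)
    (hmem : ∀ X ∈ Val valid D, ∀ ω, step X ω ∈ Val valid D) {X₀ : List Bool}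
    (h₀ : X₀ ∈ Val valid D) {ε : ℝ} (hε : 2 ^ K₀ * 2 ^ D * (2 * ε) ≤ 1)
    (hacc : ∀ Y ∈ Val valid D,
      |Ex L (fun τ => ind (foldT (fun _ => step) ℓ t X₀ τ = Y)) - 1 / ((Val valid D).card : ℝ)| ≤ ε) :
    (∀ τ : List Bool, τ.length = L → (slow valid step D ℓ pad K₀ t X₀ τ).1 = true →
      (slow valid step D ℓ pad K₀ t X₀ τ).2 ∈ Val valid D) ∧
    ∃ a : ℝ, 0 < a ∧ ∀ Y ∈ Val valid D,
      (1 - (1 / 2) ^ K₀) * Ex L (fun τ => ind (foldT (fun _ => step) ℓ t X₀ τ = Y)) +
        (1 / 2) ^ K₀ * Ex L (fun τ => ind ((slow valid step D ℓ pad K₀ t X₀ τ).1 = true ∧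
          (slow valid step D ℓ pad K₀ t X₀ τ).2 = Y)) = a := by
  set N : ℕ → ℤ := fun j => (cntVec step D ℓ pad X₀ t).getD j 0 with hN
  set p : List Bool → ℝ := fun Y => Ex L fun τ => ind (foldT (fun _ => step) ℓ t X₀ τ = Y) with hp
  have hNp : ∀ j < 2 ^ D, (N j : ℝ) = 2 ^ (t * ℓ) * p (bitsOf D j) := fun j hj =>
    cntVec_spec valid step hD hℓ hL hmem h₀ hj
  have hp0 : ∀ Y, 0 ≤ p Y := fun Y => Ex_nonneg fun _ _ => ind_nonneg _
  have hT : (0 : ℝ) < 2 ^ (t * ℓ) := by positivity
  have hget : ∀ j < 2 ^ D, (strs D pad).getD j [] = bitsOf D j := fun j hj => by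
    rw [strs_eq hD, getD_tab _ _ hj]
  have hlen : (strs D pad).length = 2 ^ D := by rw [strs_eq hD, length_tab]
  obtain ⟨hm1, hm2⟩ := foldl_max_spec (fun j => valid ((strs D pad).getD j []) = true) N (2 ^ D)
  set mx := (List.range (2 ^ D)).foldl
    (fun m j => if valid ((strs D pad).getD j []) = true ∧ m < N j then N j else m) 0 with hmx
  set g : ℕ → ℤ := fun i =>
    if i < 2 ^ D ∧ valid (bitsOf D i) = true then (2 ^ K₀ - 1) * (mx - N i) else 0 with hg
  have hc : comp valid D pad K₀ (cntVec step D ℓ pad X₀ t) = tab (2 ^ D) g := by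
    rw [comp, hlen]
    refine tab_congr fun i hi => ?_
    simp only [hg, hi, true_and]
    rw [hget i hi]
  have hK1 : (1 : ℤ) ≤ 2 ^ K₀ := one_le_pow₀ (by norm_num)
  have hg0 : ∀ i, 0 ≤ g i := fun i => by
    simp only [hg]
    split_ifs with h
    · exact mul_nonneg (by linarith) (sub_nonneg.2 (hm1 i h.1 (by rw [hget i h.1]; exact h.2)))
    · exact le_rfl
  have hval : ∀ j : ℕ, valid (bitsOf D j) = true → bitsOf D j ∈ Val valid D := fun j h =>
    mem_Val.2 ⟨length_bitsOf _ _, h⟩
  have hε0 : 0 ≤ ε := (abs_nonneg _).trans (hacc X₀ h₀)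
  have hg1 : ∀ i, (g i : ℝ) ≤ 2 ^ K₀ * (2 * ε * 2 ^ (t * ℓ)) := fun i => by
    simp only [hg]
    split_ifs with h
    · have h1 : (mx : ℝ) - N i ≤ 2 * ε * 2 ^ (t * ℓ) := by
        rw [hNp i h.1]
        rcases hm2 with h2 | ⟨j, hj, h2, h3⟩
        · rw [h2]
          have := mul_nonneg hT.le (hp0 (bitsOf D i))
          have := mul_nonneg hε0 hT.le
          push_cast
          linarith
        · rw [hget j hj] at h2
          rw [h3, hNp j hj]
          have h4 := abs_le.1 (hacc _ (hval i h.2))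
          have h5 := abs_le.1 (hacc _ (hval j h2))
          have h6 : p (bitsOf D j) - p (bitsOf D i) ≤ 2 * ε := by
            simp only [hp]; linarith [h4.1, h5.2]
          nlinarith
      have h2 : (0 : ℝ) ≤ (mx : ℝ) - N i := by
        exact_mod_cast sub_nonneg.2 (hm1 i h.1 (by rw [hget i h.1]; exact h.2))
      push_cast
      exact mul_le_mul (by linarith) h1 h2 (by positivity)
    · push_cast; positivity
  have htot : ∑ k ∈ range (2 ^ D), g k ≤ 2 ^ (t * ℓ) := by
    have h1 : ∑ k ∈ range (2 ^ D), (g k : ℝ) ≤ 2 ^ (t * ℓ) := by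
      refine (sum_le_sum fun k _ => hg1 k).trans ?_
      rw [sum_const, card_range, nsmul_eq_mul]
      push_cast
      nlinarith
    exact_mod_cast h1
  have hslow : ∀ τ Y, ((slow valid step D ℓ pad K₀ t X₀ τ).1 = true ∧
      (slow valid step D ℓ pad K₀ t X₀ τ).2 = Y) ↔ ∃ i, (i < 2 ^ D ∧
        ∑ k ∈ range i, g k ≤ num (τ.take (t * ℓ)) ∧
        num (τ.take (t * ℓ)) < ∑ k ∈ range (i + 1), g k) ∧ bitsOf D i = Y := by
    intro τ Y
    have h1 := first_hit (n := 2 ^ D) hg0 (num_nonneg (τ.take (t * ℓ)))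
    simp only [slow, hc, length_tab]
    generalize ((List.range (2 ^ D)).filter fun i =>
      decide (num (τ.take (t * ℓ)) < ((tab (2 ^ D) g).take (i + 1)).sum)) = hit at h1
    cases hit with
    | nil => simp [← h1]
    | cons i l =>
      have h2 := (h1 i).1 rfl
      simp only [← h1, List.isEmpty_cons, Bool.not_false, List.headD_cons, true_and, List.head?_cons,
        Option.some.injEq, exists_eq_left', hget i h2.1]
  refine ⟨fun τ _ h => ?_, (1 - (1 / 2) ^ K₀) * mx / 2 ^ (t * ℓ), ?_, fun Y hY => ?_⟩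
  · obtain ⟨i, ⟨h1, h2, h3⟩, h4⟩ := (hslow τ _).1 ⟨h, rfl⟩
    rw [← h4]
    refine hval i ?_
    by_contra h5
    rw [sum_range_succ] at h3
    simp only [hg, h5, Bool.false_eq_true, and_false, if_false] at h3
    exact absurd h2 (not_le.2 (by simpa only [add_zero] using h3))
  · have h1 : (1 / 2 : ℝ) ^ K₀ < 1 := pow_lt_one₀ (by norm_num) (by norm_num) hK.ne'
    have hm := foldT_mem hmem h₀ ℓ t (List.ofFn fun _ : Fin L => false)
    obtain ⟨j, hj, e⟩ := exists_bitsOf (mem_Val.1 hm).1
    have h2 : 0 < p (bitsOf D j) := by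
      refine div_pos (sum_pos' (fun _ _ => ind_nonneg _) ⟨fun _ => false, mem_univ _, ?_⟩)
        (by positivity)
      simp only [ind_of e.symm, one_pos]
    have h3 : (N j : ℝ) ≤ mx := by
      exact_mod_cast hm1 j hj (by rw [hget j hj, e]; exact (mem_Val.1 hm).2)
    rw [hNp j hj] at h3
    exact div_pos (mul_pos (by linarith) (lt_of_lt_of_le (by positivity) h3)) hT
  · obtain ⟨j, hj, rfl⟩ := exists_bitsOf (mem_Val.1 hY).1
    have h1 : ∀ τ, ((slow valid step D ℓ pad K₀ t X₀ τ).1 = true ∧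
        (slow valid step D ℓ pad K₀ t X₀ τ).2 = bitsOf D j) ↔
          ∑ k ∈ range j, g k ≤ num (τ.take (t * ℓ)) ∧
            num (τ.take (t * ℓ)) < ∑ k ∈ range (j + 1), g k := fun τ => by
      rw [hslow]
      refine ⟨fun ⟨i, h, e⟩ => ?_, fun h => ⟨j, ⟨hj, h⟩, rfl⟩⟩
      rw [← bitsOf_inj h.1 hj e]
      exact h.2
    simp only [h1]
    rw [Ex_take hL fun τ => ind (∑ k ∈ range j, g k ≤ num τ ∧ num τ < ∑ k ∈ range (j + 1), g k),
      Ex_interval (sum_nonneg fun k _ => hg0 k) (by rw [sum_range_succ]; linarith [hg0 j])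
        ((sum_le_sum_of_subset_of_nonneg (range_subset_range.2 hj) fun k _ _ => hg0 k).trans htot),
      sum_range_succ]
    have h2 : p (bitsOf D j) = N j / 2 ^ (t * ℓ) := by rw [hNp j hj]; field_simp
    change _ * p (bitsOf D j) + _ = _
    rw [h2]
    simp only [hg, hj, (mem_Val.1 hY).2, and_self, if_true]
    push_cast
    rw [one_div_pow]
    field_simp
    ring

theorem getD_bd {N : List ℤ} {B : ℤ} (hB : 0 ≤ B) (h : ∀ x ∈ N, 0 ≤ x ∧ x ≤ B) (i : ℕ) :
    0 ≤ N.getD i 0 ∧ N.getD i 0 ≤ B := by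
  rcases lt_or_ge i N.length with hi | hi
  · rw [List.getD_eq_getElem _ _ hi]; exact h _ (List.getElem_mem hi)
  · rw [List.getD_eq_default _ _ hi]; exact ⟨le_rfl, hB⟩

theorem cntVec_bd (step : List Bool → List Bool → List Bool) (D ℓ pad : ℕ) (X₀ : List Bool) (t : ℕ) :
    (cntVec step D ℓ pad X₀ t).length ≤ pad ∧
      ∀ x ∈ cntVec step D ℓ pad X₀ t, 0 ≤ x ∧ x ≤ 2 ^ (2 * pad * t) := by
  induction t with
  | zero =>
    refine ⟨by simpa [cntVec] using length_strs_le D pad, fun x hx => ?_⟩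
    obtain ⟨Y, -, rfl⟩ := List.mem_map.1 hx
    split_ifs <;> simp
  | succ t ih =>
    rw [cntVec, Function.iterate_succ_apply', ← cntVec]
    refine ⟨by simpa [cntStep] using length_strs_le D pad, fun x hx => ?_⟩
    obtain ⟨Y, -, rfl⟩ := List.mem_map.1 hx
    have h1 := getD_bd (by positivity) ih.2
    have hp : (pad : ℤ) ≤ 2 ^ pad := by exact_mod_cast Nat.lt_two_pow_self.le
    rw [sum_tab]
    refine ⟨sum_nonneg fun i _ => mul_nonneg (h1 i).1 (by positivity), ?_⟩
    refine (sum_le_card_nsmul _ _ (2 ^ (2 * pad * t) * 2 ^ pad) fun i _ => ?_).trans ?_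
    · refine mul_le_mul (h1 i).2 (le_trans ?_ hp) (by positivity) (by positivity)
      exact_mod_cast (List.length_filter_le _ _).trans (length_strs_le ℓ pad)
    · have h2 : ((strs D pad).length : ℤ) ≤ 2 ^ pad :=
        le_trans (by exact_mod_cast length_strs_le D pad) hp
      rw [card_range, nsmul_eq_mul]
      refine (mul_le_mul_of_nonneg_right h2 (by positivity)).trans (le_of_eq ?_)
      rw [← pow_add, ← pow_add]
      congr 1
      ring

@[fun_prop] theorem pt_strs {α : Type} [Enc α] {k pad : α → ℕ} (hk : PT k) (hp : PT pad) :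
    PT fun a => strs (k a) (pad a) := by
  unfold strs; fun_prop

theorem pt_cntVec {α : Type} [Enc α] {step : α → List Bool → List Bool → List Bool}
    {D ℓ pad t : α → ℕ} {X₀ : α → List Bool}
    (hs : PT fun p : α × List Bool × List Bool => step p.1 p.2.1 p.2.2)
    (hD : PT D) (hℓ : PT ℓ) (hp : PT pad) (ht : PT t) (hX : PT X₀) :
    PT fun a => cntVec (step a) (D a) (ℓ a) (pad a) (X₀ a) (t a) := by
  have h1 := PB.of_PT hp
  have h2 := PB.of_PT ht
  refine PT.iterate (step := fun a => cntStep (step a) (D a) (ℓ a) (pad a)) ?_ ht (by fun_prop)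
    (B := fun a => pad a * (2 * (2 * pad a * t a + 2) + 1)) (by fun_prop) fun a i hi => ?_
  · unfold cntStep
    refine PT.map ?_ (by fun_prop)
    refine PT.int_sum (pt_tab (by fun_prop) (PT.int_mul (by fun_prop) (PT.natCast (PT.length
      (PT.filter (PT.int_eq (pt_num ?_) (by fun_prop)) (by fun_prop))))))
    exact hs.comp (g := fun p : (((α × List ℤ) × List Bool) × ℕ) × List Bool =>
      (p.1.1.1.1, (strs (D p.1.1.1.1) (pad p.1.1.1.1)).getD p.1.2 [], p.2)) (by fun_prop)
  · obtain ⟨h3, h4⟩ := cntVec_bd (step a) (D a) (ℓ a) (pad a) (X₀ a) i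
    refine (size_list_le (m := 2 * pad a * t a + 2) fun x hx => ?_).trans
      (Nat.mul_le_mul_right _ h3)
    have h5 := h4 x hx
    have h6 : x.natAbs < 2 ^ (2 * pad a * t a + 1) := by
      have h7 : (2 : ℤ) ^ (2 * pad a * i) < 2 ^ (2 * pad a * t a + 1) :=
        pow_lt_pow_right₀ (by norm_num) (Nat.lt_succ_of_le (Nat.mul_le_mul_left _ hi))
      have h8 : (x.natAbs : ℤ) < 2 ^ (2 * pad a * t a + 1) := by
        rw [Int.natAbs_of_nonneg h5.1]; exact h5.2.trans_lt h7
      exact_mod_cast h8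
    rw [size_int]
    have := Nat.size_le.2 h6
    omega

theorem pt_comp {α : Type} [Enc α] {valid : α → List Bool → Bool} {D pad K₀ : α → ℕ}
    {N : α → List ℤ} (hv : PT fun p : α × List Bool => valid p.1 p.2) (hD : PT D) (hp : PT pad)
    (hK : PT K₀) (hN : PT N) : PT fun a => comp (valid a) (D a) (pad a) (K₀ a) (N a) := by
  have h1 : PT fun p : α × ℕ => valid p.1 ((strs (D p.1) (pad p.1)).getD p.2 []) :=
    hv.comp (g := fun p : α × ℕ => (p.1, (strs (D p.1) (pad p.1)).getD p.2 [])) (by fun_prop)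
  have h2 : PT fun a => (List.range (strs (D a) (pad a)).length).foldl (fun m j =>
      if valid a ((strs (D a) (pad a)).getD j []) = true ∧ m < (N a).getD j 0 then (N a).getD j 0
      else m) 0 := by
    refine PT.foldl_growth (f := fun a (m : ℤ) (j : ℕ) =>
      if valid a ((strs (D a) (pad a)).getD j []) = true ∧ m < (N a).getD j 0 then (N a).getD j 0
      else m) (PT.ite (PT.decide_and (PT.decide_eq_true (h1.comp
        (g := fun p : α × ℤ × ℕ => (p.1, p.2.2)) (by fun_prop))) (by fun_prop)) (by fun_prop)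
        (by fun_prop)) (by fun_prop) (by fun_prop)
      (G := fun p => size ((N p.1).getD p.2 0)) (PB.size (by fun_prop)) fun a s b => ?_
    split_ifs <;> simp
  unfold comp
  exact pt_tab (by fun_prop) (PT.ite (PT.decide_eq_true h1)
    (PT.int_mul (by fun_prop) (PT.int_sub (h2.comp (PT.fst PT.id')) (by fun_prop))) (by fun_prop))

theorem pt_slow {α : Type} [Enc α] {valid : α → List Bool → Bool}
    {step : α → List Bool → List Bool → List Bool} {D ℓ pad K₀ t : α → ℕ} {X₀ τ : α → List Bool}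
    (hv : PT fun p : α × List Bool => valid p.1 p.2)
    (hs : PT fun p : α × List Bool × List Bool => step p.1 p.2.1 p.2.2)
    (hD : PT D) (hℓ : PT ℓ) (hp : PT pad) (hK : PT K₀) (ht : PT t) (hX : PT X₀) (hτ : PT τ) :
    PT fun a => slow (valid a) (step a) (D a) (ℓ a) (pad a) (K₀ a) (t a) (X₀ a) (τ a) := by
  have h := pt_comp hv hD hp hK (pt_cntVec hs hD hℓ hp ht hX)
  have key : ∀ c : α → List ℤ, PT c → PT fun a =>
      (!((List.range (c a).length).filter fun i =>
          decide (num ((τ a).take (t a * ℓ a)) < ((c a).take (i + 1)).sum)).isEmpty,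
        (strs (D a) (pad a)).getD (((List.range (c a).length).filter fun i =>
          decide (num ((τ a).take (t a * ℓ a)) < ((c a).take (i + 1)).sum)).headD 0) []) := by
    intro c hc
    fun_prop
  exact key _ h

end Crest.Agent.R309
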