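import Crest.Agent.R309.Ends

/-!
# Row 309: the initial sample

`initProp τ = ofFn (mdlS.Phi y last last)` with `y e = lo' e + U_e % len e` off the annealed cells.  For `y ∈ mdlS.fbox`
the probability of proposing and accepting `y` is a product over independent blocks (`Ex_prod_chunk`,
`Ex_num`, `abs_card_mod_sub_le`, `abs_Ex_coin_sub_le`, `approx_prod`): it equals `(1 ± η) wt (Phi y) / Zbar` with
`η ≤ 10 n 2^(36 n) 2^-K` (`wt ≥ 1/2`).  So one step acts as `g ↦ A g + (1 - a) g` where `a = A 1 ≥ 1/2` and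
`|A g / a - mu 0 g| ≤ 4 η` (`sum_cl_zero`, `cl_self`); after `n²` steps the error is `≤ 2 * 2^-(n²) + 4 η`.
-/

set_option autoImplicit false

namespace Crest.Agent.R309

open Finset

/-- Rejection sampling: the closed form of the iterated Markov operator. -/
theorem iter_reject {σ : Type} (acc : List Bool → Prop) [DecidablePred acc] (prop : List Bool → σ)
    (ℓ : ℕ) (g : σ → ℝ) {a m : ℝ} (ha : Ex ℓ (fun τ => ind (acc τ)) = a)
    (hm : Ex ℓ (fun τ => ind (acc τ) * g (prop τ)) = a * m) (T : ℕ) (x : σ) :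
    (opS (fun X τ => if acc τ then prop τ else X) ℓ)^[T] g x = m + (1 - a) ^ T * (g x - m) := by
  induction T generalizing x with
  | zero => simp
  | succ T ih =>
    rw [Function.iterate_succ_apply', opS]
    simp only [ih]
    have h1 : ∀ τ, m + (1 - a) ^ T * (g (if acc τ then prop τ else x) - m) =
        m + (1 - a) ^ T * ((ind (acc τ) * g (prop τ) + (g x - ind (acc τ) * g x)) - m) := by
      intro τ
      by_cases h : acc τ <;> simp [h, ind]
    simp only [h1, Ex_add, Ex_sub, Ex_mul_left, Ex_mul_right, Ex_const, ha, hm]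
    ring

theorem abs_prod_sub_one_le {ι : Type} [Fintype ι] (f : ι → ℝ) {δ : ℝ} (hf : ∀ i, |f i - 1| ≤ δ)
    (hδ : Fintype.card ι * δ ≤ 1) : |∏ i, f i - 1| ≤ 2 * (Fintype.card ι * δ) := by
  have h1 := Finset.norm_prod_one_add_sub_one_le (univ : Finset ι) fun i => f i - 1
  simp only [add_sub_cancel, Real.norm_eq_abs] at h1
  have h2 : ∑ i, |f i - 1| ≤ Fintype.card ι * δ := by
    calc _ ≤ ∑ _i : ι, δ := sum_le_sum fun i _ => hf i
      _ = _ := by simp
  have h0 : 0 ≤ ∑ i, |f i - 1| := sum_nonneg fun i _ => abs_nonneg _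
  have h3 := Real.abs_exp_sub_one_le (x := Fintype.card ι * δ)
    (by rw [abs_of_nonneg (h0.trans h2)]; exact hδ)
  rw [abs_of_nonneg (h0.trans h2)] at h3
  have h4 := Real.exp_le_exp.2 h2
  linarith [le_abs_self (Real.exp (Fintype.card ι * δ) - 1)]

theorem init_num1 {n : ℕ} (hn : 64 ≤ n) : n ^ 41 * 4 ≤ 2 ^ n ^ 2 := by
  have h1 : n ≤ 2 ^ n := Nat.lt_two_pow_self.le
  calc n ^ 41 * 4 ≤ (2 ^ n) ^ 41 * 2 ^ 2 := Nat.mul_le_mul (Nat.pow_le_pow_left h1 _) (by norm_num)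
    _ = 2 ^ (n * 41 + 2) := by rw [← pow_mul, ← pow_add]
    _ ≤ _ := Nat.pow_le_pow_right (by norm_num) (by nlinarith)

theorem init_num2 {n : ℕ} (hn : 64 ≤ n) : n ^ 41 * (64 * n * 2 ^ (36 * n)) ≤ 2 ^ n ^ 3 := by
  have h1 : n ≤ 2 ^ n := Nat.lt_two_pow_self.le
  calc n ^ 41 * (64 * n * 2 ^ (36 * n)) ≤ (2 ^ n) ^ 41 * (2 ^ 6 * 2 ^ n * 2 ^ (36 * n)) :=
        Nat.mul_le_mul (Nat.pow_le_pow_left h1 _)
          (Nat.mul_le_mul_right _ (Nat.mul_le_mul (by norm_num) h1))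
    _ = 2 ^ (n * 41 + (6 + n + 36 * n)) := by rw [← pow_mul, ← pow_add, ← pow_add, ← pow_add]
    _ ≤ _ := Nat.pow_le_pow_right (by norm_num) (by
        have : 64 * 64 * n ≤ n ^ 3 := by
          calc 64 * 64 * n ≤ n * n * n := Nat.mul_le_mul_right _ (Nat.mul_le_mul hn hn)
            _ = n ^ 3 := by ring
        omega)

namespace Pre

variable {p : Pre}

/-- The value read for the cell `e` from its block. -/
def yC (p : Pre) (e : ℕ) (ω : List Bool) : ℤ :=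
  if p.ann e = true then 0 else p.lo' e + num ω % p.len e

/-- The values of the cells off the spanning tree read from the tape. -/
def yOf (p : Pre) (τ : List Bool) (e : Fin p.I.M) : ℤ := p.yC e (chunk p.K e τ)

theorem mem_fboxS {y : Fin p.I.M → ℤ} : y ∈ p.mdlS.fbox ↔ ∀ e : Fin p.I.M,
    (if p.ann e = true then 0 else p.lo' e) ≤ y e ∧ y e ≤ if p.ann e = true then 0 else p.hi' e :=
  mem_box

theorem OK.yOf_mem (h : p.OK) (τ : List Bool) : p.yOf τ ∈ p.mdlS.fbox := by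
  rw [mem_fboxS]
  intro e
  unfold yOf yC
  split_ifs with he
  · simp
  · have h1 := Int.emod_nonneg (num (chunk p.K e τ)) (h.len_pos e).ne'
    have h2 := Int.emod_lt_of_pos (num (chunk p.K e τ)) (h.len_pos e)
    have h3 : p.len e = p.hi' e - p.lo' e + 1 := rfl
    constructor <;> omega

theorem OK.initProp_eq (h : p.OK) (τ : List Bool) (w : p.I.V) :
    p.initProp τ = List.ofFn (p.mdlS.Phi (p.yOf τ) w w) := by
  unfold initProp
  rw [tab_eq_ofFn]
  congr 1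
  funext t
  unfold Mdl.Phi
  rw [add_sub_cancel_right, tab_eq_ofFn, List.sum_ofFn, Pi.add_apply, Finset.sum_apply, sum_filter]
  congr 1
  refine sum_congr rfl fun e _ => ?_
  have h1 : p.mdlS.tree e = p.ann e := rfl
  have h2 : p.mdlS.X0 e = p.X0.getD e 0 := rfl
  rw [h1, Pi.smul_apply, smul_eq_mul, cycS_eq p h, h2]
  unfold yOf yC
  cases p.ann e <;> simp

theorem yOf_take (p : Pre) (τ : List Bool) : p.yOf (τ.take (p.I.M * p.K)) = p.yOf τ := by
  funext e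
  unfold yOf
  rw [chunk_take τ (Nat.mul_le_mul_right _ e.2)]

theorem Zbar_cast (p : Pre) :
    (p.Zbar : ℝ) = ∏ e : Fin p.I.M, if p.ann e = true then 1 else (p.len e : ℝ) := by
  unfold Zbar
  rw [tab_eq_ofFn, List.prod_ofFn]
  push_cast
  rfl

theorem OK.Ex_yC (h : p.OK) {y : Fin p.I.M → ℤ} (hy : y ∈ p.mdlS.fbox) (e : Fin p.I.M) :
    |Ex p.K (fun ω => ind (p.yC e ω = y e)) * (if p.ann e = true then 1 else (p.len e : ℝ)) - 1| ≤
      2 ^ (36 * p.n) / 2 ^ p.K := by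
  have h1 := mem_fboxS.1 hy e
  unfold yC
  split_ifs at h1 ⊢ with he
  · rw [ind_of (by omega), Ex_const]
    simp only [mul_one, sub_self, abs_zero]
    positivity
  · have hl := h.len_pos e
    have hlR : (0 : ℝ) < p.len e := by exact_mod_cast hl
    have hle : (p.len e : ℝ) ≤ 2 ^ (36 * p.n) := by exact_mod_cast h.len_le e
    have h2 := abs_card_mod_sub_le (2 ^ p.K) hl (r := y e - p.lo' e) (by omega)
      (by unfold len; omega)
    rw [Ex_num p.K fun z => ind (p.lo' e + z % p.len e = y e)]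
    have h3 : ∀ j : ℕ, ind (p.lo' e + (j : ℤ) % p.len e = y e) =
        if (j : ℤ) % p.len e = y e - p.lo' e then 1 else 0 := by
      intro j
      by_cases hj : (j : ℤ) % p.len e = y e - p.lo' e
      · rw [if_pos hj, ind_of (by omega)]
      · rw [if_neg hj, ind_of_not (by omega)]
    simp only [h3]
    rw [sum_boole]
    set c : ℝ := (((range (2 ^ p.K)).filter fun j : ℕ =>
      (j : ℤ) % p.len e = y e - p.lo' e).card : ℝ)
    have hN : (0 : ℝ) < 2 ^ p.K := by positivity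
    push_cast at h2
    have h4 : c / 2 ^ p.K * p.len e - 1 = (c - 2 ^ p.K / p.len e) * (p.len e / 2 ^ p.K) := by
      field_simp
    rw [h4, abs_mul, abs_of_pos (by positivity : (0 : ℝ) < p.len e / 2 ^ p.K)]
    calc _ ≤ 1 * (2 ^ (36 * p.n) / 2 ^ p.K : ℝ) :=
          mul_le_mul h2 (div_le_div_of_nonneg_right hle hN.le) (by positivity) zero_le_one
      _ = _ := one_mul _

theorem OK.eta_le (h : p.OK) :
    64 * p.n * (2 ^ (36 * p.n) / 2 ^ p.K : ℝ) ≤ 1 / (p.n : ℝ) ^ 41 := by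
  have h1 : ((p.n : ℝ)) ^ 41 * (64 * p.n * 2 ^ (36 * p.n)) ≤ 2 ^ p.K := by
    exact_mod_cast init_num2 h.n_ge
  have hn : (0 : ℝ) < p.n := by have := h.n_ge; positivity
  rw [← mul_div_assoc, div_le_div_iff₀ (by positivity) (by positivity)]
  linarith

theorem OK.Ex_yOf_eq (h : p.OK) {L : ℕ} (hL : p.I.M * p.K ≤ L) {y : Fin p.I.M → ℤ}
    (hy : y ∈ p.mdlS.fbox) :
    |Ex L (fun τ => ind (p.yOf τ = y)) * p.Zbar - 1| ≤
      2 * (p.n * (2 ^ (36 * p.n) / 2 ^ p.K)) := by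
  have h1 : ∀ τ, ind (p.yOf τ = y) =
      ∏ i ∈ range p.I.M, ind (p.yC i (chunk p.K i τ) = (List.ofFn y).getD i 0) := by
    intro τ
    rw [prod_range]
    simp only [getD_ofFn]
    by_cases hτ : p.yOf τ = y
    · rw [ind_of hτ]
      exact (prod_eq_one fun e _ => ind_of (congrFun hτ e)).symm
    · rw [ind_of_not hτ]
      obtain ⟨e, he⟩ := Function.ne_iff.1 hτ
      exact (prod_eq_zero (mem_univ e) (ind_of_not he)).symm
  simp only [h1]
  rw [Ex_prod_chunk hL fun i ω => ind (p.yC i ω = (List.ofFn y).getD i 0), prod_range, Zbar_cast,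
    ← prod_mul_distrib]
  simp only [getD_ofFn]
  have hM : (p.I.M : ℝ) ≤ p.n := by
    have := h.M_le
    exact_mod_cast (by omega : p.I.M ≤ p.n)
  have hδ : (0 : ℝ) ≤ 2 ^ (36 * p.n) / 2 ^ p.K := by positivity
  have h2 := h.eta_le
  have hn : (1 : ℝ) ≤ p.n := by have := h.n_ge; exact_mod_cast (by omega : 1 ≤ p.n)
  have h3 : 1 / (p.n : ℝ) ^ 41 ≤ 1 := by
    rw [div_le_one (by positivity)]; exact one_le_pow₀ hn
  have h4 := mul_le_mul_of_nonneg_right hM hδ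
  refine (abs_prod_sub_one_le _ (h.Ex_yC hy) ?_).trans ?_
  · rw [Fintype.card_fin]; nlinarith
  · rw [Fintype.card_fin]; linarith

theorem OK.Ex_yOf (h : p.OK) {L : ℕ} (hL : p.I.M * p.K ≤ L) (G : (Fin p.I.M → ℤ) → ℝ)
    (hG : ∀ y ∈ p.mdlS.fbox, |G y| ≤ 1) :
    |Ex L (fun τ => G (p.yOf τ)) - (∑ y ∈ p.mdlS.fbox, G y) / p.Zbar| ≤
      2 * (p.n * (2 ^ (36 * p.n) / 2 ^ p.K)) := by
  have h1 : ∀ τ, G (p.yOf τ) = ∑ y ∈ p.mdlS.fbox, ind (p.yOf τ = y) * G y := by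
    intro τ
    rw [sum_eq_single_of_mem _ (h.yOf_mem τ), ind_of rfl, one_mul]
    intro y _ hy
    rw [ind_of_not (Ne.symm hy), zero_mul]
  have hZ : (0 : ℝ) < p.Zbar := by exact_mod_cast h.card_fbox.2
  have hc : (p.mdlS.fbox.card : ℝ) = p.Zbar := by exact_mod_cast h.card_fbox.1
  simp only [h1]
  rw [Ex_sum, sum_div, ← sum_sub_distrib]
  refine (abs_sum_le_sum_abs _ _).trans ?_
  calc _ ≤ ∑ _y ∈ p.mdlS.fbox, 2 * (p.n * (2 ^ (36 * p.n) / 2 ^ p.K : ℝ)) / p.Zbar := by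
        refine sum_le_sum fun y hy => ?_
        have h2 : Ex L (fun τ => ind (p.yOf τ = y) * G y) - G y / p.Zbar =
            (Ex L (fun τ => ind (p.yOf τ = y)) * p.Zbar - 1) * G y / p.Zbar := by
          rw [Ex_mul_right]; field_simp
        rw [h2, abs_div, abs_mul, abs_of_pos hZ]
        refine div_le_div_of_nonneg_right ?_ hZ.le
        calc _ ≤ 2 * (p.n * (2 ^ (36 * p.n) / 2 ^ p.K : ℝ)) * 1 :=
              mul_le_mul (h.Ex_yOf_eq hL hy) (hG y hy) (abs_nonneg _) (by positivity)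
          _ = _ := mul_one _
    _ = _ := by rw [sum_const, nsmul_eq_mul, hc]; field_simp

theorem OK.coin_close (h : p.OK) {X : Fin p.I.M → ℤ} (hX : X ∈ box p.mdl.lo p.mdl.hi) :
    |Ex p.K (fun ω => ind (num ω * p.prodD 0 (List.ofFn X) < 2 ^ p.K * p.prodN 0 (List.ofFn X))) -
      wt (p.f 0) X| ≤ 3 * (p.n * (2 ^ (36 * p.n) / 2 ^ p.K)) := by
  obtain ⟨h1, h2, h3⟩ := h.approx_prod 0 hX
  have h4 := abs_Ex_coin_sub_le p.K h1.le h2
  have h5 := (h.wt_zero hX).2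
  have hn : (1 : ℝ) ≤ p.n := by have := h.n_ge; exact_mod_cast (by omega : 1 ≤ p.n)
  have hε : (0 : ℝ) < (1 / 2) ^ p.K := by positivity
  have h6 : (1 / 2 : ℝ) ^ p.K ≤ 2 ^ (36 * p.n) / 2 ^ p.K := by
    rw [one_div_pow]
    exact div_le_div_of_nonneg_right (one_le_pow₀ (by norm_num)) (by positivity)
  have h7 : 2 * p.n * (1 / 2 : ℝ) ^ p.K * wt (p.f 0) X ≤ 2 * p.n * (1 / 2) ^ p.K * 1 :=
    mul_le_mul_of_nonneg_left h5 (by positivity)
  have h8 : |min 1 ((p.prodN 0 (List.ofFn X) : ℝ) / p.prodD 0 (List.ofFn X)) - wt (p.f 0) X| ≤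
      |(p.prodN 0 (List.ofFn X) : ℝ) / p.prodD 0 (List.ofFn X) - wt (p.f 0) X| := by
    rcases le_total 1 ((p.prodN 0 (List.ofFn X) : ℝ) / p.prodD 0 (List.ofFn X)) with h9 | h9
    · rw [min_eq_left h9, abs_of_nonneg (by linarith), abs_of_nonneg (by linarith)]; linarith
    · rw [min_eq_right h9]
  have h9 := abs_sub_le (Ex p.K (fun ω => ind (num ω * p.prodD 0 (List.ofFn X) <
    2 ^ p.K * p.prodN 0 (List.ofFn X))))
    (min 1 ((p.prodN 0 (List.ofFn X) : ℝ) / p.prodD 0 (List.ofFn X))) (wt (p.f 0) X)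
  have h10 := mul_le_mul_of_nonneg_left h6 (by linarith : (0 : ℝ) ≤ p.n)
  nlinarith

/-- One proposal and acceptance test. -/
theorem OK.accept_close (h : p.OK) (w : p.I.V) (g : List ℤ → ℝ) (hg : ∀ y, |g y| ≤ 1) :
    |Ex ((p.I.M + 1) * p.K) (fun τ => ind (num (chunk p.K p.I.M τ) * p.prodD 0 (p.initProp τ) <
        2 ^ p.K * p.prodN 0 (p.initProp τ)) * g (p.initProp τ)) -
      (∑ X ∈ p.solM, wt (p.f 0) X * g (List.ofFn X)) / p.Zbar| ≤
      5 * (p.n * (2 ^ (36 * p.n) / 2 ^ p.K)) := by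
  have hbox : ∀ y ∈ p.mdlS.fbox, p.mdlS.Phi y w w ∈ box p.mdl.lo p.mdl.hi :=
    fun y hy => h.forestS.Phi_mem_box hy w w
  have hn : (64 : ℝ) ≤ p.n := by exact_mod_cast h.n_ge
  have hwt : ∀ y ∈ p.mdlS.fbox, |wt (p.f 0) (p.mdlS.Phi y w w)| ≤ 1 := by
    intro y hy
    have h1 := h.wt_zero (hbox y hy)
    have h2 : 3 / (p.n : ℝ) ^ 2 ≤ 1 := by rw [div_le_one (by positivity)]; nlinarith
    rw [abs_le]; constructor <;> linarith [h1.1, h1.2]
  rw [Ex_fresh le_rfl (fun τ ω => ind (num ω * p.prodD 0 (p.initProp τ) <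
    2 ^ p.K * p.prodN 0 (p.initProp τ)) * g (p.initProp τ))
    (fun τ ω => by rw [h.initProp_eq _ w, h.initProp_eq (τ.take _) w, yOf_take]),
    ← cl_self p w, h.sum_cl_zero w w]
  have h1 := h.Ex_yOf (L := (p.I.M + 1) * p.K) (Nat.mul_le_mul_right _ (Nat.le_succ _))
    (fun y => wt (p.f 0) (p.mdlS.Phi y w w) * g (List.ofFn (p.mdlS.Phi y w w)))
    (fun y hy => by
      rw [abs_mul]
      exact mul_le_one₀ (hwt y hy) (abs_nonneg _) (hg _))
  have h2 : |Ex ((p.I.M + 1) * p.K) (fun τ => Ex p.K fun ω => ind (num ω * p.prodD 0 (p.initProp τ) <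
      2 ^ p.K * p.prodN 0 (p.initProp τ)) * g (p.initProp τ)) -
      Ex ((p.I.M + 1) * p.K) (fun τ => wt (p.f 0) (p.mdlS.Phi (p.yOf τ) w w) *
        g (List.ofFn (p.mdlS.Phi (p.yOf τ) w w)))| ≤ 3 * (p.n * (2 ^ (36 * p.n) / 2 ^ p.K)) := by
    refine abs_Ex_sub_le fun τ _ => ?_
    rw [Ex_mul_right, h.initProp_eq τ w, ← sub_mul, abs_mul]
    calc _ ≤ 3 * (p.n * (2 ^ (36 * p.n) / 2 ^ p.K : ℝ)) * 1 :=
          mul_le_mul (h.coin_close (hbox _ (h.yOf_mem τ))) (hg _) (abs_nonneg _) (by positivity)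
      _ = _ := mul_one _
  refine (abs_sub_le _ _ _).trans ((add_le_add h2 h1).trans_eq ?_)
  ring

theorem OK.init_close (h : p.OK) {L : ℕ} (hL : p.n ^ 2 * ((p.I.M + 1) * p.K) ≤ L)
    (g : List ℤ → ℝ) (hg : ∀ y, |g y| ≤ 1) :
    |Ex L (fun τ => g (p.init τ)) - p.mu 0 g| ≤ 1 / (p.n : ℝ) ^ 41 := by
  set w : p.I.V := Fin.last _
  have hA := h.accept_close w g hg
  have ha := h.accept_close w (fun _ => 1) (fun _ => by simp)
  simp only [mul_one] at ha
  set acc : List Bool → Prop := fun τ => num (chunk p.K p.I.M τ) * p.prodD 0 (p.initProp τ) <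
    2 ^ p.K * p.prodN 0 (p.initProp τ) with hacc
  set A := Ex ((p.I.M + 1) * p.K) (fun τ => ind (acc τ) * g (p.initProp τ)) with hAdef
  set a := Ex ((p.I.M + 1) * p.K) (fun τ => ind (acc τ)) with hadef
  set η : ℝ := p.n * (2 ^ (36 * p.n) / 2 ^ p.K) with hη
  set Ng := ∑ X ∈ p.solM, wt (p.f 0) X * g (List.ofFn X) with hNg
  set N1 := ∑ X ∈ p.solM, wt (p.f 0) X with hN1
  have hn : (64 : ℝ) ≤ p.n := by exact_mod_cast h.n_ge
  have hZ : (0 : ℝ) < p.Zbar := by exact_mod_cast h.card_fbox.2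
  have hc : (p.mdlS.fbox.card : ℝ) = p.Zbar := by exact_mod_cast h.card_fbox.1
  have hη0 : 0 ≤ η := by positivity
  have hη1 : 64 * η ≤ 1 / (p.n : ℝ) ^ 41 := by rw [hη, ← mul_assoc]; exact h.eta_le
  have h41 : 1 / (p.n : ℝ) ^ 41 ≤ 1 := by
    rw [div_le_one (by positivity)]; exact one_le_pow₀ (by linarith)
  have h3 : 3 / (p.n : ℝ) ^ 2 ≤ 1 / 4 := by rw [div_le_iff₀ (by positivity)]; nlinarith
  have hN1ge : 3 / 4 ≤ N1 / p.Zbar := by
    rw [le_div_iff₀ hZ, hN1, ← cl_self p w, h.sum_cl_zero w w, ← hc]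
    calc _ = ∑ _y ∈ p.mdlS.fbox, (3 / 4 : ℝ) := by rw [sum_const, nsmul_eq_mul, mul_comm]
      _ ≤ _ := sum_le_sum fun y hy => by
          linarith [(h.wt_zero (h.forestS.Phi_mem_box hy w w)).1]
  have ha1 : 1 / 2 ≤ a := by linarith [(abs_le.1 ha).1]
  have ha2 : a ≤ 1 := by
    have := Ex_mono (L := (p.I.M + 1) * p.K) (F := fun τ => ind (acc τ)) (G := fun _ => 1)
      fun _ _ => ind_le_one _
    rwa [Ex_const] at this
  have ha0 : 0 < a := by linarith
  have hAa : |A| ≤ a := by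
    rw [abs_le]
    constructor
    · have := Ex_mono (L := (p.I.M + 1) * p.K) (F := fun τ => (-1) * ind (acc τ))
        (G := fun τ => ind (acc τ) * g (p.initProp τ)) fun τ _ => by
          nlinarith [ind_nonneg (acc τ), (abs_le.1 (hg (p.initProp τ))).1]
      rw [Ex_mul_left] at this
      linarith
    · exact Ex_mono fun τ _ => by
        nlinarith [ind_nonneg (acc τ), (abs_le.1 (hg (p.initProp τ))).2]
  have hm : |A / a| ≤ 1 := by rw [abs_div, abs_of_pos ha0, div_le_one ha0]; exact hAa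
  have hit : Ex L (fun τ => g (p.init τ)) = A / a + (1 - a) ^ p.n ^ 2 * (g p.X0 - A / a) := by
    unfold init
    rw [Ex_foldT_iter p.initStep hL p.X0 g]
    exact iter_reject acc p.initProp _ g rfl (by rw [mul_div_cancel₀ _ ha0.ne']) _ _
  have hN10 : 0 < N1 := by
    have : 0 < N1 / p.Zbar := by linarith
    exact (div_pos_iff_of_pos_right hZ).1 this
  have hmu : p.mu 0 g = (Ng / p.Zbar) / (N1 / p.Zbar) := by
    rw [div_div_div_cancel_right₀ hZ.ne']; rfl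
  have e1 : |A / a - p.mu 0 g| ≤ 20 * η := by
    rw [hmu]
    have hq : 0 < N1 / p.Zbar := by linarith
    have : A / a - (Ng / p.Zbar) / (N1 / p.Zbar) =
        ((A - Ng / p.Zbar) - A / a * (a - N1 / p.Zbar)) / (N1 / p.Zbar) := by
      field_simp; ring
    rw [this, abs_div, abs_of_pos hq, div_le_iff₀ hq]
    have h5 : |A / a * (a - N1 / p.Zbar)| ≤ 1 * (5 * η) := by
      rw [abs_mul]; exact mul_le_mul hm ha (abs_nonneg _) zero_le_one
    have h6 := abs_sub (A - Ng / p.Zbar) (A / a * (a - N1 / p.Zbar))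
    nlinarith
  have e2 : |(1 - a) ^ p.n ^ 2 * (g p.X0 - A / a)| ≤ 1 / (p.n : ℝ) ^ 41 / 2 := by
    rw [abs_mul, abs_of_nonneg (pow_nonneg (by linarith) _)]
    have h5 : |g p.X0 - A / a| ≤ 2 := by linarith [abs_sub (g p.X0) (A / a), hg p.X0]
    have h6 : (1 - a) ^ p.n ^ 2 ≤ (1 / 2) ^ p.n ^ 2 := pow_le_pow_left₀ (by linarith) (by linarith) _
    have h7 : (p.n : ℝ) ^ 41 * 4 ≤ 2 ^ p.n ^ 2 := by exact_mod_cast init_num1 h.n_ge
    have h8 : (1 / 2 : ℝ) ^ p.n ^ 2 * 2 ≤ 1 / (p.n : ℝ) ^ 41 / 2 := by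
      rw [one_div_pow, div_mul_eq_mul_div, div_div, div_le_div_iff₀ (by positivity) (by positivity)]
      linarith
    exact (mul_le_mul h6 h5 (abs_nonneg _) (by positivity)).trans h8
  rw [hit, add_sub_right_comm]
  refine (abs_add_le _ _).trans ?_
  linarith

end Pre

end Crest.Agent.R309
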