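import Crest.Agent.R309.Basic

/-!
# Row 309: the Lorentzian transport lemma (positive base weight)

Model: flows `X` in the box, weight `wt f X * gq q (β - del X)`; the Gaussian factor `gq q` makes
all partition functions positive.  `Q α a b := ZB (α + ev a + ev b)` is a symmetric matrix.

## The one-cell identity (heart of the proof)

Induct on `M`, splitting off a cell `p` (`Fin.insertNth p`, or `Fin.cons` for `transport`) from `v`
to `u`, with weight `f` on `[lo, hi]`; `Z'` is the partition function of the other cells, `d = ev u - ev v`,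
`ZB β = ∑ k, f k * Z' (β - k • d)`.  For a demand `y : V → ℝ` with `∑ a, y a * ZB (γ + ev a) = 0` put
`Mk k := Z' (γ - k • d + ev v) > 0` (note `γ - k•d + ev v = γ - (k+1)•d + ev u`),
`p k := -(∑ l ∈ Icc lo k, f l * ∑ a, y a * Z' (γ - l•d + ev a)) / Mk k` (so `p (lo-1) = 0 = p hi`) and
`y_k := y + (p k / f k) • 1_v - (p (k-1) / f k) • 1_u`; then `y_k` is balanced for `Z'` at `γ - k•d`.
* Pairing: `Pair y g = ∑ k, f k * Pair' (γ - k•d) y_k (g (k, ·))
   - ∑ k ∈ Ico lo hi, p k * ∑ Y, ω_k Y * (g (k,Y) v - g (k+1,Y) u)`, `ω_k Y = wt' Y * gq (γ - k•d + ev v - del' Y)`,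
  and `2 |p ω ∇| ≤ t κ p² ω / c + c ω ∇² / (t κ)` with `c = min (f k / θ v) (f (k+1) / θ u)`,
  `1 / c ≤ θ v / f k + θ u / f (k+1)`.  For a cell that is not thin `∇ = 0`.
* Potential: for any `α` let `W k := Z' (α - k•d + ev u + ev v)`; then `Q'_k(u,u) = W (k-1)`,
  `Q'_k(u,v) = W k`, `Q'_k(v,v) = W (k+1)`, `Q'_k(y,v) = Q'_{k+1}(y,u)`, the cross terms telescope and
  `∑ k, f k * Q'_k(y_k,y_k) = Q(y,y) + B`, `B = ∑ k, (p k ^2 W (k+1) - 2 p k p (k-1) W k + p (k-1)^2 W (k-1)) / f k`,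
  which `B_ge` bounds below.  For `α = γ - ev v`, `W (k+1) = Mk k`; for `α = γ - ev u`, `W k = Mk k`.
  So the edge cost is paid by `θ v * B_v + θ u * B_u ≤ ∑ c, θ c * B_c` (`u ≠ v`, all `B_c ≥ 0`).
* Base (`M = 0`): `Q α a b = c ψ a ψ b` for `a ≠ b`, `c q² ψ a ^2` for `a = b`; balance against `w`
  gives `-Q_w(y,y) ≥ (1-q²) y w ^2 * gq (γ + ev w)`; route everything to the vertex maximising
  `gq (γ + ev a) / θ a`.
-/

set_option autoImplicit false

namespace Crest.Agent.R309

open Finset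

variable {V : Type} [Fintype V] [DecidableEq V] {M : ℕ}

/-- Log-concave weights, with curvature `κ` on the thin cells. -/
structure LC (lo hi : Fin M → ℤ) (f : Fin M → ℤ → ℝ) (thin : Fin M → Prop) (κ : ℝ) : Prop where
  pos : ∀ e x, lo e ≤ x → x ≤ hi e → 0 < f e x
  lc : ∀ e x, lo e < x → x < hi e → f e (x - 1) * f e (x + 1) ≤ f e x ^ 2
  curv : ∀ e, thin e → ∀ x, lo e < x → x < hi e →
    f e (x - 1) * f e (x + 1) ≤ (1 - κ) ^ 2 * f e x ^ 2

/-- The test function does not see unit moves on cells that are not thin. -/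
def Inv (u v : Fin M → V) (lo hi : Fin M → ℤ) (thin : Fin M → Prop)
    (g : (Fin M → ℤ) → V → ℝ) : Prop :=
  ∀ e, ¬ thin e → ∀ X ∈ box lo hi, X + ec e ∈ box lo hi → g X (v e) = g (X + ec e) (u e)

/-- Gaussian base weight; for `q = 0` it is the indicator of `β = 0`. -/
noncomputable def gq (q : ℝ) (β : V → ℤ) : ℝ := ∏ a, q ^ ((β a).natAbs ^ 2)

/-- `∑ X, wt X * gq (β - del X) * G X`. -/
noncomputable def SB (u v : Fin M → V) (lo hi : Fin M → ℤ) (f : Fin M → ℤ → ℝ) (q : ℝ)
    (β : V → ℤ) (G : (Fin M → ℤ) → ℝ) : ℝ :=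
  ∑ X ∈ box lo hi, wt f X * gq q (β - del u v X) * G X

/-- Regularised partition function. -/
noncomputable def ZB (u v : Fin M → V) (lo hi : Fin M → ℤ) (f : Fin M → ℤ → ℝ) (q : ℝ)
    (β : V → ℤ) : ℝ := SB u v lo hi f q β fun _ => 1

open Classical in
/-- Dirichlet form of the regularised model: unit moves on thin cells, and jumps of the token. -/
noncomputable def DB (u v : Fin M → V) (lo hi : Fin M → ℤ) (f : Fin M → ℤ → ℝ)
    (thin : Fin M → Prop) (q : ℝ) (θ : V → ℝ) (γ : V → ℤ) (g : (Fin M → ℤ) → V → ℝ) : ℝ :=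
  (∑ e ∈ univ.filter thin, ∑ X ∈ (box lo hi).filter (fun X => X + ec e ∈ box lo hi),
    min (wt f X / θ (v e)) (wt f (X + ec e) / θ (u e)) * gq q (γ + ev (v e) - del u v X) *
      (g X (v e) - g (X + ec e) (u e)) ^ 2) +
  ∑ X ∈ box lo hi, ∑ a, ∑ b, wt f X *
    min (gq q (γ + ev a - del u v X) / θ a) (gq q (γ + ev b - del u v X) / θ b) *
      (g X a - g X b) ^ 2

/-- The quadratic form `Q_α (y, z)`. -/
noncomputable def QB (u v : Fin M → V) (lo hi : Fin M → ℤ) (f : Fin M → ℤ → ℝ) (q : ℝ)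
    (α : V → ℤ) (y z : V → ℝ) : ℝ :=
  ∑ a, ∑ b, y a * z b * ZB u v lo hi f q (α + ev a + ev b)

theorem lor_sum_top {lo hi : ℤ} (h : lo ≤ hi) (g : ℤ → ℝ) :
    ∑ k ∈ Icc lo hi, g k = ∑ k ∈ Ico lo hi, g k + g hi := by
  rw [← Finset.Ico_insert_right h, sum_insert (by simp), add_comm]

theorem lor_sum_shift {lo hi : ℤ} (h : lo ≤ hi) (g : ℤ → ℝ) :
    ∑ k ∈ Icc lo hi, g (k - 1) = g (lo - 1) + ∑ k ∈ Ico lo hi, g k := by
  rw [← Finset.Ioc_insert_left h, sum_insert (by simp)]
  congr 1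
  refine Finset.sum_nbij' (fun k => k - 1) (fun k => k + 1) ?_ ?_ ?_ ?_ ?_ <;>
    simp only [mem_Ioc, mem_Ico] <;> intros <;> first | omega | trivial

/-- summation by parts against a sequence vanishing at both ends -/
theorem lor_tele {lo hi : ℤ} (h : lo ≤ hi) (p T U : ℤ → ℝ) (h0 : p (lo - 1) = 0) (h1 : p hi = 0) :
    ∑ k ∈ Icc lo hi, (p k * T k - p (k - 1) * U k) = ∑ k ∈ Ico lo hi, p k * (T k - U (k + 1)) := by
  have e1 := lor_sum_top h fun k => p k * T k
  have e2 := lor_sum_shift h fun k => p k * U (k + 1)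
  simp only [sub_add_cancel, h0, h1, zero_mul, add_zero, zero_add] at e1 e2
  rw [sum_sub_distrib, e1, e2, ← sum_sub_distrib]
  exact sum_congr rfl fun k _ => by ring

/-- One-dimensional inequality behind the supermartingale property. -/
theorem B_ge {lo hi : ℤ} (f W p : ℤ → ℝ) {c : ℝ} (hc0 : 0 ≤ c) (hc1 : c ≤ 1)
    (hf : ∀ x, lo ≤ x → x ≤ hi → 0 < f x) (hW : ∀ x, 0 ≤ W x)
    (hlc : ∀ x, lo < x → x < hi → f (x - 1) * f (x + 1) ≤ (1 - c) ^ 2 * f x ^ 2)
    (h0 : p (lo - 1) = 0) (h1 : p hi = 0) :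
    c * ∑ k ∈ Ico lo hi, p k ^ 2 * (W (k + 1) / f k + W k / f (k + 1)) ≤
      ∑ k ∈ Icc lo hi,
        (p k ^ 2 * W (k + 1) - 2 * p k * p (k - 1) * W k + p (k - 1) ^ 2 * W (k - 1)) / f k := by
  rcases lt_or_ge hi lo with hlt | hle
  · rw [Finset.Ico_eq_empty (by omega), Finset.Icc_eq_empty (by omega)]; simp
  set A : ℤ → ℝ := fun k => p k ^ 2 * W (k + 1) / f k with hA
  set C : ℤ → ℝ := fun k => p k ^ 2 * W k / f (k + 1) with hC
  have key : ∀ k ∈ Icc lo hi, A k + C (k - 1) - (1 - c) * (C k + A (k - 1)) ≤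
      (p k ^ 2 * W (k + 1) - 2 * p k * p (k - 1) * W k + p (k - 1) ^ 2 * W (k - 1)) / f k := by
    intro k hk
    rw [mem_Icc] at hk
    have hfk := hf k hk.1 hk.2
    have hWk := hW k
    have h2 : 2 * p k * p (k - 1) / f k ≤
        (1 - c) * (p k ^ 2 / f (k + 1) + p (k - 1) ^ 2 / f (k - 1)) := by
      have hc : 0 ≤ 1 - c := by linarith
      rcases eq_or_lt_of_le hk.1 with e | hlo
      · rcases eq_or_lt_of_le hk.2 with e' | hhi
        · rw [← e, h0, e, e', h1]; simp
        · have := hf (k + 1) (by omega) (by omega)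
          rw [← e, h0, e]
          simp only [mul_zero, zero_div, ne_eq, OfNat.ofNat_ne_zero, not_false_eq_true, zero_pow,
            add_zero]
          positivity
      · rcases eq_or_lt_of_le hk.2 with e' | hhi
        · have := hf (k - 1) (by omega) (by omega)
          have h3 : p k = 0 := by rw [e', h1]
          rw [h3]
          simp only [mul_zero, zero_mul, zero_div, ne_eq, OfNat.ofNat_ne_zero, not_false_eq_true,
            zero_pow, zero_add]
          positivity
        · have ha := hf (k - 1) (by omega) (by omega)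
          have hb := hf (k + 1) (by omega) (by omega)
          have h3 := hlc k hlo hhi
          refine le_trans (le_abs_self _) (abs_le_of_sq_le_sq ?_ (by positivity))
          have h4 : (2 * p k * p (k - 1) / f k) ^ 2 =
              4 * (p k ^ 2 / f (k + 1)) * (p (k - 1) ^ 2 / f (k - 1)) *
                (f (k - 1) * f (k + 1) / f k ^ 2) := by field_simp; ring
          have h5 : f (k - 1) * f (k + 1) / f k ^ 2 ≤ (1 - c) ^ 2 := by
            rwa [div_le_iff₀ (by positivity)]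
          rw [h4, mul_pow]
          have h6 : 0 ≤ p k ^ 2 / f (k + 1) := by positivity
          have h7 : 0 ≤ p (k - 1) ^ 2 / f (k - 1) := by positivity
          generalize p k ^ 2 / f (k + 1) = x at *
          generalize p (k - 1) ^ 2 / f (k - 1) = y at *
          calc 4 * x * y * (f (k - 1) * f (k + 1) / f k ^ 2) ≤ (x + y) ^ 2 * (1 - c) ^ 2 :=
                mul_le_mul (by nlinarith [sq_nonneg (x - y)]) h5 (by positivity) (by positivity)
            _ = _ := mul_comm _ _
    have h3 := mul_le_mul_of_nonneg_right h2 hWk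
    simp only [hA, hC, sub_add_cancel]
    have e1 : (p k ^ 2 * W (k + 1) - 2 * p k * p (k - 1) * W k + p (k - 1) ^ 2 * W (k - 1)) / f k =
        p k ^ 2 * W (k + 1) / f k + p (k - 1) ^ 2 * W (k - 1) / f k -
          2 * p k * p (k - 1) / f k * W k := by ring
    have e2 : (1 - c) * (p k ^ 2 * W k / f (k + 1) + p (k - 1) ^ 2 * W k / f (k - 1)) =
        (1 - c) * (p k ^ 2 / f (k + 1) + p (k - 1) ^ 2 / f (k - 1)) * W k := by ring
    rw [e1, e2]
    linarith
  refine le_trans (le_of_eq ?_) (sum_le_sum key)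
  have a1 := lor_sum_top hle A
  have a2 := lor_sum_shift hle A
  have c1 := lor_sum_top hle C
  have c2 := lor_sum_shift hle C
  have z1 : A hi = 0 := by simp [hA, h1]
  have z2 : A (lo - 1) = 0 := by simp [hA, h0]
  have z3 : C hi = 0 := by simp [hC, h1]
  have z4 : C (lo - 1) = 0 := by simp [hC, h0]
  have e3 : ∑ k ∈ Ico lo hi, p k ^ 2 * (W (k + 1) / f k + W k / f (k + 1)) =
      ∑ k ∈ Ico lo hi, A k + ∑ k ∈ Ico lo hi, C k := by
    rw [← sum_add_distrib]
    exact sum_congr rfl fun k _ => by simp only [hA, hC]; ring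
  rw [sum_sub_distrib, sum_add_distrib, ← mul_sum, sum_add_distrib, a1, a2, c1, c2, z1, z2, z3, z4,
    e3]
  ring

/-! ### Splitting off one cell -/

section Split

variable (p : Fin (M + 1))

theorem ins_mem_box {lo hi : Fin (M + 1) → ℤ} {k : ℤ} {Y : Fin M → ℤ} :
    (p.insertNth k Y : Fin (M + 1) → ℤ) ∈ box lo hi ↔
      k ∈ Icc (lo p) (hi p) ∧ Y ∈ box (p.removeNth lo) (p.removeNth hi) := by
  rw [mem_box, mem_box, Fin.forall_iff_succAbove p, mem_Icc]
  simp [Fin.removeNth]

theorem sum_box_split (lo hi : Fin (M + 1) → ℤ) (F : (Fin (M + 1) → ℤ) → ℝ) :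
    ∑ X ∈ box lo hi, F X = ∑ k ∈ Icc (lo p) (hi p),
      ∑ Y ∈ box (p.removeNth lo) (p.removeNth hi), F (p.insertNth k Y) := by
  rw [← sum_product']
  symm
  refine Finset.sum_equiv (Fin.insertNthEquiv (fun _ => ℤ) p) (fun z => ?_) fun z _ => rfl
  rw [mem_product]
  exact (ins_mem_box p).symm

theorem wt_ins (f : Fin (M + 1) → ℤ → ℝ) (k : ℤ) (Y : Fin M → ℤ) :
    wt f (p.insertNth k Y) = f p k * wt (p.removeNth f) Y := by
  unfold wt
  rw [Fin.prod_univ_succAbove _ p]
  simp [Fin.removeNth]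

omit [Fintype V] in
theorem del_ins (u v : Fin (M + 1) → V) (k : ℤ) (Y : Fin M → ℤ) :
    del u v (p.insertNth k Y) =
      k • (ev (u p) - ev (v p)) + del (p.removeNth u) (p.removeNth v) Y := by
  unfold del
  rw [Fin.sum_univ_succAbove _ p]
  simp only [Fin.insertNth_apply_same, Fin.insertNth_apply_succAbove, Fin.removeNth]

theorem ins_add_ec (k : ℤ) (Y : Fin M → ℤ) :
    (p.insertNth k Y : Fin (M + 1) → ℤ) + ec p = p.insertNth (k + 1) Y := by
  funext i
  refine Fin.succAboveCases p ?_ (fun j => ?_) i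
  · simp [ec]
  · simp [ec, Fin.succAbove_ne]

theorem ins_add_ec' (k : ℤ) (Y : Fin M → ℤ) (e : Fin M) :
    (p.insertNth k Y : Fin (M + 1) → ℤ) + ec (p.succAbove e) = p.insertNth k (Y + ec e) := by
  funext i
  refine Fin.succAboveCases p ?_ (fun j => ?_) i
  · simp [ec, Fin.ne_succAbove]
  · simp [ec, Pi.single_apply]

variable {u v : Fin (M + 1) → V} {lo hi : Fin (M + 1) → ℤ} {f : Fin (M + 1) → ℤ → ℝ}
  {thin : Fin (M + 1) → Prop} {κ q : ℝ}

theorem SB_split (β : V → ℤ) (G : (Fin (M + 1) → ℤ) → ℝ) :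
    SB u v lo hi f q β G = ∑ k ∈ Icc (lo p) (hi p), f p k *
      SB (p.removeNth u) (p.removeNth v) (p.removeNth lo) (p.removeNth hi) (p.removeNth f) q
        (β - k • (ev (u p) - ev (v p))) fun Y => G (p.insertNth k Y) := by
  unfold SB
  rw [sum_box_split p]
  refine sum_congr rfl fun k _ => ?_
  rw [mul_sum]
  refine sum_congr rfl fun Y _ => ?_
  rw [wt_ins, del_ins, sub_add_eq_sub_sub]
  ring

theorem ZB_split (β : V → ℤ) :
    ZB u v lo hi f q β = ∑ k ∈ Icc (lo p) (hi p), f p k *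
      ZB (p.removeNth u) (p.removeNth v) (p.removeNth lo) (p.removeNth hi) (p.removeNth f) q
        (β - k • (ev (u p) - ev (v p))) := SB_split p β _

theorem LC.remove (hf : LC lo hi f thin κ) :
    LC (p.removeNth lo) (p.removeNth hi) (p.removeNth f) (p.removeNth thin) κ :=
  ⟨fun e => hf.pos (p.succAbove e), fun e => hf.lc (p.succAbove e),
    fun e => hf.curv (p.succAbove e)⟩

omit [Fintype V] [DecidableEq V] in
theorem Inv.remove {g : (Fin (M + 1) → ℤ) → V → ℝ} (hg : Inv u v lo hi thin g) {k : ℤ}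
    (hk : k ∈ Icc (lo p) (hi p)) :
    Inv (p.removeNth u) (p.removeNth v) (p.removeNth lo) (p.removeNth hi) (p.removeNth thin)
      fun Y => g (p.insertNth k Y) := by
  intro e he Y hY hY'
  have := hg (p.succAbove e) he _ ((ins_mem_box p).2 ⟨hk, hY⟩)
    (by rw [ins_add_ec']; exact (ins_mem_box p).2 ⟨hk, hY'⟩)
  rwa [ins_add_ec'] at this

end Split

theorem LC.wt_pos {lo hi : Fin M → ℤ} {f : Fin M → ℤ → ℝ} {thin : Fin M → Prop} {κ : ℝ}
    (hf : LC lo hi f thin κ) {X : Fin M → ℤ} (hX : X ∈ box lo hi) : 0 < wt f X :=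
  prod_pos fun e _ => hf.pos e _ (mem_box.1 hX e).1 (mem_box.1 hX e).2

omit [DecidableEq V] in
theorem gq_pos {q : ℝ} (hq : 0 < q) (β : V → ℤ) : 0 < gq q β :=
  prod_pos fun _ _ => pow_pos hq _

open Classical in
theorem DB_split (p : Fin (M + 1)) {u v : Fin (M + 1) → V} {lo hi : Fin (M + 1) → ℤ}
    {f : Fin (M + 1) → ℤ → ℝ} {thin : Fin (M + 1) → Prop} {κ q : ℝ} (hb : lo p ≤ hi p)
    (hf : LC lo hi f thin κ) (θ : V → ℝ) (γ : V → ℤ) (g : (Fin (M + 1) → ℤ) → V → ℝ) :
    DB u v lo hi f thin q θ γ g =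
      (if thin p then ∑ k ∈ Ico (lo p) (hi p), min (f p k / θ (v p)) (f p (k + 1) / θ (u p)) *
        SB (p.removeNth u) (p.removeNth v) (p.removeNth lo) (p.removeNth hi) (p.removeNth f) q
          (γ - k • (ev (u p) - ev (v p)) + ev (v p))
          (fun Y => (g (p.insertNth k Y) (v p) - g (p.insertNth (k + 1) Y) (u p)) ^ 2) else 0) +
      ∑ k ∈ Icc (lo p) (hi p), f p k *
        DB (p.removeNth u) (p.removeNth v) (p.removeNth lo) (p.removeNth hi) (p.removeNth f)
          (p.removeNth thin) q θ (γ - k • (ev (u p) - ev (v p))) fun Y => g (p.insertNth k Y) := by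
  have hγ : ∀ (k : ℤ) (w : V) (D : V → ℤ), γ + ev w - (k • (ev (u p) - ev (v p)) + D) =
      γ - k • (ev (u p) - ev (v p)) + ev w - D := fun k w D => by abel
  unfold DB
  simp only [sum_filter, mul_add, sum_add_distrib]
  rw [Fin.sum_univ_succAbove _ p, add_assoc]
  congr 1
  · split_ifs with ht
    · rw [sum_box_split p, lor_sum_top hb]
      have e0 : ∀ Y : Fin M → ℤ, ¬ ((p.insertNth (hi p) Y : Fin (M + 1) → ℤ) + ec p ∈ box lo hi) := by
        intro Y hY
        rw [ins_add_ec, ins_mem_box, mem_Icc] at hY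
        omega
      simp only [e0, if_false, sum_const_zero, add_zero]
      refine sum_congr rfl fun k hk => ?_
      rw [mem_Ico] at hk
      unfold SB
      rw [mul_sum]
      refine sum_congr rfl fun Y hY => ?_
      have hw := ((hf.remove p).wt_pos hY).le
      rw [ins_add_ec, if_pos ((ins_mem_box p).2 ⟨mem_Icc.2 ⟨by omega, by omega⟩, hY⟩), wt_ins, wt_ins,
        del_ins, hγ, mul_div_right_comm, mul_div_right_comm (f p (k + 1)), ← min_mul_of_nonneg _ _ hw]
      ring
    · rfl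
  · congr 1
    · simp only [mul_sum]
      rw [sum_comm]
      refine sum_congr rfl fun e _ => ?_
      by_cases ht : thin (p.succAbove e)
      · have ht' : p.removeNth thin e := ht
        simp only [if_pos ht, if_pos ht']
        rw [sum_box_split p]
        refine sum_congr rfl fun k hk => ?_
        rw [mul_sum]
        refine sum_congr rfl fun Y hY => ?_
        have hfk := (hf.pos p k (mem_Icc.1 hk).1 (mem_Icc.1 hk).2).le
        simp only [ins_add_ec', ins_mem_box, hk, true_and]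
        split_ifs
        · rw [wt_ins, wt_ins, del_ins, hγ, mul_div_assoc, mul_div_assoc,
            ← mul_min_of_nonneg _ _ hfk]
          simp only [Fin.removeNth]
          ring
        · simp
      · have ht' : ¬ p.removeNth thin e := ht
        simp only [if_neg ht, if_neg ht', mul_zero, sum_const_zero]
    · rw [sum_box_split p]
      refine sum_congr rfl fun k _ => ?_
      simp only [mul_sum]
      refine sum_congr rfl fun Y _ => sum_congr rfl fun a _ => sum_congr rfl fun b _ => ?_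
      rw [wt_ins, del_ins, hγ, hγ]
      ring

/-! ### Moving mass between the two ends of a cell -/

/-- `y + s • 1_v - r • 1_u`. -/
noncomputable def yk (y : V → ℝ) (v u : V) (s r : ℝ) : V → ℝ :=
  fun a => y a + (if a = v then s else 0) - (if a = u then r else 0)

theorem sum_yk (y : V → ℝ) (v u : V) (s r : ℝ) (T : V → ℝ) :
    ∑ a, yk y v u s r a * T a = ∑ a, y a * T a + s * T v - r * T u := by
  simp only [yk, add_mul, sub_mul, sum_add_distrib, sum_sub_distrib, ite_mul, zero_mul,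
    sum_ite_eq', mem_univ, if_true]

/-- The quadratic form of an arbitrary function on the lattice. -/
noncomputable def Qf (Z : (V → ℤ) → ℝ) (α : V → ℤ) (y z : V → ℝ) : ℝ :=
  ∑ a, ∑ b, y a * z b * Z (α + ev a + ev b)

theorem Qf_yk (Z : (V → ℤ) → ℝ) (α : V → ℤ) (y : V → ℝ) (v u : V) (s r : ℝ) :
    Qf Z α (yk y v u s r) (yk y v u s r) = Qf Z α y y +
      2 * (s * ∑ a, y a * Z (α + ev a + ev v) - r * ∑ a, y a * Z (α + ev a + ev u)) +
      (s ^ 2 * Z (α + ev v + ev v) - 2 * s * r * Z (α + ev u + ev v) +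
        r ^ 2 * Z (α + ev u + ev u)) := by
  have h1 : ∀ y z : V → ℝ, Qf Z α y z = ∑ a, y a * ∑ b, z b * Z (α + ev a + ev b) := fun y z => by
    simp only [Qf, mul_sum, mul_assoc]
  have h2 : ∀ w, ∑ b, y b * Z (α + ev w + ev b) = ∑ b, y b * Z (α + ev b + ev w) := fun w => by
    simp only [add_right_comm α (ev w)]
  rw [h1, h1, sum_yk]
  simp only [sum_yk]
  rw [h2 v, h2 u, add_right_comm α (ev v) (ev u)]
  simp only [mul_add, mul_sub, sum_add_distrib, sum_sub_distrib, mul_left_comm (y _) s,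
    mul_left_comm (y _) r, ← mul_sum]
  ring

/-- The potential identity of the header. -/
theorem pot_id (Z : (V → ℤ) → ℝ) (u v : V) {lo hi : ℤ} (hb : lo ≤ hi) (f p : ℤ → ℝ)
    (hf : ∀ k, lo ≤ k → k ≤ hi → 0 < f k) (h0 : p (lo - 1) = 0) (h1 : p hi = 0) (α : V → ℤ)
    (y : V → ℝ) :
    ∑ k ∈ Icc lo hi, f k * Qf Z (α - k • (ev u - ev v)) (yk y v u (p k / f k) (p (k - 1) / f k))
        (yk y v u (p k / f k) (p (k - 1) / f k)) =
      ∑ k ∈ Icc lo hi, f k * Qf Z (α - k • (ev u - ev v)) y y +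
      ∑ k ∈ Icc lo hi, (p k ^ 2 * Z (α - (k + 1) • (ev u - ev v) + ev u + ev v) -
        2 * p k * p (k - 1) * Z (α - k • (ev u - ev v) + ev u + ev v) +
        p (k - 1) ^ 2 * Z (α - (k - 1) • (ev u - ev v) + ev u + ev v)) / f k := by
  have ht := lor_tele hb p (fun k => ∑ a, y a * Z (α - k • (ev u - ev v) + ev a + ev v))
    (fun k => ∑ a, y a * Z (α - k • (ev u - ev v) + ev a + ev u)) h0 h1
  have e1 : ∀ (k : ℤ) (a : V), α - (k + 1) • (ev u - ev v) + ev a + ev u =
      α - k • (ev u - ev v) + ev a + ev v := fun k a => by rw [add_smul, one_smul]; abel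
  have e2 : ∀ k : ℤ, α - (k + 1) • (ev u - ev v) + ev u + ev v =
      α - k • (ev u - ev v) + ev v + ev v := fun k => by rw [add_smul, one_smul]; abel
  have e3 : ∀ k : ℤ, α - (k - 1) • (ev u - ev v) + ev u + ev v =
      α - k • (ev u - ev v) + ev u + ev u := fun k => by rw [sub_smul, one_smul]; abel
  simp only [e1, sub_self, mul_zero, sum_const_zero] at ht
  rw [← add_zero (∑ k ∈ Icc lo hi, f k * Qf Z (α - k • (ev u - ev v)) y y), ← mul_zero (2 : ℝ),
    ← ht, mul_sum, ← sum_add_distrib, ← sum_add_distrib]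
  refine sum_congr rfl fun k hk => ?_
  have hfk := (hf k (mem_Icc.1 hk).1 (mem_Icc.1 hk).2).ne'
  rw [Qf_yk, e2, e3]
  field_simp

omit [DecidableEq V] in
theorem gq_eq_zpow {q : ℝ} (hq : 0 < q) (β : V → ℤ) : gq q β = q ^ (∑ a, β a ^ 2) := by
  unfold gq
  have h : ∀ s : Finset V, ∏ a ∈ s, q ^ ((β a).natAbs ^ 2) = q ^ (∑ a ∈ s, β a ^ 2) := by
    classical
    intro s
    induction s using Finset.induction_on with
    | empty => simp
    | insert a s ha ih =>
      rw [prod_insert ha, sum_insert ha, ih, zpow_add₀ hq.ne', ← zpow_natCast]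
      congr 2
      push_cast
      exact sq_abs _
  exact h _

theorem sum_sq_add_ev (β : V → ℤ) (a : V) :
    ∑ x, (β + ev a) x ^ 2 = ∑ x, β x ^ 2 + (2 * β a + 1) := by
  have : ∀ x, (β + ev a) x ^ 2 = β x ^ 2 + if x = a then 2 * β a + 1 else 0 := fun x => by
    by_cases h : x = a
    · subst h; simp [ev]; ring
    · simp [ev, h]
  simp only [this, sum_add_distrib, sum_ite_eq', mem_univ, if_true]

theorem gq_add_add {q : ℝ} (hq : 0 < q) (α : V → ℤ) (a b : V) :
    gq q (α + ev a + ev b) = gq q α * q ^ (2 * α a + 1) * q ^ (2 * α b + 1) *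
      if a = b then q ^ 2 else 1 := by
  rw [gq_eq_zpow hq, gq_eq_zpow hq, sum_sq_add_ev, sum_sq_add_ev, zpow_add₀ hq.ne', zpow_add₀ hq.ne',
    mul_assoc _ (q ^ (2 * α b + 1))]
  congr 1
  split_ifs with h
  · subst h
    rw [← zpow_natCast, ← zpow_add₀ hq.ne']
    congr 1
    simp [ev]; ring
  · simp [ev, Ne.symm h]

/-- Hyperbolicity of the Gaussian weight, with a gap. -/
theorem Qf_gq {q : ℝ} (hq0 : 0 < q) (hq1 : q ≤ 1) (α : V → ℤ) (c : V) (y : V → ℝ)
    (hy : ∑ a, y a * gq q (α + ev c + ev a) = 0) :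
    (1 - q ^ 2) * (y c ^ 2 * gq q (α + ev c + ev c)) ≤ -Qf (gq q) α y y := by
  set G := gq q α with hG
  have hG0 : 0 < G := gq_pos hq0 α
  set ψ : V → ℝ := fun a => q ^ (2 * α a + 1) with hψ
  have hψ0 : ∀ a, 0 < ψ a := fun a => zpow_pos hq0 _
  have h1 : ∀ a b, gq q (α + ev a + ev b) =
      G * ψ a * ψ b - if a = b then (1 - q ^ 2) * (G * ψ a * ψ a) else 0 := fun a b => by
    rw [gq_add_add hq0]
    split_ifs with h
    · subst h; simp only [hψ]; ring
    · simp only [hψ]; ring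
  have hq2 : 0 ≤ 1 - q ^ 2 := by nlinarith
  set S := ∑ a, y a * ψ a with hS
  have h2 : S = (1 - q ^ 2) * (y c * ψ c) := by
    simp only [h1, mul_sub, sum_sub_distrib, mul_ite, mul_zero, sum_ite_eq, mem_univ, if_true] at hy
    have e : ∑ a, y a * (G * ψ c * ψ a) = G * ψ c * S := by
      rw [hS, mul_sum]; exact sum_congr rfl fun a _ => by ring
    rw [e] at hy
    have h3 : G * ψ c * (S - (1 - q ^ 2) * (y c * ψ c)) = 0 := by linarith
    have h4 := (mul_eq_zero.1 h3).resolve_left (mul_pos hG0 (hψ0 c)).ne'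
    linarith
  have h3 : Qf (gq q) α y y = G * S ^ 2 - (1 - q ^ 2) * G * ∑ a, (y a * ψ a) ^ 2 := by
    simp only [Qf, h1, mul_sub, sum_sub_distrib, mul_ite, mul_zero, sum_ite_eq, mem_univ, if_true]
    congr 1
    · rw [sq, hS, sum_mul_sum, mul_sum]
      refine sum_congr rfl fun a _ => ?_
      rw [mul_sum]
      exact sum_congr rfl fun b _ => by ring
    · rw [mul_sum]
      exact sum_congr rfl fun a _ => by ring
  have h4 : (y c * ψ c) ^ 2 ≤ ∑ a, (y a * ψ a) ^ 2 :=
    single_le_sum (f := fun a => (y a * ψ a) ^ 2) (fun a _ => sq_nonneg _) (mem_univ c)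
  have h5 := mul_le_mul_of_nonneg_left h4 (mul_nonneg hq2 hG0.le)
  rw [h3, h1, if_pos rfl, h2]
  nlinarith

theorem lor_amgm {x c τ : ℝ} (p : ℝ) (hc : 0 < c) (hτ : 0 < τ) :
    2 * |p * x| ≤ τ * p ^ 2 / c + c * x ^ 2 / τ := by
  rw [abs_mul, ← sq_abs p, ← sq_abs x]
  generalize |p| = a
  generalize |x| = b
  rw [div_add_div _ _ hc.ne' hτ.ne', le_div_iff₀ (by positivity)]
  nlinarith [sq_nonneg (τ * a - c * b)]

/-- The base of the induction. -/
theorem transport_base {κ q : ℝ} (hκ0 : 0 < κ) (hκ1 : κ ≤ 1 / 2) (hq0 : 0 < q) (hq1 : q ≤ 1 / 2)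
    (θ : V → ℝ) (hθ : ∀ a, 0 < θ a) {t : ℝ} (ht : 0 < t) (γ : V → ℤ) (y : V → ℝ)
    (hy : ∑ a, y a * gq q (γ + ev a) = 0) (g : V → ℝ) :
    2 * |∑ a, y a * (gq q (γ + ev a) * g a)| ≤ t * (∑ c, θ c * -Qf (gq q) (γ - ev c) y y) +
      (∑ a, ∑ b, min (gq q (γ + ev a) / θ a) (gq q (γ + ev b) / θ b) * (g a - g b) ^ 2) /
        (t * κ) := by
  rcases isEmpty_or_nonempty V with hV | hV
  · simp
  set m : V → ℝ := fun a => gq q (γ + ev a) with hm
  have hm0 : ∀ a, 0 < m a := fun a => gq_pos hq0 _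
  obtain ⟨w, -, hw⟩ := exists_max_image univ (fun a => m a / θ a) univ_nonempty
  have h1 : ∀ c, κ * (y c ^ 2 * m c) ≤ -Qf (gq q) (γ - ev c) y y := fun c => by
    have := Qf_gq hq0 (by linarith) (γ - ev c) c y (by simpa only [sub_add_cancel] using hy)
    rw [sub_add_cancel] at this
    refine le_trans (mul_le_mul_of_nonneg_right (by nlinarith) ?_) this
    have := hm0 c
    positivity
  have h2 : ∑ a, y a * (m a * g a) = ∑ a, m a * (y a * (g a - g w)) := by
    have e : ∀ a, m a * (y a * (g a - g w)) = y a * (m a * g a) - y a * m a * g w := fun a => by ring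
    simp only [e, sum_sub_distrib, ← sum_mul]
    rw [hy, zero_mul, sub_zero]
  have h3 : ∀ a, m a / θ a * (g a - g w) ^ 2 ≤
      ∑ b, min (m a / θ a) (m b / θ b) * (g a - g b) ^ 2 := fun a => by
    refine le_trans (le_of_eq ?_) (single_le_sum
      (f := fun b => min (m a / θ a) (m b / θ b) * (g a - g b) ^ 2) (fun b _ => ?_) (mem_univ w))
    · simp only [min_eq_left (hw a (mem_univ a))]
    · have := hm0 a; have := hm0 b; have := hθ a; have := hθ b
      positivity
  change 2 * |∑ a, y a * (m a * g a)| ≤ _ + (∑ a, ∑ b, min (m a / θ a) (m b / θ b) * _) / _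
  rw [h2, mul_sum, sum_div, ← sum_add_distrib]
  refine (mul_le_mul_of_nonneg_left (abs_sum_le_sum_abs _ _) zero_le_two).trans ?_
  rw [mul_sum]
  refine sum_le_sum fun a _ => ?_
  have hθa := hθ a
  have hma := hm0 a
  have h4 := mul_le_mul_of_nonneg_left
    (lor_amgm (x := g a - g w) (c := 1 / θ a) (τ := t * κ) (y a) (by positivity) (by positivity))
    hma.le
  have h5 := mul_le_mul_of_nonneg_left (h1 a) (mul_pos ht hθa).le
  have h6 := div_le_div_of_nonneg_right (h3 a) (mul_pos ht hκ0).le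
  rw [abs_mul, abs_of_pos hma]
  have e1 : m a * (t * κ * y a ^ 2 / (1 / θ a) + 1 / θ a * (g a - g w) ^ 2 / (t * κ)) =
      t * θ a * (κ * (y a ^ 2 * m a)) + m a / θ a * (g a - g w) ^ 2 / (t * κ) := by
    field_simp
  rw [e1] at h4
  linarith

section Main

variable {u v : Fin M → V} {lo hi : Fin M → ℤ} {f : Fin M → ℤ → ℝ} {thin : Fin M → Prop}
  {κ q : ℝ}

theorem ZB_pos (hb : ∀ e, lo e ≤ hi e) (hf : LC lo hi f thin κ) (hq : 0 < q) (β : V → ℤ) :
    0 < ZB u v lo hi f q β :=
  sum_pos (fun X hX => by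
    have := hf.wt_pos hX
    have := gq_pos hq (β - del u v X)
    positivity) ⟨lo, mem_box.2 fun e => ⟨le_rfl, hb e⟩⟩

theorem QB_eq_Qf (α : V → ℤ) (y z : V → ℝ) :
    QB u v lo hi f q α y z = Qf (ZB u v lo hi f q) α y z := rfl

theorem SB_sub (β : V → ℤ) (G G' : (Fin M → ℤ) → ℝ) :
    SB u v lo hi f q β G - SB u v lo hi f q β G' = SB u v lo hi f q β fun X => G X - G' X := by
  simp only [SB, mul_sub, sum_sub_distrib]

/-- The cost of one edge. -/
theorem edge_le (hf : LC lo hi f thin κ) (hq : 0 < q) (β : V → ℤ) (G : (Fin M → ℤ) → ℝ) (p : ℝ)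
    {c τ : ℝ} (hc : 0 < c) (hτ : 0 < τ) :
    2 * |p * SB u v lo hi f q β G| ≤ τ * p ^ 2 / c * ZB u v lo hi f q β +
      c * SB u v lo hi f q β (fun X => G X ^ 2) / τ := by
  unfold ZB SB
  rw [mul_sum, mul_sum, mul_sum, sum_div, ← sum_add_distrib]
  refine (mul_le_mul_of_nonneg_left (abs_sum_le_sum_abs _ _) zero_le_two).trans ?_
  rw [mul_sum]
  refine sum_le_sum fun X hX => ?_
  have hw := mul_pos (hf.wt_pos hX) (gq_pos hq (β - del u v X))
  have h := mul_le_mul_of_nonneg_left (lor_amgm (x := G X) p hc hτ) hw.le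
  rw [mul_left_comm p, abs_mul, abs_of_pos hw]
  calc _ = wt f X * gq q (β - del u v X) * (2 * |p * G X|) := by ring
    _ ≤ _ := h
    _ = _ := by ring

/-- **Transport lemma**, additive form (induction on `M`, see the header). -/
theorem transport (huv : ∀ e, u e ≠ v e) (hb : ∀ e, lo e ≤ hi e) (hf : LC lo hi f thin κ)
    (hκ0 : 0 < κ) (hκ1 : κ ≤ 1 / 2) (hq0 : 0 < q) (hq1 : q ≤ 1 / 2) (θ : V → ℝ) (hθ : ∀ a, 0 < θ a)
    {t : ℝ} (ht : 0 < t) (γ : V → ℤ) (y : V → ℝ)
    (hy : ∑ a, y a * ZB u v lo hi f q (γ + ev a) = 0)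
    (g : (Fin M → ℤ) → V → ℝ) (hg : Inv u v lo hi thin g) :
    2 * |∑ a, y a * SB u v lo hi f q (γ + ev a) fun X => g X a| ≤
      t * (∑ c, θ c * -QB u v lo hi f q (γ - ev c) y y) +
        DB u v lo hi f thin q θ γ g / (t * κ) := by
  classical
  induction M generalizing γ y with
  | zero =>
    have hbox : box lo hi = {fun e => e.elim0} := by
      ext X; simp only [mem_box, IsEmpty.forall_iff, mem_singleton, true_iff]
      exact Subsingleton.elim _ _
    have hS : ∀ β G, SB u v lo hi f q β G = gq q β * G fun e => e.elim0 := fun β G => by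
      simp [SB, hbox, wt, del]
    have hZ : ZB u v lo hi f q = gq q := funext fun β => by rw [ZB, hS, mul_one]
    have hD : DB u v lo hi f thin q θ γ g = ∑ a, ∑ b, min (gq q (γ + ev a) / θ a)
        (gq q (γ + ev b) / θ b) * (g (fun e => e.elim0) a - g (fun e => e.elim0) b) ^ 2 := by
      simp [DB, hbox, wt, del]
    simp only [hS, QB_eq_Qf, hD]
    rw [hZ] at hy ⊢
    exact transport_base hκ0 hκ1 hq0 hq1 θ hθ ht γ y hy _
  | succ M ih =>
    set p₀ : Fin (M + 1) := 0
    have hf' := hf.remove p₀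
    have hb' : ∀ e, p₀.removeNth lo e ≤ p₀.removeNth hi e := fun e => hb _
    have hfp := hf.pos p₀
    have hb₀ := hb p₀
    set d : V → ℤ := ev (u p₀) - ev (v p₀) with hd
    set S' := SB (p₀.removeNth u) (p₀.removeNth v) (p₀.removeNth lo) (p₀.removeNth hi)
      (p₀.removeNth f) q with hS'
    set Z' := ZB (p₀.removeNth u) (p₀.removeNth v) (p₀.removeNth lo) (p₀.removeNth hi)
      (p₀.removeNth f) q with hZ'
    have hZ0 : ∀ β, 0 < Z' β := ZB_pos hb' hf' hq0
    have e0 : ∀ (k : ℤ) (a : V), γ + ev a - k • d = γ - k • d + ev a := fun k a => by abel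
    have e1 : ∀ k : ℤ, γ - (k + 1) • d + ev (u p₀) = γ - k • d + ev (v p₀) := fun k => by
      rw [add_smul, one_smul, hd]; abel
    set R : ℤ → ℝ := fun k => ∑ a, y a * Z' (γ - k • d + ev a) with hR
    set P : ℤ → ℝ := fun k => -(∑ l ∈ Icc (lo p₀) k, f p₀ l * R l) / Z' (γ - k • d + ev (v p₀))
      with hP
    have hP0 : P (lo p₀ - 1) = 0 := by
      simp only [hP]
      rw [Finset.Icc_eq_empty (by omega)]; simp
    have hP1 : P (hi p₀) = 0 := by
      have : ∑ l ∈ Icc (lo p₀) (hi p₀), f p₀ l * R l = 0 := by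
        rw [← hy]
        simp only [ZB_split p₀, hR, mul_sum, ← hd, e0]
        rw [sum_comm]
        exact sum_congr rfl fun a _ => sum_congr rfl fun k _ => by ring
      simp only [hP, this, neg_zero, zero_div]
    set Y : ℤ → V → ℝ := fun k => yk y (v p₀) (u p₀) (P k / f p₀ k) (P (k - 1) / f p₀ k) with hY
    have hbal : ∀ k ∈ Icc (lo p₀) (hi p₀), ∑ a, Y k a * Z' (γ - k • d + ev a) = 0 := by
      intro k hk
      have hfk := (hfp k (mem_Icc.1 hk).1 (mem_Icc.1 hk).2).ne'
      have e2 := e1 (k - 1)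
      rw [sub_add_cancel] at e2
      have e3 : ∑ l ∈ Icc (lo p₀) k, f p₀ l * R l =
          ∑ l ∈ Icc (lo p₀) (k - 1), f p₀ l * R l + f p₀ k * R k := by
        rw [lor_sum_top (mem_Icc.1 hk).1]
        congr 2
        ext l; simp only [mem_Ico, mem_Icc]; omega
      have h1 := (hZ0 (γ - k • d + ev (v p₀))).ne'
      have h2 := (hZ0 (γ - (k - 1) • d + ev (v p₀))).ne'
      simp only [hY]
      rw [sum_yk, e2]
      change R k + _ - _ = 0
      simp only [hP]
      rw [e3]
      field_simp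
      ring
    set E : ℤ → (Fin M → ℤ) → ℝ := fun k Y =>
      g (p₀.insertNth k Y) (v p₀) - g (p₀.insertNth (k + 1) Y) (u p₀) with hE
    -- pairing
    have hpair : ∑ a, y a * SB u v lo hi f q (γ + ev a) (fun X => g X a) =
        ∑ k ∈ Icc (lo p₀) (hi p₀), f p₀ k *
          ∑ a, Y k a * S' (γ - k • d + ev a) (fun X => g (p₀.insertNth k X) a) -
        ∑ k ∈ Ico (lo p₀) (hi p₀), P k * S' (γ - k • d + ev (v p₀)) (E k) := by
      have ht := lor_tele hb₀ P
        (fun k => S' (γ - k • d + ev (v p₀)) fun X => g (p₀.insertNth k X) (v p₀))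
        (fun k => S' (γ - k • d + ev (u p₀)) fun X => g (p₀.insertNth k X) (u p₀)) hP0 hP1
      simp only [e1, hS', SB_sub] at ht
      simp only [hE, hS']
      rw [← ht, ← sum_sub_distrib]
      simp only [SB_split p₀, mul_sum, ← hd, e0]
      rw [sum_comm]
      refine sum_congr rfl fun k hk => ?_
      have hfk := (hfp k (mem_Icc.1 hk).1 (mem_Icc.1 hk).2).ne'
      rw [← mul_sum]
      simp only [hY]
      rw [sum_yk]
      simp only [mul_left_comm (y _) (f p₀ k), ← mul_sum]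
      field_simp
      ring
    -- potential
    set W : V → ℤ → ℝ := fun c k => Z' (γ - ev c - k • d + ev (u p₀) + ev (v p₀)) with hW
    set B : V → ℝ := fun c => ∑ k ∈ Icc (lo p₀) (hi p₀), (P k ^ 2 * W c (k + 1) -
      2 * P k * P (k - 1) * W c k + P (k - 1) ^ 2 * W c (k - 1)) / f p₀ k with hB
    have hpot : ∀ c, ∑ k ∈ Icc (lo p₀) (hi p₀), f p₀ k * Qf Z' (γ - k • d - ev c) (Y k) (Y k) =
        QB u v lo hi f q (γ - ev c) y y + B c := by
      intro c
      have h1 := pot_id Z' (u p₀) (v p₀) hb₀ (f p₀) P hfp hP0 hP1 (γ - ev c) y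
      simp only [← hd] at h1
      simp only [sub_right_comm γ _ (ev c), hY, hB, hW]
      rw [h1]
      congr 1
      have e4 : ∀ (k : ℤ) (a b : V), γ - ev c + ev a + ev b - k • d =
          γ - ev c - k • d + ev a + ev b := fun k a b => by abel
      simp only [QB, Qf, ZB_split p₀, mul_sum, ← hd, e4]
      rw [sum_comm]
      refine sum_congr rfl fun a _ => ?_
      rw [sum_comm]
      exact sum_congr rfl fun b _ => sum_congr rfl fun k _ => by ring
    have hW0 : ∀ c k, 0 ≤ W c k := fun c k => (hZ0 _).le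
    have hB0 : ∀ c, 0 ≤ B c := fun c => by
      have := B_ge (f p₀) (W c) P le_rfl zero_le_one hfp (hW0 c)
        (fun x h1 h2 => by simpa using hf.lc p₀ x h1 h2) hP0 hP1
      rwa [zero_mul] at this
    -- the edges of the cell `p₀`
    have hτ : 0 < t * κ := mul_pos ht hκ0
    have hedge : ∑ k ∈ Ico (lo p₀) (hi p₀), 2 * |P k * S' (γ - k • d + ev (v p₀)) (E k)| ≤
        t * ∑ c, θ c * B c + (if thin p₀ then ∑ k ∈ Ico (lo p₀) (hi p₀),
          min (f p₀ k / θ (v p₀)) (f p₀ (k + 1) / θ (u p₀)) *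
            S' (γ - k • d + ev (v p₀)) (fun X => E k X ^ 2) else 0) / (t * κ) := by
      have hθB : ∀ c, 0 ≤ θ c * B c := fun c => mul_nonneg (hθ c).le (hB0 c)
      split_ifs with hth
      · have hBc := fun c => B_ge (f p₀) (W c) P hκ0.le (by linarith) hfp (hW0 c)
          (hf.curv p₀ hth) hP0 hP1
        have h1 : θ (v p₀) * B (v p₀) + θ (u p₀) * B (u p₀) ≤ ∑ c, θ c * B c := by
          rw [← sum_pair (f := fun c => θ c * B c) (huv p₀).symm]
          exact sum_le_sum_of_subset_of_nonneg (subset_univ _) fun c _ _ => hθB c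
        have hθv := hθ (v p₀)
        have hθu := hθ (u p₀)
        have h2 := add_le_add (mul_le_mul_of_nonneg_left (hBc (v p₀)) hθv.le)
          (mul_le_mul_of_nonneg_left (hBc (u p₀)) hθu.le)
        refine le_trans ?_ (add_le_add_left (mul_le_mul_of_nonneg_left (h2.trans h1) ht.le) _)
        rw [mul_sum, mul_sum, mul_sum, mul_sum, ← sum_add_distrib, mul_sum, sum_div,
          ← sum_add_distrib]
        refine sum_le_sum fun k hk => ?_
        rw [mem_Ico] at hk
        have hk0 := hfp k hk.1 hk.2.le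
        have hk1 := hfp (k + 1) (by omega) (by omega)
        refine (edge_le hf' hq0 _ (E k) (P k) (c := min (f p₀ k / θ (v p₀))
          (f p₀ (k + 1) / θ (u p₀))) (by positivity) hτ).trans (add_le_add_left ?_ _)
        have w1 : W (v p₀) (k + 1) = Z' (γ - k • d + ev (v p₀)) := by
          simp only [hW]; rw [← e1]; congr 1; abel
        have w2 : W (u p₀) k = Z' (γ - k • d + ev (v p₀)) := by
          simp only [hW]; congr 1; abel
        have w3 := hW0 (v p₀) k
        have w4 := hW0 (u p₀) (k + 1)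
        have w5 := hZ0 (γ - k • d + ev (v p₀))
        rw [w1, w2, ← hZ']
        have h3 : 1 / min (f p₀ k / θ (v p₀)) (f p₀ (k + 1) / θ (u p₀)) ≤
            θ (v p₀) / f p₀ k + θ (u p₀) / f p₀ (k + 1) := by
          rcases min_choice (f p₀ k / θ (v p₀)) (f p₀ (k + 1) / θ (u p₀)) with h | h <;>
            rw [h, one_div_div]
          · exact le_add_of_nonneg_right (by positivity)
          · exact le_add_of_nonneg_left (by positivity)
        generalize Z' (γ - k • d + ev (v p₀)) = z at *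
        calc _ = t * κ * P k ^ 2 * z *
              (1 / min (f p₀ k / θ (v p₀)) (f p₀ (k + 1) / θ (u p₀))) := by ring
          _ ≤ t * κ * P k ^ 2 * z * (θ (v p₀) / f p₀ k + θ (u p₀) / f p₀ (k + 1)) := by gcongr
          _ ≤ t * κ * P k ^ 2 * z * (θ (v p₀) / f p₀ k + θ (u p₀) / f p₀ (k + 1)) +
              t * κ * P k ^ 2 * (θ (v p₀) * W (v p₀) k / f p₀ (k + 1) +
                θ (u p₀) * W (u p₀) (k + 1) / f p₀ k) := le_add_of_nonneg_right (by positivity)
          _ = _ := by ring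
      · rw [zero_div, add_zero, sum_eq_zero]
        · exact mul_nonneg ht.le (sum_nonneg fun c _ => hθB c)
        intro k hk
        rw [mem_Ico] at hk
        have : S' (γ - k • d + ev (v p₀)) (E k) = 0 := by
          refine sum_eq_zero fun X hX => ?_
          have := hg p₀ hth _ ((ins_mem_box p₀).2 ⟨mem_Icc.2 ⟨hk.1, hk.2.le⟩, hX⟩)
            (by rw [ins_add_ec]; exact (ins_mem_box p₀).2 ⟨mem_Icc.2 ⟨by omega, by omega⟩, hX⟩)
          rw [ins_add_ec] at this
          simp only [hE, this, sub_self, mul_zero]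
        rw [this, mul_zero, abs_zero, mul_zero]
    -- the other cells
    have hrest := sum_le_sum fun k (hk : k ∈ Icc (lo p₀) (hi p₀)) => mul_le_mul_of_nonneg_left
      (ih (u := p₀.removeNth u) (v := p₀.removeNth v) (fun e => huv _) hb' hf' (γ - k • d) (Y k)
        (hbal k hk) (fun X => g (p₀.insertNth k X)) (hg.remove p₀ hk)) (hfp k (mem_Icc.1 hk).1 (mem_Icc.1 hk).2).le
    have e5 : ∑ k ∈ Icc (lo p₀) (hi p₀), f p₀ k *
        ∑ c, θ c * -Qf Z' (γ - k • d - ev c) (Y k) (Y k) =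
        ∑ c, θ c * -QB u v lo hi f q (γ - ev c) y y - ∑ c, θ c * B c := by
      simp only [mul_sum]
      rw [sum_comm, ← sum_sub_distrib]
      refine sum_congr rfl fun c _ => ?_
      rw [← mul_sub, ← neg_add', ← hpot, ← sum_neg_distrib, mul_sum]
      exact sum_congr rfl fun k _ => by ring
    simp only [QB_eq_Qf _ (Y _), ← hZ', ← hS', mul_add, sum_add_distrib, mul_left_comm (f p₀ _) t,
      ← mul_sum, ← mul_div_assoc, ← sum_div] at hrest
    rw [e5] at hrest
    rw [hpair, DB_split p₀ hb₀ hf, add_div]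
    have h1 := abs_sub (∑ k ∈ Icc (lo p₀) (hi p₀), f p₀ k *
        ∑ a, Y k a * S' (γ - k • d + ev a) (fun X => g (p₀.insertNth k X) a))
      (∑ k ∈ Ico (lo p₀) (hi p₀), P k * S' (γ - k • d + ev (v p₀)) (E k))
    have h2 : 2 * |∑ k ∈ Icc (lo p₀) (hi p₀), f p₀ k *
        ∑ a, Y k a * S' (γ - k • d + ev a) (fun X => g (p₀.insertNth k X) a)| ≤
        ∑ k ∈ Icc (lo p₀) (hi p₀), f p₀ k *
          (2 * |∑ a, Y k a * S' (γ - k • d + ev a) (fun X => g (p₀.insertNth k X) a)|) := by
      refine (mul_le_mul_of_nonneg_left (abs_sum_le_sum_abs _ _) zero_le_two).trans ?_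
      rw [mul_sum]
      refine sum_le_sum fun k hk => le_of_eq ?_
      rw [abs_mul, abs_of_pos (hfp k (mem_Icc.1 hk).1 (mem_Icc.1 hk).2)]
      ring
    have h3 := mul_le_mul_of_nonneg_left (abs_sum_le_sum_abs
      (fun k => P k * S' (γ - k • d + ev (v p₀)) (E k)) (Ico (lo p₀) (hi p₀))) zero_le_two
    rw [mul_sum] at h3
    simp only [← hd, ← hS']
    simp only [hE] at hedge h1 h3 ⊢
    linarith

/-- Hyperbolicity: the same induction without test function (or `transport` with `g = 0` and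
`θ` concentrating on `c`; one may always take `thin = fun _ => False`, `κ = 1/2`). -/
theorem QB_nonpos (huv : ∀ e, u e ≠ v e) (hb : ∀ e, lo e ≤ hi e) (hf : LC lo hi f thin κ)
    (hq0 : 0 < q) (hq1 : q ≤ 1 / 2) (α : V → ℤ) (c : V) (y : V → ℝ)
    (hy : ∑ a, y a * ZB u v lo hi f q (α + ev c + ev a) = 0) :
    QB u v lo hi f q α y y ≤ 0 := by
  have hf' : LC lo hi f (fun _ => False) (1 / 2) := ⟨hf.pos, hf.lc, fun _ h => h.elim⟩
  set S := ∑ c', -QB u v lo hi f q (α + ev c - ev c') y y with hS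
  have key : ∀ ε : ℝ, 0 < ε → QB u v lo hi f q α y y ≤ ε * S := by
    intro ε hε
    have h := transport huv hb hf' (by norm_num) le_rfl hq0 hq1
      (fun a => (if a = c then 1 else 0) + ε) (fun a => by split_ifs <;> positivity) one_pos
      (α + ev c) y hy (fun _ _ => 0) (fun _ _ _ _ _ => rfl)
    simp only [DB, SB, sub_self, ne_eq, OfNat.ofNat_ne_zero, not_false_eq_true, zero_pow, mul_zero,
      sum_const_zero, add_zero, zero_div, abs_zero, one_mul, add_mul, sum_add_distrib, ite_mul,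
      zero_mul, sum_ite_eq', mem_univ, if_true, add_sub_cancel_right, ← mul_sum] at h
    linarith
  by_contra hpos
  push Not at hpos
  have h1 := key (QB u v lo hi f q α y y / (2 * (|S| + 1))) (by positivity)
  have h2 : QB u v lo hi f q α y y / (2 * (|S| + 1)) * S ≤
      QB u v lo hi f q α y y / (2 * (|S| + 1)) * (|S| + 1) :=
    mul_le_mul_of_nonneg_left (by linarith [le_abs_self S]) (by positivity)
  have h3 : QB u v lo hi f q α y y / (2 * (|S| + 1)) * (|S| + 1) = QB u v lo hi f q α y y / 2 := by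
    field_simp
  linarith

end Main

end Crest.Agent.R309
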