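import Crest.Agent.R309.Lor

/-!
# Row 309: splitting off one cell, and log-concave sequences (helpers for `LorB`)
-/

set_option autoImplicit false

namespace Crest.Agent.R309.LB

open Finset

variable {V : Type} [Fintype V] [DecidableEq V] {N : ℕ}

/-- Insert the value `k` at the cell `p`. -/
def ins (p : Fin (N + 1)) (k : ℤ) (Y : Fin N → ℤ) : Fin (N + 1) → ℤ :=
  Fin.insertNth (α := fun _ => ℤ) p k Y

/-- Forget the cell `p`. -/
def rm {α : Type} (p : Fin (N + 1)) (x : Fin (N + 1) → α) : Fin N → α :=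
  fun i => x (p.succAbove i)

@[simp] theorem ins_self (p : Fin (N + 1)) (k : ℤ) (Y : Fin N → ℤ) : ins p k Y p = k := by
  simp [ins]

@[simp] theorem ins_succ (p : Fin (N + 1)) (k : ℤ) (Y : Fin N → ℤ) (i : Fin N) :
    ins p k Y (p.succAbove i) = Y i := by
  simp [ins]

theorem ins_rm (p : Fin (N + 1)) (X : Fin (N + 1) → ℤ) : ins p (X p) (rm p X) = X := by
  funext e
  refine Fin.succAboveCases p ?_ (fun i => ?_) e
  · simp
  · simp [rm]

theorem mem_box_ins {lo hi : Fin (N + 1) → ℤ} {p : Fin (N + 1)} {k : ℤ} {Y : Fin N → ℤ} :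
    ins p k Y ∈ box lo hi ↔ (lo p ≤ k ∧ k ≤ hi p) ∧ Y ∈ box (rm p lo) (rm p hi) := by
  rw [mem_box, mem_box, Fin.forall_iff_succAbove p]
  simp [rm]

theorem sum_box (lo hi : Fin (N + 1) → ℤ) (p : Fin (N + 1)) (Φ : (Fin (N + 1) → ℤ) → ℝ) :
    ∑ X ∈ box lo hi, Φ X =
      ∑ k ∈ Icc (lo p) (hi p), ∑ Y ∈ box (rm p lo) (rm p hi), Φ (ins p k Y) := by
  rw [← Finset.sum_product']
  symm
  refine Finset.sum_nbij' (fun z => ins p z.1 z.2) (fun X => (X p, rm p X)) ?_ ?_ ?_ ?_ ?_
  · intro z hz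
    rw [mem_product, mem_Icc] at hz
    exact mem_box_ins.2 hz
  · intro X hX
    rw [mem_product, mem_Icc]
    rw [← ins_rm p X] at hX
    exact mem_box_ins.1 hX
  · intro z _
    ext
    · simp
    · simp [rm]
  · intro X _
    exact ins_rm p X
  · intro z _
    rfl

theorem wt_ins (f : Fin (N + 1) → ℤ → ℝ) (p : Fin (N + 1)) (k : ℤ) (Y : Fin N → ℤ) :
    wt f (ins p k Y) = f p k * wt (rm p f) Y := by
  unfold wt
  rw [Fin.prod_univ_succAbove _ p]
  simp [rm]

omit [Fintype V] in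
theorem del_ins (u v : Fin (N + 1) → V) (p : Fin (N + 1)) (k : ℤ) (Y : Fin N → ℤ) :
    del u v (ins p k Y) = k • (ev (u p) - ev (v p)) + del (rm p u) (rm p v) Y := by
  unfold del
  rw [Fin.sum_univ_succAbove _ p]
  simp [rm]

theorem ins_add_self (p : Fin (N + 1)) (k : ℤ) (Y : Fin N → ℤ) :
    ins p k Y + ec p = ins p (k + 1) Y := by
  funext e
  refine Fin.succAboveCases p ?_ (fun i => ?_) e
  · simp [ec]
  · simp [ec]

theorem ins_add_succ (p : Fin (N + 1)) (k : ℤ) (Y : Fin N → ℤ) (i : Fin N) :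
    ins p k Y + ec (p.succAbove i) = ins p k (Y + ec i) := by
  funext e
  refine Fin.succAboveCases p ?_ (fun j => ?_) e
  · simp [ec]
  · simp [ec, Pi.single_apply]

theorem SB_split (u v : Fin (N + 1) → V) (lo hi : Fin (N + 1) → ℤ) (f : Fin (N + 1) → ℤ → ℝ)
    (q : ℝ) (β : V → ℤ) (G : (Fin (N + 1) → ℤ) → ℝ) (p : Fin (N + 1)) :
    SB u v lo hi f q β G = ∑ k ∈ Icc (lo p) (hi p), f p k *
      SB (rm p u) (rm p v) (rm p lo) (rm p hi) (rm p f) q (β - k • (ev (u p) - ev (v p)))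
        fun Y => G (ins p k Y) := by
  unfold SB
  rw [sum_box lo hi p]
  refine sum_congr rfl fun k _ => ?_
  rw [mul_sum]
  refine sum_congr rfl fun Y _ => ?_
  rw [wt_ins, del_ins, sub_sub]
  ring

theorem ZB_split (u v : Fin (N + 1) → V) (lo hi : Fin (N + 1) → ℤ) (f : Fin (N + 1) → ℤ → ℝ)
    (q : ℝ) (β : V → ℤ) (p : Fin (N + 1)) :
    ZB u v lo hi f q β = ∑ k ∈ Icc (lo p) (hi p), f p k *
      ZB (rm p u) (rm p v) (rm p lo) (rm p hi) (rm p f) q (β - k • (ev (u p) - ev (v p))) :=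
  SB_split u v lo hi f q β _ p

theorem LC_rm {lo hi : Fin (N + 1) → ℤ} {f : Fin (N + 1) → ℤ → ℝ} {thin : Fin (N + 1) → Prop}
    {κ : ℝ} (hf : LC lo hi f thin κ) (p : Fin (N + 1)) :
    LC (rm p lo) (rm p hi) (rm p f) (rm p thin) κ :=
  ⟨fun e => hf.pos (p.succAbove e), fun e => hf.lc (p.succAbove e),
    fun e => hf.curv (p.succAbove e)⟩

omit [Fintype V] [DecidableEq V] in
theorem Inv_rm {u v : Fin (N + 1) → V} {lo hi : Fin (N + 1) → ℤ} {thin : Fin (N + 1) → Prop}
    {g : (Fin (N + 1) → ℤ) → V → ℝ} (hg : Inv u v lo hi thin g) (p : Fin (N + 1)) {k : ℤ}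
    (hk : lo p ≤ k ∧ k ≤ hi p) :
    Inv (rm p u) (rm p v) (rm p lo) (rm p hi) (rm p thin) fun Y => g (ins p k Y) := by
  intro e he Y hY hY'
  have := hg (p.succAbove e) he (ins p k Y) (mem_box_ins.2 ⟨hk, hY⟩)
    (by rw [ins_add_succ]; exact mem_box_ins.2 ⟨hk, hY'⟩)
  rw [ins_add_succ] at this
  exact this

omit [DecidableEq V] in
theorem gq_nonneg {q : ℝ} (hq : 0 ≤ q) (β : V → ℤ) : 0 ≤ gq q β :=
  prod_nonneg fun _ _ => pow_nonneg hq _

theorem wt_pos {M : ℕ} {lo hi : Fin M → ℤ} {f : Fin M → ℤ → ℝ} {thin : Fin M → Prop} {κ : ℝ}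
    (hf : LC lo hi f thin κ) {X : Fin M → ℤ} (hX : X ∈ box lo hi) : 0 < wt f X :=
  prod_pos fun e _ => hf.pos e _ (mem_box.1 hX e).1 (mem_box.1 hX e).2

theorem SB_nonneg {M : ℕ} {u v : Fin M → V} {lo hi : Fin M → ℤ} {f : Fin M → ℤ → ℝ}
    {thin : Fin M → Prop} {κ q : ℝ} (hf : LC lo hi f thin κ) (hq : 0 ≤ q) (β : V → ℤ)
    {G : (Fin M → ℤ) → ℝ} (hG : ∀ X, 0 ≤ G X) : 0 ≤ SB u v lo hi f q β G :=
  sum_nonneg fun _ hX => mul_nonneg (mul_nonneg (wt_pos hf hX).le (gq_nonneg hq _)) (hG _)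

theorem DB_nonneg {M : ℕ} {u v : Fin M → V} {lo hi : Fin M → ℤ} {f : Fin M → ℤ → ℝ}
    {thin : Fin M → Prop} {κ q : ℝ} (hf : LC lo hi f thin κ) (hq : 0 ≤ q) {θ : V → ℝ}
    (hθ : ∀ a, 0 < θ a) (γ : V → ℤ) (g : (Fin M → ℤ) → V → ℝ) :
    0 ≤ DB u v lo hi f thin q θ γ g := by
  unfold DB
  refine add_nonneg (sum_nonneg fun e _ => sum_nonneg fun X hX => ?_)
    (sum_nonneg fun X hX => sum_nonneg fun a _ => sum_nonneg fun b _ => ?_)
  · rw [mem_filter] at hX
    have h1 := wt_pos hf hX.1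
    have h2 := wt_pos hf hX.2
    have h3 := hθ (v e)
    have h4 := hθ (u e)
    exact mul_nonneg (mul_nonneg (le_min (by positivity) (by positivity)) (gq_nonneg hq _))
      (sq_nonneg _)
  · exact mul_nonneg (mul_nonneg (wt_pos hf hX).le
      (le_min (div_nonneg (gq_nonneg hq _) (hθ a).le) (div_nonneg (gq_nonneg hq _) (hθ b).le)))
      (sq_nonneg _)

open Classical in
/-- The edges of the cell `p`. -/
noncomputable def edge (u v : Fin (N + 1) → V) (lo hi : Fin (N + 1) → ℤ)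
    (f : Fin (N + 1) → ℤ → ℝ) (q : ℝ) (θ : V → ℝ) (γ : V → ℤ)
    (g : (Fin (N + 1) → ℤ) → V → ℝ) (p : Fin (N + 1)) : ℝ :=
  ∑ k ∈ Ico (lo p) (hi p), ∑ Y ∈ box (rm p lo) (rm p hi),
    min (f p k / θ (v p)) (f p (k + 1) / θ (u p)) *
      (wt (rm p f) Y * gq q (γ - k • (ev (u p) - ev (v p)) + ev (v p) - del (rm p u) (rm p v) Y)) *
      (g (ins p k Y) (v p) - g (ins p (k + 1) Y) (u p)) ^ 2

open Classical in
theorem DB_split {u v : Fin (N + 1) → V} {lo hi : Fin (N + 1) → ℤ}
    {f : Fin (N + 1) → ℤ → ℝ} {thin : Fin (N + 1) → Prop} {κ : ℝ} (hf : LC lo hi f thin κ)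
    (q : ℝ) (θ : V → ℝ) (γ : V → ℤ) (g : (Fin (N + 1) → ℤ) → V → ℝ) (p : Fin (N + 1)) :
    DB u v lo hi f thin q θ γ g =
      (∑ k ∈ Icc (lo p) (hi p), f p k *
        DB (rm p u) (rm p v) (rm p lo) (rm p hi) (rm p f) (rm p thin) q θ
          (γ - k • (ev (u p) - ev (v p))) fun Y => g (ins p k Y)) +
      if thin p then edge u v lo hi f q θ γ g p else 0 := by
  unfold DB
  simp only [sum_filter, mul_add, sum_add_distrib]
  rw [Fin.sum_univ_succAbove _ p]
  have e1 : (∑ X ∈ box lo hi, if X + ec p ∈ box lo hi then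
      min (wt f X / θ (v p)) (wt f (X + ec p) / θ (u p)) * gq q (γ + ev (v p) - del u v X) *
        (g X (v p) - g (X + ec p) (u p)) ^ 2 else 0) = edge u v lo hi f q θ γ g p := by
    rw [sum_box lo hi p]
    unfold edge
    symm
    refine sum_subset_zero_on_sdiff Ico_subset_Icc_self ?_ ?_
    · intro k hk
      simp only [mem_sdiff, mem_Icc, mem_Ico] at hk
      refine sum_eq_zero fun Y _ => if_neg ?_
      rw [ins_add_self, mem_box_ins]
      omega
    · intro k hk
      rw [mem_Ico] at hk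
      refine sum_congr rfl fun Y hY => ?_
      rw [ins_add_self, if_pos (mem_box_ins.2 ⟨by omega, hY⟩), wt_ins, wt_ins, del_ins]
      have hw := (wt_pos (LC_rm hf p) hY).le
      have : γ + ev (v p) - (k • (ev (u p) - ev (v p)) + del (rm p u) (rm p v) Y) =
        γ - k • (ev (u p) - ev (v p)) + ev (v p) - del (rm p u) (rm p v) Y := by abel
      rw [this, mul_div_right_comm, mul_div_right_comm, ← min_mul_of_nonneg _ _ hw]
      ring
  have e2 : (∑ i : Fin N, if thin (p.succAbove i) then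
      ∑ X ∈ box lo hi, if X + ec (p.succAbove i) ∈ box lo hi then
        min (wt f X / θ (v (p.succAbove i))) (wt f (X + ec (p.succAbove i)) / θ (u (p.succAbove i))) *
          gq q (γ + ev (v (p.succAbove i)) - del u v X) *
          (g X (v (p.succAbove i)) - g (X + ec (p.succAbove i)) (u (p.succAbove i))) ^ 2 else 0
      else 0) =
      ∑ k ∈ Icc (lo p) (hi p), f p k * ∑ i : Fin N, if rm p thin i then
        ∑ Y ∈ box (rm p lo) (rm p hi), if Y + ec i ∈ box (rm p lo) (rm p hi) then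
          min (wt (rm p f) Y / θ (rm p v i)) (wt (rm p f) (Y + ec i) / θ (rm p u i)) *
            gq q (γ - k • (ev (u p) - ev (v p)) + ev (rm p v i) - del (rm p u) (rm p v) Y) *
            (g (ins p k Y) (rm p v i) - g (ins p k (Y + ec i)) (rm p u i)) ^ 2 else 0
        else 0 := by
    simp only [mul_sum]
    rw [sum_comm]
    refine sum_congr rfl fun i _ => ?_
    by_cases ht : thin (p.succAbove i)
    · have ht' : rm p thin i := ht
      simp only [if_pos ht, if_pos ht']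
      rw [sum_box lo hi p]
      refine sum_congr rfl fun k hk => ?_
      rw [mem_Icc] at hk
      rw [mul_sum]
      refine sum_congr rfl fun Y _ => ?_
      rw [ins_add_succ]
      by_cases hY : Y + ec i ∈ box (rm p lo) (rm p hi)
      · rw [if_pos hY, if_pos (mem_box_ins.2 ⟨hk, hY⟩), wt_ins, wt_ins, del_ins]
        have hw := (hf.pos p k hk.1 hk.2).le
        have : γ + ev (v (p.succAbove i)) - (k • (ev (u p) - ev (v p)) + del (rm p u) (rm p v) Y) =
          γ - k • (ev (u p) - ev (v p)) + ev (v (p.succAbove i)) - del (rm p u) (rm p v) Y := by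
          abel
        rw [this, mul_div_assoc, mul_div_assoc, ← mul_min_of_nonneg _ _ hw]
        simp only [rm]
        ring
      · rw [if_neg hY, if_neg (fun h => hY (mem_box_ins.1 h).2), mul_zero]
    · have ht' : ¬ rm p thin i := ht
      simp only [if_neg ht, if_neg ht', mul_zero, sum_const_zero]
  have e3 : (∑ X ∈ box lo hi, ∑ a, ∑ b, wt f X *
      min (gq q (γ + ev a - del u v X) / θ a) (gq q (γ + ev b - del u v X) / θ b) *
        (g X a - g X b) ^ 2) =
      ∑ k ∈ Icc (lo p) (hi p), f p k * ∑ Y ∈ box (rm p lo) (rm p hi), ∑ a, ∑ b, wt (rm p f) Y *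
        min (gq q (γ - k • (ev (u p) - ev (v p)) + ev a - del (rm p u) (rm p v) Y) / θ a)
          (gq q (γ - k • (ev (u p) - ev (v p)) + ev b - del (rm p u) (rm p v) Y) / θ b) *
        (g (ins p k Y) a - g (ins p k Y) b) ^ 2 := by
    rw [sum_box lo hi p]
    refine sum_congr rfl fun k _ => ?_
    simp only [mul_sum]
    refine sum_congr rfl fun Y _ => sum_congr rfl fun a _ => sum_congr rfl fun b _ => ?_
    have : ∀ c, γ + ev c - (k • (ev (u p) - ev (v p)) + del (rm p u) (rm p v) Y) =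
      γ - k • (ev (u p) - ev (v p)) + ev c - del (rm p u) (rm p v) Y := fun c => by abel
    rw [wt_ins, del_ins, this, this]
    ring
  rw [e1, e2, e3]
  ring

/-! ### Log-concave sequences -/

theorem lc_strong {L R : ℤ} {m : ℤ → ℝ} (hp : ∀ x, L ≤ x → x ≤ R → 0 < m x)
    (hc : ∀ x, L < x → x < R → m (x - 1) * m (x + 1) ≤ m x ^ 2) {a b : ℤ} (ha : L < a)
    (hab : a ≤ b) (hb : b < R) : m (a - 1) * m (b + 1) ≤ m a * m b := by
  induction b, hab using Int.leInduction with
  | base => have := hc a ha hb; nlinarith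
  | succ b hab ih =>
    have h1 := ih (by omega)
    have h2 := hc (b + 1) (by omega) hb
    rw [add_sub_cancel_right] at h2
    have p1 := hp b (by omega) (by omega)
    have p2 := hp (b + 1) (by omega) (by omega)
    have p3 := hp (a - 1) (by omega) (by omega)
    have p4 := hp a (by omega) (by omega)
    have p5 := hp (b + 1 + 1) (by omega) (by omega)
    have h3 : m (a - 1) * m (b + 1) * (m b * m (b + 1 + 1)) ≤ m a * m b * m (b + 1) ^ 2 :=
      mul_le_mul h1 h2 (by positivity) (by positivity)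
    have h4 : (m (a - 1) * m (b + 1 + 1)) * (m b * m (b + 1)) ≤
        (m a * m (b + 1)) * (m b * m (b + 1)) := by nlinarith
    exact le_of_mul_le_mul_right h4 (by positivity)

/-- A positive log-concave sequence is unimodal. -/
theorem unimodal {L R : ℤ} {m : ℤ → ℝ} (hp : ∀ x, L ≤ x → x ≤ R → 0 < m x)
    (hc : ∀ x, L < x → x < R → m (x - 1) * m (x + 1) ≤ m x ^ 2) {k : ℤ} (hk : L ≤ k)
    (hk' : k < R) :
    (∀ l, k ≤ l → l ≤ R → m l ≤ m k) ∨ (∀ l, l ≤ k → L ≤ l → m l ≤ m k) := by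
  rcases le_total (m (k + 1)) (m k) with h | h
  · left
    intro l hl
    induction l, hl using Int.leInduction with
    | base => intro _; exact le_rfl
    | succ l hl ih =>
      intro hl'
      rcases eq_or_lt_of_le hl with rfl | hl2
      · exact h
      · refine le_trans ?_ (ih (by omega))
        have h1 := lc_strong hp hc (a := k + 1) (b := l) (by omega) (by omega) (by omega)
        rw [add_sub_cancel_right] at h1
        have p1 := hp k hk hk'.le
        have p2 := hp l (by omega) (by omega)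
        have h2 : m k * m (l + 1) ≤ m k * m l := h1.trans (by nlinarith)
        exact le_of_mul_le_mul_left h2 p1
  · right
    intro l hl
    induction l, hl using Int.leInductionDown with
    | base => intro _; exact le_rfl
    | pred l hl ih =>
      intro hl'
      refine le_trans ?_ (ih (by omega))
      have h1 := lc_strong hp hc (a := l) (b := k) (by omega) hl hk'
      have p1 := hp (k + 1) (by omega) (by omega)
      have p2 := hp l (by omega) (by omega)
      have h2 : m (l - 1) * m (k + 1) ≤ m l * m (k + 1) := h1.trans (by nlinarith)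
      exact le_of_mul_le_mul_right h2 p1

theorem Icc_succ {L R : ℤ} (h : L ≤ R + 1) : Icc L (R + 1) = insert (R + 1) (Icc L R) := by
  ext x; simp only [mem_Icc, mem_insert]; omega

theorem tele_aux (p A B : ℤ → ℝ) {L R : ℤ} (h : L ≤ R) :
    ∑ k ∈ Icc L R, (p k * A k - p (k - 1) * B k) =
      ∑ k ∈ Ico L R, p k * (A k - B (k + 1)) + p R * A R - p (L - 1) * B L := by
  induction R, h using Int.leInduction with
  | base => simp
  | succ R h ih =>
    have e : Ico L (R + 1) = insert R (Ico L R) := by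
      ext x; simp only [mem_Ico, mem_insert]; omega
    rw [Icc_succ (by omega), e, sum_insert (by simp), sum_insert (by simp), ih,
      add_sub_cancel_right]
    ring

/-- Summation by parts. -/
theorem tele (p A B : ℤ → ℝ) {L R : ℤ} (h : L ≤ R) (h0 : p (L - 1) = 0) (h1 : p R = 0) :
    ∑ k ∈ Icc L R, (p k * A k - p (k - 1) * B k) = ∑ k ∈ Ico L R, p k * (A k - B (k + 1)) := by
  rw [tele_aux p A B h, h0, h1]; ring

/-- The flux balancing a centred test function. -/
theorem exists_flux {L R : ℤ} (F Mk hh : ℤ → ℝ) {H : ℝ} (hF : ∀ x, L ≤ x → x ≤ R → 0 < F x)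
    (hM : ∀ x, 0 < Mk x)
    (hc : ∀ x, L < x → x < R → (F (x - 1) * Mk (x - 1)) * (F (x + 1) * Mk (x + 1)) ≤
      (F x * Mk x) ^ 2)
    (h0 : ∑ k ∈ Icc L R, hh k * (F k * Mk k) = 0) (hH : ∀ x, L ≤ x → x ≤ R → |hh x| ≤ H) :
    ∃ p : ℤ → ℝ, p (L - 1) = 0 ∧ p R = 0 ∧
      (∀ k, L ≤ k → k ≤ R → (hh k + p k / F k) * Mk k - p (k - 1) / F k * Mk (k - 1) = 0) ∧
      ∀ k, L ≤ k → k < R → |p k| ≤ H * ((R - L + 1 : ℤ) : ℝ) * F k := by
  refine ⟨fun k => -(∑ l ∈ Icc L k, hh l * (F l * Mk l)) / Mk k, ?_, ?_, ?_, ?_⟩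
  · simp
  · simp [h0]
  · intro k hk hk'
    have e : Icc L k = insert k (Icc L (k - 1)) := by
      ext x; simp only [mem_Icc, mem_insert]; omega
    have h1 := (hF k hk hk').ne'
    have h2 := (hM k).ne'
    have h3 := (hM (k - 1)).ne'
    simp only
    rw [e, sum_insert (by simp)]
    field_simp
    ring
  · intro k hk hk'
    have hp : ∀ x, L ≤ x → x ≤ R → 0 < F x * Mk x := fun x h1 h2 => mul_pos (hF x h1 h2) (hM x)
    have hH0 : 0 ≤ H := (abs_nonneg _).trans (hH L le_rfl (by omega))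
    have hk0 := hp k hk hk'.le
    have key : ∀ s : Finset ℤ, s ⊆ Icc L R → (∀ l ∈ s, F l * Mk l ≤ F k * Mk k) →
        |∑ l ∈ s, hh l * (F l * Mk l)| ≤ H * ((R - L + 1 : ℤ) : ℝ) * (F k * Mk k) := by
      intro s hs hl
      refine (abs_sum_le_sum_abs _ _).trans ?_
      have h1 : ∀ l ∈ s, |hh l * (F l * Mk l)| ≤ H * (F k * Mk k) := by
        intro l hls
        have := mem_Icc.1 (hs hls)
        rw [abs_mul, abs_of_pos (hp l this.1 this.2)]
        exact mul_le_mul (hH l this.1 this.2) (hl l hls) (hp l this.1 this.2).le hH0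
      refine (sum_le_card_nsmul _ _ _ h1).trans ?_
      have h2 : (s.card : ℝ) ≤ ((R - L + 1 : ℤ) : ℝ) := by
        have h3 := card_le_card hs
        rw [Int.card_Icc] at h3
        have : (s.card : ℤ) ≤ R - L + 1 := by omega
        exact_mod_cast this
      rw [nsmul_eq_mul]
      have : 0 ≤ H * (F k * Mk k) := by positivity
      nlinarith
    have h2 : |∑ l ∈ Icc L k, hh l * (F l * Mk l)| ≤
        H * ((R - L + 1 : ℤ) : ℝ) * (F k * Mk k) := by
      rcases unimodal (m := fun x => F x * Mk x) hp hc hk hk' with h | h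
      · have e : Icc L R = Icc L k ∪ Ioc k R := by
          ext x; simp only [mem_Icc, mem_union, mem_Ioc]; omega
        have d : Disjoint (Icc L k) (Ioc k R) := by
          rw [disjoint_left]; intro x; simp only [mem_Icc, mem_Ioc]; omega
        rw [e, sum_union d] at h0
        rw [eq_neg_of_add_eq_zero_left h0, abs_neg]
        refine key _ (fun x hx => ?_) fun l hl => ?_
        · simp only [mem_Icc, mem_Ioc] at hx ⊢; omega
        · rw [mem_Ioc] at hl; exact h l hl.1.le hl.2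
      · refine key _ (fun x hx => ?_) fun l hl => ?_
        · simp only [mem_Icc] at hx ⊢; omega
        · rw [mem_Icc] at hl; exact h l hl.2 hl.1
    simp only
    rw [abs_div, abs_neg, abs_of_pos (hM k), div_le_iff₀ (hM k)]
    linarith

/-- The potential term of the tilted transport. -/
theorem pot_le {L R : ℤ} (hLR : L ≤ R) (F W p hh : ℤ → ℝ) {K Λ n : ℝ}
    (hF : ∀ x, L ≤ x → x ≤ R → 0 < F x) (hW : ∀ x, 0 ≤ W x) (h0 : p (L - 1) = 0) (h1 : p R = 0)
    (hK : 0 ≤ K) (hΛ0 : 0 ≤ Λ) (hp : ∀ k, L ≤ k → k < R → |p k| ≤ K * n * F k)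
    (hΛ : ∀ x, L ≤ x → x < R → n * |hh (x + 1) - hh x| ≤ Λ) :
    ∑ k ∈ Icc L R, F k * -((hh k + p k / F k) ^ 2 * W (k + 1) -
        2 * (hh k + p k / F k) * (p (k - 1) / F k) * W k + (p (k - 1) / F k) ^ 2 * W (k - 1)) +
      ∑ k ∈ Icc L R,
        (p k ^ 2 * W (k + 1) - 2 * p k * p (k - 1) * W k + p (k - 1) ^ 2 * W (k - 1)) / F k ≤
      2 * K * Λ * ∑ k ∈ Icc L R, F k * W (k + 1) := by
  have e : ∑ k ∈ Icc L R, F k * -((hh k + p k / F k) ^ 2 * W (k + 1) -
        2 * (hh k + p k / F k) * (p (k - 1) / F k) * W k + (p (k - 1) / F k) ^ 2 * W (k - 1)) +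
      ∑ k ∈ Icc L R,
        (p k ^ 2 * W (k + 1) - 2 * p k * p (k - 1) * W k + p (k - 1) ^ 2 * W (k - 1)) / F k =
      -(∑ k ∈ Icc L R, F k * hh k ^ 2 * W (k + 1)) -
        2 * ∑ k ∈ Icc L R, (p k * (hh k * W (k + 1)) - p (k - 1) * (hh k * W k)) := by
    rw [← sum_add_distrib, mul_sum, ← sum_neg_distrib, ← sum_sub_distrib]
    refine sum_congr rfl fun k hk => ?_
    rw [mem_Icc] at hk
    have := (hF k hk.1 hk.2).ne'
    field_simp
    ring
  rw [e, tele p _ _ hLR h0 h1]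
  have h2 : 0 ≤ ∑ k ∈ Icc L R, F k * hh k ^ 2 * W (k + 1) := sum_nonneg fun k hk => by
    rw [mem_Icc] at hk
    have := hF k hk.1 hk.2
    have := hW (k + 1)
    positivity
  have h3 : -∑ k ∈ Ico L R, p k * (hh k * W (k + 1) - hh (k + 1) * W (k + 1)) ≤
      ∑ k ∈ Ico L R, K * Λ * (F k * W (k + 1)) := by
    rw [← sum_neg_distrib]
    refine sum_le_sum fun k hk => ?_
    rw [mem_Ico] at hk
    have a1 := hp k hk.1 hk.2
    have a2 := hΛ k hk.1 hk.2
    have a3 := hF k hk.1 hk.2.le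
    have a4 := hW (k + 1)
    have a5 : p k * (hh (k + 1) - hh k) ≤ K * Λ * F k := by
      refine (le_abs_self _).trans ?_
      rw [abs_mul]
      calc |p k| * |hh (k + 1) - hh k| ≤ K * n * F k * |hh (k + 1) - hh k| :=
            mul_le_mul_of_nonneg_right a1 (abs_nonneg _)
        _ = K * F k * (n * |hh (k + 1) - hh k|) := by ring
        _ ≤ K * F k * Λ := mul_le_mul_of_nonneg_left a2 (by positivity)
        _ = K * Λ * F k := by ring
    nlinarith [mul_le_mul_of_nonneg_right a5 a4]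
  have h4 : ∑ k ∈ Ico L R, K * Λ * (F k * W (k + 1)) ≤
      ∑ k ∈ Icc L R, K * Λ * (F k * W (k + 1)) :=
    sum_le_sum_of_subset_of_nonneg Ico_subset_Icc_self fun k hk _ => by
      rw [mem_Icc] at hk
      have := hF k hk.1 hk.2
      have := hW (k + 1)
      positivity
  rw [← mul_sum (Icc L R)] at h4
  linarith

/-- Cost of one edge. -/
theorem edge_amgm {s p w D a b : ℝ} (hs : 0 < s) (hw : 0 ≤ w) (ha : 0 < a) (hb : 0 < b) :
    2 * |p * (w * D)| ≤ s * (p ^ 2 * w * (1 / a + 1 / b)) + min a b * w * D ^ 2 / s := by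
  have hc : 0 < min a b := lt_min ha hb
  have h1 : 1 / min a b ≤ 1 / a + 1 / b := by
    have := one_div_pos.2 ha
    have := one_div_pos.2 hb
    rcases min_choice a b with h | h <;> rw [h] <;> linarith
  set c := min a b
  have h2 : 2 * |p * D| ≤ s * (p ^ 2 * (1 / c)) + c * D ^ 2 / s := by
    have e : s * (p ^ 2 * (1 / c)) + c * D ^ 2 / s - 2 * |p * D| =
        (s * |p| - c * |D|) ^ 2 / (c * s) := by
      rw [abs_mul, ← sq_abs p, ← sq_abs D]
      field_simp
      ring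
    have : 0 ≤ (s * |p| - c * |D|) ^ 2 / (c * s) := by positivity
    linarith
  have h3 : s * (p ^ 2 * (1 / c)) ≤ s * (p ^ 2 * (1 / a + 1 / b)) := by gcongr
  have e2 : |p * (w * D)| = w * |p * D| := by
    rw [show p * (w * D) = w * (p * D) by ring, abs_mul, abs_of_nonneg hw]
  rw [e2]
  have h4 := mul_le_mul_of_nonneg_left (h2.trans (add_le_add h3 le_rfl)) hw
  calc 2 * (w * |p * D|) = w * (2 * |p * D|) := by ring
    _ ≤ _ := h4
    _ = _ := by ring

theorem sum_two (a b : V) (s r : ℝ) (Φ : V → ℝ) :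
    ∑ x, ((if x = a then s else 0) + (if x = b then r else 0)) * Φ x = s * Φ a + r * Φ b := by
  simp [add_mul, sum_add_distrib, ite_mul]

theorem QB_eq {M : ℕ} (u v : Fin M → V) (lo hi : Fin M → ℤ) (f : Fin M → ℤ → ℝ) (q : ℝ)
    (α : V → ℤ) (y z : V → ℝ) :
    QB u v lo hi f q α y z = ∑ a, y a * ∑ b, z b * ZB u v lo hi f q (α + ev a + ev b) := by
  unfold QB
  simp only [mul_sum, mul_assoc]

theorem QB_two {M : ℕ} (u v : Fin M → V) (lo hi : Fin M → ℤ) (f : Fin M → ℤ → ℝ) (q : ℝ)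
    (α : V → ℤ) (a b : V) (s r : ℝ) :
    QB u v lo hi f q α (fun x => (if x = a then s else 0) + (if x = b then r else 0))
        (fun x => (if x = a then s else 0) + (if x = b then r else 0)) =
      s ^ 2 * ZB u v lo hi f q (α + ev a + ev a) + 2 * s * r * ZB u v lo hi f q (α + ev a + ev b) +
        r ^ 2 * ZB u v lo hi f q (α + ev b + ev b) := by
  rw [QB_eq]
  simp only [sum_two]
  rw [add_right_comm α (ev b) (ev a)]
  ring

end Crest.Agent.R309.LB
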