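import Crest.Agent.R309.Prob

/-!
# Row 309: an exactly symmetric independence sampler on bit strings

For a fixed estimate function `z ≥ 0`, `0 ≤ thr ≤ 2 ^ B`.  `propose` reads `D` blocks of `B` bits; by
induction on `D`, for every string `Y` of length `D` and every `0 ≤ j < nOf Y` exactly one tape of length
`B * D` yields `(Y, j)` (mixed radix), and the offset is always in that range.  Hence for valid `X ≠ Y`
`P (X → Y) = min (nOf X) (nOf Y) / 2 ^ (B D)` is symmetric, and `P (X → X) ≥ nOf X / 2 ^ (B D)`.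
If the estimates of all children along the path of a valid `X` are within `1 ± 1/E` of `cntP`, then every
factor is at least `(cntP child / cntP parent) * (1 - 3/E)` (`cntP p = cntP (p ++ [false]) + cntP (p ++ [true])`
for `|p| < D`, `cntP child ≥ 1`, `cntP parent ≤ 2 ^ D`, `2 ^ D * E ≤ 2 ^ B`), so
`nOf X / 2 ^ (B D) ≥ (1 - 3 D / E) / Z ≥ 1 / (2 Z)`.  A union bound over the `4 D` children on the paths of
`X` and `Y` gives `P (X → Y) ≥ 1 / (4 Z)`.  Doeblin: `(μ P) Y - 1/Z = ∑ X, (μ X - 1/Z) (P X Y - 1/(4Z))` and the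
column sums of `P` are `1` by symmetry.
-/

set_option autoImplicit false

namespace Crest.Agent.R309

open Finset Crest.Agent.Lib.PolyTime

/-- Threshold for choosing the bit `false` after the prefix `p`. -/
def thr (z : List Bool → ℤ) (B : ℕ) (p : List Bool) : ℤ :=
  2 ^ B * z (p ++ [false]) / (z (p ++ [false]) + z (p ++ [true]))

/-- Number of tapes proposing `X`. -/
def nOf (z : List Bool → ℤ) (B : ℕ) (X : List Bool) : ℤ :=
  (tab X.length fun i =>
    if X.getD i false = true then 2 ^ B - thr z B (X.take i) else thr z B (X.take i)).prod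

/-- One level of the proposal: the string so far and the offset. -/
def propStep (z : List Bool → ℤ) (B : ℕ) (s : List Bool × ℤ) (ω : List Bool) : List Bool × ℤ :=
  if num ω < thr z B s.1 then (s.1 ++ [false], s.2 * thr z B s.1 + num ω)
  else (s.1 ++ [true], s.2 * (2 ^ B - thr z B s.1) + (num ω - thr z B s.1))

def propose (z : List Bool → ℤ) (B D : ℕ) (τ : List Bool) : List Bool × ℤ :=
  foldT (fun _ => propStep z B) B D ([], 0) τ

/-- One step of the chain; the first `R` bits drive the estimates. -/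
def mh (valid : List Bool → Bool) (zz : List Bool → List Bool → ℤ) (B D R : ℕ) (X τ : List Bool) :
    List Bool :=
  if valid (propose (fun p => zz p (τ.take R)) B D (τ.drop R)).1 = true ∧
      (propose (fun p => zz p (τ.take R)) B D (τ.drop R)).2 < nOf (fun p => zz p (τ.take R)) B X
  then (propose (fun p => zz p (τ.take R)) B D (τ.drop R)).1 else X

/-- The valid strings of length `D`. -/
def Val (valid : List Bool → Bool) (D : ℕ) : Finset (List Bool) :=
  ((univ : Finset (Fin D → Bool)).image List.ofFn).filter fun X => valid X = true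

theorem mem_Val {valid : List Bool → Bool} {D : ℕ} {X : List Bool} :
    X ∈ Val valid D ↔ X.length = D ∧ valid X = true := by
  simp only [Val, mem_filter, mem_image, mem_univ, true_and]
  refine and_congr_left fun _ => ⟨?_, ?_⟩
  · rintro ⟨a, rfl⟩; simp
  · rintro rfl; exact ⟨X.get, List.ofFn_get X⟩

/-- Number of valid strings with prefix `p`. -/
def cntP (valid : List Bool → Bool) (D : ℕ) (p : List Bool) : ℕ :=
  ((Val valid D).filter fun X => p <+: X).card

theorem length_propose (z : List Bool → ℤ) (B D : ℕ) (τ : List Bool) :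
    (propose z B D τ).1.length = D := by
  unfold propose
  induction D with
  | zero => rfl
  | succ D ih =>
    rw [foldT_succ, propStep]
    split_ifs <;> simp [ih]

theorem mh_mem {valid : List Bool → Bool} (zz : List Bool → List Bool → ℤ) (B D R : ℕ)
    {X : List Bool} (hX : X ∈ Val valid D) (τ : List Bool) :
    mh valid zz B D R X τ ∈ Val valid D := by
  unfold mh
  split_ifs with h
  · exact mem_Val.2 ⟨length_propose _ _ _ _, h.1⟩
  · exact hX

/-- The number of blocks choosing the bit `b` after the prefix `p`. -/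
def mhFac (z : List Bool → ℤ) (B : ℕ) (p : List Bool) (b : Bool) : ℤ :=
  if b = true then 2 ^ B - thr z B p else thr z B p

theorem nOf_nil (z : List Bool → ℤ) (B : ℕ) : nOf z B [] = 1 := by simp [nOf, tab]

theorem nOf_snoc (z : List Bool → ℤ) (B : ℕ) (p : List Bool) (b : Bool) :
    nOf z B (p ++ [b]) = nOf z B p * mhFac z B p b := by
  unfold nOf tab mhFac
  rw [List.length_append, List.length_singleton, List.range_succ, List.map_append,
    List.prod_append]
  congr 1
  · congr 1
    refine List.map_congr_left fun i hi => ?_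
    have hi' : i < p.length := List.mem_range.1 hi
    rw [List.take_append_of_le_length hi'.le, List.getD_append _ _ _ _ hi']
  · simp

theorem thr_nonneg {z : List Bool → ℤ} (hz : ∀ p, 0 ≤ z p) (B : ℕ) (p : List Bool) :
    0 ≤ thr z B p :=
  Int.ediv_nonneg (mul_nonneg (by positivity) (hz _)) (add_nonneg (hz _) (hz _))

theorem thr_le {z : List Bool → ℤ} (hz : ∀ p, 0 ≤ z p) (B : ℕ) (p : List Bool) :
    thr z B p ≤ 2 ^ B := by
  unfold thr
  rcases (add_nonneg (hz (p ++ [false])) (hz (p ++ [true]))).eq_or_lt with h | h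
  · rw [← h, Int.ediv_zero]; positivity
  · refine Int.ediv_le_of_le_mul h ?_
    have := hz (p ++ [true])
    exact mul_le_mul_of_nonneg_left (by linarith) (by positivity)

theorem mhFac_nonneg {z : List Bool → ℤ} (hz : ∀ p, 0 ≤ z p) (B : ℕ) (p : List Bool) (b : Bool) :
    0 ≤ mhFac z B p b := by
  unfold mhFac
  split_ifs
  · linarith [thr_le hz B p]
  · exact thr_nonneg hz B p

theorem nOf_nonneg {z : List Bool → ℤ} (hz : ∀ p, 0 ≤ z p) (B : ℕ) (X : List Bool) :
    0 ≤ nOf z B X := by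
  induction X using List.reverseRecOn with
  | nil => rw [nOf_nil]; norm_num
  | append_singleton p b ih => rw [nOf_snoc]; exact mul_nonneg ih (mhFac_nonneg hz B p b)

theorem sum_range_mixed (G : ℤ → ℝ) (n t : ℕ) :
    ∑ j ∈ range n, ∑ w ∈ range t, G ((j : ℤ) * t + w) = ∑ k ∈ range (n * t), G k := by
  induction n with
  | zero => simp
  | succ n ih =>
    rw [sum_range_succ, ih, Nat.succ_mul, sum_range_add]
    push_cast
    rfl

theorem Ex_propStep {z : List Bool → ℤ} (hz : ∀ p, 0 ≤ z p) (B : ℕ) (p : List Bool) (b : Bool)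
    (G : ℤ → ℝ) (s : List Bool × ℤ) :
    Ex B (fun ω => ind ((propStep z B s ω).1 = p ++ [b]) * G (propStep z B s ω).2) =
      ind (s.1 = p) * ((∑ w ∈ range (mhFac z B p b).toNat,
        G (s.2 * ((mhFac z B p b).toNat : ℕ) + w)) / 2 ^ B) := by
  by_cases hs : s.1 = p
  · obtain ⟨t, ht⟩ := Int.eq_ofNat_of_zero_le (thr_nonneg hz B p)
    have htle : t ≤ 2 ^ B := by
      have := thr_le hz B p
      rw [ht] at this
      exact_mod_cast this
    obtain ⟨u, hu⟩ := Nat.exists_eq_add_of_le htle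
    have hu' : (2 : ℤ) ^ B - t = u := by
      have : ((2 ^ B : ℕ) : ℤ) = t + u := by exact_mod_cast hu
      push_cast at this
      linarith
    rw [ind_of hs, one_mul]
    have h1 := Ex_num B fun w => if w < (t : ℤ) then ind (false = b) * G (s.2 * t + w)
      else ind (true = b) * G (s.2 * u + (w - t))
    have h2 : (fun ω => ind ((propStep z B s ω).1 = p ++ [b]) * G (propStep z B s ω).2) =
        fun ω => if num ω < (t : ℤ) then ind (false = b) * G (s.2 * t + num ω)
          else ind (true = b) * G (s.2 * u + (num ω - t)) := by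
      funext ω
      unfold propStep
      rw [hs, ht, hu']
      split_ifs <;> simp
    rw [h2, h1, hu, sum_range_add]
    congr 1
    have h3 : ∑ x ∈ range t, (if (x : ℤ) < (t : ℤ) then ind (false = b) * G (s.2 * t + x)
        else ind (true = b) * G (s.2 * u + (x - t))) =
        ∑ x ∈ range t, ind (false = b) * G (s.2 * t + x) :=
      sum_congr rfl fun x hx => if_pos (by exact_mod_cast mem_range.1 hx)
    have h4 : ∑ x ∈ range u, (if ((t + x : ℕ) : ℤ) < (t : ℤ) then
        ind (false = b) * G (s.2 * t + (t + x : ℕ))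
        else ind (true = b) * G (s.2 * u + ((t + x : ℕ) - t))) =
        ∑ x ∈ range u, ind (true = b) * G (s.2 * u + x) :=
      sum_congr rfl fun x _ => by
        rw [if_neg (by push_cast; omega)]
        push_cast
        rw [add_sub_cancel_left]
    rw [h3, h4]
    cases b
    · simp [mhFac, ht, ind]
    · simp [mhFac, ht, hu', ind]
  · rw [ind_of_not hs, zero_mul]
    refine (Ex_congr fun ω _ => ?_).trans (Ex_const B 0)
    rw [ind_of_not, zero_mul]
    unfold propStep
    split_ifs <;> simp [hs]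

/-- Mixed radix counting: given the string `Y`, the offset is uniform below `nOf Y`. -/
theorem Ex_propose {z : List Bool → ℤ} (hz : ∀ p, 0 ≤ z p) (B : ℕ) {L : ℕ} (Y : List Bool)
    (hL : Y.length * B ≤ L) (G : ℤ → ℝ) :
    Ex L (fun τ => ind ((propose z B Y.length τ).1 = Y) * G (propose z B Y.length τ).2) =
      (∑ j ∈ range (nOf z B Y).toNat, G j) / 2 ^ (B * Y.length) := by
  induction Y using List.reverseRecOn generalizing G with
  | nil => simp [propose, foldT_zero, nOf_nil, ind, Ex_const]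
  | append_singleton p b ih =>
    rw [List.length_append, List.length_singleton] at hL ⊢
    have h1 := Ex_foldT_succ (fun _ => propStep z B) hL (([], 0) : List Bool × ℤ)
      fun s => ind (s.1 = p ++ [b]) * G s.2
    unfold propose at ih ⊢
    rw [h1]
    simp only [Ex_propStep hz]
    rw [ih (by nlinarith) fun j => (∑ w ∈ range (mhFac z B p b).toNat,
        G (j * ((mhFac z B p b).toNat : ℕ) + w)) / 2 ^ B, ← sum_div, sum_range_mixed, nOf_snoc,
      Int.toNat_mul (nOf_nonneg hz B p) (mhFac_nonneg hz B p b), div_div, ← pow_add]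
    congr 2
    ring

theorem Ex_accept {z : List Bool → ℤ} (hz : ∀ p, 0 ≤ z p) (B : ℕ) {L D : ℕ} {Y : List Bool}
    (hY : Y.length = D) (hL : B * D ≤ L) (m : ℤ) :
    Ex L (fun τ => ind ((propose z B D τ).1 = Y ∧ (propose z B D τ).2 < m)) =
      ((min m (nOf z B Y)).toNat : ℝ) / 2 ^ (B * D) := by
  subst hY
  simp only [ind_and]
  rw [Ex_propose hz B Y (by rwa [mul_comm]) fun j => ind (j < m)]
  congr 1
  have h1 : ∀ j : ℕ, ind ((j : ℤ) < m) = if (j : ℤ) < m then 1 else 0 := fun j => by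
    by_cases h : (j : ℤ) < m <;> simp [ind, h]
  simp only [h1]
  rw [sum_boole]
  congr 1
  have : ((range (nOf z B Y).toNat).filter fun j : ℕ => (j : ℤ) < m) =
      range (min m (nOf z B Y)).toNat := by
    ext j
    simp only [mem_filter, mem_range]
    omega
  rw [this, card_range]

theorem Ex_accept_split {zz : List Bool → List Bool → ℤ} (hz : ∀ p ξ, 0 ≤ zz p ξ) {B D R ℓ : ℕ}
    (hℓ : R + B * D ≤ ℓ) (X : List Bool) {Y : List Bool} (hY : Y.length = D) :
    Ex ℓ (fun τ => ind ((propose (fun p => zz p (τ.take R)) B D (τ.drop R)).1 = Y ∧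
      (propose (fun p => zz p (τ.take R)) B D (τ.drop R)).2 <
        nOf (fun p => zz p (τ.take R)) B X)) =
      Ex R fun ξ => ((min (nOf (fun p => zz p ξ) B X) (nOf (fun p => zz p ξ) B Y)).toNat : ℝ) /
        2 ^ (B * D) := by
  obtain ⟨L, rfl⟩ := Nat.exists_eq_add_of_le ((Nat.le_add_right R (B * D)).trans hℓ)
  rw [Ex_append]
  refine Ex_congr fun ξ hξ => ?_
  subst hξ
  simp only [List.take_left, List.drop_left]
  exact Ex_accept (fun p => hz p ξ) B hY (by omega) _

theorem cntP_nil (valid : List Bool → Bool) (D : ℕ) : cntP valid D [] = (Val valid D).card := by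
  simp [cntP]

theorem cntP_pos {valid : List Bool → Bool} {D : ℕ} {X p : List Bool} (hX : X ∈ Val valid D)
    (hp : p <+: X) : 0 < cntP valid D p :=
  card_pos.2 ⟨X, mem_filter.2 ⟨hX, hp⟩⟩

theorem cntP_le (valid : List Bool → Bool) (D : ℕ) (p : List Bool) : cntP valid D p ≤ 2 ^ D := by
  refine (card_filter_le _ _).trans ((card_filter_le _ _).trans (card_image_le.trans ?_))
  simp

theorem cntP_split (valid : List Bool → Bool) {D : ℕ} {p : List Bool} (hp : p.length < D) :
    cntP valid D p = cntP valid D (p ++ [false]) + cntP valid D (p ++ [true]) := by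
  unfold cntP
  rw [← card_union_of_disjoint]
  · congr 1
    ext X
    simp only [mem_union, mem_filter]
    constructor
    · rintro ⟨hX, t, rfl⟩
      have hl := (mem_Val.1 hX).1
      rcases t with _ | ⟨b, t⟩
      · simp at hl; omega
      · cases b
        · exact Or.inl ⟨hX, t, by simp⟩
        · exact Or.inr ⟨hX, t, by simp⟩
    · rintro (⟨hX, h⟩ | ⟨hX, h⟩) <;> exact ⟨hX, (List.prefix_append _ _).trans h⟩
  · rw [disjoint_left]
    intro X h1 h2
    obtain ⟨t, ht⟩ := (mem_filter.1 h1).2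
    obtain ⟨t', ht'⟩ := (mem_filter.1 h2).2
    rw [← ht'] at ht
    simp at ht

theorem ratio_ge {z0 z1 c0 c1 E : ℝ} (hE : 2 ≤ E) (hc0 : 1 ≤ c0) (hc1 : 0 ≤ c1) (hz1 : 0 ≤ z1)
    (h0 : E * |z0 - c0| ≤ c0) (h1 : E * |z1 - c1| ≤ c1) :
    0 < z0 + z1 ∧ c0 / (c0 + c1) * (1 - 2 / E) ≤ z0 / (z0 + z1) := by
  have hE0 : 0 < E := by linarith
  have a1 : E * (c0 - z0) ≤ c0 :=
    (mul_le_mul_of_nonneg_left (by rw [abs_sub_comm]; exact le_abs_self _) hE0.le).trans h0
  have a2 : E * (z0 - c0) ≤ c0 := (mul_le_mul_of_nonneg_left (le_abs_self _) hE0.le).trans h0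
  have a3 : E * (z1 - c1) ≤ c1 := (mul_le_mul_of_nonneg_left (le_abs_self _) hE0.le).trans h1
  have hz0 : 0 < z0 := by
    by_contra h
    push Not at h
    nlinarith
  have hs : 0 < z0 + z1 := by linarith
  refine ⟨hs, ?_⟩
  have hc : 0 < c0 + c1 := by linarith
  have e1 : c0 / (c0 + c1) * (1 - 2 / E) = c0 * (E - 2) / ((c0 + c1) * E) := by field_simp
  rw [e1, div_le_div_iff₀ (by positivity) hs]
  have b1 : E * (z0 + z1) ≤ (c0 + c1) * (E + 1) := by nlinarith
  have b2 : c0 * (E - 1) ≤ E * z0 := by nlinarith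
  have b3 : c0 * (E - 2) * (E * (z0 + z1)) ≤ c0 * (E - 2) * ((c0 + c1) * (E + 1)) :=
    mul_le_mul_of_nonneg_left b1 (mul_nonneg (by linarith) (by linarith))
  have b4 : c0 * (E - 1) * ((c0 + c1) * E) ≤ E * z0 * ((c0 + c1) * E) :=
    mul_le_mul_of_nonneg_right b2 (by positivity)
  have b5 : c0 * (E - 2) * ((c0 + c1) * (E + 1)) ≤ c0 * (E - 1) * ((c0 + c1) * E) := by
    have : 0 ≤ c0 * (c0 + c1) := by positivity
    nlinarith
  refine le_of_mul_le_mul_left ?_ hE0
  nlinarith

theorem mhFac_ge {valid : List Bool → Bool} {z : List Bool → ℤ} (hz : ∀ p, 0 ≤ z p) {B D E : ℕ}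
    (hE : 2 ≤ E) (hB : 2 ^ D * E ≤ 2 ^ B) {p : List Bool} (hp : p.length < D) (b : Bool)
    (hb : 0 < cntP valid D (p ++ [b]))
    (hg : ∀ c : Bool, (E : ℤ) * |z (p ++ [c]) - cntP valid D (p ++ [c])| ≤ cntP valid D (p ++ [c])) :
    (2 : ℝ) ^ B * ((cntP valid D (p ++ [b]) : ℝ) / cntP valid D p * (1 - 3 / E)) ≤
      mhFac z B p b := by
  have hg' : ∀ c : Bool, (E : ℝ) * |(z (p ++ [c]) : ℝ) - cntP valid D (p ++ [c])| ≤
      cntP valid D (p ++ [c]) := fun c => by exact_mod_cast hg c
  have hz' : ∀ q, (0 : ℝ) ≤ z q := fun q => by exact_mod_cast hz q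
  have hE' : (2 : ℝ) ≤ E := by exact_mod_cast hE
  have hb' : (1 : ℝ) ≤ cntP valid D (p ++ [b]) := by exact_mod_cast hb
  have hsp : (cntP valid D p : ℝ) = cntP valid D (p ++ [false]) + cntP valid D (p ++ [true]) := by
    exact_mod_cast cntP_split valid hp
  have hle : (cntP valid D p : ℝ) * E ≤ 2 ^ B := by
    have := (Nat.mul_le_mul_right E (cntP_le valid D p)).trans hB
    exact_mod_cast this
  have hN : (0 : ℝ) < 2 ^ B := by positivity
  have hE0 : (0 : ℝ) < E := by linarith
  cases b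
  · obtain ⟨hs, hr⟩ := ratio_ge hE' hb' (Nat.cast_nonneg _) (hz' _) (hg' false) (hg' true)
    have hsZ : 0 < z (p ++ [false]) + z (p ++ [true]) := by exact_mod_cast hs
    have h1 := Int.lt_ediv_add_one_mul_self (2 ^ B * z (p ++ [false])) hsZ
    have h2 : (2 : ℝ) ^ B * z (p ++ [false]) <
        ((thr z B p : ℝ) + 1) * (z (p ++ [false]) + z (p ++ [true])) := by
      unfold thr; exact_mod_cast h1
    rw [← div_lt_iff₀ hs, mul_div_assoc] at h2
    rw [← hsp] at hr
    have hc : (0 : ℝ) < cntP valid D p := by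
      rw [hsp]; linarith [Nat.cast_nonneg (α := ℝ) (cntP valid D (p ++ [true]))]
    have h3 : (1 : ℝ) ≤ 2 ^ B * ((cntP valid D (p ++ [false]) : ℝ) / cntP valid D p * (1 / E)) := by
      have : (2 : ℝ) ^ B * ((cntP valid D (p ++ [false]) : ℝ) / cntP valid D p * (1 / E)) =
          2 ^ B * cntP valid D (p ++ [false]) / (cntP valid D p * E) := by field_simp
      rw [this, le_div_iff₀ (by positivity)]
      nlinarith
    have h4 := mul_le_mul_of_nonneg_left hr hN.le
    have h5 : (1 : ℝ) - 3 / E = (1 - 2 / E) - 1 / E := by ring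
    simp only [mhFac, Bool.false_eq_true, if_false]
    rw [h5]
    nlinarith
  · obtain ⟨hs, hr⟩ := ratio_ge hE' hb' (Nat.cast_nonneg _) (hz' _) (hg' true) (hg' false)
    rw [add_comm] at hs
    have hsZ : 0 < z (p ++ [false]) + z (p ++ [true]) := by exact_mod_cast hs
    have h1 := Int.ediv_mul_le (2 ^ B * z (p ++ [false])) hsZ.ne'
    have h2 : (thr z B p : ℝ) * (z (p ++ [false]) + z (p ++ [true])) ≤
        (2 : ℝ) ^ B * z (p ++ [false]) := by
      unfold thr; exact_mod_cast h1
    rw [← le_div_iff₀ hs] at h2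
    rw [add_comm (cntP valid D (p ++ [true]) : ℝ), ← hsp, add_comm (z (p ++ [true]) : ℝ)] at hr
    have h3 : (2 : ℝ) ^ B * z (p ++ [false]) / (z (p ++ [false]) + z (p ++ [true])) =
        2 ^ B - 2 ^ B * (z (p ++ [true]) / (z (p ++ [false]) + z (p ++ [true]))) := by
      field_simp; ring
    have h4 := mul_le_mul_of_nonneg_left hr hN.le
    have h5 : (1 : ℝ) - 3 / E = (1 - 2 / E) - 1 / E := by ring
    have h6 : (0 : ℝ) ≤ 2 ^ B * ((cntP valid D (p ++ [true]) : ℝ) / cntP valid D p * (1 / E)) := by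
      positivity
    simp only [mhFac, if_true]
    push_cast
    rw [h5]
    nlinarith

theorem nOf_ge {valid : List Bool → Bool} {z : List Bool → ℤ} (hz : ∀ p, 0 ≤ z p) {B D E : ℕ}
    (hE0 : 0 < E) (hE : 6 * D ≤ E) (hB : 2 ^ D * E ≤ 2 ^ B) {X : List Bool}
    (hX : X ∈ Val valid D)
    (hg : ∀ i < D, ∀ c : Bool, (E : ℤ) * |z (X.take i ++ [c]) - cntP valid D (X.take i ++ [c])| ≤
      cntP valid D (X.take i ++ [c])) :
    (2 : ℝ) ^ (B * D) / (2 * ((Val valid D).card : ℝ)) ≤ nOf z B X := by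
  have hl := (mem_Val.1 hX).1
  have hE' : (0 : ℝ) < E := by exact_mod_cast hE0
  have hED : 6 * (D : ℝ) ≤ E := by exact_mod_cast hE
  have hZ : (0 : ℝ) < (Val valid D).card := by exact_mod_cast card_pos.2 ⟨X, hX⟩
  have key : ∀ i ≤ D, (2 : ℝ) ^ (B * i) * ((cntP valid D (X.take i) : ℝ) / (Val valid D).card *
      (1 - 3 * i / E)) ≤ nOf z B (X.take i) := by
    intro i hi
    induction i with
    | zero => simp [nOf_nil, cntP_nil, hZ.ne']
    | succ i ih =>
      have hi' : i < X.length := by omega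
      have ih' := ih (by omega)
      have ht : X.take (i + 1) = X.take i ++ [X[i]] := List.take_succ_eq_append_getElem hi'
      have hpos : 0 < cntP valid D (X.take i ++ [X[i]]) :=
        cntP_pos hX (ht ▸ List.take_prefix _ _)
      have hf := mhFac_ge (valid := valid) hz (B := B) (D := D) (E := E) (by omega) hB
        (p := X.take i) (by simp; omega) X[i] hpos (hg i (by omega))
      have hc : (0 : ℝ) < cntP valid D (X.take i) := by
        exact_mod_cast cntP_pos hX (List.take_prefix i X)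
      have hiD : (i : ℝ) + 1 ≤ D := by exact_mod_cast hi
      have hi0 : (0 : ℝ) ≤ i := Nat.cast_nonneg i
      have h1 : (0 : ℝ) ≤ 1 - 3 * i / E := by
        rw [sub_nonneg, div_le_one hE']; linarith
      have h2 : (0 : ℝ) ≤ 1 - 3 / E := by
        rw [sub_nonneg, div_le_one hE']; linarith
      rw [ht, nOf_snoc]
      push_cast
      refine le_trans ?_ (mul_le_mul ih' hf (by positivity) ((by positivity : (0 : ℝ) ≤ _).trans ih'))
      have h3 : (2 : ℝ) ^ (B * i) * ((cntP valid D (X.take i) : ℝ) / (Val valid D).card *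
          (1 - 3 * i / E)) * (2 ^ B * ((cntP valid D (X.take i ++ [X[i]]) : ℝ) /
            cntP valid D (X.take i) * (1 - 3 / E))) =
          2 ^ (B * (i + 1)) * ((cntP valid D (X.take i ++ [X[i]]) : ℝ) / (Val valid D).card *
            ((1 - 3 * i / E) * (1 - 3 / E))) := by
        rw [mul_add, mul_one, pow_add]; field_simp
      rw [h3]
      refine mul_le_mul_of_nonneg_left (mul_le_mul_of_nonneg_left ?_ (by positivity))
        (by positivity)
      have h4 : (0 : ℝ) ≤ 3 * i / E * (3 / E) := by positivity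
      have h5 : 3 * ((i : ℝ) + 1) / E = 3 * i / E + 3 / E := by ring
      nlinarith
  have h := key D le_rfl
  rw [List.take_of_length_le hl.le] at h
  refine le_trans ?_ h
  have h1 : (1 : ℝ) ≤ cntP valid D X := by exact_mod_cast cntP_pos hX (List.prefix_refl X)
  have h2 : (1 : ℝ) / 2 ≤ 1 - 3 * D / E := by
    have : 3 * (D : ℝ) / E ≤ 1 / 2 := by rw [div_le_iff₀ hE']; linarith
    linarith
  have h3 : (2 : ℝ) ^ (B * D) / (2 * ((Val valid D).card : ℝ)) =
      2 ^ (B * D) * (1 / (Val valid D).card * (1 / 2)) := by field_simp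
  rw [h3]
  exact mul_le_mul_of_nonneg_left (mul_le_mul (div_le_div_of_nonneg_right h1 hZ.le) h2
    (by norm_num) (by positivity)) (by positivity)

section

variable {valid : List Bool → Bool} {zz : List Bool → List Bool → ℤ} {B D R ℓ E : ℕ} {β : ℝ}

theorem mh_symm (hz : ∀ p ξ, 0 ≤ zz p ξ) (hℓ : R + B * D ≤ ℓ) {X Y : List Bool}
    (hX : X ∈ Val valid D) (hY : Y ∈ Val valid D) :
    Ex ℓ (fun τ => ind (mh valid zz B D R X τ = Y)) =
      Ex ℓ (fun τ => ind (mh valid zz B D R Y τ = X)) := by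
  have key : ∀ {X Y : List Bool}, Y ∈ Val valid D → X ≠ Y →
      Ex ℓ (fun τ => ind (mh valid zz B D R X τ = Y)) =
      Ex R fun ξ => ((min (nOf (fun p => zz p ξ) B X) (nOf (fun p => zz p ξ) B Y)).toNat : ℝ) /
        2 ^ (B * D) := by
    intro X Y hY hne
    rw [← Ex_accept_split hz hℓ X (mem_Val.1 hY).1]
    refine Ex_congr fun τ _ => ind_congr ?_
    unfold mh
    split_ifs with h
    · exact ⟨fun h' => ⟨h', h.2⟩, fun h' => h'.1⟩
    · exact ⟨fun h' => absurd h' hne, fun h' => absurd ⟨h'.1 ▸ (mem_Val.1 hY).2, h'.2⟩ h⟩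
  by_cases hXY : X = Y
  · subst hXY; rfl
  · rw [key hY hXY, key hX (Ne.symm hXY)]
    simp only [min_comm]

theorem mh_doeblin (hz : ∀ p ξ, 0 ≤ zz p ξ) (hℓ : R + B * D ≤ ℓ) (hE0 : 0 < E) (hE : 6 * D ≤ E)
    (hB : 2 ^ D * E ≤ 2 ^ B) (hβ : 8 * D * β ≤ 1)
    (hgood : ∀ p : List Bool, p.length ≤ D →
      Ex R (fun ξ => ind ((cntP valid D p : ℤ) < E * |zz p ξ - cntP valid D p|)) ≤ β)
    {X Y : List Bool} (hX : X ∈ Val valid D) (hY : Y ∈ Val valid D) :
    1 / (4 * ((Val valid D).card : ℝ)) ≤ Ex ℓ (fun τ => ind (mh valid zz B D R X τ = Y)) := by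
  have hZ : (0 : ℝ) < (Val valid D).card := by exact_mod_cast card_pos.2 ⟨X, hX⟩
  set bad : List Bool → List Bool → Prop :=
    fun p ξ => (cntP valid D p : ℤ) < E * |zz p ξ - cntP valid D p| with hbad
  set S : List Bool → List Bool → ℝ := fun W ξ =>
    ∑ i ∈ range D, (ind (bad (W.take i ++ [false]) ξ) + ind (bad (W.take i ++ [true]) ξ)) with hS
  have hS0 : ∀ W ξ, 0 ≤ S W ξ := fun W ξ =>
    sum_nonneg fun i _ => add_nonneg (ind_nonneg _) (ind_nonneg _)
  have hSE : ∀ W, Ex R (S W) ≤ 2 * D * β := by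
    intro W
    rw [hS]
    simp only
    rw [Ex_sum]
    calc _ ≤ ∑ _i ∈ range D, 2 * β := by
          refine sum_le_sum fun i hi => ?_
          have hi' := mem_range.1 hi
          rw [Ex_add]
          have h1 := hgood (W.take i ++ [false]) (by simp; omega)
          have h2 := hgood (W.take i ++ [true]) (by simp; omega)
          linarith
      _ = 2 * D * β := by simp; ring
  have hSg : ∀ W ∈ Val valid D, ∀ ξ, S W ξ < 1 →
      (2 : ℝ) ^ (B * D) / (2 * ((Val valid D).card : ℝ)) ≤ nOf (fun p => zz p ξ) B W := by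
    intro W hW ξ h
    refine nOf_ge (fun p => hz p ξ) hE0 hE hB hW fun i hi c => ?_
    by_contra hc
    push Not at hc
    have h1 := single_le_sum (f := fun i => ind (bad (W.take i ++ [false]) ξ) +
      ind (bad (W.take i ++ [true]) ξ)) (fun i _ => add_nonneg (ind_nonneg _) (ind_nonneg _))
      (mem_range.2 hi)
    have h2 : ind (bad (W.take i ++ [c]) ξ) = 1 := ind_of hc
    have h3 := ind_nonneg (bad (W.take i ++ [false]) ξ)
    have h4 := ind_nonneg (bad (W.take i ++ [true]) ξ)
    have h5 : S W ξ = ∑ i ∈ range D,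
      (ind (bad (W.take i ++ [false]) ξ) + ind (bad (W.take i ++ [true]) ξ)) := rfl
    cases c <;> linarith
  calc 1 / (4 * ((Val valid D).card : ℝ))
      ≤ (1 / (2 * ((Val valid D).card : ℝ))) * (1 - (Ex R (S X) + Ex R (S Y))) := by
        have h1 := hSE X
        have h2 := hSE Y
        have h3 : 1 / (4 * ((Val valid D).card : ℝ)) =
            (1 / (2 * ((Val valid D).card : ℝ))) * (1 / 2) := by field_simp; norm_num
        rw [h3]
        exact mul_le_mul_of_nonneg_left (by linarith) (by positivity)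
    _ = Ex R fun ξ => (1 / (2 * ((Val valid D).card : ℝ))) * (1 - (S X ξ + S Y ξ)) := by
        rw [Ex_mul_left, Ex_sub, Ex_const, Ex_add]
    _ ≤ Ex R fun ξ => ((min (nOf (fun p => zz p ξ) B X) (nOf (fun p => zz p ξ) B Y)).toNat : ℝ) /
        2 ^ (B * D) := by
        refine Ex_mono fun ξ _ => ?_
        have h1 := hS0 X ξ
        have h2 := hS0 Y ξ
        by_cases h : S X ξ + S Y ξ < 1
        · have h3 := hSg X hX ξ (by linarith)
          have h4 := hSg Y hY ξ (by linarith)
          have h5 : ((min (nOf (fun p => zz p ξ) B X) (nOf (fun p => zz p ξ) B Y) : ℤ) : ℝ) ≤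
              ((min (nOf (fun p => zz p ξ) B X) (nOf (fun p => zz p ξ) B Y)).toNat : ℝ) := by
            exact_mod_cast Int.self_le_toNat _
          rw [Int.cast_min] at h5
          have h6 := (le_min h3 h4).trans h5
          rw [le_div_iff₀ (by positivity)]
          refine le_trans ?_ h6
          have h7 : (2 : ℝ) ^ (B * D) / (2 * ((Val valid D).card : ℝ)) =
              (1 / (2 * ((Val valid D).card : ℝ))) * 1 * 2 ^ (B * D) := by field_simp
          rw [h7]
          exact mul_le_mul_of_nonneg_right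
            (mul_le_mul_of_nonneg_left (by linarith) (by positivity)) (by positivity)
        · exact (mul_nonpos_of_nonneg_of_nonpos (by positivity) (by linarith)).trans
            (by positivity)
    _ ≤ _ := by
        rw [← Ex_accept_split hz hℓ X (mem_Val.1 hY).1]
        refine Ex_mono fun τ _ => ind_mono fun h => ?_
        unfold mh
        rw [if_pos ⟨h.1 ▸ (mem_Val.1 hY).2, h.2⟩]
        exact h.1

end

theorem opS_eq_sum {σ : Type} {Ω : Finset σ} {step : σ → List Bool → σ} (ℓ : ℕ)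
    (hmem : ∀ X ∈ Ω, ∀ τ, step X τ ∈ Ω) (g : σ → ℝ) {X : σ} (hX : X ∈ Ω) :
    opS step ℓ g X = ∑ Y ∈ Ω, Ex ℓ (fun τ => ind (step X τ = Y)) * g Y := by
  simp only [← Ex_mul_right]
  rw [← Ex_sum]
  refine Ex_congr fun τ _ => ?_
  rw [sum_eq_single (step X τ)]
  · rw [ind_of rfl, one_mul]
  · intro Y _ hY
    rw [ind_of_not (Ne.symm hY), zero_mul]
  · intro h; exact absurd (hmem X hX τ) h

theorem doeblin_iter {σ : Type} {Ω : Finset σ} {step : σ → List Bool → σ} {ℓ : ℕ}
    (hmem : ∀ X ∈ Ω, ∀ τ, step X τ ∈ Ω)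
    (hsymm : ∀ X ∈ Ω, ∀ Y ∈ Ω,
      Ex ℓ (fun τ => ind (step X τ = Y)) = Ex ℓ (fun τ => ind (step Y τ = X)))
    (hlow : ∀ X ∈ Ω, ∀ Y ∈ Ω, 1 / (4 * (Ω.card : ℝ)) ≤ Ex ℓ (fun τ => ind (step X τ = Y)))
    (g : σ → ℝ) (h0 : ∑ Y ∈ Ω, g Y = 0) (h1 : ∀ Y ∈ Ω, |g Y| ≤ 1) (t : ℕ) :
    ∑ X ∈ Ω, (opS step ℓ)^[t] g X = 0 ∧ ∀ X ∈ Ω, |(opS step ℓ)^[t] g X| ≤ (3 / 4) ^ t := by
  have hrow : ∀ X ∈ Ω, ∑ Y ∈ Ω, Ex ℓ (fun τ => ind (step X τ = Y)) = 1 := by
    intro X hX
    have := opS_eq_sum ℓ hmem (fun _ => 1) hX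
    simp only [mul_one] at this
    rw [← this]
    exact Ex_const ℓ 1
  induction t with
  | zero => exact ⟨h0, by simpa using h1⟩
  | succ t ih =>
    obtain ⟨g0, g1⟩ := ih
    rw [Function.iterate_succ_apply']
    set h := (opS step ℓ)^[t] g
    constructor
    · rw [sum_congr rfl fun X hX => opS_eq_sum ℓ hmem h hX, sum_comm, ← g0]
      refine sum_congr rfl fun Y hY => ?_
      rw [← sum_mul, sum_congr rfl fun X hX => hsymm X hX Y hY, hrow Y hY, one_mul]
    · intro X hX
      have hc : (0 : ℝ) < Ω.card := by exact_mod_cast card_pos.2 ⟨X, hX⟩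
      have e : opS step ℓ h X =
          ∑ Y ∈ Ω, (Ex ℓ (fun τ => ind (step X τ = Y)) - 1 / (4 * (Ω.card : ℝ))) * h Y := by
        simp only [sub_mul]
        rw [sum_sub_distrib, ← mul_sum, g0, mul_zero, sub_zero, opS_eq_sum ℓ hmem h hX]
      rw [e]
      calc _ ≤ ∑ Y ∈ Ω, (Ex ℓ (fun τ => ind (step X τ = Y)) - 1 / (4 * (Ω.card : ℝ))) *
            (3 / 4) ^ t := by
            refine (abs_sum_le_sum_abs _ _).trans (sum_le_sum fun Y hY => ?_)
            have := sub_nonneg.2 (hlow X hX Y hY)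
            rw [abs_mul, abs_of_nonneg this]
            exact mul_le_mul_of_nonneg_left (g1 Y hY) this
        _ = _ := by
            rw [← sum_mul, sum_sub_distrib, hrow X hX, sum_const, nsmul_eq_mul, pow_succ]
            field_simp
            norm_num

/-- Doeblin contraction for a symmetric kernel given by a step function. -/
theorem doeblin_mix {σ : Type} [DecidableEq σ] (Ω : Finset σ) (step : σ → List Bool → σ) (ℓ : ℕ)
    (hmem : ∀ X ∈ Ω, ∀ τ, step X τ ∈ Ω)
    (hsymm : ∀ X ∈ Ω, ∀ Y ∈ Ω,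
      Ex ℓ (fun τ => ind (step X τ = Y)) = Ex ℓ (fun τ => ind (step Y τ = X)))
    (hlow : ∀ X ∈ Ω, ∀ Y ∈ Ω, 1 / (4 * (Ω.card : ℝ)) ≤ Ex ℓ (fun τ => ind (step X τ = Y)))
    {X₀ : σ} (h₀ : X₀ ∈ Ω) {t L : ℕ} (hL : t * ℓ ≤ L) {Y : σ} (hY : Y ∈ Ω) :
    |Ex L (fun τ => ind (foldT (fun _ => step) ℓ t X₀ τ = Y)) - 1 / (Ω.card : ℝ)| ≤ (3 / 4) ^ t := by
  have hc : (0 : ℝ) < Ω.card := by exact_mod_cast card_pos.2 ⟨Y, hY⟩
  have hc1 : 1 / (Ω.card : ℝ) ≤ 1 := by
    rw [div_le_one hc]; exact_mod_cast card_pos.2 ⟨Y, hY⟩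
  have h := (doeblin_iter hmem hsymm hlow (fun x => ind (x = Y) - 1 / (Ω.card : ℝ)) ?_ ?_ t).2 X₀ h₀
  · rwa [← Ex_foldT_iter step hL, Ex_sub, Ex_const] at h
  · rw [sum_sub_distrib, sum_eq_single Y (fun x _ hx => ind_of_not hx) fun h => absurd hY h,
      ind_of rfl, sum_const, nsmul_eq_mul]
    field_simp
    norm_num
  · intro x _
    have h1 := ind_nonneg (x = Y)
    have h2 := ind_le_one (x = Y)
    have h3 : 0 ≤ 1 / (Ω.card : ℝ) := by positivity
    rw [abs_le]
    constructor <;> linarith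

theorem pt_thr {α : Type} [Enc α] {z : α → List Bool → ℤ} {B : α → ℕ} {p : α → List Bool}
    (hz : PT fun q : α × List Bool => z q.1 q.2) (hB : PT B) (hp : PT p) :
    PT fun a => thr (z a) (B a) (p a) := by
  have h0 : PT fun a => z a (p a ++ [false]) :=
    hz.comp (g := fun a => (a, p a ++ [false])) (by fun_prop)
  have h1 : PT fun a => z a (p a ++ [true]) :=
    hz.comp (g := fun a => (a, p a ++ [true])) (by fun_prop)
  unfold thr
  exact PT.int_ediv (PT.int_mul (by fun_prop) h0) (PT.int_add h0 h1)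

theorem pt_nOf {α : Type} [Enc α] {z : α → List Bool → ℤ} {B : α → ℕ} {X : α → List Bool}
    (hz : PT fun q : α × List Bool => z q.1 q.2) (hB : PT B) (hX : PT X) :
    PT fun a => nOf (z a) (B a) (X a) := by
  have h0 : PT fun q : α × ℕ => thr (z q.1) (B q.1) ((X q.1).take q.2) :=
    pt_thr (z := fun q : α × ℕ => z q.1)
      (hz.comp (g := fun q : (α × ℕ) × List Bool => (q.1.1, q.2)) (by fun_prop)) (by fun_prop)
      (by fun_prop)
  unfold nOf
  refine PT.int_prod (pt_tab (by fun_prop) ?_)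
  exact PT.ite (by fun_prop) (PT.int_sub (by fun_prop) h0) h0

theorem thr_range {z : List Bool → ℤ} (hz : ∀ p, 0 ≤ z p) (B : ℕ) (p : List Bool) :
    0 ≤ thr z B p ∧ thr z B p ≤ 2 ^ B := by
  have h0 := hz (p ++ [false])
  have h1 := hz (p ++ [true])
  have h2 : (0 : ℤ) < 2 ^ B := by positivity
  refine ⟨Int.ediv_nonneg (by positivity) (by positivity), ?_⟩
  unfold thr
  rcases (add_nonneg h0 h1).eq_or_lt with h | h
  · rw [← h, Int.ediv_zero]; exact h2.le
  · exact Int.ediv_le_of_le_mul h (by nlinarith)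

theorem propose_range {z : List Bool → ℤ} (hz : ∀ p, 0 ≤ z p) (B D : ℕ) (τ : List Bool) :
    (propose z B D τ).1.length = D ∧ 0 ≤ (propose z B D τ).2 ∧
      (propose z B D τ).2 < 2 ^ (B * D) := by
  induction D with
  | zero => simp [propose, foldT_zero]
  | succ D ih =>
    obtain ⟨h1, h2, h3⟩ := ih
    have e : propose z B (D + 1) τ = propStep z B (propose z B D τ) (chunk B D τ) :=
      foldT_succ _ _ _ _ _
    obtain ⟨t1, t2⟩ := thr_range hz B (propose z B D τ).1
    have n1 := num_nonneg (chunk B D τ)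
    have n2 : num (chunk B D τ) < 2 ^ B :=
      (num_lt _).trans_le (pow_le_pow_right₀ (by norm_num) (List.length_take_le _ _))
    have h4 : (propose z B D τ).2 + 1 ≤ 2 ^ (B * D) := h3
    rw [e, Nat.mul_succ, pow_add]
    unfold propStep
    split_ifs with hc
    · refine ⟨by simp [h1], by positivity, ?_⟩
      calc _ < ((propose z B D τ).2 + 1) * thr z B (propose z B D τ).1 := by
            show _ + _ < _
            linarith
        _ ≤ _ := mul_le_mul h4 t2 t1 (by positivity)
    · have t3 : 0 ≤ 2 ^ B - thr z B (propose z B D τ).1 := by linarith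
      refine ⟨by simp [h1], add_nonneg (mul_nonneg h2 t3) (by linarith), ?_⟩
      calc _ < ((propose z B D τ).2 + 1) * (2 ^ B - thr z B (propose z B D τ).1) := by
            show _ + _ < _
            linarith
        _ ≤ _ := mul_le_mul h4 (by linarith) t3 (by positivity)

theorem pt_propose {α : Type} [Enc α] {z : α → List Bool → ℤ} {B D : α → ℕ} {τ : α → List Bool}
    (hz : PT fun q : α × List Bool => z q.1 q.2) (hz0 : ∀ a p, 0 ≤ z a p) (hB : PT B) (hD : PT D)
    (hτ : PT τ) : PT fun a => propose (z a) (B a) (D a) (τ a) := by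
  have h0 : PT fun q : α × ℕ × (List Bool × ℤ) × List Bool => thr (z q.1) (B q.1) q.2.2.1.1 :=
    pt_thr (z := fun q : α × ℕ × (List Bool × ℤ) × List Bool => z q.1)
      (hz.comp (g := fun q : (α × ℕ × (List Bool × ℤ) × List Bool) × List Bool => (q.1.1, q.2))
        (by fun_prop)) (by fun_prop) (by fun_prop)
  refine pt_foldT (step := fun a _ => propStep (z a) (B a)) ?_ hB hD (by fun_prop) hτ
    (B := fun a => 6 * D a + 2 + B a * D a)
    (PB.of_PT (by fun_prop)) fun a i hi => ?_
  · unfold propStep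
    exact PT.ite (PT.int_lt (by fun_prop) h0)
      (PT.pair (by fun_prop) (PT.int_add (PT.int_mul (by fun_prop) h0) (by fun_prop)))
      (PT.pair (by fun_prop) (PT.int_add (PT.int_mul (by fun_prop) (PT.int_sub (by fun_prop) h0))
        (PT.int_sub (by fun_prop) h0)))
  · obtain ⟨h1, h2, h3⟩ := propose_range (hz0 a) (B a) i (τ a)
    show size (propose (z a) (B a) i (τ a)) ≤ _
    rw [size_prod', size_list_bool, h1, size_int]
    have h4 : (propose (z a) (B a) i (τ a)).2.natAbs.size ≤ B a * i := by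
      rw [Nat.size_le]
      zify
      rwa [abs_of_nonneg h2]
    have h5 := Nat.mul_le_mul_left (B a) hi
    omega

theorem pt_mh {α : Type} [Enc α] {valid : α → List Bool → Bool}
    {zz : α → List Bool → List Bool → ℤ} {B D R : α → ℕ} {X τ : α → List Bool}
    (hv : PT fun p : α × List Bool => valid p.1 p.2)
    (hz : PT fun p : α × List Bool × List Bool => zz p.1 p.2.1 p.2.2)
    (hz0 : ∀ a p ξ, 0 ≤ zz a p ξ) (hB : PT B) (hD : PT D) (hR : PT R) (hX : PT X) (hτ : PT τ) :
    PT fun a => mh (valid a) (zz a) (B a) (D a) (R a) (X a) (τ a) := by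
  have hz' : PT fun q : α × List Bool => zz q.1 q.2 ((τ q.1).take (R q.1)) :=
    hz.comp (g := fun q : α × List Bool => (q.1, q.2, (τ q.1).take (R q.1))) (by fun_prop)
  have hp : PT fun a => propose (fun p => zz a p ((τ a).take (R a))) (B a) (D a)
      ((τ a).drop (R a)) :=
    pt_propose (z := fun a p => zz a p ((τ a).take (R a))) hz' (fun a p => hz0 a p _) hB hD
      (by fun_prop)
  have hn : PT fun a => nOf (fun p => zz a p ((τ a).take (R a))) (B a) (X a) :=
    pt_nOf (z := fun a p => zz a p ((τ a).take (R a))) hz' hB hX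
  unfold mh
  exact PT.ite (PT.decide_and (PT.decide_eq_true (hv.comp (PT.pair PT.id' hp.fst)))
    (PT.int_lt hp.snd hn)) hp.fst hX

end Crest.Agent.R309
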