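import Crest.Agent.R309.Impl

/-!
# Row 309: the chain runs in polynomial time

Every definition of `Impl.lean` up to `run` gets a `@[fun_prop]` lemma.  For `run` we use `pt_foldT`: on every
input a state is the initial one or a proposal accepted by `inOm`; such a proposal is the current state, or has
`M` entries inside `[lo' e, hi' e]` and a token among `uN`, `vN`, `rootN` values, numbers `≤ 3M + nv` or the
old token.
-/

set_option autoImplicit false

namespace Crest.Agent.R309

open Crest.Agent.Lib.PolyTime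

variable {α : Type} [Enc α]

@[fun_prop] theorem pt_hits {F : α → List Bool → Bool} {ℓ k : α → ℕ} {τ : α → List Bool}
    (hF : PT fun q : α × List Bool => F q.1 q.2) (hℓ : PT ℓ) (hk : PT k) (hτ : PT τ) :
    PT fun a => hits (F a) (ℓ a) (k a) (τ a) := by
  unfold hits
  refine PT.length (PT.filter ?_ (PT.range hk))
  exact hF.comp (g := fun q : α × ℕ => (q.1, chunk (ℓ q.1) q.2 (τ q.1))) (by fun_prop)

@[fun_prop] theorem pt_median {l : α → List ℤ} (hl : PT l) : PT fun a => median (l a) := by
  unfold median; fun_prop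

@[fun_prop] theorem pt_factZ {i k : α → ℕ} (hi : PT i) (hk : PT k) :
    PT fun a => factZ (i a) (k a) := by
  unfold factZ; fun_prop

@[fun_prop] theorem pt_tayD {k : α → ℕ} {b : α → ℤ} (hk : PT k) (hb : PT b) :
    PT fun a => tayD (k a) (b a) := by
  unfold tayD; fun_prop

@[fun_prop] theorem pt_tayN {k : α → ℕ} {c b : α → ℤ} (hk : PT k) (hc : PT c) (hb : PT b) :
    PT fun a => tayN (k a) (c a) (b a) := by
  unfold tayN; fun_prop

theorem getD_nat_le_size (l : List ℕ) (i : ℕ) : l.getD i 0 ≤ size l := by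
  rcases lt_or_ge i l.length with h | h
  · have h1 : l.getD i 0 ∈ l := by
      rw [List.getD_eq_getElem _ _ h]
      exact List.getElem_mem h
    have := size_le_of_mem h1
    rwa [size_nat] at this
  · rw [List.getD_eq_default _ _ h]
    exact Nat.zero_le _

theorem size_tab_le_sum {β : Type} [Enc β] (n : ℕ) (g : ℕ → β) (c : ℕ → ℕ)
    (h : ∀ i < n, size (g i) ≤ c i) : size (tab n g) ≤ (tab n fun i => 2 * c i + 1).sum := by
  induction n with
  | zero => simp [tab]
  | succ n ih =>
    have h1 := ih fun i hi => h i (Nat.lt_succ_of_lt hi)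
    have h2 := h n (Nat.lt_succ_self n)
    simp only [tab, List.range_succ, List.map_append, List.map_cons, List.map_nil, size_append,
      size_cons, size_nil, List.sum_append, List.sum_cons, List.sum_nil] at h1 ⊢
    omega

theorem size_int_between {a x b : ℤ} (h1 : a ≤ x) (h2 : x ≤ b) : size x ≤ size a + size b := by
  rcases le_total 0 x with h | h
  · have := size_int_le_of_natAbs_le (a := x) (b := b) (by omega)
    omega
  · have := size_int_le_of_natAbs_le (a := x) (b := a) (by omega)
    omega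

namespace Pre

variable {p : α → Pre} {e j s w t : α → ℕ} {x li : α → ℤ} {X : α → List ℤ} {τ : α → List Bool}
  {row : α → List (ℤ × ℤ)} {y : α → List ℤ × ℕ}

@[fun_prop] theorem pt_I (hp : PT p) : PT fun a => (p a).I := by unfold I; fun_prop
@[fun_prop] theorem pt_X0 (hp : PT p) : PT fun a => (p a).X0 := by unfold X0; fun_prop
@[fun_prop] theorem pt_roots (hp : PT p) : PT fun a => (p a).roots := by unfold roots; fun_prop
@[fun_prop] theorem pt_paths (hp : PT p) : PT fun a => (p a).paths := by unfold paths; fun_prop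
@[fun_prop] theorem pt_trees (hp : PT p) : PT fun a => (p a).trees := by unfold trees; fun_prop
@[fun_prop] theorem pt_M0 (hp : PT p) : PT fun a => (p a).M0 := by unfold M0; fun_prop
@[fun_prop] theorem pt_n (hp : PT p) : PT fun a => (p a).n := by unfold n; fun_prop
@[fun_prop] theorem pt_nZ (hp : PT p) : PT fun a => (p a).nZ := by unfold nZ; fun_prop
@[fun_prop] theorem pt_K (hp : PT p) : PT fun a => (p a).K := by unfold K; fun_prop
@[fun_prop] theorem pt_l1 (hp : PT p) : PT fun a => (p a).l1 := by unfold l1; fun_prop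
@[fun_prop] theorem pt_rho (hp : PT p) (he : PT e) : PT fun a => (p a).rho (e a) := by
  unfold rho; fun_prop
@[fun_prop] theorem pt_thick (hp : PT p) (he : PT e) : PT fun a => (p a).thick (e a) := by
  unfold thick; fun_prop
@[fun_prop] theorem pt_tree (hp : PT p) (he : PT e) : PT fun a => (p a).tree (e a) := by
  unfold tree; fun_prop
@[fun_prop] theorem pt_rootN (hp : PT p) (he : PT e) : PT fun a => (p a).rootN (e a) := by
  unfold rootN; fun_prop
@[fun_prop] theorem pt_pathN (hp : PT p) (he : PT e) (ht : PT t) :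
    PT fun a => (p a).pathN (e a) (t a) := by
  unfold pathN; fun_prop
@[fun_prop] theorem pt_star (hp : PT p) (he : PT e) : PT fun a => (p a).star (e a) := by
  unfold star; fun_prop
@[fun_prop] theorem pt_free (hp : PT p) (he : PT e) : PT fun a => (p a).free (e a) := by
  unfold free; fun_prop
@[fun_prop] theorem pt_ann (hp : PT p) (he : PT e) : PT fun a => (p a).ann (e a) := by
  unfold ann; fun_prop
@[fun_prop] theorem pt_st (hp : PT p) (he : PT e) : PT fun a => (p a).st (e a) := by
  unfold st; fun_prop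
@[fun_prop] theorem pt_sig (hp : PT p) (he : PT e) : PT fun a => (p a).sig (e a) := by
  unfold sig; fun_prop
@[fun_prop] theorem pt_lo' (hp : PT p) (he : PT e) : PT fun a => (p a).lo' (e a) := by
  unfold lo'; fun_prop
@[fun_prop] theorem pt_hi' (hp : PT p) (he : PT e) : PT fun a => (p a).hi' (e a) := by
  unfold hi'; fun_prop
@[fun_prop] theorem pt_len (hp : PT p) (he : PT e) : PT fun a => (p a).len (e a) := by
  unfold len; fun_prop
@[fun_prop] theorem pt_cycN (hp : PT p) (he : PT e) (hj : PT j) :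
    PT fun a => (p a).cycN (e a) (j a) := by
  unfold cycN; fun_prop
@[fun_prop] theorem pt_pathS (hp : PT p) (he : PT e) (hj : PT j) :
    PT fun a => (p a).pathS (e a) (j a) := by
  unfold pathS; fun_prop
@[fun_prop] theorem pt_cycS (hp : PT p) (he : PT e) (hj : PT j) :
    PT fun a => (p a).cycS (e a) (j a) := by
  unfold cycS; fun_prop
@[fun_prop] theorem pt_jj (hp : PT p) (hs : PT s) (he : PT e) :
    PT fun a => (p a).jj (s a) (e a) := by
  unfold jj; fun_prop
@[fun_prop] theorem pt_qd (hp : PT p) (he : PT e) : PT fun a => (p a).qd (e a) := by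
  unfold qd; fun_prop
@[fun_prop] theorem pt_qn (hp : PT p) (he : PT e) (hx : PT x) :
    PT fun a => (p a).qn (e a) (x a) := by
  unfold qn; fun_prop
@[fun_prop] theorem pt_den (hp : PT p) (he : PT e) : PT fun a => (p a).den (e a) := by
  unfold den; fun_prop
@[fun_prop] theorem pt_cc (hp : PT p) (he : PT e) : PT fun a => (p a).cc (e a) := by
  unfold cc; fun_prop
@[fun_prop] theorem pt_y1 (hp : PT p) (hj : PT j) (he : PT e) (hx : PT x) :
    PT fun a => (p a).y1 (j a) (e a) (x a) := by
  unfold y1; fun_prop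
@[fun_prop] theorem pt_y2 (hp : PT p) (hj : PT j) (he : PT e) (hx : PT x) :
    PT fun a => (p a).y2 (j a) (e a) (x a) := by
  unfold y2; fun_prop
@[fun_prop] theorem pt_fn (hp : PT p) (hj : PT j) (he : PT e) (hx : PT x) :
    PT fun a => (p a).fn (j a) (e a) (x a) := by
  have _ := hj
  unfold fn; fun_prop
@[fun_prop] theorem pt_fd (hp : PT p) (hj : PT j) (he : PT e) (hx : PT x) :
    PT fun a => (p a).fd (j a) (e a) (x a) := by
  unfold fd; fun_prop
@[fun_prop] theorem pt_prodN (hp : PT p) (hs : PT s) (hX : PT X) :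
    PT fun a => (p a).prodN (s a) (X a) := by
  unfold prodN; fun_prop
@[fun_prop] theorem pt_prodD (hp : PT p) (hs : PT s) (hX : PT X) :
    PT fun a => (p a).prodD (s a) (X a) := by
  unfold prodD; fun_prop
@[fun_prop] theorem pt_Wn (hp : PT p) (hs : PT s) (hr : PT row) (hy : PT y) :
    PT fun a => (p a).Wn (s a) (row a) (y a) := by
  unfold Wn; fun_prop
@[fun_prop] theorem pt_Wd (hp : PT p) (hs : PT s) (hw : PT w) (hr : PT row) (hl : PT li)
    (hy : PT y) : PT fun a => (p a).Wd (s a) (w a) (row a) (li a) (y a) := by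
  unfold Wd; fun_prop
@[fun_prop] theorem pt_inOm (hp : PT p) (hw : PT w) (hy : PT y) :
    PT fun a => (p a).inOm (w a) (y a) := by
  unfold inOm; fun_prop
@[fun_prop] theorem pt_mvN (hp : PT p) (he : PT e) (hx : PT x) (hw : PT w) :
    PT fun a => (p a).mvN (e a) (x a) (w a) := by
  unfold mvN; fun_prop
@[fun_prop] theorem pt_propN {sg : α → Bool} {r : α → List ℤ × ℕ × ℕ} (hp : PT p) (hy : PT y)
    (hs : PT sg) (hr : PT r) : PT fun a => (p a).propN (y a) (sg a) (r a) := by
  unfold propN; fun_prop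
@[fun_prop] theorem pt_propT (hp : PT p) (hy : PT y) (hτ : PT τ) :
    PT fun a => (p a).propT (y a) (τ a) := by
  unfold propT
  refine pt_propN hp hy (by fun_prop) (pt_mvN hp ?_ (by fun_prop) (by fun_prop))
  exact pt_toNat_emod (k := fun a => 3 * (p a).I.M + (p a).I.nv) (by fun_prop) (by fun_prop)
@[fun_prop] theorem pt_step (hp : PT p) (hs : PT s) (hw : PT w) (hr : PT row) (hl : PT li)
    (hy : PT y) (hτ : PT τ) :
    PT fun a => (p a).step (s a) (w a) (row a) (li a) (y a) (τ a) := by
  unfold step; fun_prop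

/-- size of a vector inside the model box -/
def boxSize (p : Pre) : ℕ :=
  (tab p.I.M fun e => 2 * (size (p.lo' e) + size (p.hi' e)) + 1).sum

theorem pb_boxSize (hp : PT p) : PB fun a => (p a).boxSize := by
  refine PB.of_PT ?_
  unfold boxSize; fun_prop

/-- bound for the token -/
def tokB (p : Pre) : ℕ := size p.I.us + size p.I.vs + size p.roots + (3 * p.I.M + p.I.nv)

theorem mvN_tok (p : Pre) {i : ℕ} (hi : i ≤ 3 * p.I.M + p.I.nv) (J : ℤ) (a : ℕ) :
    (p.mvN i J a).2.1 ≤ max a p.tokB ∧ (p.mvN i J a).2.2 ≤ max a p.tokB := by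
  have h1 := getD_nat_le_size p.I.us i
  have h2 := getD_nat_le_size p.I.vs i
  have h3 := getD_nat_le_size p.roots (i - 3 * p.I.M)
  unfold mvN tokB
  split_ifs
  · simp only [Inst.uN, Inst.vN]; omega
  · simp only; omega
  · simp only; omega
  · simp only [rootN]; omega

theorem propN_cases (p : Pre) (x : List ℤ × ℕ) (sg : Bool) (r : List ℤ × ℕ × ℕ) :
    p.propN x sg r = x ∨ ∃ g : ℕ → ℤ, (p.propN x sg r).1 = tab p.I.M g ∧
      ((p.propN x sg r).2 = r.2.1 ∨ (p.propN x sg r).2 = r.2.2) := by
  unfold propN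
  split_ifs
  · exact Or.inr ⟨_, rfl, Or.inr rfl⟩
  · exact Or.inl rfl
  · exact Or.inr ⟨_, rfl, Or.inl rfl⟩
  · exact Or.inl rfl

theorem size_le_boxSize (p : Pre) {w : ℕ} {x : List ℤ × ℕ} (h : p.inOm w x = true) {g : ℕ → ℤ}
    (hg : x.1 = tab p.I.M g) : size x.1 ≤ p.boxSize := by
  unfold inOm at h
  rw [Bool.and_eq_true, List.all_eq_true] at h
  rw [hg]
  refine size_tab_le_sum _ _ _ fun e he => ?_
  have h1 := h.1 e (List.mem_range.2 he)
  rw [hg, getD_tab _ _ he, Bool.and_eq_true, decide_eq_true_eq, decide_eq_true_eq] at h1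
  exact size_int_between h1.1 h1.2

theorem step_bound (p : Pre) (s w : ℕ) (row : List (ℤ × ℤ)) (li : ℤ) (x : List ℤ × ℕ)
    (τ : List Bool) :
    size (p.step s w row li x τ).1 ≤ max (size x.1) p.boxSize ∧
      (p.step s w row li x τ).2 ≤ max x.2 p.tokB := by
  unfold step
  split_ifs with h
  · have hi : (num (chunk p.K 1 τ) % ((3 * p.I.M + p.I.nv + 1 : ℕ) : ℤ)).toNat ≤
        3 * p.I.M + p.I.nv := by
      have := Int.emod_lt_of_pos (num (chunk p.K 1 τ))
        (show (0 : ℤ) < ((3 * p.I.M + p.I.nv + 1 : ℕ) : ℤ) by positivity)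
      omega
    have h2 := p.mvN_tok hi (num (chunk p.K 2 τ)) x.2
    rcases p.propN_cases x (τ.getD 1 false) (p.mvN (num (chunk p.K 1 τ) %
        ((3 * p.I.M + p.I.nv + 1 : ℕ) : ℤ)).toNat (num (chunk p.K 2 τ)) x.2) with h1 | ⟨g, hg, h1⟩
    · have h3 : p.propT x τ = x := h1
      rw [h3]
      exact ⟨le_max_left _ _, le_max_left _ _⟩
    · refine ⟨(p.size_le_boxSize h.2.1 (g := g) hg).trans (le_max_right _ _), ?_⟩
      unfold propT
      rcases h1 with h1 | h1
      · rw [h1]; exact h2.1
      · rw [h1]; exact h2.2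
  · exact ⟨le_max_left _ _, le_max_left _ _⟩

theorem foldT_step_bound (p : Pre) (s w : ℕ) (row : List (ℤ × ℤ)) (li : ℤ) (x : List ℤ × ℕ)
    (τ : List Bool) (ℓ i : ℕ) :
    size (foldT (fun _ => p.step s w row li) ℓ i x τ).1 ≤ max (size x.1) p.boxSize ∧
      (foldT (fun _ => p.step s w row li) ℓ i x τ).2 ≤ max x.2 p.tokB := by
  induction i with
  | zero => exact ⟨le_max_left _ _, le_max_left _ _⟩
  | succ i ih =>
    rw [foldT_succ]
    have := p.step_bound s w row li (foldT (fun _ => p.step s w row li) ℓ i x τ) (chunk ℓ i τ)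
    omega

@[fun_prop] theorem pt_run (hp : PT p) (hs : PT s) (hw : PT w) (hr : PT row) (hl : PT li)
    (hX : PT X) (hτ : PT τ) : PT fun a => (p a).run (s a) (w a) (row a) (li a) (X a) (τ a) := by
  unfold run
  refine pt_foldT (step := fun a _ => (p a).step (s a) (w a) (row a) (li a)) (by fun_prop)
    (by fun_prop) (by fun_prop) (by fun_prop) hτ
    (B := fun a => 2 * (size (X a) + (p a).boxSize) + 1 + (w a + (p a).tokB)) ?_ fun a i _ => ?_
  · have h1 := pb_boxSize hp
    have h2 : PB fun a => (p a).tokB := by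
      refine PB.of_PT ?_
      unfold tokB; fun_prop
    have h3 := PB.of_PT hw
    fun_prop
  · have := (p a).foldT_step_bound (s a) (w a) (row a) (li a) (X a, w a) (τ a) (4 * (p a).K) i
    rw [size_prod', size_nat]
    simp only at this
    omega

theorem size_run_fst (p : Pre) (s w : ℕ) (row : List (ℤ × ℤ)) (li : ℤ) (X : List ℤ)
    (τ : List Bool) : size (p.run s w row li X τ).1 ≤ max (size X) p.boxSize :=
  (p.foldT_step_bound s w row li (X, w) τ _ _).1

end Pre

end Crest.Agent.R309
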