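import Crest.Agent.R309.Met

/-!
# Row 309: flows parametrised by the cells outside a spanning forest

Key identity: for every vector `Y`,
`Y = ∑ e, Y e • ec e = ∑ e, Y e • (cyc e + path (u e) - path (v e))
   = ∑ e ∉ tree, Y e • cyc e + ∑ a, del Y a • path a`.
Apply it to `Y = X - X0`, `del Y = ev a - ev w`.  Conversely `del (cyc e) = ev (root (u e)) - ev (root (v e))`,
`Phi y a w` agrees with `y` outside the tree, and `room` puts its tree coordinates in the box.
-/

set_option autoImplicit false

namespace Crest.Agent.R309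

open Finset

/-- A network with a rooted forest and a reference flow. -/
structure Mdl (V : Type) (M : ℕ) where
  u : Fin M → V
  v : Fin M → V
  lo : Fin M → ℤ
  hi : Fin M → ℤ
  t : V → ℤ
  tree : Fin M → Bool
  root : V → V
  path : V → Fin M → ℤ
  X0 : Fin M → ℤ

namespace Mdl

variable {V : Type} [Fintype V] [DecidableEq V] {M : ℕ} (m : Mdl V M)

/-- Fundamental cycle (or connecting path between roots) of a cell. -/
def cyc (e : Fin M) : Fin M → ℤ := ec e - m.path (m.u e) + m.path (m.v e)

/-- Flows with a token at `a` and an anti-token at `w`. -/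
noncomputable def cl (a w : V) : Finset (Fin M → ℤ) := cls m.u m.v m.lo m.hi (m.t + ev a - ev w)

/-- State space of the chain with anti-token `w`. -/
noncomputable def Om (w : V) : Finset ((Fin M → ℤ) × V) :=
  (box m.lo m.hi ×ˢ univ).filter fun x => del m.u m.v x.1 = m.t + ev x.2 - ev w

/-- Partition function of a class. -/
noncomputable def Z (f : Fin M → ℤ → ℝ) (a w : V) : ℝ := ∑ X ∈ m.cl a w, wt f X

structure Forest : Prop where
  del_path : ∀ a, del m.u m.v (m.path a) = ev a - ev (m.root a)
  path_supp : ∀ a e, m.tree e = false → m.path a e = 0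
  cyc_tree : ∀ e, m.tree e = true → m.cyc e = 0
  path_abs : ∀ a e, |m.path a e| ≤ 1
  X0_mem : m.X0 ∈ cls m.u m.v m.lo m.hi m.t
  room : ∀ e, m.tree e = true →
    m.lo e + (2 + ∑ e' ∈ univ.filter (fun e' => m.tree e' = false),
      |m.cyc e' e| * (m.hi e' - m.lo e')) ≤ m.X0 e ∧
    m.X0 e + (2 + ∑ e' ∈ univ.filter (fun e' => m.tree e' = false),
      |m.cyc e' e| * (m.hi e' - m.lo e')) ≤ m.hi e

/-- The flow with prescribed values `y` outside the forest. -/
def Phi (y : Fin M → ℤ) (a w : V) : Fin M → ℤ :=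
  m.X0 + ∑ e ∈ univ.filter (fun e => m.tree e = false), (y e - m.X0 e) • m.cyc e +
    m.path a - m.path w

/-- Values of the cells outside the forest (the forest coordinates are frozen at `0`). -/
noncomputable def fbox : Finset (Fin M → ℤ) :=
  box (fun e => if m.tree e then 0 else m.lo e) (fun e => if m.tree e then 0 else m.hi e)

/-- Balance between the components. -/
def Bal (y : Fin M → ℤ) (a w : V) : Prop :=
  ∑ e ∈ univ.filter (fun e => m.tree e = false),
    (y e - m.X0 e) • (ev (m.root (m.u e)) - ev (m.root (m.v e))) = ev (m.root a) - ev (m.root w)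

instance (y : Fin M → ℤ) (a w : V) : Decidable (m.Bal y a w) := by unfold Bal; infer_instance

variable {m}

theorem mem_Om {w : V} {x : (Fin M → ℤ) × V} : x ∈ m.Om w ↔ x.1 ∈ m.cl x.2 w := by
  simp [Om, cl, cls]

theorem sum_Om (w : V) (G : (Fin M → ℤ) × V → ℝ) :
    ∑ x ∈ m.Om w, G x = ∑ a, ∑ X ∈ m.cl a w, G (X, a) := by
  unfold Om cl cls
  rw [sum_filter, sum_product_right]
  refine sum_congr rfl fun a _ => ?_
  rw [sum_filter]

theorem Forest.del_cyc (h : m.Forest) (e : Fin M) :
    del m.u m.v (m.cyc e) = ev (m.root (m.u e)) - ev (m.root (m.v e)) := by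
  unfold cyc
  rw [del_add, del_sub, del_ec, h.del_path, h.del_path]
  abel

theorem Forest.cyc_apply (h : m.Forest) (e : Fin M) {e' : Fin M} (he' : m.tree e' = false) :
    m.cyc e e' = if e' = e then 1 else 0 := by
  simp [cyc, h.path_supp _ _ he', ec, Pi.single_apply]

theorem Forest.Phi_apply (h : m.Forest) (y : Fin M → ℤ) (a w : V) {e : Fin M}
    (he : m.tree e = false) : m.Phi y a w e = y e := by
  unfold Phi
  simp only [Pi.sub_apply, Pi.add_apply, Finset.sum_apply, Pi.smul_apply, smul_eq_mul,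
    h.path_supp _ _ he, h.cyc_apply _ he]
  rw [sum_eq_single e]
  · simp
  · intro b _ hb; simp [Ne.symm hb]
  · intro hb; simp [he] at hb

theorem Forest.Phi_mem_box (h : m.Forest) {y : Fin M → ℤ} (hy : y ∈ m.fbox) (a w : V) :
    m.Phi y a w ∈ box m.lo m.hi := by
  rw [mem_box]
  intro e
  have hX0 := (mem_cls.1 h.X0_mem).1
  have hy' : ∀ e', m.tree e' = false → m.lo e' ≤ y e' ∧ y e' ≤ m.hi e' := by
    intro e' he'
    simpa [he'] using mem_box.1 hy e'
  cases he : m.tree e with
  | false => rw [h.Phi_apply y a w he]; exact hy' e he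
  | true =>
    have hr := h.room e he
    have h1 := abs_le.1 (h.path_abs a e)
    have h2 := abs_le.1 (h.path_abs w e)
    have h3 : |∑ e' ∈ univ.filter (fun e' => m.tree e' = false), (y e' - m.X0 e') * m.cyc e' e| ≤
        ∑ e' ∈ univ.filter (fun e' => m.tree e' = false), |m.cyc e' e| * (m.hi e' - m.lo e') := by
      refine (abs_sum_le_sum_abs _ _).trans (sum_le_sum fun e' he' => ?_)
      rw [abs_mul, mul_comm]
      refine mul_le_mul_of_nonneg_left ?_ (abs_nonneg _)
      have h4 := hy' e' (mem_filter.1 he').2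
      have h5 := hX0 e'
      rw [abs_le]
      constructor <;> linarith [h4.1, h4.2, h5.1, h5.2]
    have h4 := abs_le.1 h3
    simp only [Phi, Pi.sub_apply, Pi.add_apply, Finset.sum_apply, Pi.smul_apply, smul_eq_mul]
    constructor <;> linarith [hr.1, hr.2, h1.1, h1.2, h2.1, h2.2, h4.1, h4.2]

theorem Forest.Phi_mem_cl (h : m.Forest) {y : Fin M → ℤ} (hy : y ∈ m.fbox) (a w : V) :
    m.Phi y a w ∈ m.cl a w ↔ m.Bal y a w := by
  have hb := mem_box.1 (h.Phi_mem_box hy a w)
  unfold cl
  rw [mem_cls, and_iff_right hb]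
  unfold Phi Bal
  rw [del_sub, del_add, del_add, del_sum, h.del_path, h.del_path, (mem_cls.1 h.X0_mem).2]
  simp only [del_smul, h.del_cyc]
  constructor
  · intro h1
    rw [← sub_eq_zero] at h1 ⊢
    rw [← h1]; abel
  · intro h1
    rw [h1]; abel

theorem sum_ev_smul (a : V) (P : V → Fin M → ℤ) : ∑ b, ev a b • P b = P a := by
  rw [sum_eq_single a]
  · simp [ev]
  · intro b _ hb; simp [ev, hb]
  · simp

/-- The key identity. -/
theorem Forest.key (h : m.Forest) (Y : Fin M → ℤ) :
    Y = ∑ e ∈ univ.filter (fun e => m.tree e = false), Y e • m.cyc e +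
      ∑ b, del m.u m.v Y b • m.path b := by
  have h1 : ∑ e ∈ univ.filter (fun e => m.tree e = false), Y e • m.cyc e =
      ∑ e, Y e • m.cyc e := by
    rw [sum_filter]
    refine sum_congr rfl fun e _ => ?_
    split_ifs with he
    · rfl
    · rw [h.cyc_tree e (by simpa using he), smul_zero]
  have h2 : ∑ b, del m.u m.v Y b • m.path b =
      ∑ e, Y e • (m.path (m.u e) - m.path (m.v e)) := by
    unfold del
    simp only [Finset.sum_apply, Pi.smul_apply, smul_eq_mul, sum_smul, mul_smul]
    rw [sum_comm]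
    refine sum_congr rfl fun e _ => ?_
    rw [← smul_sum]
    simp only [Pi.sub_apply, sub_smul, sum_sub_distrib, sum_ev_smul]
  rw [h1, h2, ← sum_add_distrib]
  have h3 : ∀ e, Y e • m.cyc e + Y e • (m.path (m.u e) - m.path (m.v e)) = Y e • ec e := by
    intro e
    rw [← smul_add]; unfold cyc; congr 1; abel
  simp only [h3]
  funext e
  simp [ec, Finset.sum_apply, Pi.single_apply]

theorem proj_mem_fbox {a w : V} {X : Fin M → ℤ} (hX : X ∈ m.cl a w) :
    (fun e => if m.tree e then 0 else X e) ∈ m.fbox := by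
  unfold fbox
  rw [mem_box]
  intro e
  have := (mem_cls.1 hX).1 e
  cases he : m.tree e <;> simp [this]

theorem Forest.eq_Phi (h : m.Forest) {a w : V} {X : Fin M → ℤ} (hX : X ∈ m.cl a w) :
    X = m.Phi (fun e => if m.tree e then 0 else X e) a w := by
  have hd : del m.u m.v (X - m.X0) = ev a - ev w := by
    rw [del_sub, (mem_cls.1 hX).2, (mem_cls.1 h.X0_mem).2]; abel
  have h1 := h.key (X - m.X0)
  rw [hd] at h1
  have h2 : ∑ b, (ev a - ev w : V → ℤ) b • m.path b = m.path a - m.path w := by
    simp only [Pi.sub_apply, sub_smul, sum_sub_distrib, sum_ev_smul]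
  rw [h2] at h1
  unfold Phi
  have h3 : ∑ e ∈ univ.filter (fun e => m.tree e = false),
      ((if m.tree e then 0 else X e) - m.X0 e) • m.cyc e =
      ∑ e ∈ univ.filter (fun e => m.tree e = false), (X - m.X0) e • m.cyc e := by
    refine sum_congr rfl fun e he => ?_
    simp [(mem_filter.1 he).2]
  rw [h3]
  rw [sub_eq_iff_eq_add] at h1
  rw [add_sub_assoc, add_assoc, add_comm]
  exact h1

theorem Forest.sum_cl (h : m.Forest) (a w : V) (G : (Fin M → ℤ) → ℝ) :
    ∑ X ∈ m.cl a w, G X = ∑ y ∈ m.fbox.filter (fun y => m.Bal y a w), G (m.Phi y a w) := by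
  refine sum_nbij' (fun X e => if m.tree e then 0 else X e) (fun y => m.Phi y a w) ?_ ?_ ?_ ?_ ?_
  · intro X hX
    have h1 := proj_mem_fbox hX
    rw [mem_filter, ← h.Phi_mem_cl h1, ← h.eq_Phi hX]
    exact ⟨h1, hX⟩
  · intro y hy
    rw [mem_filter] at hy
    exact (h.Phi_mem_cl hy.1 a w).2 hy.2
  · intro X hX
    exact (h.eq_Phi hX).symm
  · intro y hy
    funext e
    cases he : m.tree e with
    | false => simp [h.Phi_apply y a w he]
    | true =>
      have := mem_box.1 (mem_filter.1 hy).1 e
      simp only [he, if_true] at this ⊢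
      omega
  · intro X hX
    rw [← h.eq_Phi hX]

/-- Moving the token inside a component is a bijection of classes. -/
theorem Forest.sum_cl_root (h : m.Forest) (hrr : ∀ a, m.root (m.root a) = m.root a)
    (hpr : ∀ a, m.path (m.root a) = 0) (a w : V) (G : (Fin M → ℤ) → ℝ) :
    ∑ X ∈ m.cl a w, G X = ∑ X ∈ m.cl (m.root a) w, G (X + m.path a) := by
  rw [h.sum_cl, h.sum_cl]
  refine sum_congr (filter_congr fun y _ => ?_) fun y _ => ?_
  · unfold Bal; rw [hrr]
  · congr 1
    unfold Phi
    rw [hpr]; abel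

theorem Forest.add_path_mem (h : m.Forest) (hrr : ∀ a, m.root (m.root a) = m.root a)
    (hpr : ∀ a, m.path (m.root a) = 0) {a w : V} {X : Fin M → ℤ} (hX : X ∈ m.cl (m.root a) w) :
    X + m.path a ∈ m.cl a w := by
  have h1 := proj_mem_fbox hX
  have h2 := h.eq_Phi hX
  have h3 : m.Bal (fun e => if m.tree e then 0 else X e) (m.root a) w := by
    rw [← h.Phi_mem_cl h1, ← h2]; exact hX
  have h4 : m.Bal (fun e => if m.tree e then 0 else X e) a w := by
    unfold Bal at h3 ⊢; rwa [hrr] at h3
  have h5 : X + m.path a = m.Phi (fun e => if m.tree e then 0 else X e) a w := by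
    conv_lhs => rw [h2]
    unfold Phi
    rw [hpr]; abel
  rw [h5]
  exact (h.Phi_mem_cl h1 a w).2 h4

end Mdl

end Crest.Agent.R309
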