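import Mathlib
import Crest.Prelude.Def_WordRAM

/-!
# Row 309: a structured language for the word RAM

Programs `Pr` use registers named by natural numbers.  `W w ρ p σ t Q` says that the compiled program, placed anywhere in
a code list, leads in at most `t` steps from the state `σ` to a state satisfying `Q`.
-/

set_option autoImplicit false

namespace Crest.Agent.R309.Ram

open Crest.WordRAM Function

/-- Straight-line instructions. -/
inductive Op : Type
  | const (d v : ℕ)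
  | add (d a b : ℕ)
  | sub (d a b : ℕ)
  | mul (d a b : ℕ)
  | quot (d a b : ℕ)
  | rem (d a b : ℕ)
  | shl (d a b : ℕ)
  | load (d a : ℕ)
  | store (s a : ℕ)
  | rand (d : ℕ)

/-- Structured programs: `ifz x a b` runs `a` if register `x` is zero, else `b`; `loop x a` runs `a` while register
`x` is not zero. -/
inductive Pr : Type
  | op (i : Op)
  | skip
  | seq (a b : Pr)
  | ifz (x : ℕ) (a b : Pr)
  | loop (x : ℕ) (a : Pr)

/-- Registers, memory, number of words drawn. -/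
structure S : Type where
  R : ℕ → ℕ
  m : ℕ → ℕ
  d : ℕ

/-- Effect of an instruction. -/
def Op.ex (w : ℕ) (ρ : ℕ → ℕ) : Op → S → S
  | .const d v, σ => ⟨update σ.R d (v % 2 ^ w), σ.m, σ.d⟩
  | .add d a b, σ => ⟨update σ.R d ((σ.R a + σ.R b) % 2 ^ w), σ.m, σ.d⟩
  | .sub d a b, σ => ⟨update σ.R d (σ.R a - σ.R b), σ.m, σ.d⟩
  | .mul d a b, σ => ⟨update σ.R d ((σ.R a * σ.R b) % 2 ^ w), σ.m, σ.d⟩
  | .quot d a b, σ => ⟨update σ.R d (σ.R a / σ.R b), σ.m, σ.d⟩
  | .rem d a b, σ => ⟨update σ.R d (σ.R a % σ.R b), σ.m, σ.d⟩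
  | .shl d a b, σ =>
      ⟨update σ.R d (if σ.R b < w then (σ.R a <<< σ.R b) % 2 ^ w else 0), σ.m, σ.d⟩
  | .load d a, σ => ⟨update σ.R d (σ.m (σ.R a)), σ.m, σ.d⟩
  | .store s a, σ => ⟨σ.R, update σ.m (σ.R a) (σ.R s), σ.d⟩
  | .rand d, σ => ⟨update σ.R d (ρ σ.d % 2 ^ w), σ.m, σ.d + 1⟩

/-- All registers are below `r`. -/
def Op.Bd (r : ℕ) : Op → Prop
  | .const d _ => d < r
  | .add d a b => d < r ∧ a < r ∧ b < r
  | .sub d a b => d < r ∧ a < r ∧ b < r
  | .mul d a b => d < r ∧ a < r ∧ b < r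
  | .quot d a b => d < r ∧ a < r ∧ b < r
  | .rem d a b => d < r ∧ a < r ∧ b < r
  | .shl d a b => d < r ∧ a < r ∧ b < r
  | .load d a => d < r ∧ a < r
  | .store s a => s < r ∧ a < r
  | .rand d => d < r

/-- The register with number `d`. -/
def rg (r : ℕ) [NeZero r] (d : ℕ) : Fin r := Fin.ofNat r d

theorem rg_val {r : ℕ} [NeZero r] {d : ℕ} (h : d < r) : (rg r d : ℕ) = d := by
  simp [rg, Nat.mod_eq_of_lt h]

/-- The machine instruction. -/
def Op.ins (r : ℕ) [NeZero r] : Op → Instr r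
  | .const d v => .const (rg r d) v
  | .add d a b => .add (rg r d) (rg r a) (rg r b)
  | .sub d a b => .sub (rg r d) (rg r a) (rg r b)
  | .mul d a b => .mul (rg r d) (rg r a) (rg r b)
  | .quot d a b => .quot (rg r d) (rg r a) (rg r b)
  | .rem d a b => .rem (rg r d) (rg r a) (rg r b)
  | .shl d a b => .shl (rg r d) (rg r a) (rg r b)
  | .load d a => .load (rg r d) (rg r a)
  | .store s a => .store (rg r s) (rg r a)
  | .rand d => .rand (rg r d)

/-- All registers are below `r`. -/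
def Pr.Bd (r : ℕ) : Pr → Prop
  | .op i => i.Bd r
  | .skip => True
  | .seq a b => a.Bd r ∧ b.Bd r
  | .ifz x a b => x < r ∧ a.Bd r ∧ b.Bd r
  | .loop x a => x < r ∧ a.Bd r

theorem Op.exists_bd (i : Op) : ∃ r, ∀ r', r ≤ r' → i.Bd r' := by
  cases i with
  | const d v => exact ⟨d + 1, fun r h => by simp only [Op.Bd]; omega⟩
  | add d a b => exact ⟨d + a + b + 1, fun r h => by simp only [Op.Bd]; omega⟩
  | sub d a b => exact ⟨d + a + b + 1, fun r h => by simp only [Op.Bd]; omega⟩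
  | mul d a b => exact ⟨d + a + b + 1, fun r h => by simp only [Op.Bd]; omega⟩
  | quot d a b => exact ⟨d + a + b + 1, fun r h => by simp only [Op.Bd]; omega⟩
  | rem d a b => exact ⟨d + a + b + 1, fun r h => by simp only [Op.Bd]; omega⟩
  | shl d a b => exact ⟨d + a + b + 1, fun r h => by simp only [Op.Bd]; omega⟩
  | load d a => exact ⟨d + a + 1, fun r h => by simp only [Op.Bd]; omega⟩
  | store d a => exact ⟨d + a + 1, fun r h => by simp only [Op.Bd]; omega⟩
  | rand d => exact ⟨d + 1, fun r h => by simp only [Op.Bd]; omega⟩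

theorem Pr.exists_bd (p : Pr) : ∃ r, ∀ r', r ≤ r' → p.Bd r' := by
  induction p with
  | op i => exact i.exists_bd
  | skip => exact ⟨0, fun _ _ => trivial⟩
  | seq a b iha ihb =>
    obtain ⟨r₁, h₁⟩ := iha
    obtain ⟨r₂, h₂⟩ := ihb
    exact ⟨r₁ + r₂, fun r h => ⟨h₁ r (by omega), h₂ r (by omega)⟩⟩
  | ifz x a b iha ihb =>
    obtain ⟨r₁, h₁⟩ := iha
    obtain ⟨r₂, h₂⟩ := ihb
    exact ⟨x + 1 + r₁ + r₂, fun r h => ⟨by omega, h₁ r (by omega), h₂ r (by omega)⟩⟩
  | loop x a iha =>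
    obtain ⟨r₁, h₁⟩ := iha
    exact ⟨x + 1 + r₁, fun r h => ⟨by omega, h₁ r (by omega)⟩⟩

/-- Length of the compiled program. -/
def Pr.len : Pr → ℕ
  | .op _ => 1
  | .skip => 0
  | .seq a b => a.len + b.len
  | .ifz _ a b => a.len + b.len + 2
  | .loop _ a => a.len + 2

/-- The compiled program, to be placed at position `o`. -/
def Pr.comp (r : ℕ) [NeZero r] : Pr → ℕ → List (Instr r)
  | .op i, _ => [i.ins r]
  | .skip, _ => []
  | .seq a b, o => a.comp r o ++ b.comp r (o + a.len)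
  | .ifz x a b, o => .jumpIfZero (rg r x) (o + b.len + 2) :: (b.comp r (o + 1) ++
      .jump (o + (a.len + b.len + 2)) :: a.comp r (o + b.len + 2))
  | .loop x a, o => .jumpIfZero (rg r x) (o + (a.len + 2)) :: (a.comp r (o + 1) ++ [.jump o])

theorem Pr.length_comp (r : ℕ) [NeZero r] (p : Pr) : ∀ o, (p.comp r o).length = p.len := by
  induction p with
  | op i => intro o; rfl
  | skip => intro o; rfl
  | seq a b iha ihb => intro o; simp [Pr.comp, Pr.len, iha, ihb]
  | ifz x a b iha ihb => intro o; simp [Pr.comp, Pr.len, iha, ihb]; omega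
  | loop x a iha => intro o; simp [Pr.comp, Pr.len, iha]

/-- The program sits in `code` at position `o`. -/
def At {r : ℕ} [NeZero r] (code : List (Instr r)) : Pr → ℕ → Prop
  | .op i, o => code[o]? = some (i.ins r)
  | .skip, _ => True
  | .seq a b, o => At code a o ∧ At code b (o + a.len)
  | .ifz x a b, o => code[o]? = some (.jumpIfZero (rg r x) (o + b.len + 2)) ∧
      At code b (o + 1) ∧ code[o + 1 + b.len]? = some (.jump (o + (a.len + b.len + 2))) ∧
      At code a (o + b.len + 2)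
  | .loop x a, o => code[o]? = some (.jumpIfZero (rg r x) (o + (a.len + 2))) ∧
      At code a (o + 1) ∧ code[o + 1 + a.len]? = some (.jump o)

theorem at_comp {r : ℕ} [NeZero r] (p : Pr) : ∀ (o : ℕ) (pre post : List (Instr r)),
    pre.length = o → At (pre ++ (p.comp r o ++ post)) p o := by
  induction p with
  | op i => intro o pre post h; subst h; simp [At, Pr.comp]
  | skip => intro o pre post _; trivial
  | seq a b iha ihb =>
    intro o pre post h
    refine ⟨?_, ?_⟩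
    · simpa [Pr.comp] using iha o pre (b.comp r (o + a.len) ++ post) h
    · simpa [Pr.comp] using ihb (o + a.len) (pre ++ a.comp r o) post (by simp [h, Pr.length_comp])
  | ifz x a b iha ihb =>
    intro o pre post h
    refine ⟨?_, ?_, ?_, ?_⟩
    · subst h; simp [Pr.comp]
    · have := ihb (o + 1) (pre ++ [.jumpIfZero (rg r x) (o + b.len + 2)])
        (.jump (o + (a.len + b.len + 2)) :: a.comp r (o + b.len + 2) ++ post) (by simp [h])
      convert this using 1
      simp [Pr.comp]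
    · subst h
      rw [add_assoc, List.getElem?_append_right (by omega), Nat.add_sub_cancel_left, add_comm 1,
        Pr.comp, List.cons_append, List.getElem?_cons_succ, List.append_assoc,
        List.getElem?_append_right (by rw [Pr.length_comp]), Pr.length_comp]
      simp
    · have := iha (o + b.len + 2)
        (pre ++ .jumpIfZero (rg r x) (o + b.len + 2) :: (b.comp r (o + 1) ++
          [.jump (o + (a.len + b.len + 2))])) post (by simp [h, Pr.length_comp]; omega)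
      convert this using 1
      simp [Pr.comp]
  | loop x a iha =>
    intro o pre post h
    refine ⟨?_, ?_, ?_⟩
    · subst h; simp [Pr.comp]
    · have := iha (o + 1) (pre ++ [.jumpIfZero (rg r x) (o + (a.len + 2))])
        (.jump o :: post) (by simp [h])
      convert this using 1
      simp [Pr.comp]
    · subst h
      rw [add_assoc, List.getElem?_append_right (by omega), Nat.add_sub_cancel_left, add_comm 1,
        Pr.comp, List.cons_append, List.getElem?_cons_succ, List.append_assoc,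
        List.getElem?_append_right (by rw [Pr.length_comp]), Pr.length_comp]
      simp

/-- The running configuration at position `pc` with state `σ`. -/
def cfg (r pc : ℕ) (σ : S) : Cfg r := ⟨pc, false, fun j => σ.R j, σ.m, σ.d⟩

theorem writeReg_eq {r : ℕ} [NeZero r] (R : ℕ → ℕ) {d : ℕ} (hd : d < r) (v : ℕ) :
    writeReg (fun j : Fin r => R j) (rg r d) v = fun j : Fin r => update R d v j := by
  funext j
  simp only [writeReg, update_apply, Fin.ext_iff, rg_val hd]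

theorem writeMem_eq (M : ℕ → ℕ) (a v : ℕ) : writeMem M a v = update M a v := by
  funext j
  simp only [writeMem, update_apply]

variable {w : ℕ} {ρ : ℕ → ℕ}

theorem step_op {r : ℕ} [NeZero r] {code : List (Instr r)} {o : ℕ} {i : Op} (hb : i.Bd r)
    (h : code[o]? = some (i.ins r)) (σ : S) :
    step ⟨r, code⟩ w ρ (cfg r o σ) = cfg r (o + 1) (i.ex w ρ σ) := by
  cases i <;> simp only [Op.Bd] at hb <;>
    simp [step, cfg, h, Op.ins, Op.ex, writeReg_eq, writeMem_eq, hb, rg_val]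

theorem step_jz {r : ℕ} [NeZero r] {code : List (Instr r)} {o x l : ℕ} (hb : x < r)
    (h : code[o]? = some (.jumpIfZero (rg r x) l)) (σ : S) :
    step ⟨r, code⟩ w ρ (cfg r o σ) = cfg r (if σ.R x = 0 then l else o + 1) σ := by
  simp [step, cfg, h, rg_val hb]

theorem step_jump {r : ℕ} {code : List (Instr r)} {o l : ℕ}
    (h : code[o]? = some (.jump l)) (σ : S) :
    step ⟨r, code⟩ w ρ (cfg r o σ) = cfg r l σ := by
  simp [step, cfg, h]

theorem step_end {r : ℕ} {code : List (Instr r)} {o : ℕ} (h : code.length ≤ o) (σ : S) :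
    step ⟨r, code⟩ w ρ (cfg r o σ) = ⟨o, true, fun j => σ.R j, σ.m, σ.d⟩ := by
  simp [step, cfg, List.getElem?_eq_none h]

/-- Total correctness with a bound on the number of steps. -/
def W (w : ℕ) (ρ : ℕ → ℕ) (p : Pr) (σ : S) (t : ℕ) (Q : S → Prop) : Prop :=
  ∃ σ', Q σ' ∧ ∀ (r : ℕ) [NeZero r] (code : List (Instr r)) (o : ℕ), p.Bd r → At code p o →
    ∃ n ≤ t, (step ⟨r, code⟩ w ρ)^[n] (cfg r o σ) = cfg r (o + p.len) σ'

theorem W.mono {p : Pr} {σ : S} {t t' : ℕ} {Q Q' : S → Prop} (h : W w ρ p σ t Q) (ht : t ≤ t')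
    (hQ : ∀ σ', Q σ' → Q' σ') : W w ρ p σ t' Q' := by
  obtain ⟨σ', h1, h2⟩ := h
  refine ⟨σ', hQ _ h1, fun r _ code o hb ha => ?_⟩
  obtain ⟨n, hn, h3⟩ := h2 r code o hb ha
  exact ⟨n, hn.trans ht, h3⟩

theorem W.time {p : Pr} {σ : S} {t t' : ℕ} {Q : S → Prop} (h : W w ρ p σ t Q) (ht : t ≤ t') :
    W w ρ p σ t' Q := h.mono ht fun _ h => h

theorem W.op {i : Op} {σ : S} {Q : S → Prop} (h : Q (i.ex w ρ σ)) : W w ρ (.op i) σ 1 Q :=
  ⟨_, h, fun _ _ _ _ hb ha => ⟨1, le_rfl, step_op hb ha σ⟩⟩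

theorem W.skip {σ : S} {Q : S → Prop} (h : Q σ) : W w ρ .skip σ 0 Q :=
  ⟨_, h, fun _ _ _ _ _ _ => ⟨0, le_rfl, rfl⟩⟩

theorem W.seq {a b : Pr} {σ : S} {t₁ t₂ : ℕ} {Q : S → Prop}
    (h : W w ρ a σ t₁ fun σ' => W w ρ b σ' t₂ Q) : W w ρ (.seq a b) σ (t₁ + t₂) Q := by
  obtain ⟨σ₁, ⟨σ₂, hQ, h₂⟩, h₁⟩ := h
  refine ⟨σ₂, hQ, fun r _ code o hb ha => ?_⟩
  obtain ⟨n₁, hn₁, e₁⟩ := h₁ r code o hb.1 ha.1
  obtain ⟨n₂, hn₂, e₂⟩ := h₂ r code _ hb.2 ha.2
  refine ⟨n₂ + n₁, by omega, ?_⟩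
  rw [iterate_add_apply, e₁, e₂, Pr.len, add_assoc]

/-- Sequencing with an intermediate assertion. -/
theorem W.bind {a b : Pr} {σ : S} {t₁ t₂ : ℕ} {P Q : S → Prop} (h : W w ρ a σ t₁ P)
    (h' : ∀ σ', P σ' → W w ρ b σ' t₂ Q) : W w ρ (.seq a b) σ (t₁ + t₂) Q :=
  W.seq (h.mono le_rfl h')

/-- An instruction followed by a program. -/
theorem W.step {i : Op} {b : Pr} {σ : S} {t : ℕ} {Q : S → Prop}
    (h : W w ρ b (i.ex w ρ σ) t Q) : W w ρ (.seq (.op i) b) σ (t + 1) Q :=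
  (W.seq (W.op (Q := fun σ' => W w ρ b σ' t Q) h)).time (by omega)

theorem W.ifz_zero {x : ℕ} {a b : Pr} {σ : S} {t : ℕ} {Q : S → Prop} (hx : σ.R x = 0)
    (h : W w ρ a σ t Q) : W w ρ (.ifz x a b) σ (t + 2) Q := by
  obtain ⟨σ₁, hQ, h₁⟩ := h
  refine ⟨σ₁, hQ, fun r _ code o hb ha => ?_⟩
  obtain ⟨n₁, hn₁, e₁⟩ := h₁ r code _ hb.2.1 ha.2.2.2
  refine ⟨n₁ + 1, by omega, ?_⟩
  rw [iterate_succ_apply, step_jz hb.1 ha.1, if_pos hx, e₁, Pr.len]
  congr 1; omega

theorem W.ifz_pos {x : ℕ} {a b : Pr} {σ : S} {t : ℕ} {Q : S → Prop} (hx : σ.R x ≠ 0)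
    (h : W w ρ b σ t Q) : W w ρ (.ifz x a b) σ (t + 2) Q := by
  obtain ⟨σ₁, hQ, h₁⟩ := h
  refine ⟨σ₁, hQ, fun r _ code o hb ha => ?_⟩
  obtain ⟨n₁, hn₁, e₁⟩ := h₁ r code _ hb.2.2 ha.2.1
  refine ⟨n₁ + 1 + 1, by omega, ?_⟩
  rw [iterate_succ_apply', iterate_succ_apply, step_jz hb.1 ha.1, if_neg hx, e₁,
    step_jump ha.2.2.1, Pr.len]

theorem W.loop_zero {x : ℕ} {a : Pr} {σ : S} {Q : S → Prop} (hx : σ.R x = 0) (h : Q σ) :
    W w ρ (.loop x a) σ 1 Q := by
  refine ⟨σ, h, fun r _ code o hb ha => ⟨1, le_rfl, ?_⟩⟩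
  rw [iterate_one, step_jz hb.1 ha.1, if_pos hx, Pr.len]

theorem W.loop_pos {x : ℕ} {a : Pr} {σ : S} {t₁ t₂ : ℕ} {Q : S → Prop} (hx : σ.R x ≠ 0)
    (h : W w ρ a σ t₁ fun σ' => W w ρ (.loop x a) σ' t₂ Q) :
    W w ρ (.loop x a) σ (t₁ + t₂ + 2) Q := by
  obtain ⟨σ₁, ⟨σ₂, hQ, h₂⟩, h₁⟩ := h
  refine ⟨σ₂, hQ, fun r _ code o hb ha => ?_⟩
  obtain ⟨n₁, hn₁, e₁⟩ := h₁ r code _ hb.2 ha.2.1
  obtain ⟨n₂, hn₂, e₂⟩ := h₂ r code _ hb ha
  refine ⟨n₂ + (n₁ + 1 + 1), by omega, ?_⟩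
  rw [iterate_add_apply, iterate_succ_apply', iterate_succ_apply, step_jz hb.1 ha.1, if_neg hx, e₁,
    step_jump ha.2.2, e₂]

/-- Loop rule with an invariant indexed by the number of remaining rounds. -/
theorem W.loop {x : ℕ} {a : Pr} {t : ℕ} (I : ℕ → S → Prop) (h0 : ∀ σ, I 0 σ → σ.R x = 0)
    (h1 : ∀ n σ, I (n + 1) σ → σ.R x ≠ 0 ∧ W w ρ a σ t (I n)) :
    ∀ n σ, I n σ → W w ρ (.loop x a) σ (n * (t + 2) + 1) (I 0) := by
  intro n
  induction n with
  | zero => intro σ h; exact (W.loop_zero (h0 σ h) h).time (by omega)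
  | succ n ih =>
    intro σ h
    obtain ⟨h2, h3⟩ := h1 n σ h
    exact (W.loop_pos h2 (h3.mono le_rfl ih)).time (by nlinarith)

/-- A block of instructions. -/
def ops : List Op → Pr
  | [] => .skip
  | i :: l => .seq (.op i) (ops l)

theorem W.ops {l : List Op} {σ : S} {Q : S → Prop}
    (h : Q (l.foldl (fun σ i => i.ex w ρ σ) σ)) : W w ρ (ops l) σ l.length Q := by
  induction l generalizing σ with
  | nil => exact W.skip h
  | cons i l ih => exact W.step (ih h)

end Crest.Agent.R309.Ram
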