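import Crest.Agent.R309.RamLang
import Crest.Agent.Lib.PolyTime.Cmd

/-!
# Row 309: bit stacks in the memory of the word RAM, simulation of `Cmd` programs

There are `κ` interleaved lanes above the address `B`; lane `j` uses the cells `B + j + κ * i`; the cell `i = 0` holds
`0`, the bit number `i` from the bottom is stored as `1` or `2`.  Register `16 + j` points to the top cell of lane `j`.
Registers `2`, `3`, `5` hold `1`, `κ`, `2`; register `15` is scratch.
-/

set_option autoImplicit false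

namespace Crest.Agent.R309.Ram

open Function Crest.Agent.Lib.PolyTime

/-- The lane starting at `a` holds the stack `l`. -/
def Stk (m : ℕ → ℕ) (a κ : ℕ) : List Bool → Prop
  | [] => m a = 0
  | b :: l => m (a + κ * (l.length + 1)) = b.toNat + 1 ∧ Stk m a κ l

theorem Stk.congr {m m' : ℕ → ℕ} {a κ : ℕ} {l : List Bool} (h : Stk m a κ l)
    (e : ∀ i ≤ l.length, m' (a + κ * i) = m (a + κ * i)) : Stk m' a κ l := by
  induction l with
  | nil => exact (e 0 le_rfl).trans h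
  | cons b l ih =>
    exact ⟨(e _ le_rfl).trans h.1, ih h.2 fun i hi => e i (by simp only [List.length_cons]; omega)⟩

theorem Stk.update {m : ℕ → ℕ} {a κ : ℕ} {l : List Bool} (h : Stk m a κ l) {x : ℕ} (v : ℕ)
    (e : ∀ i ≤ l.length, a + κ * i ≠ x) : Stk (update m x v) a κ l :=
  h.congr fun i hi => update_of_ne (e i hi) _ _

theorem Stk.push {m : ℕ → ℕ} {a κ : ℕ} {l : List Bool} (h : Stk m a κ l) (hκ : 0 < κ) (b : Bool) :
    Stk (Function.update m (a + κ * (l.length + 1)) (b.toNat + 1)) a κ (b :: l) := by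
  refine ⟨update_self _ _ _, h.update _ fun i hi he => ?_⟩
  have := Nat.eq_of_mul_eq_mul_left hκ (Nat.add_left_cancel he)
  omega

theorem lane_ne {B κ j j' i i' : ℕ} (hj : j < κ) (hj' : j' < κ) (h : j ≠ j') :
    B + j + κ * i ≠ B + j' + κ * i' := by
  intro e
  have e' : j + κ * i = j' + κ * i' := by omega
  have := congrArg (· % κ) e'
  simp only [Nat.add_mul_mod_self_left, Nat.mod_eq_of_lt hj, Nat.mod_eq_of_lt hj'] at this
  exact h this

/-- Push a constant bit on the lane with pointer register `x`. -/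
def pushC (x : ℕ) (b : Bool) : Pr := ops [.add x x 3, .const 15 (b.toNat + 1), .store 15 x]

variable {w : ℕ} {ρ : ℕ → ℕ} {B κ H : ℕ}

theorem pushC_spec (hw : B + κ * (H + 1) < 2 ^ w) {j n x : ℕ} (hj : j < κ) (hn : n + 1 ≤ H)
    (hx : 16 ≤ x) (b : Bool) {σ : S} (h3 : σ.R 3 = κ) (h : σ.R x = B + j + κ * n) {Q : S → Prop}
    (hQ : Q ⟨update (update σ.R x (B + j + κ * (n + 1))) 15 (b.toNat + 1),
      update σ.m (B + j + κ * (n + 1)) (b.toNat + 1), σ.d⟩) :
    W w ρ (pushC x b) σ 3 Q := by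
  refine W.ops (l := [_, _, _]) ?_
  have h1 : κ * (n + 2) ≤ κ * (H + 1) := Nat.mul_le_mul_left _ (by omega)
  have h2 : (B + j + κ * n + κ) % 2 ^ w = B + j + κ * (n + 1) := by
    rw [Nat.mod_eq_of_lt (by nlinarith)]; ring
  have h4 : (b.toNat + 1) % 2 ^ w = b.toNat + 1 := by
    have := b.toNat_le
    exact Nat.mod_eq_of_lt (by nlinarith)
  have h5 : x ≠ 15 := by omega
  simpa [Op.ex, h3, h, h2, h4, update_of_ne h5] using hQ

/-- Compilation of stack programs. -/
def cc {K : Type} (f : K → ℕ) : Cmd K → Pr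
  | .skip => .skip
  | .push k b => pushC (16 + f k) b
  | .seq a b => .seq (cc f a) (cc f b)
  | .case k cN cF cT => .seq (.op (.load 15 (16 + f k))) (.ifz 15 (cc f cN)
      (.seq (.op (.sub (16 + f k) (16 + f k) 3)) (.seq (.op (.sub 15 15 2))
        (.ifz 15 (cc f cF) (cc f cT)))))
  | .loop k cF cT => .seq (.op (.load 15 (16 + f k))) (.loop 15
      (.seq (.op (.sub (16 + f k) (16 + f k) 3)) (.seq (.op (.sub 15 15 2))
        (.seq (.ifz 15 (cc f cF) (cc f cT)) (.op (.load 15 (16 + f k)))))))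

/-- The machine state represents the stacks `s`. -/
def Rep {K : Type} (f : K → ℕ) (B κ : ℕ) (s : St K) (σ : S) : Prop :=
  σ.R 2 = 1 ∧ σ.R 3 = κ ∧
    ∀ k, σ.R (16 + f k) = B + f k + κ * (s k).length ∧ Stk σ.m (B + f k) κ (s k)

/-- What the simulation leaves unchanged. -/
def Keep (B κ : ℕ) (σ σ' : S) : Prop :=
  (∀ j < 15, σ'.R j = σ.R j) ∧ (∀ a < B + κ, σ'.m a = σ.m a) ∧ σ'.d = σ.d

theorem Keep.refl (σ : S) : Keep B κ σ σ := ⟨fun _ _ => rfl, fun _ _ => rfl, rfl⟩

theorem Keep.trans {σ σ' σ'' : S} (h : Keep B κ σ σ') (h' : Keep B κ σ' σ'') : Keep B κ σ σ'' :=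
  ⟨fun j hj => (h'.1 j hj).trans (h.1 j hj), fun j hj => (h'.2.1 j hj).trans (h.2.1 j hj),
    h'.2.2.trans h.2.2⟩

section Sim

variable {K : Type} [DecidableEq K] {f : K → ℕ}

omit [DecidableEq K] in
theorem Rep.load {s : St K} {σ : S} (h : Rep f B κ s σ) (x : ℕ) :
    Rep f B κ s ((Op.load 15 x).ex w ρ σ) ∧ Keep B κ σ ((Op.load 15 x).ex w ρ σ) := by
  obtain ⟨h2, h3, h4⟩ := h
  refine ⟨⟨by simpa [Op.ex] using h2, by simpa [Op.ex] using h3, fun k => ⟨?_, (h4 k).2⟩⟩,
    fun j hj => ?_, fun _ _ => rfl, rfl⟩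
  · simp only [Op.ex]
    rw [update_of_ne (by omega)]
    exact (h4 k).1
  · simp only [Op.ex]
    rw [update_of_ne (by omega)]

omit [DecidableEq K] in
theorem Rep.load_nil {s : St K} {σ : S} (h : Rep f B κ s σ) {k : K} (hs : s k = []) :
    ((Op.load 15 (16 + f k)).ex w ρ σ).R 15 = 0 := by
  have h1 := (h.2.2 k).1
  have h2 := (h.2.2 k).2
  rw [hs] at h1 h2
  simp only [Op.ex, update_self, h1]
  exact h2

omit [DecidableEq K] in
theorem Rep.load_cons {s : St K} {σ : S} (h : Rep f B κ s σ) {k : K} {b : Bool} {r : List Bool}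
    (hs : s k = b :: r) : ((Op.load 15 (16 + f k)).ex w ρ σ).R 15 = b.toNat + 1 := by
  have h1 := (h.2.2 k).1
  have h2 := (h.2.2 k).2
  rw [hs] at h1 h2
  simp only [Op.ex, update_self, h1]
  exact h2.1

theorem Rep.pop (hf : Injective f) {s : St K} {σ : S} (h : Rep f B κ s σ) {k : K} {b : Bool}
    {r : List Bool} (hs : s k = b :: r) (h15 : σ.R 15 = b.toNat + 1) :
    Rep f B κ (update s k r)
        ((Op.sub 15 15 2).ex w ρ ((Op.sub (16 + f k) (16 + f k) 3).ex w ρ σ)) ∧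
      Keep B κ σ ((Op.sub 15 15 2).ex w ρ ((Op.sub (16 + f k) (16 + f k) 3).ex w ρ σ)) ∧
      ((Op.sub 15 15 2).ex w ρ ((Op.sub (16 + f k) (16 + f k) 3).ex w ρ σ)).R 15 = b.toNat := by
  obtain ⟨h2, h3, h4⟩ := h
  have e2 : (2 : ℕ) ≠ 16 + f k := by omega
  have e3 : (3 : ℕ) ≠ 16 + f k := by omega
  have e15 : (15 : ℕ) ≠ 16 + f k := by omega
  refine ⟨⟨by simpa [Op.ex, update_of_ne e2] using h2, by simpa [Op.ex, update_of_ne e3] using h3,
    fun k' => ?_⟩, ⟨fun j hj => ?_, fun _ _ => rfl, rfl⟩, ?_⟩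
  · simp only [Op.ex]
    rw [update_of_ne (by omega)]
    by_cases hk : k' = k
    · subst hk
      have h5 := h4 k'
      rw [hs] at h5
      rw [update_self, update_self, h5.1, h3]
      refine ⟨?_, h5.2.2⟩
      rw [List.length_cons, Nat.mul_succ]
      omega
    · rw [update_of_ne hk, update_of_ne (fun e => hk (hf (by omega)))]
      exact h4 k'
  · simp only [Op.ex]
    rw [update_of_ne (by omega), update_of_ne (by omega)]
  · simp [Op.ex, update_of_ne e2, update_of_ne e15, h15, h2]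

theorem sim_aux (hw : B + κ * (H + 1) < 2 ^ w) (hf : Injective f) (hfκ : ∀ k, f k < κ)
    {c : Cmd K} {s s' : St K} {t : ℕ} (h : Exec c s s' t) :
    (∀ k, (s k).length + t ≤ H) → ∀ σ, Rep f B κ s σ →
      W w ρ (cc f c) σ (8 * t) (fun σ' => Rep f B κ s' σ' ∧ Keep B κ σ σ') ∧
      ∀ k cF cT, c = .loop k cF cT →
        W w ρ (.loop 15 (.seq (.op (.sub (16 + f k) (16 + f k) 3)) (.seq (.op (.sub 15 15 2))
          (.seq (.ifz 15 (cc f cF) (cc f cT)) (.op (.load 15 (16 + f k)))))))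
          ((Op.load 15 (16 + f k)).ex w ρ σ) (8 * t - 1)
          (fun σ' => Rep f B κ s' σ' ∧ Keep B κ σ σ') := by
  induction h with
  | skip s =>
    intro _ σ hσ
    exact ⟨(W.skip ⟨hσ, Keep.refl _⟩).time (by omega), by rintro _ _ _ ⟨⟩⟩
  | push k b s =>
    intro hH σ hσ
    refine ⟨W.time (pushC_spec hw (hfκ k) (hH k) (by omega) b hσ.2.1 (hσ.2.2 k).1 ?_) (by omega),
      by rintro _ _ _ ⟨⟩⟩
    obtain ⟨h2, h3, h4⟩ := hσ
    refine ⟨⟨?_, ?_, fun k' => ?_⟩, fun j hj => ?_, fun a ha => ?_, rfl⟩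
    · simp only []
      rw [update_of_ne (by omega), update_of_ne (by omega), h2]
    · simp only []
      rw [update_of_ne (by omega), update_of_ne (by omega), h3]
    · simp only []
      rw [update_of_ne (by omega)]
      by_cases hk : k' = k
      · subst hk
        rw [update_self, update_self]
        exact ⟨rfl, (h4 k').2.push (by have := hfκ k'; omega) b⟩
      · have hne : f k' ≠ f k := fun e => hk (hf e)
        rw [update_of_ne hk, update_of_ne (by omega)]
        exact ⟨(h4 k').1, (h4 k').2.update _ fun i _ => lane_ne (hfκ k') (hfκ k) hne⟩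
    · simp only []
      rw [update_of_ne (by omega), update_of_ne (by omega)]
    · simp only []
      rw [update_of_ne (by nlinarith)]
  | @seq c₁ c₂ s s' s'' t₁ t₂ h₁ h₂ ih₁ ih₂ =>
    intro hH σ hσ
    refine ⟨W.time (W.bind (ih₁ (fun k => by have := hH k; omega) σ hσ).1 fun σ₁ hσ₁ =>
      (ih₂ (fun k => by have := hH k; have := h₁.length_le k; omega) σ₁ hσ₁.1).1.mono le_rfl
        fun σ₂ hσ₂ => ⟨hσ₂.1, hσ₁.2.trans hσ₂.2⟩) (by omega), by rintro _ _ _ ⟨⟩⟩
  | @caseN k cN cF cT s s' t hs h₁ ih =>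
    intro hH σ hσ
    obtain ⟨h1, h2⟩ := hσ.load (w := w) (ρ := ρ) (16 + f k)
    refine ⟨W.time (W.step (W.ifz_zero (hσ.load_nil hs)
      ((ih (fun k => by have := hH k; omega) _ h1).1.mono le_rfl
        fun σ₂ hσ₂ => ⟨hσ₂.1, h2.trans hσ₂.2⟩))) (by omega), by rintro _ _ _ ⟨⟩⟩
  | @caseF k cN cF cT s s' t r hs h₁ ih =>
    intro hH σ hσ
    obtain ⟨h1, h2⟩ := hσ.load (w := w) (ρ := ρ) (16 + f k)
    have h3 := hσ.load_cons (w := w) (ρ := ρ) hs
    obtain ⟨h4, h5, h6⟩ := h1.pop (w := w) (ρ := ρ) hf hs h3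
    have h7 : ∀ k', (update s k r k').length + t ≤ H := fun k' => by
      have := hH k'; have := length_update_le s k k' r 0 (by simp [hs]); omega
    refine ⟨W.time (W.step (W.ifz_pos (by rw [h3]; omega) (W.step (W.step (W.ifz_zero h6
      ((ih h7 _ h4).1.mono le_rfl fun σ₂ hσ₂ => ⟨hσ₂.1, (h2.trans h5).trans hσ₂.2⟩))))))
      (by omega), by rintro _ _ _ ⟨⟩⟩
  | @caseT k cN cF cT s s' t r hs h₁ ih =>
    intro hH σ hσ
    obtain ⟨h1, h2⟩ := hσ.load (w := w) (ρ := ρ) (16 + f k)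
    have h3 := hσ.load_cons (w := w) (ρ := ρ) hs
    obtain ⟨h4, h5, h6⟩ := h1.pop (w := w) (ρ := ρ) hf hs h3
    have h7 : ∀ k', (update s k r k').length + t ≤ H := fun k' => by
      have := hH k'; have := length_update_le s k k' r 0 (by simp [hs]); omega
    refine ⟨W.time (W.step (W.ifz_pos (by rw [h3]; omega) (W.step (W.step
      (W.ifz_pos (by rw [h6]; simp)
      ((ih h7 _ h4).1.mono le_rfl fun σ₂ hσ₂ => ⟨hσ₂.1, (h2.trans h5).trans hσ₂.2⟩))))))
      (by omega), by rintro _ _ _ ⟨⟩⟩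
  | @loopN k cF cT s hs =>
    intro hH σ hσ
    have key := W.loop_zero (w := w) (ρ := ρ)
      (a := .seq (.op (.sub (16 + f k) (16 + f k) 3)) (.seq (.op (.sub 15 15 2))
          (.seq (.ifz 15 (cc f cF) (cc f cT)) (.op (.load 15 (16 + f k))))))
      (Q := fun σ' => Rep f B κ s σ' ∧ Keep B κ σ σ') (hσ.load_nil (w := w) (ρ := ρ) hs)
      (hσ.load (16 + f k))
    refine ⟨(W.step key).time (by omega), ?_⟩
    rintro _ _ _ ⟨⟩
    exact key.time (by omega)
  | @loopF k cF cT s s' s'' t₁ t₂ r hs h₁ h₂ ih₁ ih₂ =>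
    intro hH σ hσ
    obtain ⟨h1, h2⟩ := hσ.load (w := w) (ρ := ρ) (16 + f k)
    have h3 := hσ.load_cons (w := w) (ρ := ρ) hs
    obtain ⟨h4, h5, h6⟩ := h1.pop (w := w) (ρ := ρ) hf hs h3
    have h7 : ∀ k', (update s k r k').length + t₁ + t₂ ≤ H := fun k' => by
      have := hH k'; have := length_update_le s k k' r 0 (by simp [hs]); omega
    have key := W.loop_pos (Q := fun σ' => Rep f B κ s'' σ' ∧ Keep B κ σ σ') (by rw [h3]; omega)
      (W.step (W.step (W.bind (W.ifz_zero (b := cc f cT) h6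
        (ih₁ (fun k' => by have := h7 k'; omega) _ h4).1) fun σ₁ hσ₁ => W.op
          (((ih₂ (fun k' => by have := h7 k'; have := h₁.length_le k'; omega) σ₁ hσ₁.1).2
            k cF cT rfl).mono le_rfl
              fun σ₂ hσ₂ => ⟨hσ₂.1, ((h2.trans h5).trans hσ₁.2).trans hσ₂.2⟩))))
    refine ⟨(W.step key).time (by omega), ?_⟩
    rintro _ _ _ ⟨⟩
    exact key.time (by omega)
  | @loopT k cF cT s s' s'' t₁ t₂ r hs h₁ h₂ ih₁ ih₂ =>
    intro hH σ hσ
    obtain ⟨h1, h2⟩ := hσ.load (w := w) (ρ := ρ) (16 + f k)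
    have h3 := hσ.load_cons (w := w) (ρ := ρ) hs
    obtain ⟨h4, h5, h6⟩ := h1.pop (w := w) (ρ := ρ) hf hs h3
    have h7 : ∀ k', (update s k r k').length + t₁ + t₂ ≤ H := fun k' => by
      have := hH k'; have := length_update_le s k k' r 0 (by simp [hs]); omega
    have key := W.loop_pos (Q := fun σ' => Rep f B κ s'' σ' ∧ Keep B κ σ σ') (by rw [h3]; omega)
      (W.step (W.step (W.bind (W.ifz_pos (a := cc f cF) (by rw [h6]; simp)
        (ih₁ (fun k' => by have := h7 k'; omega) _ h4).1) fun σ₁ hσ₁ => W.op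
          (((ih₂ (fun k' => by have := h7 k'; have := h₁.length_le k'; omega) σ₁ hσ₁.1).2
            k cF cT rfl).mono le_rfl
              fun σ₂ hσ₂ => ⟨hσ₂.1, ((h2.trans h5).trans hσ₁.2).trans hσ₂.2⟩))))
    refine ⟨(W.step key).time (by omega), ?_⟩
    rintro _ _ _ ⟨⟩
    exact key.time (by omega)
  | mono _ ht ih =>
    intro hH σ hσ
    obtain ⟨h1, h2⟩ := ih (fun k => by have := hH k; omega) σ hσ
    exact ⟨h1.time (by omega), fun k cF cT e => (h2 k cF cT e).time (by omega)⟩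

/-- **Simulation of stack programs.** -/
theorem sim (hw : B + κ * (H + 1) < 2 ^ w) (hf : Injective f) (hfκ : ∀ k, f k < κ)
    {c : Cmd K} {s s' : St K} {t : ℕ} (h : Exec c s s' t) (hH : ∀ k, (s k).length + t ≤ H)
    {σ : S} (hσ : Rep f B κ s σ) :
    W w ρ (cc f c) σ (8 * t) (fun σ' => Rep f B κ s' σ' ∧ Keep B κ σ σ') :=
  (sim_aux hw hf hfκ h hH σ hσ).1

end Sim

end Crest.Agent.R309.Ram
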