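import Crest.Agent.R309.Run
import Crest.Agent.R309.Init

/-!
# Row 309: samples and probes

`sample_close`: `Ex_append`, `transports` with `init_close` and `transit_close`, `s ≤ n^34`.
`probe_close`: the blocks `[0, (n^34+1) l1)`, number `n^34 + 1` and number `n^34 + 2` are independent (`Ex_fresh`);
`sample_close` applied to `X ↦ Ex l1 (G (run X ·))`, then `run_close` with `ψ = 1`, `li = 1`, `e₀ = cell s`.  For `probeB`
the test function is `x ↦ [x.2 = a] * Ex (coin)`; on `Om` the coin has probability `fR (j+1) / fR j ≤ 1` up to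
`5 * 2^-K` (`approx`, `abs_Ex_coin_sub_le`), and `∑ wt (f s) * fR (j+1) / fR j = Z (s+1)` by `wt_succ`.
-/

set_option autoImplicit false

namespace Crest.Agent.R309.Pre

open Finset

variable {p : Pre}

theorem OK.sample_close (h : p.OK) {s : ℕ} (hs : s ≤ p.S) {H : Hist} (hH : p.Good s H) {L : ℕ}
    (hL : (p.n ^ 34 + 1) * p.l1 ≤ L) (g : List ℤ → ℝ) (hg : ∀ y, |g y| ≤ 1) :
    |Ex L (fun τ => g (p.sample H s τ)) - p.mu s g| ≤ 2 / (p.n : ℝ) ^ 41 := by
  have hn := h.n_ge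
  have hsn : s ≤ p.n ^ 34 := hs.trans h.S_le
  obtain ⟨L', rfl⟩ := Nat.exists_eq_add_of_le
    (show p.l1 ≤ L from le_trans (Nat.le_mul_of_pos_left _ (Nat.succ_pos _)) hL)
  have hL' : s * p.l1 ≤ L' := by
    have := Nat.mul_le_mul_right p.l1 hsn
    rw [add_mul, one_mul] at hL
    omega
  have h0 : p.n ^ 2 * ((p.I.M + 1) * p.K) ≤ p.l1 := by
    have h1 : p.I.M + 1 ≤ p.n := by have := h.M_le; omega
    calc p.n ^ 2 * ((p.I.M + 1) * p.K) ≤ p.n ^ 2 * (p.n * p.K) := by gcongr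
      _ = p.n ^ 3 * p.K := by ring
      _ ≤ p.n ^ 700 * (4 * p.K) :=
        Nat.mul_le_mul (Nat.pow_le_pow_right (by omega) (by norm_num)) (by omega)
  have key := transports (p.transit H) (L₀ := p.l1) hL' p.init p.mu
    (fun g hg => h.init_close h0 g hg) (fun i hi g hg => h.transit_close hs hH hi g hg) g hg
  have e : Ex (p.l1 + L') (fun τ => g (p.sample H s τ)) =
      Ex p.l1 fun τ₀ => Ex L' fun τ => g (foldT (p.transit H) p.l1 s (p.init τ₀) τ) := by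
    rw [Ex_append]
    refine Ex_congr fun x hx => ?_
    simp only [sample, List.take_left' hx, List.drop_left' hx]
  rw [e]
  refine key.trans ?_
  have hn' : (0 : ℝ) < p.n := by exact_mod_cast (by omega : 0 < p.n)
  have h1 : (s : ℝ) ≤ (p.n : ℝ) ^ 34 := by exact_mod_cast hsn
  calc 1 / (p.n : ℝ) ^ 41 + s * (1 / (p.n : ℝ) ^ 75)
      ≤ 1 / (p.n : ℝ) ^ 41 + (p.n : ℝ) ^ 34 * (1 / (p.n : ℝ) ^ 75) := by gcongr
    _ = 2 / (p.n : ℝ) ^ 41 := by field_simp; ring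

/-- A test function of the probe state and of the last block. -/
theorem OK.probe_gen (h : p.OK) {s : ℕ} (hs : s < p.S) {H : Hist} (hH : p.Good s H) (w : p.I.V)
    (G : List ℤ × ℕ → List Bool → ℝ) (hG : ∀ y ω, |G y ω| ≤ 1) :
    |Ex p.l2 (fun τ => G (p.probeState H s w τ) (chunk p.l1 (p.n ^ 34 + 2) τ)) -
        p.piE s w (rowOf H s w) 1 fun y => Ex p.l1 (G y)| ≤
      2 / (p.n : ℝ) ^ 41 + 1 / (p.n : ℝ) ^ 76 := by
  have hn := h.n_ge
  have hG' : ∀ y, |Ex p.l1 (G y)| ≤ 1 := fun y => abs_Ex_le fun ω _ => hG y ω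
  have e1 : Ex p.l2 (fun τ => G (p.probeState H s w τ) (chunk p.l1 (p.n ^ 34 + 2) τ)) =
      Ex p.l2 fun τ => Ex p.l1 (G (p.probeState H s w τ)) := by
    refine Ex_fresh (T := p.n ^ 34 + 2) le_rfl (fun τ ω => G (p.probeState H s w τ) ω) fun τ ω => ?_
    have hm : min ((p.n ^ 34 + 1) * p.l1) ((p.n ^ 34 + 2) * p.l1) = (p.n ^ 34 + 1) * p.l1 :=
      min_eq_left (Nat.mul_le_mul_right _ (by omega))
    simp only [probeState, List.take_take, hm, chunk_take τ (le_refl ((p.n ^ 34 + 1 + 1) * p.l1))]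
  have e2 : (Ex p.l2 fun τ => Ex p.l1 (G (p.probeState H s w τ))) =
      Ex p.l2 fun τ => Ex p.l1 fun ω => Ex p.l1 (G (p.run s w (rowOf H s w) 1
        (p.sample H s (τ.take ((p.n ^ 34 + 1) * p.l1))) ω)) := by
    refine Ex_fresh (T := p.n ^ 34 + 1) (Nat.mul_le_mul_right _ (by omega))
      (fun τ ω => Ex p.l1 (G (p.run s w (rowOf H s w) 1
        (p.sample H s (τ.take ((p.n ^ 34 + 1) * p.l1))) ω))) fun τ ω => ?_
    simp only [List.take_take, min_self]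
  have e3 := Ex_take (ℓ := (p.n ^ 34 + 1) * p.l1) (L := p.l2) (Nat.mul_le_mul_right _ (by omega))
    fun τ => Ex p.l1 fun ω => Ex p.l1 (G (p.run s w (rowOf H s w) 1 (p.sample H s τ) ω))
  have h1 := h.sample_close hs.le hH le_rfl
    (fun X => Ex p.l1 fun ω => Ex p.l1 (G (p.run s w (rowOf H s w) 1 X ω)))
    fun X => abs_Ex_le fun ω _ => hG' _
  have hnZ : (1 : ℤ) ≤ p.nZ ^ 78 := one_le_pow₀ (by unfold nZ; omega)
  have h2 := h.run_close s w (rowOf H s w) (Good.row_half h hs.le hH le_rfl w) le_rfl hnZ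
    ⟨p.cell s, h.cell_lt hs⟩ (fun _ => 1) (fun _ _ _ => by norm_num)
    (fun _ _ _ => by simp) (Or.inr fun _ => rfl) le_rfl (fun y => Ex p.l1 (G y)) hG'
  simp only [mul_one] at h2
  rw [e1, e2, e3]
  exact (abs_sub_le _ _ _).trans (add_le_add h1 h2)

theorem OK.samp_wt_nonneg (h : p.OK) (s : ℕ) {X : Fin p.I.M → ℤ} (hX : X ∈ box p.mdl.lo p.mdl.hi) :
    0 ≤ wt (p.f s) X := by
  refine prod_nonneg fun e _ => (h.fR_pos _ e ?_).le
  have h1 : p.lo' e ≤ X e ∧ X e ≤ p.hi' e := mem_box.1 hX e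
  have h2 := h.len_pos e
  rw [abs_of_nonneg (by omega)]
  unfold len at *
  omega

theorem samp_sum_W (s : ℕ) (w : p.I.V) (om : p.I.V → ℝ) :
    ∑ x ∈ p.mdl.Om w, Mdl.W (p.f s) om x = ∑ b, om b * p.Z s b w := by
  rw [Mdl.sum_Om]
  refine sum_congr rfl fun b _ => ?_
  simp only [Mdl.W, Z, Mdl.Z, mul_sum, mul_comm]

theorem samp_sum_W_ind (s : ℕ) (w a : p.I.V) (om : p.I.V → ℝ) (φ : (Fin p.I.M → ℤ) → ℝ) :
    ∑ x ∈ p.mdl.Om w, Mdl.W (p.f s) om x * (ind ((x.2 : ℕ) = a) * φ x.1) =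
      om a * ∑ X ∈ p.mdl.cl a w, wt (p.f s) X * φ X := by
  rw [Mdl.sum_Om, sum_eq_single a]
  · rw [mul_sum]
    refine sum_congr rfl fun X _ => ?_
    rw [ind_of rfl, Mdl.W]; ring
  · intro b _ hb
    refine sum_eq_zero fun X _ => ?_
    rw [ind_of_not fun h => hb (Fin.ext h)]; ring
  · simp

theorem samp_ratio {a b a' b' δ : ℝ} (hb : 0 < b) (hab : a ≤ b) (ha : 0 ≤ a) (hδ : 0 ≤ δ) (hδ' : δ ≤ 1 / 2)
    (h1 : |a' - a| ≤ δ * a) (h2 : |b' - b| ≤ δ * b) : |min 1 (a' / b') - a / b| ≤ 4 * δ := by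
  have h3 := abs_le.mp h1
  have h4 := abs_le.mp h2
  have hb' : b / 2 ≤ b' := by nlinarith
  have hb'' : 0 < b' := by linarith
  have h5 : |a' / b' - a / b| ≤ 4 * δ := by
    rw [div_sub_div _ _ hb''.ne' hb.ne', abs_div, abs_of_pos (mul_pos hb'' hb), div_le_iff₀ (mul_pos hb'' hb)]
    have e : a' * b - b' * a = (a' - a) * b - (b' - b) * a := by ring
    have h6 : |a' * b - b' * a| ≤ δ * a * b + δ * b * a := by
      rw [e]
      refine (abs_sub _ _).trans (add_le_add ?_ ?_)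
      · rw [abs_mul, abs_of_pos hb]; gcongr
      · rw [abs_mul, abs_of_nonneg ha]; gcongr
    have h7 : δ * a * b ≤ δ * (2 * b') * b := by gcongr; linarith
    nlinarith
  have h8 : a / b ≤ 1 := (div_le_one hb).mpr hab
  have h9 := abs_le.mp h5
  rw [abs_le]
  constructor
  · exact le_sub_iff_add_le.mpr (le_min (by linarith) (by linarith))
  · linarith [min_le_right 1 (a' / b')]

theorem OK.samp_coin (h : p.OK) {s : ℕ} (hs : s < p.S) {x : ℤ} (h1 : p.lo' (p.cell s) ≤ x)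
    (h2 : x ≤ p.hi' (p.cell s)) :
    |Ex p.l1 (fun ω => ind (p.coin s x ω = true)) -
      p.fR (p.jj s (p.cell s) + 1) (p.cell s) x / p.fR (p.jj s (p.cell s)) (p.cell s) x| ≤
      5 * (1 / 2) ^ p.K := by
  have hn := h.n_ge
  have hj := (h.jj_succ s).1
  obtain ⟨a1, a2, a3⟩ := h.approx hj.le ⟨p.cell s, h.cell_lt hs⟩ h1 h2
  obtain ⟨b1, b2, b3⟩ := h.approx (j := p.jj s (p.cell s) + 1) hj ⟨p.cell s, h.cell_lt hs⟩ h1 h2
  have hl : |x - p.lo' (p.cell s)| ≤ 3 * p.len (p.cell s) := by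
    rw [abs_of_nonneg (by omega)]
    unfold len
    omega
  have c1 := h.fR_pos (p.jj s (p.cell s)) ⟨p.cell s, h.cell_lt hs⟩ hl
  have c2 := h.fR_pos (p.jj s (p.cell s) + 1) ⟨p.cell s, h.cell_lt hs⟩ hl
  have c3 := (h.tilt_bounds (p.jj s (p.cell s)) ⟨p.cell s, h.cell_lt hs⟩ h1 h2).1
  simp only at a1 a2 a3 b1 b2 b3 c1 c2 c3
  rw [one_le_div c2] at c3
  have hK : p.K ≤ p.l1 := by
    unfold l1
    exact le_trans (by omega) (Nat.le_mul_of_pos_left _ (by positivity))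
  have hK1 : ((1 : ℝ) / 2) ^ p.K ≤ 1 / 2 :=
    pow_le_of_le_one (by norm_num) (by norm_num) (by unfold K; positivity)
  have d1 := abs_Ex_coin_sub_le p.K (mul_pos b1 a2).le (mul_pos a1 b2)
  have d2 := samp_ratio c1 c3 c2.le (by positivity) hK1 b3 a3
  have e1 : Ex p.l1 (fun ω => ind (p.coin s x ω = true)) = Ex p.K fun τ => ind (num τ *
      (p.fn (p.jj s (p.cell s)) (p.cell s) x * p.fd (p.jj s (p.cell s) + 1) (p.cell s) x) <
      2 ^ p.K * (p.fn (p.jj s (p.cell s) + 1) (p.cell s) x * p.fd (p.jj s (p.cell s)) (p.cell s) x)) := by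
    rw [← Ex_take hK]
    simp only [coin, decide_eq_true_eq]
  have e2 : ((p.fn (p.jj s (p.cell s) + 1) (p.cell s) x * p.fd (p.jj s (p.cell s)) (p.cell s) x : ℤ) : ℝ) /
      ((p.fn (p.jj s (p.cell s)) (p.cell s) x * p.fd (p.jj s (p.cell s) + 1) (p.cell s) x : ℤ) : ℝ) =
      (p.fn (p.jj s (p.cell s) + 1) (p.cell s) x : ℝ) / p.fd (p.jj s (p.cell s) + 1) (p.cell s) x /
        ((p.fn (p.jj s (p.cell s)) (p.cell s) x : ℝ) / p.fd (p.jj s (p.cell s)) (p.cell s) x) := by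
    push_cast
    rw [div_div_div_eq, mul_comm (p.fd (p.jj s (p.cell s) + 1) (p.cell s) x : ℝ)]
  rw [e2] at d1
  rw [e1]
  exact (abs_sub_le _ _ _).trans (by linarith)

theorem OK.samp_num (h : p.OK) :
    2 / (p.n : ℝ) ^ 41 + 1 / (p.n : ℝ) ^ 76 + 5 * (1 / 2) ^ p.K ≤ 1 / (p.n : ℝ) ^ 40 := by
  have hn := h.n_ge
  have hn' : (64 : ℝ) ≤ p.n := by exact_mod_cast hn
  have h0 : (0 : ℝ) < p.n := by linarith
  have h1 : p.n ^ 41 ≤ 2 ^ p.K := by
    calc p.n ^ 41 ≤ (2 ^ p.n) ^ 41 := Nat.pow_le_pow_left Nat.lt_two_pow_self.le _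
      _ = 2 ^ (p.n * 41) := by rw [← pow_mul]
      _ ≤ 2 ^ p.K := Nat.pow_le_pow_right (by norm_num) (by
          unfold K
          have h41 : 41 ≤ p.n ^ 2 := by nlinarith
          calc p.n * 41 ≤ p.n * p.n ^ 2 := Nat.mul_le_mul_left _ h41
            _ = p.n ^ 3 := by ring)
  have h2 : ((1 : ℝ) / 2) ^ p.K ≤ 1 / (p.n : ℝ) ^ 41 := by
    rw [one_div_pow]
    exact one_div_le_one_div_of_le (by positivity) (by exact_mod_cast h1)
  have h3 : 1 / (p.n : ℝ) ^ 76 ≤ 1 / (p.n : ℝ) ^ 41 :=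
    one_div_le_one_div_of_le (by positivity) (pow_le_pow_right₀ (by linarith) (by norm_num))
  have h4 : 8 * (1 / (p.n : ℝ) ^ 41) ≤ 1 / (p.n : ℝ) ^ 40 := by
    rw [pow_succ (p.n : ℝ) 40, mul_one_div, div_le_div_iff₀ (by positivity) (by positivity)]
    have : (0 : ℝ) < (p.n : ℝ) ^ 40 := by positivity
    nlinarith
  have h5 : 2 / (p.n : ℝ) ^ 41 = 2 * (1 / (p.n : ℝ) ^ 41) := by ring
  linarith

theorem OK.probe_close (h : p.OK) {s : ℕ} (hs : s < p.S) {H : Hist} (hH : p.Good s H)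
    (w a : p.I.V) :
    |Ex p.l2 (fun τ => ind (p.probeA H s w a τ = true)) -
        p.om w (rowOf H s w) 1 a * p.Z s a w / ∑ b, p.om w (rowOf H s w) 1 b * p.Z s b w| ≤
      1 / (p.n : ℝ) ^ 40 ∧
    |Ex p.l2 (fun τ => ind (p.probeB H s w a τ = true)) -
        p.om w (rowOf H s w) 1 a * p.Z (s + 1) a w / ∑ b, p.om w (rowOf H s w) 1 b * p.Z s b w| ≤
      1 / (p.n : ℝ) ^ 40 := by
  have hind : ∀ q : Prop, |ind q| ≤ 1 := fun q => by
    rw [abs_of_nonneg (ind_nonneg q)]; exact ind_le_one q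
  have hnum := h.samp_num
  have hK : (0 : ℝ) ≤ 5 * (1 / 2) ^ p.K := by positivity
  have hrow := Good.row_half h hs.le hH le_rfl w
  have hom : ∀ b, 0 < p.om w (rowOf H s w) 1 b := fun b => (h.om_Z hrow le_rfl b).1
  have hD : 0 < ∑ b, p.om w (rowOf H s w) 1 b * p.Z s b w :=
    sum_pos (fun b _ => mul_pos (hom b) (h.Z_pos s b w)) univ_nonempty
  constructor
  · have h1 := h.probe_gen hs hH w (fun y _ => ind (y.2 = a)) fun _ _ => hind _
    have e : (p.piE s w (rowOf H s w) 1 fun y => Ex p.l1 fun _ => ind (y.2 = a)) =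
        p.om w (rowOf H s w) 1 a * p.Z s a w / ∑ b, p.om w (rowOf H s w) 1 b * p.Z s b w := by
      have := samp_sum_W_ind s w a (p.om w (rowOf H s w) 1) fun _ => 1
      simp only [mul_one] at this
      simp only [piE, Ex_const, code, samp_sum_W, this, Z, Mdl.Z]
    rw [e] at h1
    simp only [probeA, decide_eq_true_eq]
    linarith
  · have h1 := h.probe_gen hs hH w
      (fun y ω => ind (y.2 = a) * ind (p.coin s (y.1.getD (p.cell s) 0) ω = true)) fun _ _ => by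
        rw [← ind_and]; exact hind _
    set e₀ : Fin p.I.M := ⟨p.cell s, h.cell_lt hs⟩ with he₀
    have e1 : p.om w (rowOf H s w) 1 a * p.Z (s + 1) a w =
        ∑ x ∈ p.mdl.Om w, Mdl.W (p.f s) (p.om w (rowOf H s w) 1) x * (ind ((x.2 : ℕ) = a) *
          (p.fR (p.jj s (p.cell s) + 1) (p.cell s) (x.1 e₀) /
            p.fR (p.jj s (p.cell s)) (p.cell s) (x.1 e₀))) := by
      rw [samp_sum_W_ind s w a _ fun X => p.fR (p.jj s (p.cell s) + 1) (p.cell s) (X e₀) /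
            p.fR (p.jj s (p.cell s)) (p.cell s) (X e₀)]
      congr 1
      refine sum_congr rfl fun X hX => ?_
      have hb : X ∈ box p.mdl.lo p.mdl.hi := (mem_filter.1 hX).1
      have hx : p.lo' e₀ ≤ X e₀ ∧ X e₀ ≤ p.hi' e₀ := mem_box.1 hb e₀
      have hl : |X e₀ - p.lo' e₀| ≤ 3 * p.len e₀ := by
        rw [abs_of_nonneg (by omega)]
        unfold len
        omega
      have c1 := (h.fR_pos (p.jj s (p.cell s)) e₀ hl).ne'
      have c2 := (h.fR_pos (p.jj s (p.cell s) + 1) e₀ hl).ne'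
      rw [← h.wt_succ hs hb]
      simp only [he₀] at c1 c2 ⊢
      field_simp
    have h2 : |(p.piE s w (rowOf H s w) 1 fun y => Ex p.l1 fun ω =>
          ind (y.2 = a) * ind (p.coin s (y.1.getD (p.cell s) 0) ω = true)) -
        p.om w (rowOf H s w) 1 a * p.Z (s + 1) a w / ∑ b, p.om w (rowOf H s w) 1 b * p.Z s b w| ≤
        5 * (1 / 2) ^ p.K := by
      rw [piE, samp_sum_W, e1, ← sub_div, abs_div, abs_of_pos hD, div_le_iff₀ hD, ← samp_sum_W,
        ← sum_sub_distrib, mul_sum]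
      refine (abs_sum_le_sum_abs _ _).trans (sum_le_sum fun x hx => ?_)
      have hb : x.1 ∈ box p.mdl.lo p.mdl.hi := (mem_filter.1 (Mdl.mem_Om.1 hx)).1
      have hx : p.lo' e₀ ≤ x.1 e₀ ∧ x.1 e₀ ≤ p.hi' e₀ := mem_box.1 hb e₀
      have hW : 0 ≤ Mdl.W (p.f s) (p.om w (rowOf H s w) 1) x :=
        mul_nonneg (h.samp_wt_nonneg s hb) (hom _).le
      have hc := h.samp_coin hs hx.1 hx.2
      have e2 : (List.ofFn x.1).getD (p.cell s) 0 = x.1 e₀ := getD_ofFn x.1 0 e₀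
      simp only [code, Ex_mul_left, e2]
      rw [← mul_sub, ← mul_sub, abs_mul, abs_mul, abs_of_nonneg hW, mul_comm]
      refine mul_le_mul_of_nonneg_right ?_ hW
      calc _ ≤ 1 * (5 * (1 / 2) ^ p.K) := mul_le_mul (hind _) hc (abs_nonneg _) zero_le_one
        _ = _ := one_mul _
    simp only [probeB, probeA, Bool.and_eq_true, decide_eq_true_eq, ind_and]
    exact (abs_sub_le _ _ _).trans (by linarith)

end Crest.Agent.R309.Pre
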