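import Crest.Agent.R309.MH

/-!
# Row 309: flows with entries in `[0, 2 ^ L)` as bit strings; the uniform chain

`dec` reads `M` blocks of `L` bits, `encS` is its inverse on `[0, 2^L)^M`.  A string `X` of length `M L` has
the prefix `p` iff every block satisfies `loP p e ≤ dec X e ≤ hiP p e` (padding `p` by `false`, resp. `true`):
blocks inside `p` are pinned, the block cut by the end of `p` gives a dyadic interval, later blocks are
free.  `exists_chain` takes `step = mh valid (fun p ξ => est (I.withBox (loP p) (hiP p), n, ξ)) (2 n) (M L) (n ^ r)`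
with block length `n ^ (r + 2)`, start `encS (feas (I, n)).2`, and uses `MH.lean` with `E = n`, `β = 2 ^ -n`.
-/

set_option autoImplicit false

namespace Crest.Agent.R309

open Finset Crest.Agent.Lib.PolyTime

/-- Read `M` numbers of `L` bits each. -/
def dec (M L : ℕ) (X : List Bool) : List ℤ := tab M fun e => num (chunk L e X)

/-- The `L` binary digits of `x`, most significant first. -/
def bitsOf (L : ℕ) (x : ℤ) : List Bool := tab L fun i => decide (x / 2 ^ (L - 1 - i) % 2 = 1)

def encS (L : ℕ) (X : List ℤ) : List Bool := (X.map (bitsOf L)).flatten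

def loP (M L : ℕ) (p : List Bool) : List ℤ := dec M L (p ++ List.replicate (M * L) false)

def hiP (M L : ℕ) (p : List Bool) : List ℤ := dec M L (p ++ List.replicate (M * L) true)

/-- The decoded vector has the target divergence. -/
def validS (I : Inst) (L : ℕ) (X : List Bool) : Bool :=
  (List.range (I.nv + 1)).all fun a => decide (I.delN (dec I.M L X) a = I.tN a)

@[fun_prop] theorem pt_dec {α : Type} [Enc α] {M L : α → ℕ} {X : α → List Bool} (hM : PT M)
    (hL : PT L) (hX : PT X) : PT fun a => dec (M a) (L a) (X a) := by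
  unfold dec; fun_prop

@[fun_prop] theorem pt_bitsOf {α : Type} [Enc α] {L : α → ℕ} {x : α → ℤ} (hL : PT L)
    (hx : PT x) : PT fun a => bitsOf (L a) (x a) := by
  unfold bitsOf; fun_prop

@[fun_prop] theorem pt_validS {α : Type} [Enc α] {I : α → Inst} {L : α → ℕ} {X : α → List Bool}
    (hI : PT I) (hL : PT L) (hX : PT X) : PT fun a => validS (I a) (L a) (X a) := by
  unfold validS; fun_prop

@[simp] theorem length_bitsOf (L : ℕ) (x : ℤ) : (bitsOf L x).length = L := by simp [bitsOf]

theorem tab_succ {α : Type} (n : ℕ) (g : ℕ → α) : tab (n + 1) g = tab n g ++ [g n] := by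
  simp [tab, List.range_succ]

theorem tab_congr {α : Type} {n : ℕ} {g g' : ℕ → α} (h : ∀ i < n, g i = g' i) :
    tab n g = tab n g' :=
  List.map_congr_left fun i hi => h i (List.mem_range.1 hi)

theorem bitsOf_succ (L : ℕ) (x : ℤ) :
    bitsOf (L + 1) x = bitsOf L (x / 2) ++ [decide (x % 2 = 1)] := by
  unfold bitsOf
  rw [tab_succ]
  congr 1
  · refine tab_congr fun i hi => ?_
    rw [Int.ediv_ediv_of_nonneg (by norm_num), ← pow_succ',
      show L + 1 - 1 - i = L - 1 - i + 1 by omega]
  · simp

theorem num_append (l l' : List Bool) : num (l ++ l') = num l * 2 ^ l'.length + num l' := by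
  simp [num, Bin.valMSB_append]

theorem num_single (d : Bool) : num [d] = if d then 1 else 0 := by
  cases d <;> simp [num, Bin.valMSB]

theorem num_replicate_false (m : ℕ) : num (List.replicate m false) = 0 := by
  induction m with
  | zero => rfl
  | succ m ih => rw [List.replicate_succ', num_append, ih, num_single]; simp

theorem num_replicate_true (m : ℕ) : num (List.replicate m true) = 2 ^ m - 1 := by
  induction m with
  | zero => rfl
  | succ m ih => rw [List.replicate_succ', num_append, ih, num_single]; simp; ring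

theorem num_bitsOf {L : ℕ} {x : ℤ} (h0 : 0 ≤ x) (h1 : x < 2 ^ L) : num (bitsOf L x) = x := by
  induction L generalizing x with
  | zero =>
    have : x = 0 := by simp at h1; omega
    subst this; rfl
  | succ L ih =>
    rw [pow_succ] at h1
    rw [bitsOf_succ, num_append, ih (by omega) (by omega), num_single]
    simp only [List.length_singleton, pow_one, decide_eq_true_eq]
    split_ifs <;> omega

theorem bitsOf_num (X : List Bool) : bitsOf X.length (num X) = X := by
  induction X using List.reverseRecOn with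
  | nil => rfl
  | append_singleton l d ih =>
    have h1 : num (l ++ [d]) / 2 = num l := by
      rw [num_append, num_single]; simp only [List.length_singleton, pow_one]; split_ifs <;> omega
    have h2 : decide (num (l ++ [d]) % 2 = 1) = d := by
      rw [num_append, num_single]
      cases d <;> simp
    rw [List.length_append, List.length_singleton, bitsOf_succ, h1, h2, ih]

theorem num_inj {X Y : List Bool} (hl : X.length = Y.length) (h : num X = num Y) : X = Y := by
  rw [← bitsOf_num X, ← bitsOf_num Y, hl, h]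

/-- An instance all of whose capacities are `[0, 2 ^ L - 1]`. -/
def Full (I : Inst) (L : ℕ) : Prop := ∀ e < I.M, I.loN e = 0 ∧ I.hiN e = 2 ^ L - 1

theorem chunk_zero (L : ℕ) (X : List Bool) : chunk L 0 X = X.take L := by simp [chunk]

theorem chunk_succ (L e : ℕ) (X : List Bool) : chunk L (e + 1) X = chunk L e (X.drop L) := by
  simp only [chunk, List.drop_drop]
  congr 2
  ring

theorem length_chunk_le (L e : ℕ) (X : List Bool) : (chunk L e X).length ≤ L := by
  simp [chunk]

theorem flatten_chunk (M L : ℕ) (X : List Bool) :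
    (tab M fun e => chunk L e X).flatten = X.take (M * L) := by
  induction M with
  | zero => simp [tab]
  | succ M ih => rw [tab_succ, List.flatten_append, ih, add_mul, one_mul, List.take_add]; simp [chunk]

theorem length_chunk_of_lt {M L e : ℕ} {X : List Bool} (hX : X.length = M * L) (he : e < M) :
    (chunk L e X).length = L :=
  length_chunk (hX ▸ Nat.mul_le_mul_right L he)

theorem encS_dec {M L : ℕ} {X : List Bool} (hX : X.length = M * L) : encS L (dec M L X) = X := by
  have h : (dec M L X).map (bitsOf L) = tab M fun e => chunk L e X := by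
    rw [dec, tab, List.map_map]
    refine tab_congr fun e he => ?_
    have := bitsOf_num (chunk L e X)
    rwa [length_chunk_of_lt hX he] at this
  rw [encS, h, flatten_chunk, ← hX, List.take_length]

theorem length_encS (L : ℕ) (X : List ℤ) : (encS L X).length = X.length * L := by
  induction X with
  | nil => simp [encS]
  | cons x X ih =>
    rw [encS, List.map_cons, List.flatten_cons, List.length_append, ← encS, ih, length_bitsOf,
      List.length_cons]
    ring

theorem chunk_encS (L : ℕ) (X : List ℤ) {e : ℕ} (he : e < X.length) :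
    chunk L e (encS L X) = bitsOf L (X.getD e 0) := by
  induction X generalizing e with
  | nil => simp at he
  | cons x X ih =>
    rw [encS, List.map_cons, List.flatten_cons, ← encS]
    cases e with
    | zero => rw [chunk_zero, List.take_left' (length_bitsOf L x)]; rfl
    | succ e =>
      rw [chunk_succ, List.drop_left' (length_bitsOf L x), ih (by simpa using he)]; rfl

theorem dec_encS {M L : ℕ} {X : Fin M → ℤ} (h : ∀ e, 0 ≤ X e ∧ X e < 2 ^ L) :
    dec M L (encS L (List.ofFn X)) = List.ofFn X := by
  rw [dec, tab_eq_ofFn]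
  congr 1
  funext e
  rw [chunk_encS L _ (by simp), getD_ofFn, num_bitsOf (h e).1 (h e).2]

theorem vec_dec (I : Inst) (L : ℕ) (X : List Bool) (e : Fin I.M) :
    I.vec (dec I.M L X) e = num (chunk L e X) := getD_tab _ _ e.2

theorem ofFn_vec (I : Inst) {X : List ℤ} (h : X.length = I.M) : List.ofFn (I.vec X) = X := by
  refine List.ext_getElem (by simp [h]) fun i h1 h2 => ?_
  simp [Inst.vec, List.getD_eq_getElem?_getD, h2]

theorem validS_iff {I : Inst} {n L : ℕ} (hI : I.WF n) (X : List Bool) :
    validS I L X = true ↔ del I.u I.v (I.vec (dec I.M L X)) = I.t := by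
  simp only [validS, List.all_eq_true, List.mem_range, decide_eq_true_eq, funext_iff]
  constructor
  · intro h a
    rw [← hI.delN_eq]
    exact h a a.2
  · intro h a ha
    exact (hI.delN_eq _ ⟨a, ha⟩).trans (h ⟨a, ha⟩)

theorem dec_mem_sol {I : Inst} {n L : ℕ} (hI : I.WF n) (hF : Full I L) {X : List Bool}
    (hX : X ∈ Val (validS I L) (I.M * L)) : I.vec (dec I.M L X) ∈ I.sol := by
  rw [mem_Val] at hX
  refine mem_cls.2 ⟨fun e => ?_, (validS_iff hI X).1 hX.2⟩
  have h1 := num_nonneg (chunk L e X)
  have h2 := num_lt (chunk L e X)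
  rw [length_chunk_of_lt hX.1 e.2] at h2
  rw [vec_dec, Inst.lo, Inst.hi, (hF e e.2).1, (hF e e.2).2]
  omega

theorem encS_mem_Val' {I : Inst} {n L : ℕ} (hI : I.WF n) {X : Fin I.M → ℤ}
    (h : ∀ e, 0 ≤ X e ∧ X e < 2 ^ L) (hX : del I.u I.v X = I.t) :
    encS L (List.ofFn X) ∈ Val (validS I L) (I.M * L) := by
  rw [mem_Val, validS_iff hI, dec_encS h, Inst.vec_ofFn, length_encS, List.length_ofFn]
  exact ⟨rfl, hX⟩

theorem encS_mem_Val {I : Inst} {n L : ℕ} (hI : I.WF n) (hF : Full I L) {X : Fin I.M → ℤ}
    (hX : X ∈ I.sol) :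
    encS L (List.ofFn X) ∈ Val (validS I L) (I.M * L) ∧
      dec I.M L (encS L (List.ofFn X)) = List.ofFn X := by
  obtain ⟨h1, h2⟩ := mem_cls.1 hX
  have h : ∀ e, 0 ≤ X e ∧ X e < 2 ^ L := fun e => by
    have := h1 e
    rw [Inst.lo, Inst.hi, (hF e e.2).1, (hF e e.2).2] at this
    omega
  exact ⟨encS_mem_Val' hI h h2, dec_encS h⟩

theorem dec_inj {M L : ℕ} {X Y : List Bool} (hX : X.length = M * L) (hY : Y.length = M * L)
    (h : dec M L X = dec M L Y) : X = Y := by
  rw [← encS_dec hX, h, encS_dec hY]

theorem card_Val {I : Inst} {n L : ℕ} (hI : I.WF n) (hF : Full I L) :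
    (Val (validS I L) (I.M * L)).card = I.cnt := by
  refine card_nbij' (fun X => I.vec (dec I.M L X)) (fun Y => encS L (List.ofFn Y))
    (fun X hX => dec_mem_sol hI hF hX) (fun Y hY => (encS_mem_Val hI hF hY).1) (fun X hX => ?_)
    fun Y hY => ?_
  · simp only
    rw [ofFn_vec I (by simp [dec]), encS_dec (mem_Val.1 hX).1]
  · simp only
    rw [(encS_mem_Val hI hF hY).2, Inst.vec_ofFn]

theorem dyadic_iff {q c : List Bool} {m : ℕ} (h : c.length = q.length + m) :
    (num (q ++ List.replicate m false) ≤ num c ∧ num c ≤ num (q ++ List.replicate m true)) ↔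
      q <+: c := by
  have hd : (c.drop q.length).length = m := by simp [h]
  have ht : (c.take q.length).length = q.length := by simp [h]
  have h1 := num_nonneg (c.drop q.length)
  have h2 := num_lt (c.drop q.length)
  have h3 := num_append (c.take q.length) (c.drop q.length)
  rw [List.take_append_drop] at h3
  rw [hd] at h2 h3
  rw [num_append, num_append, num_replicate_false, num_replicate_true, List.length_replicate,
    List.length_replicate, List.prefix_iff_eq_take, h3]
  have hp : (0 : ℤ) < 2 ^ m := by positivity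
  constructor
  · rintro ⟨h4, h5⟩
    refine num_inj ht.symm (le_antisymm ?_ ?_)
    · by_contra h6
      have : num (c.take q.length) + 1 ≤ num q := by omega
      nlinarith
    · by_contra h6
      have : num q + 1 ≤ num (c.take q.length) := by omega
      nlinarith
  · intro h4
    rw [← h4] at *
    constructor <;> linarith

theorem chunk_pad {L e N : ℕ} (p : List Bool) (b : Bool) (h : (e + 1) * L ≤ N) :
    chunk L e (p ++ List.replicate N b) =
      chunk L e p ++ List.replicate (L - (chunk L e p).length) b := by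
  rw [add_mul, one_mul] at h
  simp only [chunk, List.drop_append, List.take_append, List.drop_replicate, List.take_replicate,
    List.length_take, List.length_drop]
  congr 2
  omega

theorem prefix_iff_chunk {M L : ℕ} {p : List Bool} (X : List Bool) (hp : p.length ≤ M * L) :
    p <+: X ↔ ∀ e < M, chunk L e p <+: chunk L e X := by
  refine ⟨fun h e _ => (h.drop _).take _, fun h => ?_⟩
  induction M generalizing p X with
  | zero =>
    have : p = [] := by simpa using hp
    simp [this]
  | succ M ih =>
    have h0 := h 0 M.succ_pos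
    rw [chunk_zero, chunk_zero] at h0
    rcases le_total p.length L with h1 | h1
    · rw [List.take_of_length_le h1] at h0
      exact h0.trans (List.take_prefix _ _)
    · have h2 : p.take L = X.take L := by
        refine h0.eq_of_length_le ?_
        simp only [List.length_take]
        omega
      have h3 := ih (p := p.drop L) (X.drop L) (by rw [add_mul, one_mul] at hp; simp; omega)
        fun e he => by simpa only [chunk_succ] using h (e + 1) (by omega)
      rw [← List.take_append_drop L p, ← List.take_append_drop L X, h2]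
      exact (List.prefix_append_right_inj _).2 h3

theorem prefix_iff_box {M L : ℕ} {p X : List Bool} (hp : p.length ≤ M * L) (hX : X.length = M * L) :
    p <+: X ↔ ∀ e < M, (loP M L p).getD e 0 ≤ num (chunk L e X) ∧
      num (chunk L e X) ≤ (hiP M L p).getD e 0 := by
  rw [prefix_iff_chunk X hp]
  refine forall₂_congr fun e he => ?_
  have := length_chunk_le L e p
  rw [loP, hiP, dec, dec, getD_tab _ _ he, getD_tab _ _ he, chunk_pad p _ (Nat.mul_le_mul_right L he),
    chunk_pad p _ (Nat.mul_le_mul_right L he), dyadic_iff]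
  rw [length_chunk_of_lt hX he]
  omega

theorem getD_dec_bd (M L : ℕ) (X : List Bool) (e : ℕ) :
    0 ≤ (dec M L X).getD e 0 ∧ (dec M L X).getD e 0 < 2 ^ L := by
  rcases lt_or_ge e M with he | he
  · rw [dec, getD_tab _ _ he]
    exact ⟨num_nonneg _, (num_lt _).trans_le
      (pow_le_pow_right₀ (by norm_num) (length_chunk_le _ _ _))⟩
  · rw [List.getD_eq_default _ _ (by simpa [dec] using he)]
    exact ⟨le_rfl, by positivity⟩

theorem cntP_eq {I : Inst} {n L : ℕ} (hI : I.WF n) {p : List Bool} (hp : p.length ≤ I.M * L) :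
    cntP (validS I L) (I.M * L) p = (I.withBox (loP I.M L p) (hiP I.M L p)).cnt := by
  change _ = (cls I.u I.v (fun e => (loP I.M L p).getD e 0) (fun e => (hiP I.M L p).getD e 0)
    I.t).card
  have hb : ∀ Y ∈ cls I.u I.v (fun e => (loP I.M L p).getD e 0) (fun e => (hiP I.M L p).getD e 0)
      I.t, ∀ e, 0 ≤ Y e ∧ Y e < 2 ^ L := fun Y hY e =>
    ⟨(getD_dec_bd _ _ _ _).1.trans ((mem_cls.1 hY).1 e).1,
      ((mem_cls.1 hY).1 e).2.trans_lt (getD_dec_bd _ _ _ _).2⟩
  refine card_nbij' (fun X => I.vec (dec I.M L X)) (fun Y => encS L (List.ofFn Y))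
    (fun X hX => ?_) (fun Y hY => ?_) (fun X hX => ?_) fun Y hY => ?_
  · obtain ⟨h1, h2⟩ := mem_filter.1 (mem_coe.1 hX)
    rw [mem_Val] at h1
    refine mem_coe.2 (mem_cls.2 ⟨fun e => ?_, (validS_iff hI X).1 h1.2⟩)
    simp only [vec_dec]
    exact (prefix_iff_box hp h1.1).1 h2 e e.2
  · have h1 := encS_mem_Val' hI (hb Y hY) (mem_cls.1 hY).2
    refine mem_coe.2 (mem_filter.2 ⟨h1, (prefix_iff_box hp (mem_Val.1 h1).1).2 fun e he => ?_⟩)
    have := vec_dec I L (encS L (List.ofFn Y)) ⟨e, he⟩
    rw [dec_encS (hb Y hY), Inst.vec_ofFn] at this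
    rw [← this]
    exact (mem_cls.1 hY).1 ⟨e, he⟩
  · simp only
    rw [ofFn_vec I (by simp [dec]), encS_dec (mem_Val.1 (mem_filter.1 (mem_coe.1 hX)).1).1]
  · simp only
    rw [dec_encS (hb Y hY), Inst.vec_ofFn]

theorem wf_withBox {I : Inst} {n L : ℕ} (hI : I.WF n) (hL : L ≤ n) (A B : List Bool) :
    (I.withBox (dec I.M L A) (dec I.M L B)).WF n := by
  have h : ∀ (X : List Bool) (e : ℕ), |(dec I.M L X).getD e 0| ≤ 2 ^ n := fun X e => by
    rw [abs_of_nonneg (getD_dec_bd _ _ _ _).1]
    exact (getD_dec_bd _ _ _ _).2.le.trans (pow_le_pow_right₀ (by norm_num) hL)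
  exact ⟨hI.size, hI.lvs, length_tab _ _, length_tab _ _, hI.ltgt, hI.uN_le, hI.vN_le, hI.ne, h A, h B,
    hI.t_le⟩

/-- A chain on strings, computable in polynomial time, that converges geometrically to the uniform
law on the valid strings.  The context is `(I, L, n)`. -/
structure ChainSpec (X₀ : Inst × ℕ × ℕ → List Bool)
    (step : (Inst × ℕ × ℕ) × List Bool × List Bool → List Bool) (r : ℕ) : Prop where
  pt₀ : PT X₀
  pt : PT step
  len : ∀ c X τ, (step (c, X, τ)).length ≤ max X.length (c.1.M * c.2.1)
  mem : ∀ (I : Inst) (L n : ℕ) (X τ : List Bool), X ∈ Val (validS I L) (I.M * L) →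
    step ((I, L, n), X, τ) ∈ Val (validS I L) (I.M * L)
  mem₀ : ∀ (I : Inst) (L n : ℕ), I.WF n → Full I L → I.sol.Nonempty → X₀ (I, L, n) ∈ Val (validS I L) (I.M * L)
  mix : ∀ (I : Inst) (L n : ℕ), I.WF n → Full I L → 64 ≤ n → L ≤ n → 6 * (I.M * L) ≤ n →
    ∀ X ∈ Val (validS I L) (I.M * L), ∀ Y ∈ Val (validS I L) (I.M * L), ∀ t L', t * n ^ r ≤ L' →
      |Ex L' (fun τ => ind (foldT (fun _ X ω => step ((I, L, n), X, ω)) (n ^ r) t X τ = Y)) -
        1 / (I.cnt : ℝ)| ≤ (3 / 4) ^ t

theorem exists_chain {est : Inst × ℕ × List Bool → ℤ} {r : ℕ} (he : EstSpec est r)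
    {feas : Inst × ℕ → Bool × List ℤ} (hf : FeasSpec feas) :
    ∃ X₀ step r', ChainSpec X₀ step r' := by
  have h1 := he.pt
  have h2 := hf.pt
  refine ⟨fun c => encS c.2.1 (feas (c.1, c.2.2)).2, fun a => mh (validS a.1.1 a.1.2.1)
    (fun p ξ => est (a.1.1.withBox (loP a.1.1.M a.1.2.1 p) (hiP a.1.1.M a.1.2.1 p), a.1.2.2, ξ))
    (2 * a.1.2.2) (a.1.1.M * a.1.2.1) (a.1.2.2 ^ r) a.2.1 a.2.2, r + 2, ?_, ?_, ?_, ?_, ?_, ?_⟩
  · unfold encS; fun_prop
  · refine pt_mh (by fun_prop) ?_ (fun _ _ _ => he.nonneg _) (by fun_prop) (by fun_prop)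
      (by fun_prop) (by fun_prop) (by fun_prop)
    unfold loP hiP; fun_prop
  · intro c X τ
    simp only [mh]
    split_ifs
    · rw [length_propose]; exact le_max_right _ _
    · exact le_max_left _ _
  · exact fun I L n X τ hX => mh_mem _ _ _ _ hX τ
  · intro I L n hI hF hne
    have := (encS_mem_Val hI hF (hf.sound I n hI (hf.complete I n hI hne))).1
    rwa [ofFn_vec I (hf.len I n)] at this
  · intro I L n hI hF hn hL hD X hX Y hY t L' ht
    have hℓ : n ^ r + 2 * n * (I.M * L) ≤ n ^ (r + 2) := by
      have h3 : 1 ≤ n ^ r := Nat.one_le_pow _ _ (by omega)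
      rw [pow_add]
      generalize n ^ r = a at *
      generalize I.M * L = D at *
      nlinarith [Nat.mul_le_mul hD (le_refl n), Nat.mul_le_mul h3 (le_refl (n ^ 2)),
        Nat.mul_le_mul (le_refl a) (Nat.mul_le_mul hn hn)]
    have hn2 : n < 2 ^ n := Nat.lt_two_pow_self
    rw [← card_Val hI hF]
    have hn0 : 0 < n := by omega
    generalize r + 2 = r' at *
    have hz : ∀ p ξ, 0 ≤ (fun p ξ => est (I.withBox (loP I.M L p) (hiP I.M L p), n, ξ)) p ξ :=
      fun _ _ => he.nonneg _
    refine doeblin_mix (Val (validS I L) (I.M * L)) (mh (validS I L)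
      (fun p ξ => est (I.withBox (loP I.M L p) (hiP I.M L p), n, ξ)) (2 * n) (I.M * L) (n ^ r))
      (n ^ r') (fun X hX τ => mh_mem _ _ _ _ hX τ) (fun X hX Y hY => mh_symm hz hℓ hX hY)
      (fun X hX Y hY => mh_doeblin (E := n) (β := (1 / 2) ^ n) hz hℓ hn0 hD ?_ ?_
        (fun p hp => ?_) hX hY) hX ht hY
    · rw [two_mul, pow_add]
      exact Nat.mul_le_mul (Nat.pow_le_pow_right (by norm_num) (by omega)) hn2.le
    · have h3 : n - 1 < 2 ^ (n - 1) := Nat.lt_two_pow_self
      have h4 : 2 ^ n = 2 * 2 ^ (n - 1) := by rw [← pow_succ']; congr 1; omega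
      have h5 : 8 * (I.M * L) ≤ 2 ^ n := by omega
      rw [one_div_pow, mul_one_div, div_le_one (by positivity)]
      exact_mod_cast h5
    · rw [cntP_eq hI hp]
      exact he.good _ n _ (wf_withBox hI hL _ _) hn le_rfl

end Crest.Agent.R309
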