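import Crest.Agent.R309.Basic
import Crest.Prelude.Def_Tables

/-!
# Row 309: contingency tables as flows

Cell `(i, j)` has number `i * n + j` (`finProdFinEquiv`), row `i` is the vertex `i`, column `j` the vertex
`m + j`, the target is `(r, -c)`.
-/

set_option autoImplicit false

namespace Crest.Agent.R309

open Finset Crest.Agent.Lib.PolyTime Crest.Tables

def tabInst (m n : ℕ) (rs cs los his : List ℤ) : Inst :=
  (m + n, tab (m * n) (fun e => e / n), tab (m * n) (fun e => m + e % n), los, his,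
    rs ++ cs.map fun c => -c)

@[fun_prop] theorem pt_tabInst {α : Type} [Enc α] {m n : α → ℕ} {rs cs los his : α → List ℤ}
    (hm : PT m) (hn : PT n) (h₁ : PT rs) (h₂ : PT cs) (h₃ : PT los) (h₄ : PT his) :
    PT fun a => tabInst (m a) (n a) (rs a) (cs a) (los a) (his a) := by
  unfold tabInst; fun_prop

theorem tabInst_M (m n : ℕ) (rs cs los his : List ℤ) : (tabInst m n rs cs los his).M = m * n := by
  simp [tabInst, Inst.M, Inst.us]

/-- A matrix as a list of integers, row by row. -/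
def flat {m n : ℕ} (X : Fin m → Fin n → ℕ) : List ℤ :=
  ((List.ofFn fun i => List.ofFn (X i)).flatten).map fun x : ℕ => (x : ℤ)

theorem cell_lt {m n : ℕ} (i : Fin m) (j : Fin n) : (i : ℕ) * n + j < m * n := by
  have h1 : ((i : ℕ) + 1) * n ≤ m * n := Nat.mul_le_mul_right n i.2
  have h2 := j.2
  rw [Nat.add_mul, one_mul] at h1
  omega

theorem cell_div {n : ℕ} (i : ℕ) (j : Fin n) : (i * n + j) / n = i := by
  have hn : 0 < n := lt_of_le_of_lt (Nat.zero_le _) j.2
  rw [Nat.mul_comm, Nat.mul_add_div hn, Nat.div_eq_of_lt j.2, add_zero]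

theorem cell_mod {n : ℕ} (i : ℕ) (j : Fin n) : (i * n + j) % n = j := by
  rw [Nat.mul_comm, Nat.mul_add_mod, Nat.mod_eq_of_lt j.2]

theorem exists_cell {m n e : ℕ} (h : e < m * n) : ∃ (i : Fin m) (j : Fin n), e = i * n + j := by
  have hn : 0 < n := Nat.pos_of_ne_zero fun h0 => by simp [h0] at h
  refine ⟨⟨e / n, (Nat.div_lt_iff_lt_mul hn).2 h⟩, ⟨e % n, Nat.mod_lt _ hn⟩, ?_⟩
  simp [Nat.div_add_mod']

theorem flat_eq {m n : ℕ} (X : Fin m → Fin n → ℕ) :
    flat X = List.ofFn fun e : Fin (m * n) => (X e.divNat e.modNat : ℤ) := by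
  rw [List.ofFn_mul, flat, List.map_flatten, List.map_ofFn]
  congr 1
  refine congrArg List.ofFn (funext fun i => ?_)
  simp only [Function.comp_apply, List.map_ofFn]
  refine congrArg List.ofFn (funext fun j => ?_)
  simp only [Function.comp_apply]
  congr 2
  · exact Fin.ext (cell_div i j).symm
  · exact Fin.ext (cell_mod i j).symm

theorem length_flat {m n : ℕ} (X : Fin m → Fin n → ℕ) : (flat X).length = m * n := by
  simp [flat_eq]

theorem getD_flat {m n : ℕ} (X : Fin m → Fin n → ℕ) (i : Fin m) (j : Fin n) :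
    (flat X).getD (i * n + j) 0 = X i j := by
  rw [flat_eq]
  refine (getD_ofFn _ 0 ⟨i * n + j, cell_lt i j⟩).trans ?_
  congr 2
  · exact Fin.ext (cell_div i j)
  · exact Fin.ext (cell_mod i j)

theorem flat_injective {m n : ℕ} : Function.Injective (flat : (Fin m → Fin n → ℕ) → List ℤ) := by
  intro X Y h
  funext i j
  have h1 := getD_flat X i j
  rw [h, getD_flat] at h1
  exact_mod_cast h1.symm

section

variable {m n : ℕ} (rs : Fin m → ℕ) (cs : Fin n → ℕ) (b : Fin m → Fin n → ℕ)

/-- The instance of a bounded table problem. -/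
def tI : Inst :=
  tabInst m n (List.ofFn fun i => (rs i : ℤ)) (List.ofFn fun j => (cs j : ℤ))
    (List.replicate (m * n) 0) (flat b)

theorem tI_M : (tI rs cs b).M = m * n := tabInst_M ..

theorem tI_nv : (tI rs cs b).nv = m + n := rfl

theorem tI_uN {e : ℕ} (h : e < m * n) : (tI rs cs b).uN e = e / n := getD_tab _ _ h

theorem tI_vN {e : ℕ} (h : e < m * n) : (tI rs cs b).vN e = m + e % n := getD_tab _ _ h

theorem tI_loN (e : ℕ) : (tI rs cs b).loN e = 0 := by
  show (List.replicate (m * n) (0 : ℤ)).getD e 0 = 0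
  simp [List.getD_eq_getElem?_getD, List.getElem?_replicate]
  split_ifs <;> rfl

theorem tI_hiN (e : ℕ) : (tI rs cs b).hiN e = (flat b).getD e 0 := rfl

/-- the vector `(r, -c)` on the vertex numbers -/
def tvec (r : Fin m → ℤ) (c : Fin n → ℤ) (a : ℕ) : ℤ :=
  (∑ i : Fin m, if (i : ℕ) = a then r i else 0) - ∑ j : Fin n, if m + (j : ℕ) = a then c j else 0

theorem tvec_row (r : Fin m → ℤ) (c : Fin n → ℤ) (i : Fin m) : tvec r c i = r i := by
  have h : ∀ j : Fin n, ¬ (m + (j : ℕ) = i) := fun j => by have := i.2; omega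
  simp [tvec, h, Fin.val_inj]

theorem tvec_col (r : Fin m → ℤ) (c : Fin n → ℤ) (j : Fin n) : tvec r c (m + j) = -c j := by
  have h : ∀ i : Fin m, ¬ ((i : ℕ) = m + j) := fun i => by have := i.2; omega
  simp [tvec, h, Fin.val_inj]

theorem tvec_out (r : Fin m → ℤ) (c : Fin n → ℤ) {a : ℕ} (ha : m + n ≤ a) : tvec r c a = 0 := by
  have h : ∀ i : Fin m, ¬ ((i : ℕ) = a) := fun i => by have := i.2; omega
  have h' : ∀ j : Fin n, ¬ (m + (j : ℕ) = a) := fun j => by have := j.2; omega
  simp [tvec, h, h']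

theorem vertex_cases (a : ℕ) : (∃ i : Fin m, a = i) ∨ (∃ j : Fin n, a = m + j) ∨ m + n ≤ a := by
  by_cases h : a < m
  · exact Or.inl ⟨⟨a, h⟩, rfl⟩
  · by_cases h' : a < m + n
    · exact Or.inr (Or.inl ⟨⟨a - m, by omega⟩, by simp; omega⟩)
    · exact Or.inr (Or.inr (by omega))

theorem tI_tN (a : ℕ) : (tI rs cs b).tN a = tvec (fun i => (rs i : ℤ)) (fun j => (cs j : ℤ)) a := by
  show ((List.ofFn fun i => (rs i : ℤ)) ++ (List.ofFn fun j => (cs j : ℤ)).map fun c => -c).getD a 0 = _
  rcases vertex_cases (m := m) (n := n) a with ⟨i, rfl⟩ | ⟨j, rfl⟩ | h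
  · rw [tvec_row, List.getD_append _ _ _ _ (by simp), getD_ofFn]
  · rw [tvec_col, List.getD_append_right _ _ _ _ (by simp), List.length_ofFn, Nat.add_sub_cancel_left,
      List.map_ofFn, getD_ofFn]
    rfl
  · rw [tvec_out _ _ h, List.getD_eq_default _ _ (by simpa using h)]

theorem sum_cells (g : ℕ → ℤ) : ∑ e : Fin (m * n), g e = ∑ i : Fin m, ∑ j : Fin n, g (i * n + j) := by
  rw [← finProdFinEquiv.sum_comp, Fintype.sum_prod_type]
  refine Finset.sum_congr rfl fun i _ => Finset.sum_congr rfl fun j _ => ?_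
  simp [add_comm, mul_comm]

theorem tI_delN (X : Fin m → Fin n → ℕ) (a : ℕ) : (tI rs cs b).delN (flat X) a =
    tvec (fun i => ((∑ j, X i j : ℕ) : ℤ)) (fun j => ((∑ i, X i j : ℕ) : ℤ)) a := by
  rw [Inst.delN, tI_M, tab_eq_ofFn, List.sum_ofFn,
    sum_cells fun e => (flat X).getD e 0 * ((if (tI rs cs b).uN e = a then 1 else 0) -
      (if (tI rs cs b).vN e = a then 1 else 0))]
  simp only [tI_uN rs cs b (cell_lt _ _), tI_vN rs cs b (cell_lt _ _), cell_div, cell_mod, getD_flat, mul_sub,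
    Finset.sum_sub_distrib, tvec]
  congr 1
  · refine Finset.sum_congr rfl fun i _ => ?_
    split_ifs <;> simp
  · rw [Finset.sum_comm]
    refine Finset.sum_congr rfl fun j _ => ?_
    split_ifs <;> simp

theorem tI_wf {N : ℕ} (hs : m * n + (m + n) + 1 ≤ N) (hr : ∀ i, rs i ≤ 2 ^ N)
    (hc : ∀ j, cs j ≤ 2 ^ N) (hb : ∀ i j, b i j ≤ 2 ^ N) : (tI rs cs b).WF N := by
  have hp : (0 : ℤ) ≤ 2 ^ N := by positivity
  refine ⟨by rw [tI_M, tI_nv]; exact hs, ?_, ?_, ?_, ?_, fun e he => ?_, fun e he => ?_, fun e he => ?_,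
    fun e => ?_, fun e => ?_, fun a => ?_⟩
  · rw [tI_M]; exact length_tab _ _
  · rw [tI_M]; exact List.length_replicate
  · rw [tI_M]; exact length_flat b
  · show ((List.ofFn fun i => (rs i : ℤ)) ++ (List.ofFn fun j => (cs j : ℤ)).map fun c => -c).length = m + n
    simp
  · rw [tI_M] at he
    obtain ⟨i, j, rfl⟩ := exists_cell he
    rw [tI_uN _ _ _ he, tI_nv, cell_div]
    have := i.2
    omega
  · rw [tI_M] at he
    obtain ⟨i, j, rfl⟩ := exists_cell he
    rw [tI_vN _ _ _ he, tI_nv, cell_mod]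
    have := j.2
    omega
  · rw [tI_M] at he
    obtain ⟨i, j, rfl⟩ := exists_cell he
    rw [tI_uN _ _ _ he, tI_vN _ _ _ he, cell_div]
    have := i.2
    omega
  · rw [tI_loN]; simp
  · rw [tI_hiN]
    by_cases he : e < m * n
    · obtain ⟨i, j, rfl⟩ := exists_cell he
      rw [getD_flat, abs_of_nonneg (by positivity)]
      exact_mod_cast hb i j
    · rw [List.getD_eq_default _ _ (by rw [length_flat]; omega)]
      simp
  · rw [tI_tN]
    rcases vertex_cases (m := m) (n := n) a with ⟨i, rfl⟩ | ⟨j, rfl⟩ | h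
    · rw [tvec_row, abs_of_nonneg (by positivity)]
      exact_mod_cast hr i
    · rw [tvec_col, abs_neg, abs_of_nonneg (by positivity)]
      exact_mod_cast hc j
    · rw [tvec_out _ _ h]; simp

theorem tI_wf' : ∃ N, (tI rs cs b).WF N := by
  have key : ∀ x N : ℕ, x ≤ N → x ≤ 2 ^ N := fun x N h => h.trans Nat.lt_two_pow_self.le
  refine ⟨m * n + (m + n) + 1 + (∑ i, rs i + ∑ j, cs j + ∑ i, ∑ j, b i j),
    tI_wf rs cs b (by omega) (fun i => key _ _ ?_) (fun j => key _ _ ?_) fun i j => key _ _ ?_⟩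
  · have := Finset.single_le_sum (f := rs) (fun _ _ => Nat.zero_le _) (mem_univ i)
    omega
  · have := Finset.single_le_sum (f := cs) (fun _ _ => Nat.zero_le _) (mem_univ j)
    omega
  · have h1 := Finset.single_le_sum (f := b i) (fun _ _ => Nat.zero_le _) (mem_univ j)
    have h2 := Finset.single_le_sum (f := fun i => ∑ j, b i j) (fun _ _ => Nat.zero_le _) (mem_univ i)
    omega

theorem flat_mem_sol (X : Fin m → Fin n → ℕ) :
    (tI rs cs b).vec (flat X) ∈ (tI rs cs b).sol ↔ IsTable rs cs X ∧ ∀ i j, X i j ≤ b i j := by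
  obtain ⟨N, hN⟩ := tI_wf' rs cs b
  rw [Inst.sol, mem_cls, and_comm]
  refine and_congr ?_ ?_
  · have h1 : del (tI rs cs b).u (tI rs cs b).v ((tI rs cs b).vec (flat X)) = (tI rs cs b).t ↔
        ∀ a : (tI rs cs b).V, tvec (fun i => ((∑ j, X i j : ℕ) : ℤ)) (fun j => ((∑ i, X i j : ℕ) : ℤ)) a =
          tvec (fun i => (rs i : ℤ)) (fun j => (cs j : ℤ)) a := by
      rw [funext_iff]
      refine forall_congr' fun a => ?_
      rw [← hN.delN_eq, tI_delN, Inst.t, tI_tN]
    rw [h1]
    constructor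
    · intro h
      refine ⟨fun i => ?_, fun j => ?_⟩
      · have := h ⟨i, by have := i.2; rw [tI_nv]; omega⟩
        rw [tvec_row, tvec_row] at this
        exact_mod_cast this
      · have := h ⟨m + j, by have := j.2; rw [tI_nv]; omega⟩
        rw [tvec_col, tvec_col, neg_inj] at this
        exact_mod_cast this
    · intro h a
      simp only [h.1, h.2]
  · constructor
    · intro h i j
      have := (h ⟨i * n + j, by rw [tI_M]; exact cell_lt i j⟩).2
      simp only [Inst.vec, Inst.hi, tI_hiN, getD_flat] at this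
      exact_mod_cast this
    · intro h e
      obtain ⟨i, j, he⟩ := exists_cell (e.2.trans_eq (tI_M rs cs b))
      simp only [Inst.vec, Inst.hi, Inst.lo, tI_loN, tI_hiN, he, getD_flat]
      exact ⟨by positivity, by exact_mod_cast h i j⟩

theorem exists_flat {Y : Fin (tI rs cs b).M → ℤ} (hY : Y ∈ (tI rs cs b).sol) :
    ∃ X : Fin m → Fin n → ℕ, List.ofFn Y = flat X := by
  rw [Inst.sol, mem_cls] at hY
  refine ⟨fun i j => (Y ⟨i * n + j, by rw [tI_M]; exact cell_lt i j⟩).toNat, ?_⟩
  refine List.ext_getElem (by rw [length_flat, List.length_ofFn, tI_M]) fun e h1 h2 => ?_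
  obtain ⟨i, j, rfl⟩ := exists_cell (h2.trans_eq (length_flat _))
  rw [List.getElem_eq_getD (fallback := 0) (h := h2), getD_flat, List.getElem_ofFn, Int.toNat_of_nonneg]
  have := (hY.1 ⟨i * n + j, by rw [tI_M]; exact cell_lt i j⟩).1
  rwa [Inst.lo, tI_loN] at this

theorem numBoundedTables_eq : numBoundedTables rs cs b =
    Nat.card {X : Fin m → Fin n → ℕ // IsTable rs cs X ∧ ∀ i j, X i j ≤ b i j} := by
  rw [numBoundedTables, ← Nat.card_eq_fintype_card]
  exact Nat.card_congr
    { toFun := fun X => ⟨fun i j => X.1 i j, X.2, fun i j => Nat.le_of_lt_succ (X.1 i j).2⟩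
      invFun := fun X => ⟨fun i j => ⟨X.1 i j, Nat.lt_succ_of_le (X.2.2 i j)⟩, X.2.1⟩
      left_inv := fun _ => rfl
      right_inv := fun _ => rfl }

theorem cnt_tI : (tI rs cs b).cnt = numBoundedTables rs cs b := by
  rw [numBoundedTables_eq, Inst.cnt, ← Nat.card_eq_finsetCard]
  symm
  refine Nat.card_eq_of_bijective (fun X => ⟨(tI rs cs b).vec (flat X.1), (flat_mem_sol rs cs b X.1).2 X.2⟩)
    ⟨fun X Y h => ?_, fun Y => ?_⟩
  · refine Subtype.ext (funext fun i => funext fun j => ?_)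
    have := congrFun (congrArg Subtype.val h) ⟨i * n + j, by rw [tI_M]; exact cell_lt i j⟩
    simp only [Inst.vec, getD_flat] at this
    exact_mod_cast this
  · obtain ⟨X, hX⟩ := exists_flat rs cs b Y.2
    have h1 : (tI rs cs b).vec (flat X) = Y.1 := by rw [← hX, Inst.vec_ofFn]
    exact ⟨⟨X, (flat_mem_sol rs cs b X).1 (h1 ▸ Y.2)⟩, Subtype.ext h1⟩

/-- Bounds above the total do not matter. -/
theorem numBoundedTables_congr {B B' : ℕ} (hB : ∑ i, rs i ≤ B) (hB' : ∑ i, rs i ≤ B') :
    numBoundedTables rs cs (fun _ _ => B) = numBoundedTables rs cs (fun _ _ => B') := by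
  have key : ∀ X : Fin m → Fin n → ℕ, IsTable rs cs X → ∀ i j, X i j ≤ ∑ i, rs i := fun X hX i j => by
    have h1 := Finset.single_le_sum (f := X i) (fun _ _ => Nat.zero_le _) (mem_univ j)
    have h2 := Finset.single_le_sum (f := rs) (fun _ _ => Nat.zero_le _) (mem_univ i)
    have h3 := hX.1 i
    omega
  rw [numBoundedTables_eq, numBoundedTables_eq]
  refine Nat.card_congr (Equiv.subtypeEquivRight fun X => ?_)
  exact ⟨fun h => ⟨h.1, fun i j => (key X h.1 i j).trans hB'⟩, fun h => ⟨h.1, fun i j => (key X h.1 i j).trans hB⟩⟩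

/-- Equal totals admit a table (induction on the total). -/
theorem exists_isTable (h : ∑ i, rs i = ∑ j, cs j) : ∃ X, IsTable rs cs X := by
  generalize hk : ∑ i, rs i = k at h
  induction k generalizing rs cs with
  | zero =>
    refine ⟨fun _ _ => 0, fun i => ?_, fun j => ?_⟩
    · simp [(Finset.sum_eq_zero_iff.1 hk) i (mem_univ _)]
    · simp [(Finset.sum_eq_zero_iff.1 h.symm) j (mem_univ _)]
  | succ k ih =>
    obtain ⟨i, -, hi⟩ := Finset.exists_ne_zero_of_sum_ne_zero (s := univ) (f := rs) (by omega)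
    obtain ⟨j, -, hj⟩ := Finset.exists_ne_zero_of_sum_ne_zero (s := univ) (f := cs) (by omega)
    have e1 : ∀ a, rs a = (rs a - if a = i then 1 else 0) + if a = i then 1 else 0 := fun a => by
      split_ifs with ha
      · subst ha; omega
      · simp
    have e2 : ∀ a, cs a = (cs a - if a = j then 1 else 0) + if a = j then 1 else 0 := fun a => by
      split_ifs with ha
      · subst ha; omega
      · simp
    have s1 : ∑ a, (rs a - if a = i then 1 else 0) = k := by
      rw [Finset.sum_congr rfl fun a _ => e1 a, Finset.sum_add_distrib] at hk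
      simp only [sum_ite_eq', mem_univ, if_true] at hk
      omega
    have s2 : k = ∑ a, (cs a - if a = j then 1 else 0) := by
      rw [Finset.sum_congr rfl fun a _ => e2 a, Finset.sum_add_distrib] at h
      simp only [sum_ite_eq', mem_univ, if_true] at h
      omega
    obtain ⟨X, hX⟩ := ih _ _ s1 s2
    refine ⟨fun a c => X a c + (if a = i then 1 else 0) * (if c = j then 1 else 0), fun a => ?_, fun c => ?_⟩
    · rw [Finset.sum_add_distrib, hX.1 a, ← Finset.mul_sum]
      simp only [sum_ite_eq', mem_univ, if_true, mul_one]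
      exact (e1 a).symm
    · rw [Finset.sum_add_distrib, hX.2 c, ← Finset.sum_mul]
      simp only [sum_ite_eq', mem_univ, if_true, one_mul]
      exact (e2 c).symm

end

end Crest.Agent.R309
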