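import Crest.Agent.R309.Comb

/-!
# Row 309: one-cell properties of the weights, proofs (first half of `WtA`)
-/

set_option autoImplicit false

namespace Crest.Agent.R309.Pre.WA

open Finset

/-! ### Real inequalities -/

theorem logi_lc {c a b m : ℝ} (hc : 0 ≤ c) (h : 2 * m ≤ a + b) :
    (c + Real.exp m) ^ 2 ≤ (c + Real.exp a) * (c + Real.exp b) := by
  have h1 : Real.exp m ≤ Real.exp (a / 2) * Real.exp (b / 2) := by
    rw [← Real.exp_add]; exact Real.exp_le_exp.2 (by linarith)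
  have ha : Real.exp a = Real.exp (a / 2) ^ 2 := by rw [sq, ← Real.exp_add, add_halves]
  have hb : Real.exp b = Real.exp (b / 2) ^ 2 := by rw [sq, ← Real.exp_add, add_halves]
  have p1 := Real.exp_pos m
  rw [ha, hb]
  set A := Real.exp (a / 2)
  set B := Real.exp (b / 2)
  calc (c + Real.exp m) ^ 2 ≤ (c + A * B) ^ 2 := by gcongr
    _ ≤ _ := by nlinarith [mul_nonneg hc (sq_nonneg (A - B))]

theorem exp_le_three {δ : ℝ} (h : δ ≤ 1) : Real.exp δ ≤ 3 :=
  (Real.exp_le_exp.2 h).trans (by linarith [Real.exp_one_lt_d9])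

/-- One factor of the tilt. -/
noncomputable def T (c a δ : ℝ) : ℝ := (c + Real.exp (a + δ)) / (c + Real.exp a)

theorem T_bounds {c a δ : ℝ} (hc : 0 ≤ c) (h0 : 0 ≤ δ) (h1 : δ ≤ 1) :
    1 ≤ T c a δ ∧ T c a δ ≤ 3 := by
  have p1 := Real.exp_pos a
  have h2 := exp_le_three h1
  have h3 := Real.one_le_exp h0
  unfold T
  rw [Real.exp_add, one_le_div (by positivity), div_le_iff₀ (by positivity)]
  constructor <;> nlinarith

theorem T_zero (a δ : ℝ) : T 0 a δ = Real.exp δ := by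
  unfold T
  rw [Real.exp_add, zero_add, zero_add, mul_div_cancel_left₀ _ (Real.exp_pos a).ne']

theorem exp_lip {s t : ℝ} (ht : t ≤ 1) (h : |s - t| ≤ 1) :
    |Real.exp s - Real.exp t| ≤ 6 * |s - t| := by
  have e : Real.exp s - Real.exp t = Real.exp t * (Real.exp (s - t) - 1) := by
    rw [mul_sub, ← Real.exp_add]; ring_nf
  rw [e, abs_mul, abs_of_pos (Real.exp_pos t)]
  have h1 := Real.abs_exp_sub_one_le h
  have h2 := exp_le_three ht
  nlinarith [abs_nonneg (s - t), abs_nonneg (Real.exp (s - t) - 1), Real.exp_pos t]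

theorem T_one_lip {a h : ℝ} (h0 : 0 ≤ h) (h1 : h ≤ 1) : |T 1 (a + h) 1 - T 1 a 1| ≤ h := by
  have p1 := Real.exp_pos a
  have h2 : 1 ≤ Real.exp h := Real.one_le_exp h0
  have h3 : Real.exp h - 1 ≤ 2 * h := by
    have := Real.abs_exp_sub_one_le (x := h) (by rwa [abs_of_nonneg h0])
    rw [abs_of_nonneg h0] at this
    exact (le_abs_self _).trans this
  have h4 : Real.exp 1 ≤ 3 := exp_le_three le_rfl
  have h5 : 1 ≤ Real.exp 1 := Real.one_le_exp zero_le_one
  have e : T 1 (a + h) 1 - T 1 a 1 = (Real.exp 1 - 1) * (Real.exp h - 1) *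
      (Real.exp a / ((1 + Real.exp a) * (1 + Real.exp a * Real.exp h))) := by
    unfold T
    simp only [Real.exp_add]
    field_simp
    ring
  have h6 : Real.exp a / ((1 + Real.exp a) * (1 + Real.exp a * Real.exp h)) ≤ 1 / 4 := by
    rw [div_le_div_iff₀ (by positivity) (by norm_num)]
    have : Real.exp a ≤ Real.exp a * Real.exp h := by nlinarith
    nlinarith [sq_nonneg (1 - Real.exp a)]
  have h7 : 0 ≤ Real.exp a / ((1 + Real.exp a) * (1 + Real.exp a * Real.exp h)) := by positivity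
  have h8 : 0 ≤ (Real.exp 1 - 1) * (Real.exp h - 1) := mul_nonneg (by linarith) (by linarith)
  have h9 : (Real.exp 1 - 1) * (Real.exp h - 1) ≤ 2 * (2 * h) :=
    mul_le_mul (by linarith) h3 (by linarith) (by norm_num)
  rw [e, abs_of_nonneg (mul_nonneg h8 h7)]
  calc _ ≤ 2 * (2 * h) * (1 / 4) := mul_le_mul h9 h6 h7 (by positivity)
    _ = h := by ring

theorem prod_lip {A B A' B' L : ℝ} (hA : 1 ≤ A ∧ A ≤ 3) (hB' : 1 ≤ B' ∧ B' ≤ 3)
    (h1 : |A' - A| ≤ L) (h2 : |B' - B| ≤ L) : |A' * B' - A * B| ≤ 6 * L := by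
  have e : A' * B' - A * B = (A' - A) * B' + A * (B' - B) := by ring
  rw [e]
  refine (abs_add_le _ _).trans ?_
  rw [abs_mul, abs_mul, abs_of_nonneg (by linarith : 0 ≤ B'), abs_of_nonneg (by linarith : 0 ≤ A)]
  nlinarith [abs_nonneg (A' - A), abs_nonneg (B' - B)]

/-! ### The two factors of the weight -/

variable {p : Pre}

/-- the annealed factor -/
noncomputable def G (p : Pre) (j e : ℕ) (x : ℤ) : ℝ :=
  if p.ann e = true then
    1 / ((p.cc e + Real.exp (p.y1 j e x / p.den e)) * (p.cc e + Real.exp (p.y2 j e x / p.den e)))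
  else 1

theorem fR_eq (j e : ℕ) (x : ℤ) : p.fR j e x = (p.qn e x : ℝ) / p.qd e * G p j e x := rfl

theorem cc_nonneg (e : ℕ) : (0 : ℝ) ≤ p.cc e := by
  unfold cc; split_ifs <;> simp

theorem G_pos (j e : ℕ) (x : ℤ) : 0 < G p j e x := by
  have := cc_nonneg (p := p) e
  unfold G; split_ifs <;> positivity

theorem n_ge (h : p.OK) : (64 : ℝ) ≤ p.n := by exact_mod_cast h.n_ge

theorem qd_eq (e : ℕ) : (p.qd e : ℝ) = (p.n : ℝ) ^ 3 * (p.len e : ℝ) ^ 2 := by
  simp [qd, nZ]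

theorem qd_pos (h : p.OK) (e : Fin p.I.M) : (0 : ℝ) < p.qd e := by
  have h1 := n_ge h
  have h2 : (0 : ℝ) < p.len e := by exact_mod_cast h.len_pos e
  rw [qd_eq]; positivity

theorem quad_eq (h : p.OK) (e : Fin p.I.M) (x : ℤ) : (p.qn e x : ℝ) / p.qd e =
    if p.tree e = true then 1 else 1 - ((x : ℝ) - p.lo' e) ^ 2 / p.qd e := by
  have := (qd_pos h e).ne'
  unfold qn
  split_ifs
  · exact div_self this
  · push_cast; field_simp

theorem quad_bounds (h : p.OK) (e : Fin p.I.M) {x : ℤ} {c : ℕ}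
    (hx : |x - p.lo' e| ≤ c * p.len e) :
    1 - (c : ℝ) ^ 2 / (p.n : ℝ) ^ 3 ≤ (p.qn e x : ℝ) / p.qd e ∧ (p.qn e x : ℝ) / p.qd e ≤ 1 := by
  have h1 := n_ge h
  have h2 : (0 : ℝ) < p.len e := by exact_mod_cast h.len_pos e
  have h3 := qd_pos h e
  have hx' : |(x : ℝ) - p.lo' e| ≤ c * p.len e := by exact_mod_cast hx
  have h4 : ((x : ℝ) - p.lo' e) ^ 2 ≤ (c * p.len e) ^ 2 := by
    rw [← sq_abs]; gcongr
  have h5 : ((x : ℝ) - p.lo' e) ^ 2 / p.qd e ≤ (c : ℝ) ^ 2 / (p.n : ℝ) ^ 3 := by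
    rw [div_le_div_iff₀ h3 (by positivity), qd_eq]
    have : (0 : ℝ) < (p.n : ℝ) ^ 3 := by positivity
    nlinarith [mul_le_mul_of_nonneg_right h4 this.le]
  have h6 : 0 ≤ ((x : ℝ) - p.lo' e) ^ 2 / p.qd e := by positivity
  rw [quad_eq h]
  split_ifs
  · constructor <;> linarith
  · constructor <;> linarith

theorem quad_pos (h : p.OK) (e : Fin p.I.M) {x : ℤ} (hx : |x - p.lo' e| ≤ 3 * p.len e) :
    0 < (p.qn e x : ℝ) / p.qd e := by
  have h1 := n_ge h
  have h2 := (quad_bounds h e (c := 3) hx).1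
  have h3 : ((3 : ℕ) : ℝ) ^ 2 / (p.n : ℝ) ^ 3 < 1 := by
    rw [div_lt_one (by positivity)]
    have : (64 : ℝ) ^ 3 ≤ (p.n : ℝ) ^ 3 := by gcongr
    norm_num at this ⊢
    linarith
  linarith

theorem fR_pos (h : p.OK) (j : ℕ) (e : Fin p.I.M) {x : ℤ} (hx : |x - p.lo' e| ≤ 3 * p.len e) :
    0 < p.fR j e x := by
  rw [fR_eq]; exact mul_pos (quad_pos h e hx) (G_pos _ _ _)

theorem near {e : ℕ} {x : ℤ} (h1 : p.lo' e ≤ x) (h2 : x ≤ p.hi' e) :
    |x - p.lo' e| ≤ 3 * p.len e := by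
  unfold len
  rw [abs_le]; omega

theorem G_le_one (h : p.OK) (j : ℕ) (e : Fin p.I.M) (x : ℤ) : G p j e x ≤ 1 := by
  have hd : (0 : ℝ) < p.den e := by exact_mod_cast h.den_pos e
  have key : ∀ y : ℤ, (p.star e = true → 0 ≤ y) → 1 ≤ p.cc e + Real.exp (y / p.den e) := by
    intro y hy
    unfold cc
    split_ifs with hs
    · have : (0 : ℝ) ≤ y := by exact_mod_cast hy hs
      simpa using div_nonneg this hd.le
    · simpa using (Real.exp_pos _).le
  unfold G
  split_ifs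
  · have a1 := key (p.y1 j e x) fun hs => by
      unfold y1; rw [if_pos hs]; split_ifs <;> positivity
    have a2 := key (p.y2 j e x) fun hs => by
      unfold y2; rw [if_pos hs]
      refine mul_nonneg (by positivity) ?_
      split_ifs <;> omega
    rw [div_le_one (by positivity)]
    nlinarith
  · exact le_rfl

theorem fR_le_one (h : p.OK) (j : ℕ) (e : Fin p.I.M) {x : ℤ} (h1 : p.lo' e ≤ x)
    (h2 : x ≤ p.hi' e) : p.fR j e x ≤ 1 := by
  rw [fR_eq]
  exact mul_le_one₀ (quad_bounds h e (c := 3) (near h1 h2)).2 (G_pos _ _ _).le (G_le_one h _ _ _)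

theorem G_lc (h : p.OK) (j : ℕ) (e : Fin p.I.M) (x : ℤ) :
    G p j e (x - 1) * G p j e (x + 1) ≤ G p j e x ^ 2 := by
  have hd : (0 : ℝ) < p.den e := by exact_mod_cast h.den_pos e
  have hc := cc_nonneg (p := p) e
  have key : ∀ a b m : ℤ, 2 * m ≤ a + b → (p.cc e + Real.exp (m / p.den e)) ^ 2 ≤
      (p.cc e + Real.exp (a / p.den e)) * (p.cc e + Real.exp (b / p.den e)) := by
    intro a b m hm
    refine logi_lc hc ?_
    have : (2 * m : ℝ) ≤ a + b := by exact_mod_cast hm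
    rw [← add_div, ← mul_div_assoc]
    gcongr
  have hj : (0 : ℤ) ≤ j := by positivity
  have a1 := key (p.y1 j e (x - 1)) (p.y1 j e (x + 1)) (p.y1 j e x) (by
    unfold y1
    by_cases hs : p.star e = true
    · simp only [if_pos hs]
      rw [← mul_add, mul_left_comm]
      refine mul_le_mul_of_nonneg_left ?_ hj
      split_ifs <;> omega
    · simp only [if_neg hs]; linarith)
  have a2 := key (p.y2 j e (x - 1)) (p.y2 j e (x + 1)) (p.y2 j e x) (by
    unfold y2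
    by_cases hs : p.star e = true
    · simp only [if_pos hs]
      rw [← mul_add, mul_left_comm]
      refine mul_le_mul_of_nonneg_left ?_ hj
      split_ifs <;> omega
    · simp only [if_neg hs]; linarith)
  unfold G
  split_ifs
  · rw [div_mul_div_comm, div_pow, one_mul, one_pow]
    refine one_div_le_one_div_of_le (by positivity) ?_
    rw [mul_pow]
    calc _ ≤ _ := mul_le_mul a1 a2 (by positivity) (by positivity)
      _ = _ := by ring
  · simp

theorem quad_lc (h : p.OK) (e : Fin p.I.M) {x : ℤ} (h1 : p.lo' e < x) (h2 : x < p.hi' e) {κ : ℝ}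
    (hκ0 : 0 ≤ κ) (hκ : κ ≤ if p.tree e = true then 0 else 1 / (p.qd e : ℝ)) :
    (p.qn e (x - 1) : ℝ) / p.qd e * ((p.qn e (x + 1) : ℝ) / p.qd e) ≤
      ((1 - κ) * ((p.qn e x : ℝ) / p.qd e)) ^ 2 := by
  have a1 := quad_pos h e (near (x := x - 1) (by omega) (by omega))
  have a2 := quad_pos h e (near (x := x + 1) (by omega) (by omega))
  have a3 := (quad_bounds h e (c := 3) (near h1.le h2.le)).2
  have a4 : (p.qn e (x - 1) : ℝ) / p.qd e + (p.qn e (x + 1) : ℝ) / p.qd e ≤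
      2 * ((p.qn e x : ℝ) / p.qd e - κ) := by
    rw [quad_eq h, quad_eq h, quad_eq h]
    split_ifs at hκ ⊢
    · linarith
    · have : 1 - (((x - 1 : ℤ) : ℝ) - p.lo' e) ^ 2 / p.qd e +
          (1 - (((x + 1 : ℤ) : ℝ) - p.lo' e) ^ 2 / p.qd e) =
          2 * (1 - ((x : ℝ) - p.lo' e) ^ 2 / p.qd e - 1 / p.qd e) := by
        push_cast; ring
      linarith
  set A := (p.qn e (x - 1) : ℝ) / p.qd e
  set B := (p.qn e (x + 1) : ℝ) / p.qd e
  set C := (p.qn e x : ℝ) / p.qd e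
  have a5 : (A + B) / 2 ≤ (1 - κ) * C := by nlinarith
  calc A * B ≤ ((A + B) / 2) ^ 2 := by nlinarith [sq_nonneg (A - B)]
    _ ≤ _ := by gcongr

theorem fR_lc (h : p.OK) (j : ℕ) (e : Fin p.I.M) {x : ℤ} (h1 : p.lo' e < x) (h2 : x < p.hi' e)
    {κ : ℝ} (hκ0 : 0 ≤ κ) (hκ : κ ≤ if p.tree e = true then 0 else 1 / (p.qd e : ℝ)) :
    p.fR j e (x - 1) * p.fR j e (x + 1) ≤ (1 - κ) ^ 2 * p.fR j e x ^ 2 := by
  have a1 := quad_lc h e h1 h2 hκ0 hκ
  have a2 := G_lc h j e x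
  have a3 := mul_le_mul a1 a2 (mul_pos (G_pos _ _ _) (G_pos _ _ _)).le (sq_nonneg _)
  rw [fR_eq, fR_eq, fR_eq]
  calc _ = _ := by ring
    _ ≤ _ := a3
    _ = _ := by ring

theorem lc (h : p.OK) (s : ℕ) :
    LC p.mdl.lo p.mdl.hi (p.f s) (fun e => p.thickF e = false) (1 / (p.n : ℝ) ^ 60) := by
  have hn := n_ge h
  refine ⟨fun e x h1 h2 => fR_pos h _ e (near h1 h2), fun e x h1 h2 => ?_,
    fun e he x h1 h2 => ?_⟩
  · have := fR_lc h (p.jj s e) e h1 h2 (κ := 0) le_rfl (by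
      have := qd_pos h e
      split_ifs <;> positivity)
    simpa [f] using this
  · have he' : p.thick e = false := he
    have ht : ¬ p.tree e = true := fun ht => by simp [(h.tree_thick ht).1] at he'
    refine fR_lc h (p.jj s e) e h1 h2 (by positivity) ?_
    rw [if_neg ht]
    refine one_div_le_one_div_of_le (qd_pos h e) ?_
    have a1 : (p.len e : ℝ) ≤ 3 * (p.n : ℝ) ^ 28 := by
      have := h.len_thin he'
      unfold nZ at this
      exact_mod_cast this
    have a2 : (0 : ℝ) < p.len e := by exact_mod_cast h.len_pos e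
    rw [qd_eq]
    calc (p.n : ℝ) ^ 3 * (p.len e : ℝ) ^ 2 ≤ (p.n : ℝ) ^ 3 * (3 * (p.n : ℝ) ^ 28) ^ 2 := by gcongr
      _ = 9 * (p.n : ℝ) ^ 59 := by ring
      _ ≤ p.n * (p.n : ℝ) ^ 59 := by gcongr; linarith
      _ = _ := by ring

/-! ### The tilt -/

/-- increments of the exponents -/
noncomputable def d1 (p : Pre) (e : ℕ) (x : ℤ) : ℝ :=
  if p.star e = true then ((if 0 ≤ x then x else 0 : ℤ) : ℝ) / (p.n : ℝ) ^ 28 else 1

noncomputable def d2 (p : Pre) (e : ℕ) (x : ℤ) : ℝ :=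
  if p.star e = true then ((if 0 ≤ x then 0 else -x : ℤ) : ℝ) / (p.n : ℝ) ^ 28 else 1

theorem tilt_eq (h : p.OK) (j : ℕ) (e : Fin p.I.M) {x : ℤ} (h1 : p.lo' e ≤ x) (h2 : x ≤ p.hi' e) :
    p.fR j e x / p.fR (j + 1) e x = if p.ann e = true then
      T (p.cc e) (p.y1 j e x / p.den e) (d1 p e x) * T (p.cc e) (p.y2 j e x / p.den e) (d2 p e x)
      else 1 := by
  have hq := (quad_pos h e (near h1 h2)).ne'
  have hs : (0 : ℝ) < p.sig e := by exact_mod_cast h.sig_pos e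
  have hc := cc_nonneg (p := p) e
  have e1 : (p.y1 (j + 1) e x : ℝ) / p.den e = p.y1 j e x / p.den e + d1 p e x := by
    unfold y1 d1 den nZ
    by_cases hst : p.star e = true
    · simp only [if_pos hst]; push_cast; ring
    · simp only [if_neg hst]; push_cast; field_simp; ring
  have e2 : (p.y2 (j + 1) e x : ℝ) / p.den e = p.y2 j e x / p.den e + d2 p e x := by
    unfold y2 d2 den nZ
    by_cases hst : p.star e = true
    · simp only [if_pos hst]; push_cast; ring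
    · simp only [if_neg hst]; push_cast; field_simp; ring
  rw [fR_eq, fR_eq, mul_div_mul_left _ _ hq]
  unfold G T
  split_ifs
  · rw [e1, e2]
    field_simp
  · simp

theorem d_bounds (h : p.OK) (e : Fin p.I.M) {x : ℤ} (h1 : p.lo' e ≤ x) (h2 : x ≤ p.hi' e) :
    (0 ≤ d1 p e x ∧ d1 p e x ≤ 1) ∧ (0 ≤ d2 p e x ∧ d2 p e x ≤ 1) := by
  have hn := n_ge h
  have key : ∀ y : ℤ, 0 ≤ y → y ≤ p.nZ ^ 28 →
      0 ≤ (y : ℝ) / (p.n : ℝ) ^ 28 ∧ (y : ℝ) / (p.n : ℝ) ^ 28 ≤ 1 := by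
    intro y hy hy'
    have a1 : (0 : ℝ) ≤ y := by exact_mod_cast hy
    have a2 : (y : ℝ) ≤ (p.n : ℝ) ^ 28 := by unfold nZ at hy'; exact_mod_cast hy'
    exact ⟨by positivity, (div_le_one (by positivity)).2 a2⟩
  unfold d1 d2
  by_cases hst : p.star e = true
  · simp only [lo', hi', if_pos hst] at h1 h2 ⊢
    exact ⟨key _ (by split_ifs <;> omega) (by split_ifs <;> omega),
      key _ (by split_ifs <;> omega) (by split_ifs <;> omega)⟩
  · simp [hst]

theorem tilt_bounds (h : p.OK) (j : ℕ) (e : Fin p.I.M) {x : ℤ} (h1 : p.lo' e ≤ x)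
    (h2 : x ≤ p.hi' e) : 1 ≤ p.fR j e x / p.fR (j + 1) e x ∧ p.fR j e x / p.fR (j + 1) e x ≤ 9 := by
  rw [tilt_eq h j e h1 h2]
  obtain ⟨a1, a2⟩ := d_bounds h e h1 h2
  have b1 := T_bounds (a := p.y1 j e x / p.den e) (cc_nonneg (p := p) e) a1.1 a1.2
  have b2 := T_bounds (a := p.y2 j e x / p.den e) (cc_nonneg (p := p) e) a2.1 a2.2
  split_ifs
  · constructor <;> nlinarith [b1.1, b1.2, b2.1, b2.2]
  · norm_num

theorem tilt_lip (h : p.OK) (j : ℕ) (e : Fin p.I.M) {x : ℤ} (h1 : p.lo' e ≤ x)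
    (h2 : x < p.hi' e) :
    ((p.hi' e - p.lo' e + 1 : ℤ) : ℝ) *
      |p.fR j e (x + 1) / p.fR (j + 1) e (x + 1) - p.fR j e x / p.fR (j + 1) e x| ≤
      (p.n : ℝ) ^ 34 := by
  have hn := n_ge h
  have hn1 : (1 : ℝ) ≤ p.n := by linarith
  rw [tilt_eq h j e h1 h2.le, tilt_eq h j e (x := x + 1) (by omega) (by omega)]
  obtain ⟨a1, a2⟩ := d_bounds h e h1 h2.le
  obtain ⟨a3, a4⟩ := d_bounds h e (x := x + 1) (by omega) (by omega)
  have b1 := T_bounds (a := p.y1 j e x / p.den e) (cc_nonneg (p := p) e) a1.1 a1.2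
  have b2 := T_bounds (a := p.y2 j e (x + 1) / p.den e) (cc_nonneg (p := p) e) a4.1 a4.2
  by_cases ha : p.ann e = true
  swap
  · simp only [if_neg ha, sub_self, abs_zero, mul_zero]; positivity
  simp only [if_pos ha]
  change (p.len e : ℝ) * _ ≤ _
  have hl : (0 : ℝ) < p.len e := by exact_mod_cast h.len_pos e
  by_cases hst : p.star e = true
  · have hc : (p.cc e : ℝ) = 0 := by simp [cc, hst]
    have hN : (1 : ℝ) ≤ (p.n : ℝ) ^ 28 := one_le_pow₀ hn1
    have key : ∀ y y' : ℤ, |y' - y| ≤ 1 → (y : ℝ) / (p.n : ℝ) ^ 28 ≤ 1 →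
        |Real.exp (y' / (p.n : ℝ) ^ 28) - Real.exp (y / (p.n : ℝ) ^ 28)| ≤
          6 * (1 / (p.n : ℝ) ^ 28) := by
      intro y y' hy hy1
      have c1 : |(y' : ℝ) / (p.n : ℝ) ^ 28 - y / (p.n : ℝ) ^ 28| ≤ 1 / (p.n : ℝ) ^ 28 := by
        have : |(y' : ℝ) - y| ≤ 1 := by exact_mod_cast hy
        rw [← sub_div, abs_div, abs_of_pos (by positivity : (0 : ℝ) < (p.n : ℝ) ^ 28)]
        gcongr
      refine (exp_lip hy1 (c1.trans ((div_le_one (by positivity)).2 hN))).trans (by gcongr)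
    have c2 := prod_lip (L := 6 * (1 / (p.n : ℝ) ^ 28))
      (A' := T (p.cc e) (p.y1 j e (x + 1) / p.den e) (d1 p e (x + 1)))
      (B := T (p.cc e) (p.y2 j e x / p.den e) (d2 p e x)) b1 b2 (by
        rw [hc, T_zero, T_zero]
        simp only [d1, if_pos hst] at a1 ⊢
        exact key _ _ (by rw [abs_le]; split_ifs <;> omega) a1.2) (by
        rw [hc, T_zero, T_zero]
        simp only [d2, if_pos hst] at a2 ⊢
        exact key _ _ (by rw [abs_le]; split_ifs <;> omega) a2.2)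
    have c3 : (p.len e : ℝ) ≤ 3 * (p.n : ℝ) ^ 28 := by
      have := h.len_thin (h.star_rho hst).2.2.1
      unfold nZ at this
      exact_mod_cast this
    calc _ ≤ 3 * (p.n : ℝ) ^ 28 * (6 * (6 * (1 / (p.n : ℝ) ^ 28))) :=
          mul_le_mul c3 c2 (abs_nonneg _) (by positivity)
      _ = 108 := by field_simp; norm_num
      _ ≤ (p.n : ℝ) ^ 2 := by nlinarith
      _ ≤ _ := pow_le_pow_right₀ hn1 (by norm_num)
  · have ht : p.tree e = true := by simpa [ann, hst] using ha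
    have hc : (p.cc e : ℝ) = 1 := by simp [cc, hst]
    have hs : (1 : ℝ) ≤ p.sig e := by exact_mod_cast h.sig_pos e
    have hs1 : 1 / (p.sig e : ℝ) ≤ 1 := (div_le_one (by positivity)).2 hs
    have c2 := prod_lip (L := 1 / (p.sig e : ℝ))
      (A' := T (p.cc e) (p.y1 j e (x + 1) / p.den e) (d1 p e (x + 1)))
      (B := T (p.cc e) (p.y2 j e x / p.den e) (d2 p e x)) b1 b2 (by
        have : (p.y1 j e (x + 1) : ℝ) / p.den e = p.y1 j e x / p.den e + 1 / p.sig e := by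
          simp only [y1, den, if_neg hst]; push_cast; ring
        rw [hc, this]
        simp only [d1, if_neg hst]
        exact T_one_lip (by positivity) hs1) (by
        have : (p.y2 j e x : ℝ) / p.den e = p.y2 j e (x + 1) / p.den e + 1 / p.sig e := by
          simp only [y2, den, if_neg hst]; push_cast; ring
        rw [hc, this, abs_sub_comm]
        simp only [d2, if_neg hst]
        exact T_one_lip (by positivity) hs1)
    have c3 : (p.len e : ℝ) ≤ 3 * (p.n : ℝ) ^ 33 * p.sig e := by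
      have := h.len_tree ht
      unfold nZ at this
      exact_mod_cast this
    calc _ ≤ 3 * (p.n : ℝ) ^ 33 * p.sig e * (6 * (1 / (p.sig e : ℝ))) :=
          mul_le_mul c3 c2 (abs_nonneg _) (by positivity)
      _ = 18 * (p.n : ℝ) ^ 33 := by field_simp; norm_num
      _ ≤ p.n * (p.n : ℝ) ^ 33 := by gcongr; linarith
      _ = _ := by ring

theorem wt_succ (h : p.OK) {s : ℕ} (hs : s < p.S) {X : Fin p.I.M → ℤ}
    (hX : X ∈ box p.mdl.lo p.mdl.hi) :
    wt (p.f (s + 1)) X *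
      (p.fR (p.jj s (p.cell s)) (p.cell s) (X ⟨p.cell s, h.cell_lt hs⟩) /
        p.fR (p.jj s (p.cell s) + 1) (p.cell s) (X ⟨p.cell s, h.cell_lt hs⟩)) = wt (p.f s) X := by
  obtain ⟨-, j1, j2⟩ := h.jj_succ s
  have hb := mem_box.1 hX ⟨p.cell s, h.cell_lt hs⟩
  have hp := (fR_pos h (p.jj s (p.cell s) + 1) ⟨p.cell s, h.cell_lt hs⟩ (near hb.1 hb.2)).ne'
  unfold wt
  rw [← mul_prod_erase univ _ (mem_univ (⟨p.cell s, h.cell_lt hs⟩ : Fin p.I.M)),
    ← mul_prod_erase univ _ (mem_univ (⟨p.cell s, h.cell_lt hs⟩ : Fin p.I.M))]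
  have e : ∏ e ∈ univ.erase (⟨p.cell s, h.cell_lt hs⟩ : Fin p.I.M), p.f (s + 1) e (X e) =
      ∏ e ∈ univ.erase (⟨p.cell s, h.cell_lt hs⟩ : Fin p.I.M), p.f s e (X e) := by
    refine prod_congr rfl fun e he => ?_
    unfold f
    rw [j2 e fun h' => (mem_erase.1 he).1 (Fin.ext h')]
  rw [e]
  simp only [f, j1] at hp ⊢
  field_simp

end Crest.Agent.R309.Pre.WA
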