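import Crest.Agent.R309.WtAx
import Crest.Agent.R309.WtAa

/-!
# Row 309: one-cell properties of the weights

`quad x = qn / qd = 1 - γ (x - lo')²`, `γ = 1 / (n³ len²)` (or `1` on tree cells): `quad x = (quad (x-1) + quad (x+1)) / 2 + γ`,
so `sqrt (quad (x-1) quad (x+1)) ≤ quad x - γ ≤ (1 - γ) quad x`.  A logistic factor `ℓ x = 1 / (1 + C e^{x/σ})` is
log-concave: `(1 + C α)² ≤ (1 + C)(1 + C α²)`; `exp (-j |x| / R)` is log-concave.
The tilt `fR j / fR (j+1)` is `exp (|x| / n^28)` on star cells, a product of two factors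
`(1 + e c) / (1 + c) = e - (e - 1) / (1 + c) ∈ [1, e]` (each `1/σ`-Lipschitz in `x`) on tree cells, `1` otherwise.
Rational approximation: `|y / den| ≤ 4 n^33` on the box, `Complex.exp_bound'` with `k = n^35` terms gives an
error `≤ 2 (4 n^33)^k / k! ≤ 2 * 2 ^ -k`, and `cc + exp (y / den) ≥ 1`.
-/

set_option autoImplicit false

namespace Crest.Agent.R309.Pre

open Finset

variable {p : Pre}

/-- the quadratic factor, also slightly outside the box -/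
theorem OK.quad_bounds (h : p.OK) (e : Fin p.I.M) {x : ℤ} {c : ℕ} (hx : |x - p.lo' e| ≤ c * p.len e) :
    1 - (c : ℝ) ^ 2 / (p.n : ℝ) ^ 3 ≤ (p.qn e x : ℝ) / p.qd e ∧ (p.qn e x : ℝ) / p.qd e ≤ 1 := by
  exact WA.quad_bounds h e hx

theorem OK.fR_pos (h : p.OK) (j : ℕ) (e : Fin p.I.M) {x : ℤ} (hx : |x - p.lo' e| ≤ 3 * p.len e) :
    0 < p.fR j e x := by
  exact WA.fR_pos h j e hx

theorem OK.fR_le_one (h : p.OK) (j : ℕ) (e : Fin p.I.M) {x : ℤ} (h1 : p.lo' e ≤ x)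
    (h2 : x ≤ p.hi' e) : p.fR j e x ≤ 1 := by
  exact WA.fR_le_one h j e h1 h2

theorem OK.lc (h : p.OK) (s : ℕ) :
    LC p.mdl.lo p.mdl.hi (p.f s) (fun e => p.thickF e = false) (1 / (p.n : ℝ) ^ 60) := by
  exact WA.lc h s

theorem OK.tilt_bounds (h : p.OK) (j : ℕ) (e : Fin p.I.M) {x : ℤ} (h1 : p.lo' e ≤ x)
    (h2 : x ≤ p.hi' e) : 1 ≤ p.fR j e x / p.fR (j + 1) e x ∧ p.fR j e x / p.fR (j + 1) e x ≤ 9 := by
  exact WA.tilt_bounds h j e h1 h2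

theorem OK.tilt_lip (h : p.OK) (j : ℕ) (e : Fin p.I.M) {x : ℤ} (h1 : p.lo' e ≤ x)
    (h2 : x < p.hi' e) :
    ((p.hi' e - p.lo' e + 1 : ℤ) : ℝ) *
      |p.fR j e (x + 1) / p.fR (j + 1) e (x + 1) - p.fR j e x / p.fR (j + 1) e x| ≤ (p.n : ℝ) ^ 34 := by
  exact WA.tilt_lip h j e h1 h2

theorem tay_eq (k : ℕ) (a : ℤ) {b : ℤ} (hb : 0 < b) :
    0 < tayD k b ∧
      (tayN k a b : ℝ) / tayD k b = ∑ i ∈ range k, ((a : ℝ) / b) ^ i / (i.factorial : ℝ) :=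
  wx_tay_eq k a hb

theorem OK.approx (h : p.OK) {j : ℕ} (hj : j ≤ p.n ^ 33) (e : Fin p.I.M) {x : ℤ} (h1 : p.lo' e ≤ x)
    (h2 : x ≤ p.hi' e) :
    0 < p.fn j e x ∧ 0 < p.fd j e x ∧
      |(p.fn j e x : ℝ) / p.fd j e x - p.fR j e x| ≤ (1 / 2) ^ p.K * p.fR j e x :=
  ⟨(h.wx_approx hj e h1 h2).1, (h.wx_approx hj e h1 h2).2.1, (h.wx_approx hj e h1 h2).2.2.2⟩

theorem OK.approx_prod (h : p.OK) (s : ℕ) {X : Fin p.I.M → ℤ} (hX : X ∈ box p.mdl.lo p.mdl.hi) :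
    0 < p.prodN s (List.ofFn X) ∧ 0 < p.prodD s (List.ofFn X) ∧
      |(p.prodN s (List.ofFn X) : ℝ) / p.prodD s (List.ofFn X) - wt (p.f s) X| ≤
        2 * p.n * (1 / 2) ^ p.K * wt (p.f s) X :=
  h.wx_approx_prod s hX

/-- The weights of consecutive stages differ on one cell only. -/
theorem OK.wt_succ (h : p.OK) {s : ℕ} (hs : s < p.S) {X : Fin p.I.M → ℤ}
    (hX : X ∈ box p.mdl.lo p.mdl.hi) :
    wt (p.f (s + 1)) X *
      (p.fR (p.jj s (p.cell s)) (p.cell s) (X ⟨p.cell s, h.cell_lt hs⟩) /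
        p.fR (p.jj s (p.cell s) + 1) (p.cell s) (X ⟨p.cell s, h.cell_lt hs⟩)) = wt (p.f s) X := by
  exact WA.wt_succ h hs hX

end Crest.Agent.R309.Pre
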