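import Crest.Agent.R309.Comb

/-!
# Row 309: rational approximation of the weights (Taylor error)
-/

set_option autoImplicit false

namespace Crest.Agent.R309

open Finset

theorem wx_prod_tab {α : Type} [CommMonoid α] (k : ℕ) (g : ℕ → α) : (tab k g).prod = ∏ i ∈ range k, g i := by
  rw [tab_eq_ofFn, List.prod_ofFn, Finset.prod_range]

theorem wx_sum_tab {α : Type} [AddCommMonoid α] (k : ℕ) (g : ℕ → α) : (tab k g).sum = ∑ i ∈ range k, g i := by
  rw [tab_eq_ofFn, List.sum_ofFn, Finset.sum_range]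

theorem wx_factZ_mul (i k : ℕ) : (i.factorial : ℤ) * factZ i k = ((i + k).factorial : ℤ) := by
  rw [factZ, wx_prod_tab]
  induction k with
  | zero => simp
  | succ k ih =>
    rw [Finset.prod_range_succ, ← mul_assoc, ih, ← add_assoc, Nat.factorial_succ]
    push_cast
    ring

theorem wx_factZ_zero (k : ℕ) : factZ 0 k = (k.factorial : ℤ) := by
  simpa using wx_factZ_mul 0 k

theorem wx_tay_eq (k : ℕ) (a : ℤ) {b : ℤ} (hb : 0 < b) :
    0 < tayD k b ∧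
      (tayN k a b : ℝ) / tayD k b = ∑ i ∈ range k, ((a : ℝ) / b) ^ i / (i.factorial : ℝ) := by
  have hk : (0 : ℤ) < k.factorial := by exact_mod_cast k.factorial_pos
  refine ⟨by rw [tayD, wx_factZ_zero]; positivity, ?_⟩
  rw [tayN, wx_sum_tab, tayD, wx_factZ_zero]
  push_cast
  rw [Finset.sum_div]
  refine Finset.sum_congr rfl fun i hi => ?_
  have hik : i + (k - i) = k := by have := mem_range.1 hi; omega
  have h1 : ((i.factorial : ℤ) : ℝ) * (factZ i (k - i) : ℝ) = (k.factorial : ℝ) := by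
    have := wx_factZ_mul i (k - i)
    rw [hik] at this
    exact_mod_cast this
  have h2 : (b : ℝ) ^ k = (b : ℝ) ^ i * (b : ℝ) ^ (k - i) := by rw [← pow_add, hik]
  have hb' : (0 : ℝ) < b := by exact_mod_cast hb
  have hi' : (0 : ℝ) < i.factorial := by exact_mod_cast i.factorial_pos
  have hf : (factZ i (k - i) : ℝ) ≠ 0 := by
    intro h0
    rw [h0, mul_zero] at h1
    exact absurd h1.symm (by exact_mod_cast k.factorial_ne_zero)
  rw [← h1, h2, div_pow]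
  push_cast
  field_simp

/-- Taylor error of the exponential. -/
theorem wx_exp_err {y : ℝ} {k : ℕ} (h : 8 * |y| ≤ k) :
    |Real.exp y - ∑ i ∈ range k, y ^ i / (i.factorial : ℝ)| ≤ 2 * (1 / 2) ^ k := by
  have h0 : 0 ≤ |y| := abs_nonneg y
  have h1 := Complex.exp_bound' (x := (y : ℂ)) (n := k) (by
    rw [Complex.norm_real, Real.norm_eq_abs, div_le_iff₀ (by positivity)]
    push_cast
    linarith)
  have h2 : Complex.exp y - ∑ m ∈ range k, (y : ℂ) ^ m / (m.factorial : ℂ) =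
      ((Real.exp y - ∑ i ∈ range k, y ^ i / (i.factorial : ℝ) : ℝ) : ℂ) := by
    push_cast
    rfl
  rw [h2, Complex.norm_real, Complex.norm_real, Real.norm_eq_abs, Real.norm_eq_abs] at h1
  refine h1.trans ?_
  rw [mul_comm]
  gcongr
  have h3 := Real.pow_div_factorial_le_exp (8 * |y|) (by positivity) k
  have h4 : Real.exp (8 * |y|) ≤ 4 ^ k := by
    calc Real.exp (8 * |y|) ≤ Real.exp (k * 1) := Real.exp_le_exp.2 (by linarith)
      _ = Real.exp 1 ^ k := Real.exp_nat_mul _ _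
      _ ≤ 4 ^ k := by
        gcongr
        linarith [Real.exp_one_lt_d9]
  have h5 : |y| ^ k / (k.factorial : ℝ) = (8 * |y|) ^ k / (k.factorial : ℝ) / 8 ^ k := by
    rw [mul_pow]
    field_simp
  rw [h5]
  calc (8 * |y|) ^ k / (k.factorial : ℝ) / 8 ^ k ≤ 4 ^ k / 8 ^ k := by gcongr; exact h3.trans h4
    _ = (1 / 2) ^ k := by rw [← div_pow]; norm_num

theorem wx_inv_mul {A₁ A₂ B₁ B₂ η : ℝ} (h₁ : 1 ≤ A₁) (h₂ : 1 ≤ A₂) (e₁ : |A₁ - B₁| ≤ η)
    (e₂ : |A₂ - B₂| ≤ η) (hη : η ≤ 1 / 4) :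
    0 < B₁ ∧ 0 < B₂ ∧ |1 / (B₁ * B₂) - 1 / (A₁ * A₂)| ≤ 4 * η * (1 / (A₁ * A₂)) := by
  have hη0 : 0 ≤ η := (abs_nonneg _).trans e₁
  obtain ⟨l₁, u₁⟩ := abs_le.1 e₁
  obtain ⟨l₂, u₂⟩ := abs_le.1 e₂
  have b₁ : 3 / 4 ≤ B₁ := by linarith
  have b₂ : 3 / 4 ≤ B₂ := by linarith
  have p₁ : 0 < B₁ := by linarith
  have p₂ : 0 < B₂ := by linarith
  refine ⟨p₁, p₂, ?_⟩
  have hA : 0 < A₁ * A₂ := by positivity
  have hB : 0 < B₁ * B₂ := by positivity
  have e : 1 / (B₁ * B₂) - 1 / (A₁ * A₂) = (A₁ * A₂ - B₁ * B₂) / (B₁ * B₂) * (1 / (A₁ * A₂)) := by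
    field_simp
  rw [e, abs_mul, abs_of_pos (one_div_pos.2 hA)]
  gcongr
  rw [abs_div, abs_of_pos hB, div_le_iff₀ hB]
  have e' : A₁ * A₂ - B₁ * B₂ = (A₁ - B₁) * B₂ + (A₂ - B₂) * B₁ + (A₁ - B₁) * (A₂ - B₂) := by ring
  have t₁ : |(A₁ - B₁) * B₂| ≤ η * B₂ := by rw [abs_mul, abs_of_pos p₂]; gcongr
  have t₂ : |(A₂ - B₂) * B₁| ≤ η * B₁ := by rw [abs_mul, abs_of_pos p₁]; gcongr
  have t₃ : |(A₁ - B₁) * (A₂ - B₂)| ≤ η * (1 / 4) := by
    rw [abs_mul]
    exact mul_le_mul e₁ (e₂.trans hη) (abs_nonneg _) hη0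
  have t₄ : B₂ + B₁ + 1 / 4 ≤ 4 * (B₁ * B₂) := by nlinarith
  rw [e']
  calc _ ≤ |(A₁ - B₁) * B₂| + |(A₂ - B₂) * B₁| + |(A₁ - B₁) * (A₂ - B₂)| := abs_add_three _ _ _
    _ ≤ η * (B₂ + B₁ + 1 / 4) := by linarith
    _ ≤ η * (4 * (B₁ * B₂)) := by gcongr
    _ = _ := by ring

theorem wx_prod_err {ι : Type} (s : Finset ι) {a b : ι → ℝ} {ε : ℝ} (hε : 0 ≤ ε)
    (hb : ∀ i ∈ s, 0 ≤ b i) (h : ∀ i ∈ s, |a i - b i| ≤ ε * b i) (hs : 2 * s.card * ε ≤ 1) :
    |∏ i ∈ s, a i - ∏ i ∈ s, b i| ≤ 2 * s.card * ε * ∏ i ∈ s, b i := by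
  classical
  induction s using Finset.induction_on with
  | empty => simp
  | insert j s hj ih =>
    rw [card_insert_of_notMem hj] at hs ⊢
    push_cast at hs ⊢
    have hs' : 2 * s.card * ε ≤ 1 := by nlinarith
    have ih' := ih (fun i hi => hb i (mem_insert_of_mem hi)) (fun i hi => h i (mem_insert_of_mem hi)) hs'
    have hQ : 0 ≤ ∏ i ∈ s, b i := Finset.prod_nonneg fun i hi => hb i (mem_insert_of_mem hi)
    have hbj := hb j (mem_insert_self _ _)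
    have hj' := h j (mem_insert_self _ _)
    rw [prod_insert hj, prod_insert hj]
    set P := ∏ i ∈ s, a i
    set Q := ∏ i ∈ s, b i
    have hP : |P| ≤ 2 * Q := by
      have h1 : |P| ≤ |P - Q| + |Q| := by simpa using abs_add_le (P - Q) Q
      rw [abs_of_nonneg hQ] at h1
      nlinarith
    have e : a j * P - b j * Q = (a j - b j) * P + b j * (P - Q) := by ring
    rw [e]
    calc _ ≤ |(a j - b j) * P| + |b j * (P - Q)| := abs_add_le _ _
      _ = |a j - b j| * |P| + b j * |P - Q| := by rw [abs_mul, abs_mul, abs_of_nonneg hbj]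
      _ ≤ ε * b j * (2 * Q) + b j * (2 * s.card * ε * Q) := by gcongr
      _ = _ := by ring

namespace Pre

variable {p : Pre}

theorem OK.wx_nZ_ge (h : p.OK) : (64 : ℤ) ≤ p.nZ := by
  unfold nZ
  exact_mod_cast h.n_ge

theorem OK.wx_q_pos (h : p.OK) (e : Fin p.I.M) {x : ℤ} (h1 : p.lo' e ≤ x) (h2 : x ≤ p.hi' e) :
    0 < p.qn e x ∧ 0 < p.qd e := by
  have hn := h.wx_nZ_ge
  have hl := h.len_pos e
  have hd : 0 < p.qd e := by unfold qd; positivity
  refine ⟨?_, hd⟩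
  unfold qn
  split_ifs
  · exact hd
  · have h3 : (x - p.lo' e) ^ 2 < p.len e ^ 2 :=
      pow_lt_pow_left₀ (by unfold len; omega) (by omega) two_ne_zero
    have h4 : p.len e ^ 2 ≤ p.qd e :=
      le_mul_of_one_le_left (by positivity) (one_le_pow₀ (by omega))
    omega

theorem OK.wx_y_bound (h : p.OK) {j : ℕ} (hj : j ≤ p.n ^ 33) (e : Fin p.I.M) (ha : p.ann e = true) {x : ℤ}
    (h1 : p.lo' e ≤ x) (h2 : x ≤ p.hi' e) :
    |p.y1 j e x| ≤ 4 * p.nZ ^ 33 * p.den e ∧ |p.y2 j e x| ≤ 4 * p.nZ ^ 33 * p.den e := by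
  have hn := h.wx_nZ_ge
  have hj' : (j : ℤ) ≤ p.nZ ^ 33 := by unfold nZ; exact_mod_cast hj
  have hj0 : (0 : ℤ) ≤ j := Int.natCast_nonneg j
  by_cases hs : p.star e = true
  · simp only [lo', hi', hs, if_true] at h1 h2
    have key : ∀ z : ℤ, 0 ≤ z → z ≤ p.nZ ^ 28 → |(j : ℤ) * z| ≤ 4 * p.nZ ^ 33 * p.nZ ^ 28 := by
      intro z z0 z1
      rw [abs_of_nonneg (by positivity)]
      have h3 : (j : ℤ) * z ≤ p.nZ ^ 33 * p.nZ ^ 28 := by gcongr
      have h4 : 0 ≤ p.nZ ^ 33 * p.nZ ^ 28 := by positivity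
      linarith
    have h5 : 0 ≤ p.nZ ^ 28 := by positivity
    simp only [y1, y2, den, hs, if_true]
    constructor <;> refine key _ ?_ ?_ <;> split_ifs <;> omega
  · have ht : p.tree e = true := by simpa [ann, hs] using ha
    have hb := (h.sig_bounds (h.tree_thick ht).1).1
    have hr := h.rho_nonneg e
    have hσ := h.sig_pos e
    simp only [lo', hi', hs, ht, if_true, if_false, Bool.false_eq_true] at h1 h2
    simp only [y1, y2, den, hs, if_false, Bool.false_eq_true]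
    unfold rho at hb hr
    have p1 : p.nZ ^ 10 * p.sig e ≤ p.nZ ^ 33 * p.sig e := by gcongr <;> omega
    have p2 : p.nZ ^ 3 * p.sig e ≤ p.nZ ^ 33 * p.sig e := by gcongr <;> omega
    have p3 : (j : ℤ) * p.sig e ≤ p.nZ ^ 33 * p.sig e := by gcongr
    have p4 : 0 ≤ (j : ℤ) * p.sig e := by positivity
    have p5 : 0 ≤ p.nZ ^ 3 * p.sig e := by positivity
    constructor <;> rw [abs_le] <;> constructor <;> nlinarith

theorem OK.wx_approx (h : p.OK) {j : ℕ} (hj : j ≤ p.n ^ 33) (e : Fin p.I.M) {x : ℤ} (h1 : p.lo' e ≤ x)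
    (h2 : x ≤ p.hi' e) :
    0 < p.fn j e x ∧ 0 < p.fd j e x ∧ 0 < p.fR j e x ∧
      |(p.fn j e x : ℝ) / p.fd j e x - p.fR j e x| ≤ (1 / 2) ^ p.K * p.fR j e x := by
  obtain ⟨hqn, hqd⟩ := h.wx_q_pos e h1 h2
  have hqn' : (0 : ℝ) < p.qn e x := by exact_mod_cast hqn
  have hqd' : (0 : ℝ) < p.qd e := by exact_mod_cast hqd
  by_cases ha : p.ann e = true
  swap
  · simp only [fn, fd, fR, ha, if_false, Bool.false_eq_true, mul_one, sub_self, abs_zero]
    exact ⟨hqn, hqd, by positivity, by positivity⟩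
  have hden := h.den_pos e
  have hden' : (0 : ℝ) < p.den e := by exact_mod_cast hden
  have hn : (64 : ℝ) ≤ p.n := by exact_mod_cast h.n_ge
  obtain ⟨b1, b2⟩ := h.wx_y_bound hj e ha h1 h2
  have hsmall : ∀ y : ℤ, |y| ≤ 4 * p.nZ ^ 33 * p.den e → 8 * |(y : ℝ) / p.den e| ≤ ((p.n ^ 35 : ℕ) : ℝ) := by
    intro y hy
    have hy' : |(y : ℝ)| ≤ 4 * (p.n : ℝ) ^ 33 * p.den e := by
      unfold nZ at hy
      exact_mod_cast hy
    have h3 : |(y : ℝ) / p.den e| ≤ 4 * (p.n : ℝ) ^ 33 := by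
      rw [abs_div, abs_of_pos hden', div_le_iff₀ hden']
      exact hy'
    have h4 : (32 : ℝ) ≤ (p.n : ℝ) ^ 2 := by nlinarith
    have h5 : (0 : ℝ) ≤ (p.n : ℝ) ^ 33 := by positivity
    push_cast
    calc 8 * |(y : ℝ) / p.den e| ≤ 32 * (p.n : ℝ) ^ 33 := by linarith
      _ ≤ (p.n : ℝ) ^ 2 * (p.n : ℝ) ^ 33 := by gcongr
      _ = _ := by ring
  have hone : ∀ y : ℤ, (p.star e = true → 0 ≤ y) → 1 ≤ (p.cc e : ℝ) + Real.exp ((y : ℝ) / p.den e) := by
    intro y hy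
    by_cases hs : p.star e = true
    · have : (0 : ℝ) ≤ y := by exact_mod_cast hy hs
      simp only [cc, hs, if_true, Int.cast_zero, zero_add]
      exact Real.one_le_exp (by positivity)
    · simp only [cc, hs, if_false, Bool.false_eq_true, Int.cast_one]
      linarith [Real.exp_pos ((y : ℝ) / p.den e)]
  have a1 := hone (p.y1 j e x) fun hs => by
    simp only [y1, hs, if_true]
    split_ifs <;> positivity
  have a2 := hone (p.y2 j e x) fun hs => by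
    simp only [y2, hs, if_true]
    split_ifs
    · positivity
    · exact mul_nonneg (Int.natCast_nonneg j) (by omega)
  obtain ⟨hD, t1⟩ := wx_tay_eq (p.n ^ 35) (p.y1 j e x) hden
  obtain ⟨-, t2⟩ := wx_tay_eq (p.n ^ 35) (p.y2 j e x) hden
  have e1 := wx_exp_err (hsmall _ b1)
  have e2 := wx_exp_err (hsmall _ b2)
  rw [← t1, ← add_sub_add_left_eq_sub _ _ (p.cc e : ℝ)] at e1
  rw [← t2, ← add_sub_add_left_eq_sub _ _ (p.cc e : ℝ)] at e2
  have hk : p.K + 3 ≤ p.n ^ 35 := by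
    have h64 := h.n_ge
    have h3 : 3 ≤ p.n ^ 3 := le_trans (by omega) (Nat.le_self_pow (by norm_num) p.n)
    have h4 : 2 ≤ p.n ^ 32 := le_trans (by omega) (Nat.le_self_pow (by norm_num) p.n)
    have h5 : p.n ^ 35 = p.n ^ 3 * p.n ^ 32 := by ring
    unfold K
    nlinarith
  have hη : 2 * (1 / 2 : ℝ) ^ (p.n ^ 35) ≤ (1 / 2) ^ p.K / 4 := by
    have : (1 / 2 : ℝ) ^ (p.n ^ 35) ≤ (1 / 2) ^ (p.K + 3) :=
      pow_le_pow_of_le_one (by norm_num) (by norm_num) hk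
    rw [pow_add] at this
    linarith
  have hK1 : (1 / 2 : ℝ) ^ p.K ≤ 1 := pow_le_one₀ (by norm_num) (by norm_num)
  obtain ⟨c1, c2, c3⟩ := wx_inv_mul a1 a2 (e1.trans hη) (e2.trans hη) (by linarith)
  have hD' : (0 : ℝ) < tayD (p.n ^ 35) (p.den e) := by exact_mod_cast hD
  set D := tayD (p.n ^ 35) (p.den e)
  set N₁ := tayN (p.n ^ 35) (p.y1 j e x) (p.den e)
  set N₂ := tayN (p.n ^ 35) (p.y2 j e x) (p.den e)
  have g1 : ((p.cc e * D + N₁ : ℤ) : ℝ) = ((p.cc e : ℝ) + (N₁ : ℝ) / D) * D := by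
    push_cast
    field_simp
  have g2 : ((p.cc e * D + N₂ : ℤ) : ℝ) = ((p.cc e : ℝ) + (N₂ : ℝ) / D) * D := by
    push_cast
    field_simp
  have q1 : 0 < p.cc e * D + N₁ := by
    have : (0 : ℝ) < ((p.cc e * D + N₁ : ℤ) : ℝ) := by rw [g1]; positivity
    exact_mod_cast this
  have q2 : 0 < p.cc e * D + N₂ := by
    have : (0 : ℝ) < ((p.cc e * D + N₂ : ℤ) : ℝ) := by rw [g2]; positivity
    exact_mod_cast this
  simp only [fn, fd, fR, ha, if_true]
  refine ⟨by positivity, by positivity, by positivity, ?_⟩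
  have e3 : ((p.qn e x * D ^ 2 : ℤ) : ℝ) / ((p.qd e * ((p.cc e * D + N₁) * (p.cc e * D + N₂)) : ℤ) : ℝ) =
      (p.qn e x : ℝ) / p.qd e * (1 / (((p.cc e : ℝ) + (N₁ : ℝ) / D) * ((p.cc e : ℝ) + (N₂ : ℝ) / D))) := by
    rw [Int.cast_mul (p.qd e), Int.cast_mul (p.cc e * D + N₁), g1, g2]
    push_cast
    field_simp
  rw [e3, ← mul_sub, abs_mul, abs_of_pos (div_pos hqn' hqd'), mul_left_comm]
  gcongr
  refine c3.trans (le_of_eq ?_)
  ring

theorem OK.wx_approx_prod (h : p.OK) (s : ℕ) {X : Fin p.I.M → ℤ} (hX : X ∈ box p.mdl.lo p.mdl.hi) :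
    0 < p.prodN s (List.ofFn X) ∧ 0 < p.prodD s (List.ofFn X) ∧
      |(p.prodN s (List.ofFn X) : ℝ) / p.prodD s (List.ofFn X) - wt (p.f s) X| ≤
        2 * p.n * (1 / 2) ^ p.K * wt (p.f s) X := by
  have hA := fun e : Fin p.I.M => h.wx_approx (jj_le p s e) e (mem_box.1 hX e).1 (mem_box.1 hX e).2
  have hN : p.prodN s (List.ofFn X) = ∏ e : Fin p.I.M, p.fn (p.jj s e) e (X e) := by
    rw [prodN, tab_eq_ofFn, List.prod_ofFn]
    simp only [getD_ofFn]
  have hD : p.prodD s (List.ofFn X) = ∏ e : Fin p.I.M, p.fd (p.jj s e) e (X e) := by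
    rw [prodD, tab_eq_ofFn, List.prod_ofFn]
    simp only [getD_ofFn]
  rw [hN, hD]
  refine ⟨Finset.prod_pos fun e _ => (hA e).1, Finset.prod_pos fun e _ => (hA e).2.1, ?_⟩
  have hM : (p.I.M : ℝ) ≤ p.n := by
    have := h.M_le
    exact_mod_cast (by omega : p.I.M ≤ p.n)
  have hK : 2 * (p.n : ℝ) * (1 / 2) ^ p.K ≤ 1 := by
    have h64 := h.n_ge
    have h1 : p.n + 1 ≤ p.K := by
      have h3 : 2 ≤ p.n ^ 2 := le_trans (by omega) (Nat.le_self_pow (by norm_num) p.n)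
      have h5 : p.n ^ 3 = p.n * p.n ^ 2 := by ring
      unfold K
      nlinarith
    have h2 : 2 * p.n ≤ 2 ^ p.K := by
      have h3 : p.n < 2 ^ p.n := Nat.lt_two_pow_self
      have h4 : 2 ^ (p.n + 1) ≤ 2 ^ p.K := Nat.pow_le_pow_right (by norm_num) h1
      rw [pow_succ] at h4
      omega
    have h3 : 2 * (p.n : ℝ) ≤ 2 ^ p.K := by exact_mod_cast h2
    rw [one_div, inv_pow, ← div_eq_mul_inv, div_le_one (by positivity)]
    exact h3
  have hε : (0 : ℝ) ≤ (1 / 2) ^ p.K := by positivity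
  have hle : 2 * ((univ : Finset (Fin p.I.M)).card : ℝ) * (1 / 2) ^ p.K ≤ 2 * (p.n : ℝ) * (1 / 2) ^ p.K := by
    rw [card_univ, Fintype.card_fin]
    gcongr
  have key := wx_prod_err (univ : Finset (Fin p.I.M)) hε (fun e _ => (hA e).2.2.1.le)
    (fun e _ => (hA e).2.2.2) (hle.trans hK)
  push_cast
  rw [← Finset.prod_div_distrib]
  refine key.trans ?_
  exact mul_le_mul_of_nonneg_right hle (Finset.prod_nonneg fun e _ => (hA e).2.2.1.le)

end Pre

end Crest.Agent.R309
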